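import Vale.Agent.P371G.GT
import Vale.Agent.P371.Core

/-!
# P371, general gamma: definitions for the static inequality, the lifted Lieb-Thirring inequality
and the choice of `K`.

`r = gam - 1/2`, `q = 1/r`.
-/

namespace LTG

open Matrix MeasureTheory Set
open scoped ComplexOrder

/-- `Re tr f(A)` -/
noncomputable def trf {N : ℕ} (f : ℝ → ℝ) (A : Matrix (Fin N) (Fin N) ℂ) : ℝ :=
  (cfc f A).trace.re

/-- `a_r = (r/(1+r))^r/(1+r)` -/
noncomputable def aaR (r : ℝ) : ℝ := (r / (1 + r)) ^ r / (1 + r)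

/-- `c_r = ∫_{-1}^{1} (1-s^2)^r ds` -/
noncomputable def ccR (r : ℝ) : ℝ := ∫ s in (-1 : ℝ)..1, (1 - s ^ 2) ^ r

/-- `K_t = (K^2+t)^{1/2}` -/
noncomputable def Kt {N : ℕ} (K : Matrix (Fin N) (Fin N) ℂ) (t : ℝ) :
    Matrix (Fin N) (Fin N) ℂ := cfc (fun x : ℝ => Real.sqrt (x ^ 2 + t)) K

/-- `X = K^2 - P^2` -/
noncomputable def XX {N : ℕ} (K P : Matrix (Fin N) (Fin N) ℂ) : Matrix (Fin N) (Fin N) ℂ :=
  K * K - P * P

/-- `ell_t = log(K_t + P) + log(K_t - P) - log t` -/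
noncomputable def ell {N : ℕ} (K P : Matrix (Fin N) (Fin N) ℂ) (t : ℝ) :
    Matrix (Fin N) (Fin N) ℂ :=
  cfc Real.log (Kt K t + P) + cfc Real.log (Kt K t - P) - ((Real.log t : ℝ) : ℂ) • 1

/-- `eta x = x log x - x` -/
noncomputable def eta (x : ℝ) : ℝ := x * Real.log x - x

/-- `s_t(P) = tr eta(K_t+P) - tr eta(K_t-P) - log t tr P`, with gradient `ell_t` in `P` -/
noncomputable def sfun {N : ℕ} (K P : Matrix (Fin N) (Fin N) ℂ) (t : ℝ) : ℝ :=
  trf eta (Kt K t + P) - trf eta (Kt K t - P) - Real.log t * P.trace.re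

/-- `psi = tr X - t tr ell_t` -/
noncomputable def psi {N : ℕ} (K P : Matrix (Fin N) (Fin N) ℂ) (t : ℝ) : ℝ :=
  (XX K P).trace.re - t * (ell K P t).trace.re

/-- `u = tr X - tr (X+t) ell_t` -/
noncomputable def uu {N : ℕ} (K P : Matrix (Fin N) (Fin N) ℂ) (t : ℝ) : ℝ :=
  (XX K P).trace.re - ((XX K P + (t : ℂ) • (1 : Matrix (Fin N) (Fin N) ℂ)) * ell K P t).trace.re

/-- `phi_t(v) = (v+t) log(1+v/t) - v` -/
noncomputable def phi (t v : ℝ) : ℝ := (v + t) * Real.log (1 + v / t) - v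

/-- `-K ≤ P ≤ K` with `K > 0`, `P` Hermitian -/
structure Adm {N : ℕ} (K P : Matrix (Fin N) (Fin N) ℂ) : Prop where
  pos : K.PosDef
  herm : P.IsHermitian
  le : (K - P).PosSemidef
  ge : (K + P).PosSemidef

/-- A Riccati path `P' = K^2 - P^2 - W` on `[a,b]` from `K` to `-K`. -/
structure RicPath {N : ℕ} (a b : ℝ) (K : Matrix (Fin N) (Fin N) ℂ)
    (W P : ℝ → Matrix (Fin N) (Fin N) ℂ) : Prop where
  adm : ∀ x ∈ Icc a b, Adm K (P x)
  deriv : ∀ x ∈ Icc a b, ∀ i j,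
    HasDerivWithinAt (fun y => P y i j) ((K * K - P x * P x - W x) i j) (Icc a b) x
  left : P a = K
  right : P b = -K

end LTG
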