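import Vale.Agent.P371G.KtPos

/-!
# [CFCC] continuity of the functional calculus, and joint continuity of `Kt`, `ell`

`cfc_cont` : if `A z` is Hermitian and depends continuously on `z` (entrywise), and `f` is
continuous on an open set containing all eigenvalues, then `cfc f (A z)` depends continuously
on `z`.
-/

namespace LTG

open Matrix MeasureTheory Set
open scoped ComplexOrder

variable {N : ℕ}

section
open scoped Matrix.Norms.L2Operator

theorem cfc_cont_aux {Z : Type*} [TopologicalSpace Z] {s : Set Z} {t : Set ℝ} (hto : IsOpen t)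
    {f : ℝ → ℝ} (hf : ContinuousOn f t) {A : Z → Matrix (Fin N) (Fin N) ℂ}
    (hA : ContinuousOn A s) (hH : ∀ z ∈ s, IsSelfAdjoint (A z))
    (hs : ∀ z ∈ s, spectrum ℝ (A z) ⊆ t) :
    ContinuousOn (fun z => cfc f (A z)) s := by
  refine ContinuousOn.cfc_of_mem_nhdsSet (s := t) f ?_ hA hH hf
  rw [hto.mem_nhdsSet]
  exact iUnion₂_subset hs

end

theorem cfc_cont {Z : Type*} [TopologicalSpace Z] {s : Set Z} {t : Set ℝ} (hto : IsOpen t)
    {f : ℝ → ℝ} (hf : ContinuousOn f t) {A : Z → Matrix (Fin N) (Fin N) ℂ}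
    (hA : ContinuousOn A s) (hH : ∀ z ∈ s, (A z).IsHermitian)
    (hs : ∀ z ∈ s, spectrum ℝ (A z) ⊆ t) :
    ContinuousOn (fun z => cfc f (A z)) s :=
  cfc_cont_aux hto hf hA hH hs

/-- version for `f` continuous everywhere -/
theorem cfc_cont' {Z : Type*} [TopologicalSpace Z] {s : Set Z}
    {f : ℝ → ℝ} (hf : Continuous f) {A : Z → Matrix (Fin N) (Fin N) ℂ}
    (hA : ContinuousOn A s) (hH : ∀ z ∈ s, (A z).IsHermitian) :
    ContinuousOn (fun z => cfc f (A z)) s :=
  cfc_cont isOpen_univ hf.continuousOn hA hH fun _ _ => subset_univ _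

/-- `t ↦ K_t` is continuous -/
theorem Kt_cont {K : Matrix (Fin N) (Fin N) ℂ} (hK : K.IsHermitian) :
    Continuous fun t => Kt K t := by
  unfold Kt
  have h : (fun t : ℝ => cfc (fun x : ℝ => Real.sqrt (x ^ 2 + t)) K) = fun t =>
      (hK.eigenvectorUnitary : Matrix (Fin N) (Fin N) ℂ) *
        diagonal (fun i => ((Real.sqrt (hK.eigenvalues i ^ 2 + t) : ℝ) : ℂ)) *
        star (hK.eigenvectorUnitary : Matrix (Fin N) (Fin N) ℂ) := by
    funext t
    rw [cfc_form hK]
  rw [h]
  refine Continuous.matrix_mul (Continuous.matrix_mul continuous_const ?_) continuous_const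
  refine Continuous.matrix_diagonal ?_
  refine continuous_pi fun i => ?_
  exact Complex.continuous_ofReal.comp (Real.continuous_sqrt.comp (by fun_prop))

theorem posDef_spec {A : Matrix (Fin N) (Fin N) ℂ} (hA : A.PosDef) :
    spectrum ℝ A ⊆ Ioi 0 := by
  intro x hx
  rw [hA.isHermitian.spectrum_real_eq_range_eigenvalues] at hx
  obtain ⟨i, rfl⟩ := hx
  exact hA.eigenvalues_pos i

/-- joint continuity of `ell` in `(x, t)` along an admissible path -/
theorem ell_cont {K : Matrix (Fin N) (Fin N) ℂ} {P : ℝ → Matrix (Fin N) (Fin N) ℂ}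
    {a b : ℝ} (hP : ∀ x ∈ Icc a b, Adm K (P x)) (hc : ContinuousOn P (Icc a b)) :
    ContinuousOn (fun z : ℝ × ℝ => ell K (P z.1) z.2) (Icc a b ×ˢ Ioi 0) := by
  rcases (Icc a b).eq_empty_or_nonempty with he | ⟨x0, hx0⟩
  · rw [he, Set.empty_prod]
    exact continuousOn_empty _
  have hK : K.IsHermitian := (hP x0 hx0).pos.isHermitian
  have hKt : ContinuousOn (fun z : ℝ × ℝ => Kt K z.2) (Icc a b ×ˢ Ioi 0) :=
    ((Kt_cont hK).comp continuous_snd).continuousOn
  have hPc : ContinuousOn (fun z : ℝ × ℝ => P z.1) (Icc a b ×ˢ Ioi 0) :=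
    hc.comp continuousOn_fst fun z hz => hz.1
  have hlog : ContinuousOn Real.log (Ioi 0) := fun x hx =>
    (Real.continuousAt_log (ne_of_gt hx)).continuousWithinAt
  unfold ell
  refine ContinuousOn.sub (ContinuousOn.add ?_ ?_) ?_
  · exact cfc_cont isOpen_Ioi hlog (hKt.add hPc)
      (fun z hz => (Kt_add_posDef (hP z.1 hz.1) hz.2).isHermitian)
      (fun z hz => posDef_spec (Kt_add_posDef (hP z.1 hz.1) hz.2))
  · exact cfc_cont isOpen_Ioi hlog (hKt.sub hPc)
      (fun z hz => (Kt_sub_posDef (hP z.1 hz.1) hz.2).isHermitian)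
      (fun z hz => posDef_spec (Kt_sub_posDef (hP z.1 hz.1) hz.2))
  · have h1 : ContinuousOn (fun z : ℝ × ℝ => ((Real.log z.2 : ℝ) : ℂ)) (Icc a b ×ˢ Ioi 0) :=
      Complex.continuous_ofReal.comp_continuousOn
        (hlog.comp continuousOn_snd fun z hz => hz.2)
    exact h1.smul (continuousOn_const (c := (1 : Matrix (Fin N) (Fin N) ℂ)))

end LTG
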