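import Vale.Agent.P371G.Base
import Vale.Agent.P371.AL3

/-!
# [CST] the constant: `a_r / c_r = L^(1)_γ`, `r = γ - 1/2`

`c_r = ∫_{-1}^{1} (1-s²)^r ds = √π Γ(r+1)/Γ(r+3/2)` (Beta integral), and
`Lone γ = 2 (r/(r+1))^r Γ(γ+1)/(2√π Γ(γ+3/2))` with `γ = r + 1/2`, `Γ(r+2) = (r+1) Γ(r+1)`.
-/

namespace LTG

open Matrix MeasureTheory Set
open scoped ComplexOrder

/-- `c_r = √π Γ(r+1)/Γ(r+3/2)` -/
theorem ccR_eq {r : ℝ} (h0 : 0 < r) :
    ccR r = Real.sqrt Real.pi * Real.Gamma (r + 1) / Real.Gamma (r + 1 + 1 / 2) := by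
  have h1 := intervalIntegral.mul_integral_comp_mul_sub (a := (0 : ℝ)) (b := 1)
    (f := fun s : ℝ => (1 - s ^ 2) ^ r) (2 : ℝ) (1 : ℝ)
  have e1 : (2 : ℝ) * 0 - 1 = -1 := by norm_num
  have e2 : (2 : ℝ) * 1 - 1 = 1 := by norm_num
  rw [e1, e2] at h1
  have h2 : ∫ x in (0 : ℝ)..1, (1 - (2 * x - 1) ^ 2) ^ r =
      4 ^ r * ∫ x in (0 : ℝ)..1, x ^ (r + 1 - 1) * (1 - x) ^ (r + 1 - 1) := by
    rw [← intervalIntegral.integral_const_mul]
    apply intervalIntegral.integral_congr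
    intro x hx
    rw [uIcc_of_le (by norm_num : (0 : ℝ) ≤ 1)] at hx
    have hx0 : 0 ≤ x := hx.1
    have hx1 : 0 ≤ 1 - x := by linarith [hx.2]
    have e3 : (1 - (2 * x - 1) ^ 2) = 4 * (x * (1 - x)) := by ring
    have e4 : r + 1 - 1 = r := by ring
    change (1 - (2 * x - 1) ^ 2) ^ r = 4 ^ r * (x ^ (r + 1 - 1) * (1 - x) ^ (r + 1 - 1))
    rw [e3, e4, Real.mul_rpow (by norm_num) (mul_nonneg hx0 hx1), Real.mul_rpow hx0 hx1]
  have h3 := LT371.beta_real (a := 1) (α := r + 1) (β := r + 1) one_pos (by linarith)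
    (by linarith)
  rw [h3, Real.one_rpow, one_mul] at h2
  unfold ccR
  rw [← h1]
  have h2' : ∫ x in (0 : ℝ)..1, (fun s : ℝ => (1 - s ^ 2) ^ r) (2 * x - 1) =
      4 ^ r * ProbabilityTheory.beta (r + 1) (r + 1) := h2
  rw [h2', ProbabilityTheory.beta]
  have hdup := Real.Gamma_mul_Gamma_add_half (r + 1)
  have g0 : 0 < Real.Gamma (r + 1) := Real.Gamma_pos_of_pos (by linarith)
  have g1 : 0 < Real.Gamma (r + 1 + 1 / 2) := Real.Gamma_pos_of_pos (by linarith)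
  have g2 : 0 < Real.Gamma (2 * (r + 1)) := Real.Gamma_pos_of_pos (by linarith)
  have hpi : 0 < Real.sqrt Real.pi := Real.sqrt_pos.2 Real.pi_pos
  have h4 : (2 : ℝ) ^ (1 - 2 * (r + 1)) = 1 / (2 * 4 ^ r) := by
    have h5 : (4 : ℝ) ^ r = 2 ^ (2 * r) := by
      rw [Real.rpow_mul (by norm_num)]
      norm_num
    rw [h5, show (1 : ℝ) - 2 * (r + 1) = -(2 * r + 1) by ring, Real.rpow_neg (by norm_num),
      Real.rpow_add_one (by norm_num)]
    field_simp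
  rw [h4] at hdup
  rw [show r + 1 + (r + 1) = 2 * (r + 1) by ring]
  have h6 : (0 : ℝ) < 4 ^ r := Real.rpow_pos_of_pos (by norm_num) r
  generalize (4 : ℝ) ^ r = A at *
  generalize Real.Gamma (r + 1 + 1 / 2) = G1 at *
  generalize Real.Gamma (2 * (r + 1)) = G2 at *
  generalize Real.Gamma (r + 1) = G0 at *
  have h7 : G0 * G1 * (2 * A) = G2 * Real.sqrt Real.pi := by
    rw [hdup]
    field_simp
  rw [eq_div_iff g1.ne']
  have h8 : 2 * (A * (G0 * G0 / G2)) * G1 = G0 * (G0 * G1 * (2 * A)) / G2 := by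
    field_simp
  rw [h8, h7]
  field_simp

theorem ccR_pos {r : ℝ} (h0 : 0 < r) : 0 < ccR r := by
  rw [ccR_eq h0]
  have g0 : 0 < Real.Gamma (r + 1) := Real.Gamma_pos_of_pos (by linarith)
  have g1 : 0 < Real.Gamma (r + 1 + 1 / 2) := Real.Gamma_pos_of_pos (by linarith)
  have hpi : 0 < Real.sqrt Real.pi := Real.sqrt_pos.2 Real.pi_pos
  positivity

theorem aaR_pos {r : ℝ} (h0 : 0 < r) : 0 < aaR r := by
  unfold aaR
  have h1 : 0 < 1 + r := by linarith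
  have h2 : 0 < r / (1 + r) := div_pos h0 h1
  have h3 := Real.rpow_pos_of_pos h2 r
  positivity

theorem const_eq {gam : ℝ} (hg : 1 / 2 < gam) :
    aaR (gam - 1 / 2) / ccR (gam - 1 / 2) = LT371.Lone gam := by
  obtain ⟨r, hrdef⟩ : ∃ r, r = gam - 1 / 2 := ⟨_, rfl⟩
  have h0 : 0 < r := by rw [hrdef]; linarith
  have hgq : gam = r + 1 / 2 := by rw [hrdef]; ring
  subst hgq
  have e1 : r + 1 / 2 - 1 / 2 = r := by ring
  have e2 : r + 1 / 2 + 1 / 2 = 1 + r := by ring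
  have hp : 0 < r + 1 := by linarith
  have g0 : 0 < Real.Gamma (r + 1) := Real.Gamma_pos_of_pos hp
  have g1 : 0 < Real.Gamma (r + 1 + 1 / 2) := Real.Gamma_pos_of_pos (by linarith)
  have g3 : Real.Gamma (r + 1 / 2 + 3 / 2) = (r + 1) * Real.Gamma (r + 1) := by
    rw [show r + 1 / 2 + 3 / 2 = (r + 1) + 1 by ring, Real.Gamma_add_one hp.ne']
  have g4 : Real.Gamma (r + 1 / 2 + 1) = Real.Gamma (r + 1 + 1 / 2) := by
    congr 1
    ring
  have hpi : 0 < Real.sqrt Real.pi := Real.sqrt_pos.2 Real.pi_pos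
  rw [e1, ccR_eq h0, LT371.Lone, LT371.Lcl, e1, e2, g3, g4, aaR]
  field_simp
  try ring

end LTG
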