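import Vale.Agent.P371G.Base

/-!
# P371, general gamma, [FIN1] preliminaries: matrix lemmas for `core_step`
-/

namespace LTG

open Matrix MeasureTheory Set Filter Topology
open scoped ComplexOrder ENNReal

variable {m N : ℕ}

theorem cs_psd_of_cfc {A : Matrix (Fin N) (Fin N) ℂ} (hA : A.IsHermitian) {f : ℝ → ℝ}
    (hf : ∀ i, 0 ≤ f (hA.eigenvalues i)) : (cfc f A).PosSemidef := by
  have h1 : cfc f A = (cfc (fun x => Real.sqrt (f x)) A)ᴴ * cfc (fun x => Real.sqrt (f x)) A := by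
    rw [(cfc_isHermitian A _).eq, cfc_mul_cfc hA]
    exact cfc_congr_eig hA fun i => (Real.mul_self_sqrt (hf i)).symm
  rw [h1]
  exact Matrix.posSemidef_conjTranspose_mul_self _

theorem cs_sqrt {A : Matrix (Fin N) (Fin N) ℂ} (hA : A.PosSemidef) :
    ∃ B : Matrix (Fin N) (Fin N) ℂ, A = Bᴴ * B := by
  refine ⟨cfc Real.sqrt A, ?_⟩
  rw [(cfc_isHermitian A _).eq, cfc_mul_cfc hA.1]
  have h2 : cfc (fun x => Real.sqrt x * Real.sqrt x) A = cfc (fun x : ℝ => x) A :=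
    cfc_congr_eig hA.1 fun i => Real.mul_self_sqrt (hA.eigenvalues_nonneg i)
  rw [h2]
  exact (cfc_id' ℝ A hA.1).symm

theorem cs_posDef_lower {M : Matrix (Fin N) (Fin N) ℂ} (hM : M.PosDef) :
    ∃ c : ℝ, 0 < c ∧ ∀ v : Fin N → ℂ, c * ∑ i, ‖v i‖ ^ 2 ≤ (star v ⬝ᵥ (M *ᵥ v)).re := by
  have hH : M.IsHermitian := hM.1
  obtain ⟨c, hc0, hc⟩ : ∃ c : ℝ, 0 < c ∧ ∀ i, c ≤ hH.eigenvalues i := by
    rcases isEmpty_or_nonempty (Fin N) with hn | hn
    · exact ⟨1, one_pos, fun i => (IsEmpty.false i).elim⟩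
    · obtain ⟨i0, hi0⟩ := Finite.exists_min hH.eigenvalues
      exact ⟨hH.eigenvalues i0, hM.eigenvalues_pos i0, hi0⟩
  refine ⟨c, hc0, fun v => ?_⟩
  have h1 : (cfc (fun x => x - c) M).PosSemidef :=
    cs_psd_of_cfc hH fun i => sub_nonneg.mpr (hc i)
  have h2 : cfc (fun x => x - c) M = M - (c : ℂ) • (1 : Matrix (Fin N) (Fin N) ℂ) := by
    have hid : M = cfc (fun x : ℝ => x) M := (cfc_id' ℝ M hH).symm
    conv_rhs => rw [hid]
    have hone : (1 : Matrix (Fin N) (Fin N) ℂ) = cfc (fun _ : ℝ => (1 : ℝ)) M := by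
      rw [cfc_const_one ℝ M]
    rw [hone, cfc_form hH, cfc_form hH, cfc_form hH]
    rw [← Matrix.smul_mul, ← Matrix.mul_smul, ← Matrix.sub_mul, ← Matrix.mul_sub]
    congr 2
    ext i j
    by_cases hij : i = j
    · subst hij
      simp [Matrix.diagonal_apply_eq]
    · simp [Matrix.diagonal_apply_ne _ hij, Matrix.one_apply_ne hij]
  rw [h2] at h1
  have h3 := (Matrix.posSemidef_iff_dotProduct_mulVec.mp h1).2 v
  have h4 := (Complex.le_def.mp h3).1
  rw [Matrix.sub_mulVec, Matrix.smul_mulVec, Matrix.one_mulVec, dotProduct_sub, dotProduct_smul,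
    Complex.sub_re, smul_eq_mul, Complex.re_ofReal_mul] at h4
  have h5 : (star v ⬝ᵥ v).re = ∑ i, ‖v i‖ ^ 2 := by
    simp only [dotProduct, Complex.re_sum]
    refine Finset.sum_congr rfl fun i _ => ?_
    rw [Pi.star_apply, Complex.star_def, ← Complex.normSq_eq_conj_mul_self, Complex.ofReal_re,
      Complex.normSq_eq_norm_sq]
  rw [h5] at h4
  simp only [Complex.zero_re] at h4
  linarith

theorem cs_posDef_near {M : Matrix (Fin N) (Fin N) ℂ} (hM : M.PosDef) :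
    ∃ ε : ℝ, 0 < ε ∧ ∀ M' : Matrix (Fin N) (Fin N) ℂ, M'.IsHermitian →
      (∀ i j, ‖M' i j - M i j‖ ≤ ε) → M'.PosDef := by
  obtain ⟨c, hc0, hc⟩ := cs_posDef_lower hM
  refine ⟨c / (2 * (N + 1)), by positivity, fun M' hM' hcl => ?_⟩
  rw [Matrix.posDef_iff_dotProduct_mulVec]
  refine ⟨hM', fun v hv => ?_⟩
  have hvpos : 0 < ∑ i, ‖v i‖ ^ 2 := by
    obtain ⟨i, hi⟩ := Function.ne_iff.mp hv
    refine Finset.sum_pos' (fun j _ => by positivity) ⟨i, Finset.mem_univ i, ?_⟩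
    have : 0 < ‖v i‖ := norm_pos_iff.mpr hi
    positivity
  have him : (star v ⬝ᵥ (M' *ᵥ v)).im = 0 := hM'.im_star_dotProduct_mulVec_self v
  have hdiff : ‖star v ⬝ᵥ ((M' - M) *ᵥ v)‖ ≤ c / (2 * (N + 1)) * (N * ∑ i, ‖v i‖ ^ 2) := by
    calc ‖star v ⬝ᵥ ((M' - M) *ᵥ v)‖
        = ‖∑ i, ∑ j, star (v i) * ((M' i j - M i j) * v j)‖ := by
          congr 1
          simp only [dotProduct, Matrix.mulVec, Pi.star_apply, Finset.mul_sum, Matrix.sub_apply]
      _ ≤ ∑ i, ∑ j, c / (2 * (N + 1)) * (‖v i‖ * ‖v j‖) := by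
          refine (norm_sum_le _ _).trans (Finset.sum_le_sum fun i _ => ?_)
          refine (norm_sum_le _ _).trans (Finset.sum_le_sum fun j _ => ?_)
          rw [norm_mul, norm_mul, norm_star]
          calc ‖v i‖ * (‖M' i j - M i j‖ * ‖v j‖) = ‖M' i j - M i j‖ * (‖v i‖ * ‖v j‖) := by ring
            _ ≤ _ := mul_le_mul_of_nonneg_right (hcl i j) (by positivity)
      _ = c / (2 * (N + 1)) * (∑ i, ‖v i‖) ^ 2 := by
          simp only [← Finset.mul_sum, sq, Finset.sum_mul]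
      _ ≤ _ := by
          refine mul_le_mul_of_nonneg_left ?_ (by positivity)
          have := sq_sum_le_card_mul_sum_sq (s := (Finset.univ : Finset (Fin N)))
            (f := fun i => ‖v i‖)
          simpa using this
  have hsplit : (star v ⬝ᵥ (M' *ᵥ v)).re = (star v ⬝ᵥ (M *ᵥ v)).re +
      (star v ⬝ᵥ ((M' - M) *ᵥ v)).re := by
    rw [← Complex.add_re, ← dotProduct_add, ← Matrix.add_mulVec]
    congr 3
    abel
  have h1 := hc v
  have h2 := (abs_le.mp ((Complex.abs_re_le_norm _).trans hdiff)).1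
  have h3 : c / (2 * (N + 1)) * (N * ∑ i, ‖v i‖ ^ 2) ≤ c / 2 * ∑ i, ‖v i‖ ^ 2 := by
    have hN : (0 : ℝ) ≤ N := Nat.cast_nonneg N
    rw [← mul_assoc]
    refine mul_le_mul_of_nonneg_right ?_ hvpos.le
    rw [div_mul_eq_mul_div, div_le_div_iff₀ (by positivity) (by norm_num)]
    nlinarith
  rw [Complex.lt_def]
  constructor
  · rw [hsplit, Complex.zero_re]
    have : 0 < c / 2 * ∑ i, ‖v i‖ ^ 2 := by positivity
    linarith
  · rw [him, Complex.zero_im]

theorem cs_trf_mul {A : Matrix (Fin N) (Fin N) ℂ} (hA : A.IsHermitian) (f : ℝ → ℝ) :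
    ((cfc f A * A).trace).re = trf (fun y => f y * y) A := by
  unfold trf
  have hid : cfc (fun y : ℝ => y) A = A := cfc_id' ℝ A hA
  have h1 : cfc f A * A = cfc f A * cfc (fun y : ℝ => y) A := by rw [hid]
  rw [h1, cfc_mul_cfc hA]

theorem cs_trf_eq {A : Matrix (Fin N) (Fin N) ℂ} (hA : A.IsHermitian) (f : ℝ → ℝ) :
    trf f A = ∑ i, f (hA.eigenvalues i) := by
  unfold trf
  rw [trace_cfc hA, Complex.ofReal_re]

theorem cs_trf_congr {A : Matrix (Fin N) (Fin N) ℂ} (hA : A.PosSemidef) {f g : ℝ → ℝ}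
    (h : ∀ x, 0 ≤ x → f x = g x) : trf f A = trf g A := by
  rw [cs_trf_eq hA.1, cs_trf_eq hA.1]
  exact Finset.sum_congr rfl fun i _ => h _ (hA.eigenvalues_nonneg i)

theorem cs_trf_const_mul {A : Matrix (Fin N) (Fin N) ℂ} (hA : A.IsHermitian) (c : ℝ)
    (f : ℝ → ℝ) : trf (fun x => c * f x) A = c * trf f A := by
  rw [cs_trf_eq hA, cs_trf_eq hA, Finset.mul_sum]

theorem cs_cfc_comp {A : Matrix (Fin N) (Fin N) ℂ} (hA : A.IsHermitian) (f g : ℝ → ℝ) :
    cfc g (cfc f A) = cfc (fun x => g (f x)) A := by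
  have h := cfc_comp' (R := ℝ) (a := A) g f (hf := ?_) (hg := ?_) (ha := hA)
  · exact h.symm
  · exact (Set.Finite.image _ (Matrix.finite_real_spectrum)).continuousOn _
  · exact (Matrix.finite_real_spectrum).continuousOn _

theorem cs_trf_comp {A : Matrix (Fin N) (Fin N) ℂ} (hA : A.IsHermitian) (f g : ℝ → ℝ) :
    trf g (cfc f A) = trf (fun x => g (f x)) A := by
  unfold trf
  rw [cs_cfc_comp hA]

/-- `|⟨x, W y⟩| ≤ (⟨x, W x⟩ + ⟨y, W y⟩)/2` -/
theorem cs_inner_le {W : Matrix (Fin m) (Fin m) ℂ} (hW : W.PosSemidef)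
    (x y : EuclideanSpace ℂ (Fin m)) :
    ‖(inner ℂ x (Matrix.toEuclideanLin W y) : ℂ)‖ ≤
      (1 / 2) * ((inner ℂ x (Matrix.toEuclideanLin W x) : ℂ).re +
        (inner ℂ y (Matrix.toEuclideanLin W y) : ℂ).re) := by
  obtain ⟨B, hB⟩ := cs_sqrt hW
  have key : ∀ x y : EuclideanSpace ℂ (Fin m), (inner ℂ x (Matrix.toEuclideanLin W y) : ℂ) =
      inner ℂ (Matrix.toEuclideanLin B x) (Matrix.toEuclideanLin B y) := by
    intro x y
    rw [hB, Matrix.toLpLin_mul_same, LinearMap.comp_apply,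
      Matrix.toEuclideanLin_conjTranspose_eq_adjoint, LinearMap.adjoint_inner_right]
  rw [key, key, key]
  set p := Matrix.toEuclideanLin B x
  set q := Matrix.toEuclideanLin B y
  have h1 := norm_inner_le_norm (𝕜 := ℂ) p q
  have h2 : (inner ℂ p p : ℂ).re = ‖p‖ ^ 2 := by
    have := @inner_self_eq_norm_sq ℂ _ _ _ _ p
    simpa using this
  have h3 : (inner ℂ q q : ℂ).re = ‖q‖ ^ 2 := by
    have := @inner_self_eq_norm_sq ℂ _ _ _ _ q
    simpa using this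
  rw [h2, h3]
  nlinarith [sq_nonneg (‖p‖ - ‖q‖)]

end LTG
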