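import Vale.Agent.P371G.EXDefs

/-! small calculus toolkit for matrix valued functions of a real variable -/

namespace LTXc

open LTX

open Matrix Set MeasureTheory
open scoped ComplexOrder Topology

variable {N : ℕ}

theorem hd_entry {V : ℝ → Mat N} {V' : Mat N} {x : ℝ} (h : HasDerivAt V V' x) (i j : Fin N) :
    HasDerivAt (fun y => V y i j) (V' i j) x := by
  have h1 : HasDerivAt (fun y => (V y : Fin N → Fin N → ℂ)) (V' : Fin N → Fin N → ℂ) x := h
  exact (hasDerivAt_pi.1 (hasDerivAt_pi.1 h1 i)) j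

theorem hd_of_entry {V : ℝ → Mat N} {V' : Mat N} {x : ℝ}
    (h : ∀ i j, HasDerivAt (fun y => V y i j) (V' i j) x) : HasDerivAt V V' x := by
  have h1 : HasDerivAt (fun y => (V y : Fin N → Fin N → ℂ)) (V' : Fin N → Fin N → ℂ) x :=
    hasDerivAt_pi.2 fun i => hasDerivAt_pi.2 fun j => h i j
  exact h1

theorem hd_mul {A B : ℝ → Mat N} {A' B' : Mat N} {x : ℝ} (hA : HasDerivAt A A' x)
    (hB : HasDerivAt B B' x) : HasDerivAt (fun y => A y * B y) (A' * B x + A x * B') x := by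
  refine hd_of_entry fun i j => ?_
  simp only [Matrix.mul_apply, Matrix.add_apply]
  rw [← Finset.sum_add_distrib]
  exact HasDerivAt.fun_sum fun k _ => (hd_entry hA i k).mul (hd_entry hB k j)

theorem hd_conjTranspose {A : ℝ → Mat N} {A' : Mat N} {x : ℝ} (hA : HasDerivAt A A' x) :
    HasDerivAt (fun y => (A y)ᴴ) A'ᴴ x := by
  refine hd_of_entry fun i j => ?_
  simp only [Matrix.conjTranspose_apply]
  exact (hd_entry hA j i).star

theorem hd_sub {A B : ℝ → Mat N} {A' B' : Mat N} {x : ℝ} (hA : HasDerivAt A A' x)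
    (hB : HasDerivAt B B' x) : HasDerivAt (fun y => A y - B y) (A' - B') x := by
  refine hd_of_entry fun i j => ?_
  exact (hd_entry hA i j).sub (hd_entry hB i j)

theorem hd_add {A B : ℝ → Mat N} {A' B' : Mat N} {x : ℝ} (hA : HasDerivAt A A' x)
    (hB : HasDerivAt B B' x) : HasDerivAt (fun y => A y + B y) (A' + B') x := by
  refine hd_of_entry fun i j => ?_
  exact (hd_entry hA i j).add (hd_entry hB i j)

theorem hd_mulVec {A : ℝ → Mat N} {A' : Mat N} {v : ℝ → Fin N → ℂ} {v' : Fin N → ℂ} {x : ℝ}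
    (hA : HasDerivAt A A' x) (hv : HasDerivAt v v' x) :
    HasDerivAt (fun y => A y *ᵥ v y) (A' *ᵥ v x + A x *ᵥ v') x := by
  refine hasDerivAt_pi.2 fun i => ?_
  simp only [Matrix.mulVec, dotProduct, Pi.add_apply]
  rw [← Finset.sum_add_distrib]
  exact HasDerivAt.fun_sum fun k _ => (hd_entry hA i k).mul (hasDerivAt_pi.1 hv k)

theorem hd_mulVec_const {A : ℝ → Mat N} {A' : Mat N} {x : ℝ}
    (hA : HasDerivAt A A' x) (c : Fin N → ℂ) :
    HasDerivAt (fun y => A y *ᵥ c) (A' *ᵥ c) x := by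
  have := hd_mulVec hA (hasDerivAt_const x c)
  simpa using this

theorem hd_re {f : ℝ → ℂ} {f' : ℂ} {x : ℝ} (h : HasDerivAt f f' x) :
    HasDerivAt (fun y => (f y).re) f'.re x :=
  Complex.reCLM.hasFDerivAt.comp_hasDerivAt x h

theorem hd_dot {p q : ℝ → Fin N → ℂ} {p' q' : Fin N → ℂ} {x : ℝ}
    (hp : HasDerivAt p p' x) (hq : HasDerivAt q q' x) :
    HasDerivAt (fun y => (star (p y) ⬝ᵥ q y).re) (star p' ⬝ᵥ q x + star (p x) ⬝ᵥ q').re x := by
  refine hd_re ?_
  simp only [dotProduct, Pi.star_apply]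
  rw [← Finset.sum_add_distrib]
  exact HasDerivAt.fun_sum fun k _ => ((hasDerivAt_pi.1 hp k).star).mul (hasDerivAt_pi.1 hq k)

/-- `HasDerivAt` gives continuity for matrix valued functions -/
theorem hd_continuousAt {V : ℝ → Mat N} {V' : Mat N} {x : ℝ} (h : HasDerivAt V V' x) :
    ContinuousAt V x :=
  continuousAt_pi.2 fun i => continuousAt_pi.2 fun j => (hd_entry h i j).continuousAt

/-- monotone functions from a nonnegative derivative on `[a,b]` -/
theorem mono_real {f f' : ℝ → ℝ} {a b : ℝ} (hf : ∀ x ∈ Icc a b, HasDerivAt f (f' x) x)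
    (hf' : ∀ x ∈ Icc a b, 0 ≤ f' x) {x y : ℝ} (hx : x ∈ Icc a b) (hy : y ∈ Icc a b)
    (hxy : x ≤ y) : f x ≤ f y := by
  have : MonotoneOn f (Icc a b) := by
    refine monotoneOn_of_deriv_nonneg (convex_Icc a b)
      (fun y hy => (hf y hy).continuousAt.continuousWithinAt) ?_ ?_
    · intro y hy
      exact (hf y (interior_subset hy)).differentiableAt.differentiableWithinAt
    · intro y hy
      rw [(hf y (interior_subset hy)).deriv]
      exact hf' y (interior_subset hy)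
  exact this hx hy hxy

theorem nsq_eq (e : Fin N → ℂ) : nsq e = ∑ i, Complex.normSq (e i) := by
  unfold nsq dotProduct
  rw [Complex.re_sum]
  refine Finset.sum_congr rfl fun i _ => ?_
  simp [Complex.normSq_apply]

theorem nsq_nonneg (e : Fin N → ℂ) : 0 ≤ nsq e := by
  rw [nsq_eq]; exact Finset.sum_nonneg fun i _ => Complex.normSq_nonneg _

theorem nsq_eq_zero {e : Fin N → ℂ} : nsq e = 0 ↔ e = 0 := by
  rw [nsq_eq, Finset.sum_eq_zero_iff_of_nonneg (fun i _ => Complex.normSq_nonneg _)]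
  simp [funext_iff]

theorem nsq_pos {e : Fin N → ℂ} (he : e ≠ 0) : 0 < nsq e :=
  lt_of_le_of_ne (nsq_nonneg e) fun h => he (nsq_eq_zero.1 h.symm)

/-- symmetry of the real pairing -/
theorem dot_re_symm (p q : Fin N → ℂ) : (star p ⬝ᵥ q).re = (star q ⬝ᵥ p).re := by
  unfold dotProduct
  rw [Complex.re_sum, Complex.re_sum]
  refine Finset.sum_congr rfl fun i _ => ?_
  simp [Complex.mul_re]; ring

theorem herm_dot {A : Mat N} (hA : A.IsHermitian) (p q : Fin N → ℂ) :
    star p ⬝ᵥ (A *ᵥ q) = star (A *ᵥ p) ⬝ᵥ q := by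
  rw [Matrix.star_mulVec, hA.eq, Matrix.dotProduct_mulVec]

theorem qf_nonneg {A : Mat N} (hA : A.PosSemidef) (e : Fin N → ℂ) : 0 ≤ qf A e :=
  (Complex.le_def.1 (hA.dotProduct_mulVec_nonneg e)).1

theorem qf_pos {A : Mat N} (hA : A.PosDef) {e : Fin N → ℂ} (he : e ≠ 0) : 0 < qf A e :=
  (Complex.lt_def.1 (hA.dotProduct_mulVec_pos he)).1

theorem posSemidef_of_qf {A : Mat N} (hA : A.IsHermitian) (h : ∀ e, 0 ≤ qf A e) : A.PosSemidef := by
  refine Matrix.PosSemidef.of_dotProduct_mulVec_nonneg hA fun e => ?_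
  rw [Complex.le_def]
  refine ⟨h e, ?_⟩
  have h1 : star (star e ⬝ᵥ A *ᵥ e) = star e ⬝ᵥ A *ᵥ e := by
    rw [← Matrix.star_dotProduct_star, star_star, Matrix.star_mulVec, hA.eq,
      Matrix.dotProduct_mulVec, dotProduct_comm]
  have h2 := Complex.conj_eq_iff_im.1 h1
  simpa using h2.symm

theorem posDef_of_qf {A : Mat N} (hA : A.IsHermitian) (h : ∀ e, e ≠ 0 → 0 < qf A e) : A.PosDef := by
  have h1 := posSemidef_of_qf hA fun e => by
    by_cases he : e = 0
    · subst he; simp [qf]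
    · exact (h e he).le
  refine Matrix.PosDef.of_dotProduct_mulVec_pos hA fun e he => ?_
  have h2 := h1.dotProduct_mulVec_nonneg e
  rw [Complex.lt_def]
  rw [Complex.le_def] at h2
  exact ⟨h e he, h2.2⟩

theorem qf_add (A B : Mat N) (e : Fin N → ℂ) : qf (A + B) e = qf A e + qf B e := by
  simp [qf, Matrix.add_mulVec, dotProduct_add]

theorem qf_sub (A B : Mat N) (e : Fin N → ℂ) : qf (A - B) e = qf A e - qf B e := by
  simp [qf, Matrix.sub_mulVec, dotProduct_sub]

theorem qf_neg (A : Mat N) (e : Fin N → ℂ) : qf (-A) e = - qf A e := by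
  simp [qf, Matrix.neg_mulVec, dotProduct_neg]

theorem qf_smul (r : ℝ) (A : Mat N) (e : Fin N → ℂ) : qf ((r : ℂ) • A) e = r * qf A e := by
  simp [qf, Matrix.smul_mulVec, dotProduct_smul]

theorem qf_one (e : Fin N → ℂ) : qf (1 : Mat N) e = nsq e := by
  simp [qf, nsq]

end LTXc
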