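import Mathlib

/-!
# P371 general gamma: Klein's inequality (Peierls form) for Hermitian matrices

`trace_cfc_mul_cfc` : `tr (p(A) q(B)) = ∑ i j, p(a_i) q(b_j) |⟨u_i, v_j⟩|^2`.
`klein` : if `∑ k, p k a * q k b ≥ 0` for all eigenvalues `a` of `A` and `b` of `B` then
`∑ k, Re tr (p k (A) * q k (B)) ≥ 0`.
`gibbs` : `Re tr (ρ H) ≤ tr (ρ log ρ) - tr ρ + tr (exp H)` for `ρ ≥ 0` and `H` Hermitian.
-/

namespace LTG

open Matrix Unitary
open scoped ComplexOrder

variable {n : Type*} [Fintype n] [DecidableEq n]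

/-- The overlaps `|⟨u_i, v_j⟩|^2` of two eigenbases. -/
noncomputable def ovl {A B : Matrix n n ℂ} (hA : A.IsHermitian) (hB : B.IsHermitian)
    (i j : n) : ℝ :=
  ‖(star (hA.eigenvectorUnitary : Matrix n n ℂ) * (hB.eigenvectorUnitary : Matrix n n ℂ)) i j‖ ^ 2

theorem ovl_nonneg {A B : Matrix n n ℂ} (hA : A.IsHermitian) (hB : B.IsHermitian)
    (i j : n) : 0 ≤ ovl hA hB i j := sq_nonneg _

theorem cfc_form {A : Matrix n n ℂ} (hA : A.IsHermitian) (p : ℝ → ℝ) :
    cfc p A = (hA.eigenvectorUnitary : Matrix n n ℂ) *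
      diagonal (fun i => ((p (hA.eigenvalues i) : ℝ) : ℂ)) *
      star (hA.eigenvectorUnitary : Matrix n n ℂ) := by
  rw [hA.cfc_eq p]
  rfl

theorem cfc_mul_cfc {A : Matrix n n ℂ} (hA : A.IsHermitian) (p q : ℝ → ℝ) :
    cfc p A * cfc q A = cfc (fun x => p x * q x) A := by
  have h : star (hA.eigenvectorUnitary : Matrix n n ℂ) * (hA.eigenvectorUnitary : Matrix n n ℂ)
      = 1 := Unitary.coe_star_mul_self _
  rw [cfc_form hA p, cfc_form hA q, cfc_form hA (fun x => p x * q x)]
  set U : Matrix n n ℂ := (hA.eigenvectorUnitary : Matrix n n ℂ) with hU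
  calc U * diagonal (fun i => ((p (hA.eigenvalues i) : ℝ) : ℂ)) * star U *
        (U * diagonal (fun i => ((q (hA.eigenvalues i) : ℝ) : ℂ)) * star U)
      = U * diagonal (fun i => ((p (hA.eigenvalues i) : ℝ) : ℂ)) * (star U * U) *
        diagonal (fun i => ((q (hA.eigenvalues i) : ℝ) : ℂ)) * star U := by
        simp only [Matrix.mul_assoc]
    _ = U * (diagonal (fun i => ((p (hA.eigenvalues i) : ℝ) : ℂ)) *
        diagonal (fun i => ((q (hA.eigenvalues i) : ℝ) : ℂ))) * star U := by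
        rw [h, Matrix.mul_one]
        simp only [Matrix.mul_assoc]
    _ = _ := by
        rw [Matrix.diagonal_mul_diagonal]
        simp only [Complex.ofReal_mul]

theorem cfc_congr_eig {A : Matrix n n ℂ} (hA : A.IsHermitian) {p q : ℝ → ℝ}
    (h : ∀ i, p (hA.eigenvalues i) = q (hA.eigenvalues i)) : cfc p A = cfc q A := by
  rw [cfc_form hA p, cfc_form hA q]
  simp only [h]

theorem cfc_isHermitian (A : Matrix n n ℂ) (p : ℝ → ℝ) : (cfc p A).IsHermitian :=
  cfc_predicate (p := IsSelfAdjoint) p A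

theorem trace_cfc_mul_cfc {A B : Matrix n n ℂ} (hA : A.IsHermitian) (hB : B.IsHermitian)
    (p q : ℝ → ℝ) :
    (cfc p A * cfc q B).trace =
      ((∑ i, ∑ j, p (hA.eigenvalues i) * q (hB.eigenvalues j) * ovl hA hB i j : ℝ) : ℂ) := by
  set U : Matrix n n ℂ := (hA.eigenvectorUnitary : Matrix n n ℂ) with hU
  set V : Matrix n n ℂ := (hB.eigenvectorUnitary : Matrix n n ℂ) with hV
  set W : Matrix n n ℂ := star U * V with hW
  have e1 : (cfc p A * cfc q B).trace =
      (diagonal (fun i => ((p (hA.eigenvalues i) : ℝ) : ℂ)) * W *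
        diagonal (fun i => ((q (hB.eigenvalues i) : ℝ) : ℂ)) * star W).trace := by
    rw [cfc_form hA p, cfc_form hB q]
    have h1 : star W = star V * U := by rw [hW, star_mul, star_star]
    rw [h1, ← hU, ← hV]
    rw [show U * diagonal (fun i => ((p (hA.eigenvalues i) : ℝ) : ℂ)) * star U *
        (V * diagonal (fun i => ((q (hB.eigenvalues i) : ℝ) : ℂ)) * star V) =
        U * (diagonal (fun i => ((p (hA.eigenvalues i) : ℝ) : ℂ)) * (star U * V) *
        diagonal (fun i => ((q (hB.eigenvalues i) : ℝ) : ℂ)) * star V) by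
      simp only [Matrix.mul_assoc]]
    rw [Matrix.trace_mul_comm]
    simp only [Matrix.mul_assoc, hW]
  rw [e1, Matrix.trace]
  push_cast
  refine Finset.sum_congr rfl fun i _ => ?_
  rw [Matrix.diag_apply, Matrix.mul_apply]
  refine Finset.sum_congr rfl fun j _ => ?_
  rw [Matrix.mul_diagonal, Matrix.diagonal_mul, Matrix.star_apply]
  have h2 : (ovl hA hB i j : ℂ) = W i j * star (W i j) := by
    rw [show ovl hA hB i j = ‖W i j‖ ^ 2 from rfl]
    rw [Complex.star_def, Complex.mul_conj, Complex.normSq_eq_norm_sq]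
  rw [h2]
  ring

theorem trace_cfc {A : Matrix n n ℂ} (hA : A.IsHermitian) (p : ℝ → ℝ) :
    (cfc p A).trace = ((∑ i, p (hA.eigenvalues i) : ℝ) : ℂ) := by
  rw [cfc_form hA p, Matrix.trace_mul_comm, ← Matrix.mul_assoc]
  have h : star (hA.eigenvectorUnitary : Matrix n n ℂ) * (hA.eigenvectorUnitary : Matrix n n ℂ)
      = 1 := Unitary.coe_star_mul_self _
  rw [h, Matrix.one_mul, Matrix.trace_diagonal]
  push_cast
  rfl

/-- Klein's inequality. -/
theorem klein {A B : Matrix n n ℂ} (hA : A.IsHermitian) (hB : B.IsHermitian)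
    {κ : Type*} (s : Finset κ) (p q : κ → ℝ → ℝ)
    (h : ∀ i j, 0 ≤ ∑ k ∈ s, p k (hA.eigenvalues i) * q k (hB.eigenvalues j)) :
    0 ≤ ∑ k ∈ s, ((cfc (p k) A * cfc (q k) B).trace).re := by
  have e : ∑ k ∈ s, ((cfc (p k) A * cfc (q k) B).trace).re =
      ∑ i, ∑ j, (∑ k ∈ s, p k (hA.eigenvalues i) * q k (hB.eigenvalues j)) * ovl hA hB i j := by
    simp only [trace_cfc_mul_cfc hA hB, Complex.ofReal_re]
    rw [Finset.sum_comm]
    refine Finset.sum_congr rfl fun i _ => ?_
    rw [Finset.sum_comm]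
    refine Finset.sum_congr rfl fun j _ => ?_
    rw [Finset.sum_mul]
  rw [e]
  exact Finset.sum_nonneg fun i _ => Finset.sum_nonneg fun j _ =>
    mul_nonneg (h i j) (ovl_nonneg _ _ _ _)

/-- scalar Young inequality `a b ≤ a log a - a + e^b`, `a ≥ 0` -/
theorem mul_le_entropy {a b : ℝ} (ha : 0 ≤ a) :
    a * b ≤ a * Real.log a - a + Real.exp b := by
  rcases eq_or_lt_of_le ha with h | h
  · rw [← h]
    have := (Real.exp_pos b).le
    simpa using this
  · have h1 : b - Real.log a + 1 ≤ Real.exp (b - Real.log a) := Real.add_one_le_exp _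
    rw [Real.exp_sub, Real.exp_log h, le_div_iff₀ h] at h1
    nlinarith

/-- Gibbs variational inequality. -/
theorem gibbs {R H : Matrix n n ℂ} (hR : R.PosSemidef) (hH : H.IsHermitian) :
    ((R * H).trace).re ≤
      ((cfc (fun x => x * Real.log x) R).trace).re - (R.trace).re +
        ((cfc Real.exp H).trace).re := by
  have hR' : R.IsHermitian := hR.1
  have h := klein hR' hH (Finset.univ : Finset (Fin 4))
    (![fun x => x * Real.log x, fun x => x, fun _ => 1, fun x => x])
    (![fun _ => 1, fun _ => -1, Real.exp, fun x => -x]) (by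
      intro i j
      simp only [Fin.sum_univ_four, Matrix.cons_val_zero, Matrix.cons_val_one,
        Matrix.cons_val]
      have := mul_le_entropy (b := hH.eigenvalues j) (hR.eigenvalues_nonneg i)
      linarith)
  simp only [Fin.sum_univ_four, Matrix.cons_val_zero, Matrix.cons_val_one,
        Matrix.cons_val] at h
  have c1 : cfc (fun _ : ℝ => (1 : ℝ)) H = 1 := cfc_const_one ℝ H
  have c1' : cfc (fun _ : ℝ => (1 : ℝ)) R = 1 := cfc_const_one ℝ R
  have c2 : cfc (fun _ : ℝ => (-1 : ℝ)) H = -1 := by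
    rw [cfc_const (-1 : ℝ) H]
    simp
  have c3 : cfc (fun x : ℝ => x) R = R := cfc_id ℝ R
  have c4 : cfc (fun x : ℝ => -x) H = -H := by
    rw [cfc_neg, cfc_id' ℝ H]
  rw [c1, c1', c2, c3, c4] at h
  simp only [mul_one, one_mul, mul_neg, Matrix.trace_neg, Complex.neg_re] at h
  linarith

end LTG
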