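import Vale.Agent.P371G.EXf
import Vale.Agent.P371G.EXcalc
import Vale.Agent.P371G.CfcCont
import Vale.Agent.P371G.Klein

/-!
# [EXW] `ex_fixed` and `ex_moving` of EXmain from `LTX.exists_crit`
-/

namespace LTGW

open Matrix MeasureTheory Set LTX LTXc
open scoped ComplexOrder Topology

variable {N : ℕ}

/-! ### functional calculus lemmas -/

theorem cfc_psd {A : Mat N} (hA : A.IsHermitian) (p : ℝ → ℝ)
    (hp : ∀ i, 0 ≤ p (hA.eigenvalues i)) : (cfc p A).PosSemidef := by
  rw [LTG.cfc_form hA p, Matrix.star_eq_conjTranspose]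
  refine Matrix.PosSemidef.mul_mul_conjTranspose_same ?_ _
  rw [Matrix.posSemidef_diagonal_iff]
  intro i
  exact_mod_cast hp i

theorem self_form {A : Mat N} (hA : A.IsHermitian) :
    A = (hA.eigenvectorUnitary : Mat N) *
      Matrix.diagonal (fun i => ((hA.eigenvalues i : ℝ) : ℂ)) *
      star (hA.eigenvectorUnitary : Mat N) := by
  have h := LTG.cfc_form hA (fun x => x)
  exact (cfc_id' ℝ A hA).symm.trans h

theorem one_form {A : Mat N} (hA : A.IsHermitian) :
    (1 : Mat N) = (hA.eigenvectorUnitary : Mat N) *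
      Matrix.diagonal (fun _ => (1 : ℂ)) * star (hA.eigenvectorUnitary : Mat N) := by
  rw [Matrix.diagonal_one, Matrix.mul_one]
  exact (Unitary.coe_mul_star_self _).symm

theorem cfc_sub_lin {A : Mat N} (hA : A.IsHermitian) (p : ℝ → ℝ) (α β : ℝ) :
    cfc (fun y => p y - (α * y + β)) A
      = cfc p A - ((α : ℂ) • A + (β : ℂ) • (1 : Mat N)) := by
  conv_rhs => rw [show (α : ℂ) • A = (α : ℂ) • ((hA.eigenvectorUnitary : Mat N) *
      Matrix.diagonal (fun i => ((hA.eigenvalues i : ℝ) : ℂ)) *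
      star (hA.eigenvectorUnitary : Mat N)) by rw [← self_form hA],
      show (β : ℂ) • (1 : Mat N) = (β : ℂ) • ((hA.eigenvectorUnitary : Mat N) *
      Matrix.diagonal (fun _ => (1 : ℂ)) * star (hA.eigenvectorUnitary : Mat N)) by rw [← one_form hA]]
  have hsm : ∀ (c : ℂ) (U D V : Mat N), c • (U * D * V) = U * (c • D) * V := by
    intro c U D V
    rw [Matrix.mul_smul, Matrix.smul_mul]
  rw [LTG.cfc_form hA p, LTG.cfc_form hA, hsm, hsm,
    ← Matrix.add_mul, ← Matrix.mul_add, ← Matrix.sub_mul, ← Matrix.mul_sub]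
  congr 2
  rw [← Matrix.diagonal_smul, ← Matrix.diagonal_smul, Matrix.diagonal_add, Matrix.diagonal_sub]
  congr 1
  funext i
  simp

theorem const_sub_cfc {A : Mat N} (hA : A.IsHermitian) (w : ℝ) (p : ℝ → ℝ) :
    (w : ℂ) • (1 : Mat N) - cfc p A = cfc (fun x => w - p x) A := by
  rw [show (w : ℂ) • (1 : Mat N) = (w : ℂ) • ((hA.eigenvectorUnitary : Mat N) *
      Matrix.diagonal (fun _ => (1 : ℂ)) * star (hA.eigenvectorUnitary : Mat N)) by
      rw [← one_form hA]]
  have hsm : ∀ (c : ℂ) (U D V : Mat N), c • (U * D * V) = U * (c • D) * V := by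
    intro c U D V
    rw [Matrix.mul_smul, Matrix.smul_mul]
  rw [LTG.cfc_form hA p, LTG.cfc_form hA (fun x => w - p x), hsm, ← Matrix.sub_mul,
    ← Matrix.mul_sub, ← Matrix.diagonal_smul, Matrix.diagonal_sub]
  congr 3
  funext i
  simp

theorem cfc_scale {A : Mat N} (hA : A.IsHermitian) (s : ℝ) (p : ℝ → ℝ) :
    cfc p ((s : ℂ) • A) = cfc (fun x => p (s * x)) A := by
  have h : ((s : ℂ) • A) = s • A := by
    ext i j; simp
  rw [h]
  exact (cfc_comp_const_mul s p A (((A.finite_real_spectrum).image _).continuousOn _) hA).symm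

theorem cfc_scale_out {A : Mat N} (hA : A.IsHermitian) (s : ℝ) (p : ℝ → ℝ) :
    cfc (fun x => s * p x) A = (s : ℂ) • cfc p A := by
  rw [LTG.cfc_form hA, LTG.cfc_form hA, ← Matrix.smul_mul, ← Matrix.mul_smul,
    ← Matrix.diagonal_smul]
  congr 3
  funext i
  simp

theorem cfc_eigvec {A : Mat N} (hA : A.IsHermitian) (p : ℝ → ℝ) {k : ℝ} {e : Fin N → ℂ}
    (he : A *ᵥ e = (k : ℂ) • e) : cfc p A *ᵥ e = ((p k : ℝ) : ℂ) • e := by
  set U : Mat N := (hA.eigenvectorUnitary : Mat N) with hU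
  have hUU : star U * U = 1 := Unitary.coe_star_mul_self _
  have hUU' : U * star U = 1 := Unitary.coe_mul_star_self _
  set f : Fin N → ℂ := star U *ᵥ e with hf
  have h1 : Matrix.diagonal (fun i => ((hA.eigenvalues i : ℝ) : ℂ)) *ᵥ f = (k : ℂ) • f := by
    have h2 : star U *ᵥ (A *ᵥ e) = (k : ℂ) • f := by
      rw [he, Matrix.mulVec_smul]
    rw [← h2, hf]
    conv_rhs => rw [self_form hA]
    rw [← hU, Matrix.mulVec_mulVec, Matrix.mulVec_mulVec, ← Matrix.mul_assoc,
      ← Matrix.mul_assoc, hUU, Matrix.one_mul]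
  have h3 : Matrix.diagonal (fun i => ((p (hA.eigenvalues i) : ℝ) : ℂ)) *ᵥ f = ((p k : ℝ) : ℂ) • f := by
    funext i
    have h4 := congrFun h1 i
    rw [Matrix.mulVec_diagonal] at h4 ⊢
    simp only [Pi.smul_apply, smul_eq_mul] at h4 ⊢
    by_cases hfi : f i = 0
    · rw [hfi]; simp
    · have h5 := mul_right_cancel₀ hfi h4
      have h6 : hA.eigenvalues i = k := by exact_mod_cast h5
      rw [h6]
  rw [LTG.cfc_form hA p, ← hU, ← Matrix.mulVec_mulVec, ← Matrix.mulVec_mulVec, ← hf, h3,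
    Matrix.mulVec_smul, hf, Matrix.mulVec_mulVec, hUU', Matrix.one_mulVec]

theorem eig_le {A : Mat N} (hA : A.IsHermitian) {w : ℝ}
    (h : ((w : ℂ) • (1 : Mat N) - A).PosSemidef) (i : Fin N) : hA.eigenvalues i ≤ w := by
  have h1 := hA.mulVec_eigenvectorBasis i
  set e : Fin N → ℂ := ⇑(hA.eigenvectorBasis i) with he
  have h2 : A *ᵥ e = ((hA.eigenvalues i : ℝ) : ℂ) • e := by
    rw [h1]; funext j; simp
  have hne : e ≠ 0 := by
    intro h0
    have h3 := hA.eigenvectorBasis.orthonormal.ne_zero i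
    apply h3
    ext j
    exact congrFun h0 j
  have h4 := LTXc.qf_nonneg h e
  rw [LTXc.qf_sub, LTXc.qf_smul, LTXc.qf_one] at h4
  have h5 : qf A e = hA.eigenvalues i * nsq e := by
    rw [qf, h2, dotProduct_smul, smul_eq_mul, Complex.re_ofReal_mul, nsq]
  rw [h5] at h4
  have h6 := nsq_pos hne
  nlinarith

theorem le_of_eig {A : Mat N} (hA : A.IsHermitian) {w : ℝ}
    (h : ∀ i, hA.eigenvalues i ≤ w) : ((w : ℂ) • (1 : Mat N) - A).PosSemidef := by
  have h1 := cfc_sub_lin hA (fun _ => (0 : ℝ)) 1 (-w)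
  have h2 : cfc (fun _ : ℝ => (0 : ℝ)) A = 0 := by
    rw [LTG.cfc_form hA]; simp
  rw [h2] at h1
  have h3 : ((w : ℂ) • (1 : Mat N) - A) = cfc (fun y => (0 : ℝ) - (1 * y + -w)) A := by
    rw [h1]
    simp only [Complex.ofReal_one, one_smul, Complex.ofReal_neg, neg_smul]
    abel
  rw [h3]
  refine cfc_psd hA _ fun i => ?_
  have := h i
  linarith

theorem le_trace {A : Mat N} (hA : A.PosSemidef) {w : ℝ} (hw : A.trace.re ≤ w) :
    ((w : ℂ) • (1 : Mat N) - A).PosSemidef := by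
  refine le_of_eig hA.isHermitian fun i => ?_
  have h1 : A.trace.re = ∑ j, hA.isHermitian.eigenvalues j := by
    rw [hA.isHermitian.trace_eq_sum_eigenvalues]
    simp
  have h2 : hA.isHermitian.eigenvalues i ≤ ∑ j, hA.isHermitian.eigenvalues j :=
    Finset.single_le_sum (fun j _ => hA.eigenvalues_nonneg j) (Finset.mem_univ i)
  linarith

theorem posDef_lower {A : Mat N} (hA : A.PosDef) : ∃ m : ℝ, 0 < m ∧ ∀ e, m * nsq e ≤ qf A e := by
  have hex : ∃ m : ℝ, 0 < m ∧ ∀ i, m ≤ hA.isHermitian.eigenvalues i := by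
    rcases Nat.eq_zero_or_pos N with h0 | h0
    · subst h0
      exact ⟨1, one_pos, fun i => i.elim0⟩
    · have : Nonempty (Fin N) := ⟨⟨0, h0⟩⟩
      obtain ⟨i0, hi0⟩ := Finite.exists_min hA.isHermitian.eigenvalues
      exact ⟨hA.isHermitian.eigenvalues i0, hA.eigenvalues_pos i0, hi0⟩
  obtain ⟨m, hm, hmi⟩ := hex
  refine ⟨m, hm, fun e => ?_⟩
  have h1 := cfc_sub_lin hA.isHermitian (fun y => y) 0 m
  have h1' : A - (((0 : ℝ) : ℂ) • A + (m : ℂ) • (1 : Mat N))
      = cfc (fun y : ℝ => y - (0 * y + m)) A := by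
    rw [h1]
    congr 1
    exact (cfc_id' ℝ A hA.isHermitian).symm
  have h2 : (A - (((0 : ℝ) : ℂ) • A + (m : ℂ) • (1 : Mat N))).PosSemidef := by
    rw [h1']
    refine cfc_psd hA.isHermitian _ fun i => ?_
    have := hmi i
    linarith
  have h3 := LTXc.qf_nonneg h2 e
  rw [LTXc.qf_sub, LTXc.qf_add, LTXc.qf_smul, LTXc.qf_smul, LTXc.qf_one] at h3
  linarith

/-! ### the tangent line inequality -/

theorem tangent {q s y : ℝ} (hq : 1 ≤ q) (hs : 0 < s) (hy : 0 ≤ y) :
    q * s ^ (q - 1) * y - (q - 1) * s ^ q ≤ y ^ q := by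
  have h1 : (-1 : ℝ) ≤ y / s - 1 := by
    have : 0 ≤ y / s := div_nonneg hy hs.le
    linarith
  have h2 := one_add_mul_self_le_rpow_one_add h1 hq
  rw [show (1 : ℝ) + (y / s - 1) = y / s by ring, Real.div_rpow hy hs.le] at h2
  have hsq : 0 < s ^ q := Real.rpow_pos_of_pos hs q
  have h3 := mul_le_mul_of_nonneg_right h2 hsq.le
  rw [div_mul_cancel₀ _ hsq.ne'] at h3
  have h4 : s ^ q = s ^ (q - 1) * s := by
    rw [← Real.rpow_add_one hs.ne']; congr 1; ring
  have h5 : (1 + q * (y / s - 1)) * s ^ q = q * s ^ (q - 1) * y - (q - 1) * s ^ q := by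
    have h6 : y / s * s ^ q = y * s ^ (q - 1) := by
      rw [h4]; field_simp
    have h7 : (1 + q * (y / s - 1)) * s ^ q = q * (y / s * s ^ q) - (q - 1) * s ^ q := by ring
    rw [h7, h6]; ring
  linarith

/-! ### integrals -/

theorem qf_sum (A : Mat N) (e : Fin N → ℂ) :
    qf A e = ∑ i, ∑ j, (star (e i) * A i j * e j).re := by
  simp only [qf, dotProduct, mulVec, Finset.mul_sum, Complex.re_sum, Pi.star_apply, mul_assoc]

theorem qf_cont {E : ℝ → Mat N} {s : Set ℝ} (hE : ContinuousOn E s) (e : Fin N → ℂ) :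
    ContinuousOn (fun x => qf (E x) e) s := by
  simp only [qf_sum]
  refine continuousOn_finsetSum _ fun i _ => continuousOn_finsetSum _ fun j _ => ?_
  have h1 : ContinuousOn (fun x => E x i j) s :=
    (continuous_apply_apply i j).comp_continuousOn hE
  exact Complex.continuous_re.comp_continuousOn ((continuousOn_const.mul h1).mul continuousOn_const)

theorem qf_integral {a b : ℝ} (hab : a ≤ b) {E : ℝ → Mat N} (hE : ContinuousOn E (Icc a b))
    (e : Fin N → ℂ) :
    qf (Matrix.of fun i j => ∫ x in a..b, E x i j) e = ∫ x in a..b, qf (E x) e := by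
  have hij : ∀ i j, ContinuousOn (fun x => E x i j) (Icc a b) := fun i j =>
    (continuous_apply_apply i j).comp_continuousOn hE
  have hint : ∀ i j, IntervalIntegrable (fun x => star (e i) * E x i j * e j) volume a b := by
    intro i j
    refine ContinuousOn.intervalIntegrable ?_
    rw [uIcc_of_le hab]
    exact (continuousOn_const.mul (hij i j)).mul continuousOn_const
  have hre : ∀ i j, IntervalIntegrable (fun x => (star (e i) * E x i j * e j).re) volume a b := by
    intro i j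
    refine ContinuousOn.intervalIntegrable ?_
    rw [uIcc_of_le hab]
    exact Complex.continuous_re.comp_continuousOn
      ((continuousOn_const.mul (hij i j)).mul continuousOn_const)
  simp only [qf_sum]
  rw [intervalIntegral.integral_finsetSum (fun i _ => by
    have := IntervalIntegrable.sum (Finset.univ) (f := fun j x => (star (e i) * E x i j * e j).re)
      (fun j _ => hre i j)
    simpa [Finset.sum_fn] using this)]
  refine Finset.sum_congr rfl fun i _ => ?_
  rw [intervalIntegral.integral_finsetSum (fun j _ => hre i j)]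
  refine Finset.sum_congr rfl fun j _ => ?_
  have h1 := Complex.reCLM.intervalIntegral_comp_comm (hint i j)
  simp only [Complex.reCLM_apply] at h1
  rw [h1]
  congr 1
  rw [Matrix.of_apply, intervalIntegral.integral_mul_const, intervalIntegral.integral_const_mul]


theorem eig_ge {A : Mat N} (hA : A.IsHermitian) {w : ℝ}
    (h : (A - (w : ℂ) • (1 : Mat N)).PosSemidef) (i : Fin N) : w ≤ hA.eigenvalues i := by
  have h1 := hA.mulVec_eigenvectorBasis i
  set e : Fin N → ℂ := ⇑(hA.eigenvectorBasis i) with he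
  have h2 : A *ᵥ e = ((hA.eigenvalues i : ℝ) : ℂ) • e := by
    rw [h1]; funext j; simp
  have hne : e ≠ 0 := by
    intro h0
    have h3 := hA.eigenvectorBasis.orthonormal.ne_zero i
    apply h3
    ext j
    exact congrFun h0 j
  have h4 := LTXc.qf_nonneg h e
  rw [LTXc.qf_sub, LTXc.qf_smul, LTXc.qf_one] at h4
  have h5 : qf A e = hA.eigenvalues i * nsq e := by
    rw [qf, h2, dotProduct_smul, smul_eq_mul, Complex.re_ofReal_mul, nsq]
  rw [h5] at h4
  have h6 := nsq_pos hne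
  nlinarith

/-! ### conclusion from `Data` -/

theorem wrap {a b k0 w : ℝ} {W : Mat N → ℝ → Mat N} (hD : Data N a b k0 w W) (hN : 0 < N)
    {W' : Mat N → ℝ → Mat N} (hW' : ∀ K, ∀ x ∈ Icc a b, W K x = W' K x) :
    ∃ K : Mat N, ∃ P, K.PosDef ∧ LTG.RicPath a b K (W' K) P := by
  obtain ⟨K, hK, _, P, hPa, hPb, hPh, hPd, hPp⟩ := exists_crit hD hN
  refine ⟨K, P, hK, ?_, ?_, hPa, hPb⟩
  · intro x hx
    exact ⟨hK, hPh x hx, (hPp x hx).1, (hPp x hx).2⟩
  · intro x hx i j
    have h := hd_entry (hPd x hx) i j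
    rw [hW' K x hx] at h
    exact h.hasDerivWithinAt

theorem wrap_zero {a b : ℝ} (W : Mat 0 → ℝ → Mat 0) :
    ∃ K : Mat 0, ∃ P, K.PosDef ∧ LTG.RicPath a b K (W K) P := by
  have hpd : ∀ A : Mat 0, A.PosDef := fun A =>
    posDef_of_qf (by ext i; exact i.elim0) (fun e he => (he (Subsingleton.elim _ _)).elim)
  have hps : ∀ A : Mat 0, A.PosSemidef := fun A => (hpd A).posSemidef
  exact ⟨0, fun _ => 0, hpd 0, ⟨fun x _ => ⟨hpd 0, (hpd 0).isHermitian, hps _, hps _⟩,
    fun x _ i => i.elim0, Subsingleton.elim _ _, Subsingleton.elim _ _⟩⟩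

theorem k_pos {K : Mat N} (hK : K.PosDef) {e : Fin N → ℂ} (he : nsq e = 1) {k : ℝ}
    (hk : K *ᵥ e = (k : ℂ) • e) : 0 < k := by
  have hne : e ≠ 0 := by
    intro h0
    rw [h0] at he
    simp [nsq] at he
  have h1 := LTXc.qf_pos hK hne
  have h2 : qf K e = k * nsq e := by
    rw [qf, hk, dotProduct_smul, smul_eq_mul, Complex.re_ofReal_mul, nsq]
  rw [h2, he] at h1
  linarith

theorem choose_k0 {L m : ℝ} (hL : 0 < L) (hm : 0 < m) :
    ∃ k0 : ℝ, 0 < k0 ∧ k0 ≤ 1 ∧ ∀ k, 0 < k → k < k0 → 2 * k + L * k ^ 2 < m := by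
  refine ⟨min 1 (m / (2 + L)), lt_min one_pos (by positivity), min_le_left _ _, ?_⟩
  intro k hk hk0
  have h1 : k < 1 := lt_of_lt_of_le hk0 (min_le_left _ _)
  have h2 : k < m / (2 + L) := lt_of_lt_of_le hk0 (min_le_right _ _)
  rw [lt_div_iff₀ (by positivity)] at h2
  nlinarith [mul_pos hL hk]

theorem trace_bound {a b : ℝ} {W : ℝ → Mat N} (hWc : ContinuousOn W (Icc a b)) :
    ∃ C : ℝ, 0 < C ∧ ∀ x ∈ Icc a b, (W x).trace.re ≤ C := by
  have h1 : ContinuousOn (fun x => (W x).trace.re) (Icc a b) := by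
    simp only [Matrix.trace, Matrix.diag_apply, Complex.re_sum]
    refine continuousOn_finsetSum _ fun i _ => ?_
    exact Complex.continuous_re.comp_continuousOn
      ((continuous_apply_apply i i).comp_continuousOn hWc)
  obtain ⟨C, hC⟩ := isCompact_Icc.exists_bound_of_continuousOn h1
  refine ⟨max C 1, lt_max_of_lt_right one_pos, fun x hx => ?_⟩
  exact (le_abs_self _).trans ((hC x hx).trans (le_max_left _ _))

end LTGW

namespace LTG

open Matrix MeasureTheory Set LTX LTGW LTXc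
open scoped ComplexOrder Topology

variable {N : ℕ}

theorem ex_fixed' {a b : ℝ} (hab : a < b) {W : ℝ → Matrix (Fin N) (Fin N) ℂ}
    (hWc : ContinuousOn W (Icc a b)) (hW : ∀ x ∈ Icc a b, (W x).PosSemidef)
    (hpos : (Matrix.of fun i j => ∫ x in a..b, W x i j).PosDef) :
    ∃ K : Matrix (Fin N) (Fin N) ℂ, ∃ P, K.PosDef ∧ RicPath a b K W P := by
  rcases Nat.eq_zero_or_pos N with h0 | hN
  · subst h0
    exact wrap_zero (fun _ => W)
  obtain ⟨m, hm, hmq⟩ := posDef_lower hpos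
  obtain ⟨k0, hk0, _, hk0'⟩ := choose_k0 (sub_pos.2 hab) hm
  obtain ⟨C, hC, hCb⟩ := trace_bound hWc
  have hcont : Continuous (fun x : ℝ => W (projIcc a b hab.le x)) :=
    hWc.comp_continuous (continuous_subtype_val.comp continuous_projIcc)
      (fun x => (projIcc a b hab.le x).2)
  have hD : Data N a b k0 C (fun _ x => W (projIcc a b hab.le x)) := by
    refine ⟨hab, hk0, hC, ?_, ?_, ?_, ?_, ?_⟩
    · exact (hcont.comp continuous_snd).continuousOn
    · intro K _ x
      exact hW _ (projIcc a b hab.le x).2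
    · intro K _ s _ x
      simp only [sub_self]
      exact Matrix.PosSemidef.zero
    · intro K hK e he k hk hKe
      have hkp := k_pos hK he hKe
      refine lt_of_lt_of_le (hk0' k hkp hk) ?_
      have h1 := hmq e
      rw [he, mul_one, qf_integral hab.le hWc] at h1
      refine h1.trans (le_of_eq ?_)
      refine intervalIntegral.integral_congr fun x hx => ?_
      rw [uIcc_of_le hab.le] at hx
      simp only [projIcc_of_mem hab.le hx]
    · intro K _ x hx
      simp only [projIcc_of_mem hab.le hx]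
      exact le_trace (hW x hx) (hCb x hx)
  exact wrap hD hN (W' := fun _ => W) (fun K x hx => by simp only [projIcc_of_mem hab.le hx])


/-- `K^(-α) E K^(-α)` -/
noncomputable def YY (α : ℝ) (K E : Matrix (Fin N) (Fin N) ℂ) : Matrix (Fin N) (Fin N) ℂ :=
  cfc (fun k : ℝ => k ^ (-α)) K * E * cfc (fun k : ℝ => k ^ (-α)) K

theorem YY_psd (α : ℝ) (K : Matrix (Fin N) (Fin N) ℂ) {E : Matrix (Fin N) (Fin N) ℂ}
    (hE : E.PosSemidef) : (YY α K E).PosSemidef := by
  have h := hE.mul_mul_conjTranspose_same (cfc (fun k : ℝ => k ^ (-α)) K)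
  rwa [(cfc_isHermitian K (fun k : ℝ => k ^ (-α))).eq] at h

theorem YY_smul {α : ℝ} {K : Matrix (Fin N) (Fin N) ℂ} (hK : K.PosDef)
    (E : Matrix (Fin N) (Fin N) ℂ) {s : ℝ} (hs : 0 < s) :
    YY α (s • K) E = ((s ^ (-α) * s ^ (-α) : ℝ) : ℂ) • YY α K E := by
  have h0 : s • K = (s : ℂ) • K := by
    ext i j; simp
  have h1 : cfc (fun k : ℝ => k ^ (-α)) (s • K)
      = ((s ^ (-α) : ℝ) : ℂ) • cfc (fun k : ℝ => k ^ (-α)) K := by
    rw [h0, cfc_scale hK.isHermitian, ← cfc_scale_out hK.isHermitian]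
    refine cfc_congr_eig hK.isHermitian fun i => ?_
    exact Real.mul_rpow hs.le (hK.eigenvalues_pos i).le
  rw [YY, YY, h1, Matrix.smul_mul, Matrix.smul_mul, Matrix.mul_smul, smul_smul]
  push_cast
  rfl

theorem YY_qf {α : ℝ} {K : Matrix (Fin N) (Fin N) ℂ} (hK : K.PosDef)
    (E : Matrix (Fin N) (Fin N) ℂ) {e : Fin N → ℂ} {k : ℝ} (hKe : K *ᵥ e = (k : ℂ) • e) :
    LTX.qf (YY α K E) e = k ^ (-α) * k ^ (-α) * LTX.qf E e := by
  have h1 := cfc_eigvec hK.isHermitian (fun k : ℝ => k ^ (-α)) hKe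
  have h2 := cfc_isHermitian K (fun k : ℝ => k ^ (-α))
  rw [LTX.qf, YY, ← Matrix.mulVec_mulVec, ← Matrix.mulVec_mulVec, herm_dot h2, h1,
    Matrix.mulVec_smul, star_smul, smul_dotProduct, dotProduct_smul, smul_eq_mul, smul_eq_mul]
  simp only [Complex.star_def, Complex.conj_ofReal, Complex.re_ofReal_mul]
  rw [LTX.qf]
  ring

/-- the moving potential -/
noncomputable def WWm (α q c : ℝ) (K E : Matrix (Fin N) (Fin N) ℂ) : Matrix (Fin N) (Fin N) ℂ :=
  cfc (fun y : ℝ => c * y ^ q) (YY α K E)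

theorem WWm_psd {α q c : ℝ} (hc : 0 < c) (K : Matrix (Fin N) (Fin N) ℂ)
    {E : Matrix (Fin N) (Fin N) ℂ} (hE : E.PosSemidef) : (WWm α q c K E).PosSemidef := by
  refine cfc_psd (YY_psd α K hE).isHermitian _ fun i => ?_
  exact mul_nonneg hc.le (Real.rpow_nonneg ((YY_psd α K hE).eigenvalues_nonneg i) _)

theorem WWm_smul {α q c : ℝ} {K : Matrix (Fin N) (Fin N) ℂ} (hK : K.PosDef)
    {E : Matrix (Fin N) (Fin N) ℂ} (hE : E.PosSemidef) {s : ℝ} (hs : 0 < s) :
    WWm α q c (s • K) E = (((s ^ (-α) * s ^ (-α)) ^ q : ℝ) : ℂ) • WWm α q c K E := by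
  have hY := YY_psd α K hE
  rw [WWm, YY_smul hK E hs, cfc_scale hY.isHermitian, WWm, ← cfc_scale_out hY.isHermitian]
  refine cfc_congr_eig hY.isHermitian fun i => ?_
  have hsp : 0 < s ^ (-α) := Real.rpow_pos_of_pos hs _
  rw [Real.mul_rpow (mul_pos hsp hsp).le (hY.eigenvalues_nonneg i)]
  ring

theorem WWm_cont {α q c : ℝ} (hq : 1 ≤ q) {E : ℝ → Matrix (Fin N) (Fin N) ℂ}
    (hE : Continuous E) (hEp : ∀ x, (E x).PosSemidef) :
    ContinuousOn (fun p : Matrix (Fin N) (Fin N) ℂ × ℝ => WWm α q c p.1 (E p.2))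
      ({K | K.PosDef} ×ˢ univ) := by
  have hf : Continuous (fun y : ℝ => c * y ^ q) :=
    continuous_const.mul (continuous_id.rpow_const fun _ => Or.inr (by linarith))
  have hF : ContinuousOn (fun p : Matrix (Fin N) (Fin N) ℂ × ℝ =>
      cfc (fun k : ℝ => k ^ (-α)) p.1) ({K | K.PosDef} ×ˢ univ) := by
    refine cfc_cont (isOpen_Ioi (a := (0 : ℝ))) ?_ continuous_fst.continuousOn ?_ ?_
    · exact fun y hy => (Real.continuousAt_rpow_const y (-α) (Or.inl (ne_of_gt hy))).continuousWithinAt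
    · intro z hz
      exact (hz.1 : z.1.PosDef).isHermitian
    · intro z hz
      have hz1 : z.1.PosDef := hz.1
      rw [hz1.isHermitian.spectrum_real_eq_range_eigenvalues]
      rintro _ ⟨i, rfl⟩
      exact hz1.eigenvalues_pos i
  refine cfc_cont' hf ?_ ?_
  · have h2 : ContinuousOn (fun p : Matrix (Fin N) (Fin N) ℂ × ℝ => E p.2)
        ({K | K.PosDef} ×ˢ univ) := (hE.comp continuous_snd).continuousOn
    exact (hF.mul h2).mul hF
  · intro z _
    exact (YY_psd α z.1 (hEp z.2)).isHermitian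

theorem WWm_lower {α q c : ℝ} (hα : 0 < α) (hq : 1 ≤ q) (hc : 0 < c)
    {K : Matrix (Fin N) (Fin N) ℂ} (hK : K.PosDef)
    {E : Matrix (Fin N) (Fin N) ℂ} (hE : E.PosSemidef) {e : Fin N → ℂ} (he : nsq e = 1) {k : ℝ}
    (hk : 0 < k) (hk1 : k ≤ 1) (hKe : K *ᵥ e = (k : ℂ) • e) {s : ℝ} (hs : 0 < s) :
    c * (q * s ^ (q - 1)) * LTX.qf E e - c * ((q - 1) * s ^ q) ≤ LTX.qf (WWm α q c K E) e := by
  have hY := YY_psd α K hE
  have h1 := cfc_sub_lin hY.isHermitian (fun y : ℝ => c * y ^ q) (c * (q * s ^ (q - 1)))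
    (-(c * ((q - 1) * s ^ q)))
  have h2 : (cfc (fun y : ℝ => c * y ^ q) (YY α K E) - (((c * (q * s ^ (q - 1)) : ℝ) : ℂ) • YY α K E
      + ((-(c * ((q - 1) * s ^ q)) : ℝ) : ℂ) • (1 : Matrix (Fin N) (Fin N) ℂ))).PosSemidef := by
    rw [← h1]
    refine cfc_psd hY.isHermitian _ fun i => ?_
    have h3 := tangent hq hs (hY.eigenvalues_nonneg i)
    have h4 := mul_le_mul_of_nonneg_left h3 hc.le
    have h5 : c * (q * s ^ (q - 1) * hY.isHermitian.eigenvalues i - (q - 1) * s ^ q)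
        = c * (q * s ^ (q - 1)) * hY.isHermitian.eigenvalues i + -(c * ((q - 1) * s ^ q)) := by ring
    rw [h5] at h4
    linarith
  have h6 := LTXc.qf_nonneg h2 e
  rw [LTXc.qf_sub, LTXc.qf_add, LTXc.qf_smul, LTXc.qf_smul, LTXc.qf_one, he, YY_qf hK E hKe] at h6
  have h7 : 1 ≤ k ^ (-α) := Real.one_le_rpow_of_pos_of_le_one_of_nonpos hk hk1 (by linarith)
  have h8 : 1 ≤ k ^ (-α) * k ^ (-α) := by nlinarith
  have h9 := LTXc.qf_nonneg hE e
  have h10 : 0 ≤ c * (q * s ^ (q - 1)) := by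
    have := Real.rpow_pos_of_pos hs (q - 1)
    positivity
  have h11 : c * (q * s ^ (q - 1)) * LTX.qf E e
      ≤ c * (q * s ^ (q - 1)) * (k ^ (-α) * k ^ (-α) * LTX.qf E e) :=
    mul_le_mul_of_nonneg_left (by nlinarith) h10
  rw [WWm]
  linarith

theorem WWm_upper {α q c : ℝ} (hα : 0 < α) (hq : 1 ≤ q) (hc : 0 < c) {k0 C : ℝ} (hk0 : 0 < k0)
    (hC : 0 < C) {K : Matrix (Fin N) (Fin N) ℂ}
    (hK : (K - (k0 : ℂ) • (1 : Matrix (Fin N) (Fin N) ℂ)).PosSemidef)
    {E : Matrix (Fin N) (Fin N) ℂ} (hE : E.PosSemidef) (hEC : E.trace.re ≤ C) :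
    (((c * (C * (k0 ^ (-α) * k0 ^ (-α))) ^ q : ℝ) : ℂ) • (1 : Matrix (Fin N) (Fin N) ℂ)
      - WWm α q c K E).PosSemidef := by
  have hKh : K.IsHermitian := by
    have h1 := hK.isHermitian
    have h2 : ((k0 : ℂ) • (1 : Matrix (Fin N) (Fin N) ℂ)).IsHermitian := by
      rw [Matrix.IsHermitian, Matrix.conjTranspose_smul, Matrix.conjTranspose_one]
      simp
    have h3 := h1.add h2
    rwa [sub_add_cancel] at h3
  have hKe : ∀ i, k0 ≤ hKh.eigenvalues i := eig_ge hKh hK
  set F := cfc (fun k : ℝ => k ^ (-α)) K with hF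
  have hFh : F.IsHermitian := cfc_isHermitian K _
  have hk0p : 0 < k0 ^ (-α) := Real.rpow_pos_of_pos hk0 _
  -- F * F ≤ φ²
  have h1 : (((k0 ^ (-α) * k0 ^ (-α) : ℝ) : ℂ) • (1 : Matrix (Fin N) (Fin N) ℂ) - F * F).PosSemidef := by
    rw [hF, cfc_mul_cfc hKh]
    have h2 := cfc_psd hKh (fun x : ℝ => k0 ^ (-α) * k0 ^ (-α) - x ^ (-α) * x ^ (-α)) (by
      intro i
      have h3 : hKh.eigenvalues i ^ (-α) ≤ k0 ^ (-α) :=
        Real.rpow_le_rpow_of_nonpos hk0 (hKe i) (by linarith)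
      have h4 : 0 ≤ hKh.eigenvalues i ^ (-α) := Real.rpow_nonneg (hk0.le.trans (hKe i)) _
      have h5 := mul_le_mul h3 h3 h4 hk0p.le
      linarith)
    rw [const_sub_cfc hKh]
    exact h2
  have h2 : ((C : ℂ) • (1 : Matrix (Fin N) (Fin N) ℂ) - E).PosSemidef := le_trace hE hEC
  have h3 : (F * ((C : ℂ) • (1 : Matrix (Fin N) (Fin N) ℂ) - E) * F).PosSemidef := by
    have h := h2.mul_mul_conjTranspose_same F
    rwa [hFh.eq] at h
  have hY := YY_psd α K hE
  have h4 : (((C * (k0 ^ (-α) * k0 ^ (-α)) : ℝ) : ℂ) • (1 : Matrix (Fin N) (Fin N) ℂ)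
      - YY α K E).PosSemidef := by
    have h5 : ((C : ℂ) • (((k0 ^ (-α) * k0 ^ (-α) : ℝ) : ℂ) • (1 : Matrix (Fin N) (Fin N) ℂ)
        - F * F)).PosSemidef := by
      refine h1.smul ?_
      exact_mod_cast hC.le
    have h6 := h5.add h3
    have h7 : (C : ℂ) • (((k0 ^ (-α) * k0 ^ (-α) : ℝ) : ℂ) • (1 : Matrix (Fin N) (Fin N) ℂ)
        - F * F) + F * ((C : ℂ) • (1 : Matrix (Fin N) (Fin N) ℂ) - E) * F
        = ((C * (k0 ^ (-α) * k0 ^ (-α)) : ℝ) : ℂ) • (1 : Matrix (Fin N) (Fin N) ℂ) - YY α K E := by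
      rw [YY, ← hF, smul_sub, smul_smul, Matrix.mul_sub, Matrix.sub_mul, Matrix.mul_smul,
        Matrix.smul_mul, Matrix.mul_one]
      push_cast
      abel
    rwa [h7] at h6
  have h8 : ∀ i, hY.isHermitian.eigenvalues i ≤ C * (k0 ^ (-α) * k0 ^ (-α)) := eig_le _ h4
  rw [WWm, const_sub_cfc hY.isHermitian]
  refine cfc_psd hY.isHermitian _ fun i => ?_
  have h9 := Real.rpow_le_rpow (hY.eigenvalues_nonneg i) (h8 i) (by linarith : (0 : ℝ) ≤ q)
  have h10 := mul_le_mul_of_nonneg_left h9 hc.le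
  linarith

theorem ex_moving' {a b : ℝ} (hab : a < b) {E : ℝ → Matrix (Fin N) (Fin N) ℂ}
    (hEc : ContinuousOn E (Icc a b)) (hE : ∀ x ∈ Icc a b, (E x).PosSemidef)
    (hpos : (Matrix.of fun i j => ∫ x in a..b, E x i j).PosDef)
    {α q c : ℝ} (hα : 0 < α) (hq : 1 ≤ q) (hc : 0 < c) :
    ∃ K : Matrix (Fin N) (Fin N) ℂ, ∃ P, K.PosDef ∧
      RicPath a b K
        (fun x => cfc (fun y : ℝ => c * y ^ q)
          (cfc (fun k : ℝ => k ^ (-α)) K * E x * cfc (fun k : ℝ => k ^ (-α)) K)) P := by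
  rcases Nat.eq_zero_or_pos N with h0 | hN
  · subst h0
    exact wrap_zero (fun K x => cfc (fun y : ℝ => c * y ^ q)
          (cfc (fun k : ℝ => k ^ (-α)) K * E x * cfc (fun k : ℝ => k ^ (-α)) K))
  obtain ⟨m, hm, hmq⟩ := posDef_lower hpos
  have hL : 0 < b - a := sub_pos.2 hab
  -- tangent point
  set s : ℝ := m / (b - a) with hs
  have hsp : 0 < s := div_pos hm hL
  have hsq : 0 < s ^ (q - 1) := Real.rpow_pos_of_pos hsp _
  have hm' : 0 < c * (s ^ (q - 1) * m) := by positivity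
  obtain ⟨k0, hk0, hk01, hk0'⟩ := choose_k0 hL hm'
  obtain ⟨C, hC, hCb⟩ := trace_bound hEc
  have hEbar : Continuous (fun x : ℝ => E (projIcc a b hab.le x)) :=
    hEc.comp_continuous (continuous_subtype_val.comp continuous_projIcc)
      (fun x => (projIcc a b hab.le x).2)
  have hEbp : ∀ x : ℝ, (E (projIcc a b hab.le x)).PosSemidef := fun x =>
    hE _ (projIcc a b hab.le x).2
  have hk0p : 0 < k0 ^ (-α) := Real.rpow_pos_of_pos hk0 _
  have hw : 0 < c * (C * (k0 ^ (-α) * k0 ^ (-α))) ^ q := by positivity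
  have hcont := WWm_cont (α := α) (c := c) hq hEbar hEbp
  have hD : Data N a b k0 (c * (C * (k0 ^ (-α) * k0 ^ (-α))) ^ q)
      (fun K x => WWm α q c K (E (projIcc a b hab.le x))) := by
    refine ⟨hab, hk0, hw, hcont, ?_, ?_, ?_, ?_⟩
    · intro K _ x
      exact WWm_psd hc K (hEbp x)
    · intro K hK s' hs' x
      have hs'p : 0 < s' := lt_of_lt_of_le one_pos hs'
      change (WWm α q c K (E (projIcc a b hab.le x))
        - WWm α q c (s' • K) (E (projIcc a b hab.le x))).PosSemidef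
      rw [WWm_smul hK (hEbp x) hs'p]
      have h1 : s' ^ (-α) ≤ 1 := Real.rpow_le_one_of_one_le_of_nonpos hs' (by linarith)
      have h2 : 0 < s' ^ (-α) := Real.rpow_pos_of_pos hs'p _
      have h3 : (s' ^ (-α) * s' ^ (-α)) ^ q ≤ 1 :=
        Real.rpow_le_one (mul_pos h2 h2).le (by nlinarith) (by linarith)
      have h4 := (WWm_psd (α := α) (q := q) hc K (hEbp x)).smul
        (show (0 : ℝ) ≤ 1 - (s' ^ (-α) * s' ^ (-α)) ^ q by linarith)
      have h5 : (1 - (s' ^ (-α) * s' ^ (-α)) ^ q) • WWm α q c K (E (projIcc a b hab.le x))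
          = WWm α q c K (E (projIcc a b hab.le x))
            - (((s' ^ (-α) * s' ^ (-α)) ^ q : ℝ) : ℂ) • WWm α q c K (E (projIcc a b hab.le x)) := by
        ext i j
        simp [sub_mul]
      rwa [h5] at h4
    · intro K hK e he k hk hKe
      have hkp := k_pos hK he hKe
      refine lt_of_lt_of_le (hk0' k hkp hk) ?_
      have h1 := hmq e
      rw [he, mul_one, qf_integral hab.le hEc] at h1
      have h2 : ∫ x in a..b, LTX.qf (E x) e
          = ∫ x in a..b, LTX.qf (E (projIcc a b hab.le x)) e := by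
        refine intervalIntegral.integral_congr fun x hx => ?_
        rw [uIcc_of_le hab.le] at hx
        simp only [projIcc_of_mem hab.le hx]
      rw [h2] at h1
      have hc1 : Continuous (fun x => LTX.qf (E (projIcc a b hab.le x)) e) := by
        have := qf_cont (hEbar.continuousOn (s := univ)) e
        exact continuousOn_univ.1 this
      have hc2 : Continuous (fun x => LTX.qf (WWm α q c K (E (projIcc a b hab.le x))) e) := by
        have h3 : ContinuousOn (fun x : ℝ => WWm α q c K (E (projIcc a b hab.le x))) univ :=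
          hcont.comp (f := fun x : ℝ => (K, x)) (by fun_prop) (fun x _ => ⟨hK, mem_univ _⟩)
        exact continuousOn_univ.1 (qf_cont h3 e)
      have h4 : ∫ x in a..b, (c * (q * s ^ (q - 1)) * LTX.qf (E (projIcc a b hab.le x)) e
            - c * ((q - 1) * s ^ q))
          ≤ ∫ x in a..b, LTX.qf (WWm α q c K (E (projIcc a b hab.le x))) e := by
        refine intervalIntegral.integral_mono_on hab.le ?_ (hc2.intervalIntegrable _ _) ?_
        · exact ((continuous_const.mul hc1).sub continuous_const).intervalIntegrable _ _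
        · intro x _
          exact WWm_lower hα hq hc hK (hEbp x) he hkp (hk.le.trans hk01) hKe hsp
      have hi1 : IntervalIntegrable (fun x => c * (q * s ^ (q - 1))
          * LTX.qf (E (projIcc a b hab.le x)) e) volume a b :=
        (continuous_const.mul hc1).intervalIntegrable _ _
      have hi2 : IntervalIntegrable (fun _ : ℝ => c * ((q - 1) * s ^ q)) volume a b :=
        continuous_const.intervalIntegrable _ _
      rw [intervalIntegral.integral_sub hi1 hi2, intervalIntegral.integral_const_mul,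
        intervalIntegral.integral_const, smul_eq_mul] at h4
      refine le_trans ?_ h4
      have h5 : s ^ q = s ^ (q - 1) * s := by
        rw [← Real.rpow_add_one hsp.ne']; congr 1; ring
      have h6 : s * (b - a) = m := by
        rw [hs]; field_simp
      have h7 : 0 ≤ c * (q * s ^ (q - 1)) := by
        have : 0 ≤ q := by linarith
        positivity
      have h8 := mul_le_mul_of_nonneg_left h1 h7
      have h9 : (b - a) * (c * ((q - 1) * s ^ q)) = c * (q - 1) * s ^ (q - 1) * m := by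
        rw [h5, ← h6]; ring
      rw [h9]
      nlinarith [h8]
    · intro K hK x hx
      simp only [projIcc_of_mem hab.le hx]
      exact WWm_upper hα hq hc hk0 hC hK (hE x hx) (hCb x hx)
  exact wrap hD hN (W' := fun K x => cfc (fun y : ℝ => c * y ^ q)
          (cfc (fun k : ℝ => k ^ (-α)) K * E x * cfc (fun k : ℝ => k ^ (-α)) K))
    (fun K x hx => by
      simp only [projIcc_of_mem hab.le hx]
      rfl)

end LTG
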