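import Vale.Agent.P371G.Base
import Vale.Agent.P371G.EXWrap

/-!
# [EX] existence of `K` and of the Riccati path (owner: helper26, see message 1472)

`ex_fixed`  : `W` continuous PSD on `[a,b]` with `∫ W > 0`.
`ex_moving` : `W(x) = c (K^(-α) E(x) K^(-α))^q`, `α > 0`, `q ≥ 1`.
-/

namespace LTG

open Matrix MeasureTheory Set
open scoped ComplexOrder

variable {N : ℕ}

/-- `∫_a^b E` as a matrix -/
noncomputable def intM (a b : ℝ) (E : ℝ → Matrix (Fin N) (Fin N) ℂ) :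
    Matrix (Fin N) (Fin N) ℂ := Matrix.of fun i j => ∫ x in a..b, E x i j

theorem ex_fixed {a b : ℝ} (hab : a < b) {W : ℝ → Matrix (Fin N) (Fin N) ℂ}
    (hWc : ContinuousOn W (Icc a b)) (hW : ∀ x ∈ Icc a b, (W x).PosSemidef)
    (hpos : (intM a b W).PosDef) :
    ∃ K : Matrix (Fin N) (Fin N) ℂ, ∃ P, K.PosDef ∧ RicPath a b K W P :=
  ex_fixed' hab hWc hW hpos

theorem ex_moving {a b : ℝ} (hab : a < b) {E : ℝ → Matrix (Fin N) (Fin N) ℂ}
    (hEc : ContinuousOn E (Icc a b)) (hE : ∀ x ∈ Icc a b, (E x).PosSemidef)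
    (hpos : (intM a b E).PosDef) {α q c : ℝ} (hα : 0 < α) (hq : 1 ≤ q) (hc : 0 < c) :
    ∃ K : Matrix (Fin N) (Fin N) ℂ, ∃ P, K.PosDef ∧
      RicPath a b K
        (fun x => cfc (fun y : ℝ => c * y ^ q)
          (cfc (fun k : ℝ => k ^ (-α)) K * E x * cfc (fun k : ℝ => k ^ (-α)) K)) P :=
  ex_moving' hab hEc hE hpos hα hq hc

end LTG
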