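import Vale.Agent.P371.Core

/-!
# [KIN] kinetic step: a Riccati path from K to -K gives a lower bound for the quadratic form

`P' = K^2 - P^2 - Wt` on `[a,b]`, `P a = K`, `P b = -K`. For every family `u` in `H^1`
`∫ sum |u_j'|^2 + ∫ tr (K^2 E) ≥ ∫_a^b tr (Wt E)`, `E = gram u`.
-/

namespace LT371

open Matrix MeasureTheory Filter Topology
open scoped ComplexOrder

variable {m N : ℕ}

/-- product rule for absolutely continuous complex functions -/
theorem mul_sub_int {f g f' g' : ℝ → ℂ} {a b : ℝ}
    (hf : AbsolutelyContinuousOnInterval f a b) (hg : AbsolutelyContinuousOnInterval g a b)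
    (hf' : ∀ᵐ x, x ∈ Set.uIcc a b → HasDerivAt f (f' x) x)
    (hg' : ∀ᵐ x, x ∈ Set.uIcc a b → HasDerivAt g (g' x) x)
    (hi : IntervalIntegrable (fun x => f' x * g x + f x * g' x) volume a b) :
    f b * g b - f a * g a = ∫ x in a..b, (f' x * g x + f x * g' x) := by
  have hac := (hf.smul hg).sub (integral_ac hi)
  have hz : ∀ᵐ x, x ∈ Set.uIcc a b →
      HasDerivAt (f • g - fun x => ∫ t in a..x, (f' t * g t + f t * g' t)) 0 x := by
    filter_upwards [hf', hg', hi.ae_hasDerivAt_integral] with x h1 h2 h3 hx
    have h4 := ((h1 hx).mul (h2 hx)).sub (h3 hx a (by simp))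
    have h5 : f' x * g x + f x * g' x - (f' x * g x + f x * g' x) = 0 := by ring
    rw [h5] at h4
    exact h4
  obtain ⟨C, hC⟩ := hac.const_of_ae_hasDerivAt_zero hz
  have h1 := hC a (by simp)
  have h2 := hC b (by simp)
  simp only [Pi.sub_apply, smul_eq_mul, Pi.mul_apply, intervalIntegral.integral_same,
    sub_zero] at h1 h2
  rw [h1, ← h2]; ring

variable {u g : Fin N → ℝ → EuclideanSpace ℂ (Fin m)}

theorem gram_ac (hu : ∀ j, IsH1 (u j) (g j)) (i j : Fin N) (a b : ℝ) :
    AbsolutelyContinuousOnInterval (fun x => gram u x i j) a b := by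
  simp only [gram, Matrix.of_apply]
  exact (hu i).inner_ac (hu j) a b

theorem gram_ae_deriv (hu : ∀ j, IsH1 (u j) (g j)) (i j : Fin N) :
    ∀ᵐ x, HasDerivAt (fun x => gram u x i j) (dgram u g x i j) x := by
  filter_upwards [(hu i).ae_hasDerivAt, (hu j).ae_hasDerivAt] with x h1 h2
  simp only [gram, dgram, Matrix.of_apply]
  have := h1.inner ℂ h2
  rwa [add_comm] at this

theorem dgram_int (hu : ∀ j, IsH1 (u j) (g j)) (i j : Fin N) :
    Integrable fun x => dgram u g x i j := by
  simp only [dgram, Matrix.of_apply]
  exact (hu i).integrable_deriv_inner (hu j)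

theorem gram_sub (hu : ∀ j, IsH1 (u j) (g j)) (i j : Fin N) (a b : ℝ) :
    gram u b i j - gram u a i j = ∫ x in a..b, dgram u g x i j := by
  simp only [gram, dgram, Matrix.of_apply]
  exact (hu i).inner_sub (hu j) a b

theorem ii_sum {ι : Type*} (s : Finset ι) {f : ι → ℝ → ℂ} {a b : ℝ}
    (h : ∀ i ∈ s, IntervalIntegrable (f i) volume a b) :
    IntervalIntegrable (fun x => ∑ i ∈ s, f i x) volume a b := by
  have h1 := IntervalIntegrable.sum s h
  have h2 : (∑ i ∈ s, f i) = fun x => ∑ i ∈ s, f i x := by
    funext x
    simp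
  rwa [h2] at h1

/-- trace of a product as a double sum -/
theorem trace_mul_sum (A B : Matrix (Fin N) (Fin N) ℂ) :
    (A * B).trace = ∑ i, ∑ j, A i j * B j i := by
  simp [Matrix.trace, Matrix.mul_apply]

/-- completing the square, pointwise -/
theorem pt_ineq (x : ℝ) (Q : Matrix (Fin N) (Fin N) ℂ) (hQ : Q.IsHermitian) :
    (Q * dgram u g x).trace.re - (Q * Q * gram u x).trace.re ≤ ∑ j, ‖g j x‖ ^ 2 := by
  have h := square_ineq (colM u x) (colM g x) ((2 : ℂ) • Q) (by
    have : ((2 : ℂ) • Q)ᴴ = (2 : ℂ) • Q := by
      rw [Matrix.conjTranspose_smul, hQ.eq]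
      simp
    exact this)
  rw [gram_trace, ← dgram_eq, ← gram_eq] at h
  have e1 : (((2 : ℂ) • Q) * dgram u g x).trace.re = 2 * (Q * dgram u g x).trace.re := by
    rw [Matrix.smul_mul, Matrix.trace_smul, smul_eq_mul]
    simp
  have e2 : (gram u x * ((2 : ℂ) • Q) * ((2 : ℂ) • Q)).trace.re
      = 4 * (Q * Q * gram u x).trace.re := by
    have : (gram u x * ((2 : ℂ) • Q) * ((2 : ℂ) • Q)).trace = 4 * (Q * Q * gram u x).trace := by
      rw [Matrix.mul_smul, Matrix.mul_smul, Matrix.smul_mul, Matrix.trace_smul,
        Matrix.trace_smul, Matrix.mul_assoc, Matrix.trace_mul_comm, smul_eq_mul, smul_eq_mul]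
      ring
    rw [this]
    simp
  rw [e1, e2] at h
  linarith

theorem trace_const_sub (hu : ∀ j, IsH1 (u j) (g j)) (K : Matrix (Fin N) (Fin N) ℂ) (a b : ℝ) :
    (K * gram u b).trace.re - (K * gram u a).trace.re =
      ∫ x in a..b, (K * dgram u g x).trace.re := by
  have hint : ∀ x y : ℝ, IntervalIntegrable (fun x => (K * dgram u g x).trace) volume x y := by
    intro x y
    simp only [trace_mul_sum]
    refine Integrable.intervalIntegrable ?_
    exact integrable_finsetSum _ fun i _ => integrable_finsetSum _ fun j _ =>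
      (dgram_int hu j i).const_mul _
  have h : (K * gram u b).trace - (K * gram u a).trace =
      ∫ x in a..b, (K * dgram u g x).trace := by
    simp only [trace_mul_sum]
    rw [intervalIntegral.integral_finsetSum]
    · rw [← Finset.sum_sub_distrib]
      refine Finset.sum_congr rfl fun i _ => ?_
      rw [intervalIntegral.integral_finsetSum]
      · rw [← Finset.sum_sub_distrib]
        refine Finset.sum_congr rfl fun j _ => ?_
        rw [intervalIntegral.integral_const_mul, ← gram_sub hu]
        ring
      · intro j _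
        exact ((dgram_int hu j i).const_mul _).intervalIntegrable
    · intro i _
      exact (integrable_finsetSum _ fun j _ =>
        (dgram_int hu j i).const_mul _).intervalIntegrable
  rw [← Complex.sub_re, h]
  have := (Complex.reCLM.intervalIntegral_comp_comm (hint a b))
  simpa using this.symm


/-- `d/dx tr (P E)` along a differentiable matrix path `P` -/
theorem trace_path_sub (hu : ∀ j, IsH1 (u j) (g j)) {P P' : ℝ → Matrix (Fin N) (Fin N) ℂ}
    {a b : ℝ} (hab : a ≤ b)
    (hP : ∀ x ∈ Set.Icc a b, ∀ i j, HasDerivWithinAt (fun y => P y i j) (P' x i j) (Set.Icc a b) x)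
    (hP' : ∀ i j, ContinuousOn (fun x => P' x i j) (Set.Icc a b)) :
    (P b * gram u b).trace.re - (P a * gram u a).trace.re =
      ∫ x in a..b, ((P' x * gram u x).trace.re + (P x * dgram u g x).trace.re) := by
  have hPc : ∀ i j, ContinuousOn (fun x => P x i j) (Set.Icc a b) := fun i j x hx =>
    (hP x hx i j).continuousWithinAt
  have hui : Set.uIcc a b = Set.Icc a b := Set.uIcc_of_le hab
  have hPi : ∀ i j, IntervalIntegrable (fun x => P' x i j) volume a b := fun i j =>
    ContinuousOn.intervalIntegrable (by rw [hui]; exact hP' i j)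
  have hPsub : ∀ i j, ∀ x ∈ Set.Icc a b, P x i j = P a i j + ∫ t in a..x, P' t i j := by
    intro i j x hx
    have h1 : ∫ t in a..x, P' t i j = P x i j - P a i j := by
      refine intervalIntegral.integral_eq_sub_of_hasDeriv_right_of_le hx.1
        ((hPc i j).mono (Set.Icc_subset_Icc_right hx.2)) (fun y hy => ?_) ?_
      · have hy' : y ∈ Set.Icc a b := ⟨hy.1.le, hy.2.le.trans hx.2⟩
        have := hP y hy' i j
        refine (this.hasDerivAt (Icc_mem_nhds hy.1 (hy.2.trans_le hx.2))).hasDerivWithinAt
      · exact (hPi i j).mono_set (by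
          rw [hui, Set.uIcc_of_le hx.1]; exact Set.Icc_subset_Icc_right hx.2)
    rw [h1]; ring
  have hPac : ∀ i j, AbsolutelyContinuousOnInterval (fun x => P x i j) a b := by
    intro i j
    refine ac_of_dist_le (P := fun x => ∫ t in a..x, ‖P' t i j‖)
      ((hPi i j).norm.absolutelyContinuousOnInterval_intervalIntegral (c := a) (by simp)) ?_
    intro x hx y hy
    rw [hui] at hx hy
    have hwx : IntervalIntegrable (fun t => P' t i j) volume a x :=
      (hPi i j).mono_set (by rw [hui, Set.uIcc_of_le hx.1]; exact Set.Icc_subset_Icc_right hx.2)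
    have hwy : IntervalIntegrable (fun t => P' t i j) volume a y :=
      (hPi i j).mono_set (by rw [hui, Set.uIcc_of_le hy.1]; exact Set.Icc_subset_Icc_right hy.2)
    rw [dist_eq_norm, dist_eq_norm, hPsub i j x hx, hPsub i j y hy, add_sub_add_left_eq_sub,
      intervalIntegral.integral_interval_sub_left hwx hwy,
      intervalIntegral.integral_interval_sub_left hwx.norm hwy.norm]
    exact intervalIntegral.norm_integral_le_abs_integral_norm
  have hends : ∀ᵐ x : ℝ, x ≠ a ∧ x ≠ b := by
    have h1 : ∀ᵐ x : ℝ, x ≠ a := by simp [ae_iff, measure_singleton]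
    have h2 : ∀ᵐ x : ℝ, x ≠ b := by simp [ae_iff, measure_singleton]
    filter_upwards [h1, h2] with x hx1 hx2
    exact ⟨hx1, hx2⟩
  have hPae : ∀ i j, ∀ᵐ x, x ∈ Set.uIcc a b → HasDerivAt (fun y => P y i j) (P' x i j) x := by
    intro i j
    filter_upwards [hends] with x hx hx2
    rw [hui] at hx2
    exact (hP x hx2 i j).hasDerivAt (Icc_mem_nhds (lt_of_le_of_ne hx2.1 (Ne.symm hx.1))
      (lt_of_le_of_ne hx2.2 hx.2))
  have hint1 : ∀ i j, IntervalIntegrable (fun x => P' x i j * gram u x j i) volume a b :=
    fun i j => ContinuousOn.intervalIntegrable (by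
      rw [hui]; exact (hP' i j).mul (gram_cont hu j i).continuousOn)
  have hint2 : ∀ i j, IntervalIntegrable (fun x => P x i j * dgram u g x j i) volume a b :=
    fun i j => ((dgram_int hu j i).intervalIntegrable).continuousOn_mul (by
      rw [hui]; exact hPc i j)
  have hmain : ∀ i j, P b i j * gram u b j i - P a i j * gram u a j i =
      ∫ x in a..b, (P' x i j * gram u x j i + P x i j * dgram u g x j i) := fun i j =>
    mul_sub_int (hPac i j) (gram_ac hu j i a b) (hPae i j)
      ((gram_ae_deriv hu j i).mono fun x hx _ => hx) ((hint1 i j).add (hint2 i j))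
  have hint3 : IntervalIntegrable
      (fun x => (P' x * gram u x).trace + (P x * dgram u g x).trace) volume a b := by
    simp only [trace_mul_sum]
    refine IntervalIntegrable.add ?_ ?_
    · exact ii_sum _ fun i _ => ii_sum _ fun j _ => hint1 i j
    · exact ii_sum _ fun i _ => ii_sum _ fun j _ => hint2 i j
  have h : (P b * gram u b).trace - (P a * gram u a).trace =
      ∫ x in a..b, ((P' x * gram u x).trace + (P x * dgram u g x).trace) := by
    simp only [trace_mul_sum]
    have e : ∀ x, (∑ i, ∑ j, P' x i j * gram u x j i) + ∑ i, ∑ j, P x i j * dgram u g x j i =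
        ∑ i, ∑ j, (P' x i j * gram u x j i + P x i j * dgram u g x j i) := by
      intro x
      simp only [Finset.sum_add_distrib]
    simp only [e]
    rw [intervalIntegral.integral_finsetSum]
    · rw [← Finset.sum_sub_distrib]
      refine Finset.sum_congr rfl fun i _ => ?_
      rw [intervalIntegral.integral_finsetSum]
      · rw [← Finset.sum_sub_distrib]
        exact Finset.sum_congr rfl fun j _ => hmain i j
      · intro j _
        exact (hint1 i j).add (hint2 i j)
    · intro i _
      exact ii_sum _ fun j _ => (hint1 i j).add (hint2 i j)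
  rw [← Complex.sub_re, h]
  have := (Complex.reCLM.intervalIntegral_comp_comm hint3)
  simpa using this.symm


/-- the kinetic step -/
theorem kin0 (hu : ∀ j, IsH1 (u j) (g j)) {K : Matrix (Fin N) (Fin N) ℂ} (hK : K.IsHermitian)
    {P Wt : ℝ → Matrix (Fin N) (Fin N) ℂ} {a b : ℝ} (hab : a ≤ b)
    (hPh : ∀ x ∈ Set.Icc a b, (P x).IsHermitian)
    (hP : ∀ x ∈ Set.Icc a b, ∀ i j, HasDerivWithinAt (fun y => P y i j)
      ((K * K - P x * P x - Wt x) i j) (Set.Icc a b) x)
    (hW : ∀ i j, ContinuousOn (fun x => Wt x i j) (Set.Icc a b))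
    (hPa : P a = K) (hPb : P b = -K) :
    ∫ x in a..b, (Wt x * gram u x).trace.re ≤
      ∫ x, ((∑ j, ‖g j x‖ ^ 2) + (K * K * gram u x).trace.re) := by
  have hui : Set.uIcc a b = Set.Icc a b := Set.uIcc_of_le hab
  have hPc : ∀ i j, ContinuousOn (fun x => P x i j) (Set.Icc a b) := fun i j x hx =>
    (hP x hx i j).continuousWithinAt
  have hP'c : ∀ i j, ContinuousOn (fun x => (K * K - P x * P x - Wt x) i j) (Set.Icc a b) := by
    intro i j
    simp only [Matrix.sub_apply, Matrix.mul_apply]
    refine (continuousOn_const.sub (continuousOn_finsetSum _ fun k _ => ?_)).sub (hW i j)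
    exact (hPc i k).mul (hPc k j)
  have hmid := trace_path_sub hu hab hP hP'c
  -- integrability on the line
  have hgi : Integrable fun x => ∑ j, ‖g j x‖ ^ 2 := by
    refine integrable_finsetSum _ fun j _ => ?_
    have := (hu j).memLp_deriv.integrable_norm_pow (by norm_num)
    simpa using this
  have hKi : ∀ Q : Matrix (Fin N) (Fin N) ℂ, Integrable fun x => (Q * gram u x).trace.re := by
    intro Q
    have : Integrable fun x => (Q * gram u x).trace := by
      simp only [trace_mul_sum]
      exact integrable_finsetSum _ fun i _ => integrable_finsetSum _ fun j _ =>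
        (gram_int hu j i).const_mul _
    exact this.re
  have hKdi : ∀ Q : Matrix (Fin N) (Fin N) ℂ, Integrable fun x => (Q * dgram u g x).trace.re := by
    intro Q
    have : Integrable fun x => (Q * dgram u g x).trace := by
      simp only [trace_mul_sum]
      exact integrable_finsetSum _ fun i _ => integrable_finsetSum _ fun j _ =>
        (dgram_int hu j i).const_mul _
    exact this.re
  set D : ℝ → ℝ := fun x => (∑ j, ‖g j x‖ ^ 2) + (K * K * gram u x).trace.re with hD
  have hDi : Integrable D := hgi.add (hKi _)
  have hDii : ∀ x y, IntervalIntegrable D volume x y := fun x y => hDi.intervalIntegrable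
  -- left part
  have hleft : ∀ y, y ≤ a → (K * gram u a).trace.re - (K * gram u y).trace.re ≤
      ∫ x in y..a, D x := by
    intro y hy
    rw [trace_const_sub hu]
    refine intervalIntegral.integral_mono_on hy (hKdi K).intervalIntegrable (hDii _ _) ?_
    intro x _
    have := pt_ineq (u := u) (g := g) x K hK
    simp only [hD]
    linarith
  have hright : ∀ z, b ≤ z → (K * gram u b).trace.re - (K * gram u z).trace.re ≤
      ∫ x in b..z, D x := by
    intro z hz
    have h1 := trace_const_sub hu (-K) b z
    have h2 : ∫ x in b..z, ((-K) * dgram u g x).trace.re ≤ ∫ x in b..z, D x := by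
      refine intervalIntegral.integral_mono_on hz (hKdi (-K)).intervalIntegrable (hDii _ _) ?_
      intro x _
      have := pt_ineq (u := u) (g := g) x (-K) hK.neg
      rw [neg_mul_neg] at this
      simp only [hD]
      linarith
    rw [← h1] at h2
    simp only [Matrix.neg_mul, Matrix.trace_neg, Complex.neg_re] at h2
    linarith
  -- middle part
  have hWi : IntervalIntegrable (fun x => (Wt x * gram u x).trace.re) volume a b := by
    have : IntervalIntegrable (fun x => (Wt x * gram u x).trace) volume a b := by
      simp only [trace_mul_sum]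
      exact ii_sum _ fun i _ => ii_sum _ fun j _ => ContinuousOn.intervalIntegrable (by
        rw [hui]; exact (hW i j).mul (gram_cont hu j i).continuousOn)
    have h2 := Complex.reCLM.integrable_comp this.1
    have h3 := Complex.reCLM.integrable_comp this.2
    exact ⟨h2, h3⟩
  have hRi : IntervalIntegrable (fun x => ((K * K - P x * P x - Wt x) * gram u x).trace.re +
      (P x * dgram u g x).trace.re) volume a b := by
    have : IntervalIntegrable (fun x => ((K * K - P x * P x - Wt x) * gram u x).trace +
        (P x * dgram u g x).trace) volume a b := by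
      simp only [trace_mul_sum]
      refine IntervalIntegrable.add ?_ ?_
      · exact ii_sum _ fun i _ => ii_sum _ fun j _ => ContinuousOn.intervalIntegrable (by
          rw [hui]; exact (hP'c i j).mul (gram_cont hu j i).continuousOn)
      · exact ii_sum _ fun i _ => ii_sum _ fun j _ =>
          ((dgram_int hu j i).intervalIntegrable).continuousOn_mul (by rw [hui]; exact hPc i j)
    have h2 := Complex.reCLM.integrable_comp this.1
    have h3 := Complex.reCLM.integrable_comp this.2
    exact ⟨h2, h3⟩
  have hmid2 : (∫ x in a..b, (((K * K - P x * P x - Wt x) * gram u x).trace.re +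
      (P x * dgram u g x).trace.re)) + ∫ x in a..b, (Wt x * gram u x).trace.re ≤
      ∫ x in a..b, D x := by
    rw [← intervalIntegral.integral_add hRi hWi]
    refine intervalIntegral.integral_mono_on hab (hRi.add hWi) (hDii _ _) ?_
    intro x hx
    have := pt_ineq (u := u) (g := g) x (P x) (hPh x hx)
    simp only [hD, Matrix.sub_mul, Matrix.trace_sub, Complex.sub_re]
    linarith
  rw [← hmid, hPa, hPb] at hmid2
  simp only [Matrix.neg_mul, Matrix.trace_neg, Complex.neg_re] at hmid2
  -- limits
  have htop : ∀ Q : Matrix (Fin N) (Fin N) ℂ,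
      Tendsto (fun x => (Q * gram u x).trace.re) atTop (𝓝 0) := by
    intro Q
    have : Tendsto (fun x => (Q * gram u x).trace) atTop (𝓝 0) := by
      simp only [trace_mul_sum]
      have := tendsto_finsetSum (f := fun (i : Fin N) (x : ℝ) => ∑ j, Q i j * gram u x j i)
        (a := fun _ => (0 : ℂ)) (x := atTop) Finset.univ fun i _ => by
          have h2 := tendsto_finsetSum (f := fun (j : Fin N) (x : ℝ) => Q i j * gram u x j i)
            (a := fun _ => (0 : ℂ)) (x := atTop) Finset.univ fun j _ => by
              simpa using (gram_tendsto_top hu j i).const_mul (Q i j)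
          simpa using h2
      simpa using this
    have h3 := (Complex.continuous_re.tendsto 0).comp this
    rw [Complex.zero_re] at h3
    exact h3
  have hbot : ∀ Q : Matrix (Fin N) (Fin N) ℂ,
      Tendsto (fun x => (Q * gram u x).trace.re) atBot (𝓝 0) := by
    intro Q
    have : Tendsto (fun x => (Q * gram u x).trace) atBot (𝓝 0) := by
      simp only [trace_mul_sum]
      have := tendsto_finsetSum (f := fun (i : Fin N) (x : ℝ) => ∑ j, Q i j * gram u x j i)
        (a := fun _ => (0 : ℂ)) (x := atBot) Finset.univ fun i _ => by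
          have h2 := tendsto_finsetSum (f := fun (j : Fin N) (x : ℝ) => Q i j * gram u x j i)
            (a := fun _ => (0 : ℂ)) (x := atBot) Finset.univ fun j _ => by
              simpa using (gram_tendsto_bot hu j i).const_mul (Q i j)
          simpa using h2
      simpa using this
    have h3 := (Complex.continuous_re.tendsto 0).comp this
    rw [Complex.zero_re] at h3
    exact h3
  have hlimD : Tendsto (fun n : ℝ => ∫ x in (a - n)..(b + n), D x) atTop (𝓝 (∫ x, D x)) := by
    refine intervalIntegral_tendsto_integral hDi ?_ ?_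
    · exact tendsto_atBot_add_const_left _ a tendsto_neg_atTop_atBot
    · exact tendsto_atTop_add_const_left _ b tendsto_id
  have hlimL : Tendsto (fun n : ℝ => (∫ x in a..b, (Wt x * gram u x).trace.re) -
      (K * gram u (a - n)).trace.re - (K * gram u (b + n)).trace.re) atTop
      (𝓝 ((∫ x in a..b, (Wt x * gram u x).trace.re) - 0 - 0)) := by
    refine (tendsto_const_nhds.sub ?_).sub ?_
    · exact (hbot K).comp (tendsto_atBot_add_const_left _ a tendsto_neg_atTop_atBot)
    · exact (htop K).comp (tendsto_atTop_add_const_left _ b tendsto_id)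
  rw [sub_zero, sub_zero] at hlimL
  refine le_of_tendsto_of_tendsto hlimL hlimD ?_
  filter_upwards [eventually_ge_atTop 0] with n hn
  have h1 := hleft (a - n) (by linarith)
  have h2 := hright (b + n) (by linarith)
  have h3 : ∫ x in (a - n)..(b + n), D x =
      (∫ x in (a - n)..a, D x) + (∫ x in a..b, D x) + ∫ x in b..(b + n), D x := by
    rw [intervalIntegral.integral_add_adjacent_intervals (hDii _ _) (hDii _ _),
      intervalIntegral.integral_add_adjacent_intervals (hDii _ _) (hDii _ _)]
  rw [h3]
  linarith

end LT371
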