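import Vale.Agent.P371G.Base
import Vale.Agent.P371G.Kin0

/-!
# [KIN] the kinetic step

For each `x`, `Core.square_ineq` with `X = 2 P(x)`, `U = colM u x * S`, `V = colM g x * S` gives
`tr P (E_S)' - tr E_S P² ≤ tr S (g-gram) S`, `E_S = S (gram u) S`. On `[a,b]`,
`d/dx tr (P E_S) = tr ((K² - P² - W) E_S) + tr (P E_S')` (a.e. / integrated form, as in Core).
Outside: `P = K` for `x < a`, `P = -K` for `x > b`. Add the three pieces; `E_S → 0` at `±∞`
(`Core.gram_tendsto_top/bot`), `∫ E_S = S S` by orthonormality.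
-/

namespace LTG

open Matrix MeasureTheory Set
open scoped ComplexOrder

variable {m N : ℕ}

/-- kinetic matrix `T_ij = ∫ ⟨g_i, g_j⟩` -/
noncomputable def Tmat (g : Fin N → ℝ → EuclideanSpace ℂ (Fin m)) :
    Matrix (Fin N) (Fin N) ℂ := Matrix.of fun i j => ∫ x, inner ℂ (g i x) (g j x)

/-- the mixed family `v_j = ∑ i, S_ij u_i` -/
noncomputable def mix (S : Matrix (Fin N) (Fin N) ℂ) (u : Fin N → ℝ → EuclideanSpace ℂ (Fin m)) :
    Fin N → ℝ → EuclideanSpace ℂ (Fin m) := fun j x => ∑ i, S i j • u i x

theorem isH1_mix {u g : Fin N → ℝ → EuclideanSpace ℂ (Fin m)} (hu : ∀ j, LT371.IsH1 (u j) (g j))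
    (S : Matrix (Fin N) (Fin N) ℂ) (j : Fin N) : LT371.IsH1 (mix S u j) (mix S g j) where
  memLp := by
    have := memLp_finsetSum (p := 2) (μ := (volume : Measure ℝ)) Finset.univ
      (f := fun i x => S i j • u i x) fun i _ => (hu i).memLp.const_smul (S i j)
    exact this
  memLp_deriv := by
    have := memLp_finsetSum (p := 2) (μ := (volume : Measure ℝ)) Finset.univ
      (f := fun i x => S i j • g i x) fun i _ => (hu i).memLp_deriv.const_smul (S i j)
    exact this
  sub_eq := fun x y => by
    simp only [mix]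
    rw [intervalIntegral.integral_finsetSum (f := fun i t => S i j • g i t) fun i _ =>
      ((hu i).intervalIntegrable x y).smul (S i j), ← Finset.sum_sub_distrib]
    refine Finset.sum_congr rfl fun i _ => ?_
    rw [intervalIntegral.integral_smul, ← (hu i).sub_eq x y, smul_sub]

theorem gram_mix (u : Fin N → ℝ → EuclideanSpace ℂ (Fin m)) {S : Matrix (Fin N) (Fin N) ℂ}
    (hS : S.IsHermitian) (x : ℝ) : LT371.gram (mix S u) x = S * LT371.gram u x * S := by
  have h1 : LT371.colM (mix S u) x = LT371.colM u x * S := by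
    ext a j
    simp only [LT371.colM, mix, Matrix.of_apply, Matrix.mul_apply]
    rw [WithLp.ofLp_sum, Finset.sum_apply]
    refine Finset.sum_congr rfl fun i _ => ?_
    rw [WithLp.ofLp_smul, Pi.smul_apply, smul_eq_mul, mul_comm]
  rw [LT371.gram_eq, h1, Matrix.conjTranspose_mul, hS.eq, LT371.gram_eq]
  simp only [Matrix.mul_assoc]


theorem kin {u g : Fin N → ℝ → EuclideanSpace ℂ (Fin m)} (hu : ∀ j, LT371.IsH1 (u j) (g j))
    (horth : ∀ i j, ∫ x, inner ℂ (u i x) (u j x) = if i = j then (1 : ℂ) else 0)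
    {a b : ℝ} (hab : a < b) {K S : Matrix (Fin N) (Fin N) ℂ}
    {W P : ℝ → Matrix (Fin N) (Fin N) ℂ} (hWc : ContinuousOn W (Icc a b))
    (hW : ∀ x ∈ Icc a b, (W x).PosSemidef) (hP : RicPath a b K W P) (hS : S.IsHermitian) :
    ∫ x in a..b, ((W x * (S * LT371.gram u x * S)).trace).re ≤
      (S * Tmat g * S).trace.re + (K * K * (S * S)).trace.re := by
  have hK : K.IsHermitian := (hP.adm a ⟨le_rfl, hab.le⟩).pos.isHermitian
  have hWe : ∀ i j, ContinuousOn (fun x => W x i j) (Icc a b) := fun i j =>
    ((continuous_id.matrix_elem i j).comp_continuousOn hWc)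
  have h := LT371.kin0 (isH1_mix hu S) hK hab.le (fun x hx => (hP.adm x hx).herm) hP.deriv
    hWe hP.left hP.right
  have e1 : ∀ x, LT371.gram (mix S u) x = S * LT371.gram u x * S := gram_mix u hS
  simp only [e1] at h
  refine h.trans (le_of_eq ?_)
  -- the kinetic term
  have hgi : ∀ i j, Integrable fun x => LT371.gram g x i j := fun i j =>
    LT371.memLp_integrable_inner (hu i).memLp_deriv (hu j).memLp_deriv
  have hui : ∀ i j, Integrable fun x => LT371.gram u x i j := LT371.gram_int hu
  have key : ∀ (A B : Matrix (Fin N) (Fin N) ℂ) (F : ℝ → Matrix (Fin N) (Fin N) ℂ),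
      (∀ i j, Integrable fun x => F x i j) →
      Integrable (fun x => (A * F x * B).trace) ∧
      ∫ x, (A * F x * B).trace = (A * (Matrix.of fun i j => ∫ x, F x i j) * B).trace := by
    intro A B F hF
    have e : ∀ x, (A * F x * B).trace = ∑ i, ∑ j, (B * A) i j * F x j i := by
      intro x
      rw [Matrix.mul_assoc, Matrix.trace_mul_comm, Matrix.mul_assoc, Matrix.trace_mul_comm,
        LT371.trace_mul_sum]
    refine ⟨?_, ?_⟩
    · simp only [e]
      exact integrable_finsetSum _ fun i _ => integrable_finsetSum _ fun j _ =>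
        (hF j i).const_mul _
    · simp only [e]
      rw [integral_finsetSum (f := fun i x => ∑ j, (B * A) i j * F x j i) _ fun i _ =>
        integrable_finsetSum _ fun j _ => (hF j i).const_mul _]
      have e2 : (A * (Matrix.of fun i j => ∫ x, F x i j) * B).trace =
          ∑ i, ∑ j, (B * A) i j * ∫ x, F x j i := by
        rw [Matrix.mul_assoc, Matrix.trace_mul_comm, Matrix.mul_assoc, Matrix.trace_mul_comm,
          LT371.trace_mul_sum]
        rfl
      rw [e2]
      refine Finset.sum_congr rfl fun i _ => ?_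
      rw [integral_finsetSum (f := fun j x => (B * A) i j * F x j i) _ fun j _ =>
        (hF j i).const_mul _]
      exact Finset.sum_congr rfl fun j _ => integral_const_mul _ _
  have e3 : ∀ x, (∑ j, ‖mix S g j x‖ ^ 2 : ℝ) = (S * LT371.gram g x * S).trace.re := by
    intro x
    rw [← gram_mix g hS, LT371.gram_eq, LT371.gram_trace]
  have hk1 := key S S (LT371.gram g) hgi
  have hk2 := key (K * K * S) S (LT371.gram u) hui
  have e4 : ∀ x, (K * K * (S * LT371.gram u x * S)).trace = (K * K * S * LT371.gram u x * S).trace := by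
    intro x
    simp only [Matrix.mul_assoc]
  simp only [e3, e4]
  have hadd : ∫ x, ((S * LT371.gram g x * S).trace.re +
      (K * K * S * LT371.gram u x * S).trace.re) =
      (∫ x, (S * LT371.gram g x * S).trace.re) +
      ∫ x, (K * K * S * LT371.gram u x * S).trace.re := integral_add hk1.1.re hk2.1.re
  rw [hadd]
  have r1 : ∫ x, (S * LT371.gram g x * S).trace.re = (∫ x, (S * LT371.gram g x * S).trace).re :=
    integral_re hk1.1
  have r2 : ∫ x, (K * K * S * LT371.gram u x * S).trace.re =
      (∫ x, (K * K * S * LT371.gram u x * S).trace).re := integral_re hk2.1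
  rw [r1, r2, hk1.2, hk2.2]
  have e5 : (Matrix.of fun i j => ∫ x, LT371.gram u x i j) = (1 : Matrix (Fin N) (Fin N) ℂ) := by
    ext i j
    simp only [Matrix.of_apply, LT371.gram, Matrix.one_apply]
    exact horth i j
  have e6 : (Matrix.of fun i j => ∫ x, LT371.gram g x i j) = Tmat g := rfl
  rw [e5, e6]
  simp only [Matrix.mul_assoc, Matrix.one_mul]

end LTG
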