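import Vale.Agent.P371G.Klein

/-!
# P371 general gamma: trace inequalities obtained from Klein's inequality

Powers are `cfc (fun x => x ^ g)`.
* `trace_pow_convex`  : `tr A^g + g tr A^(g-1)(B - A) ≤ tr B^g` for `g ≥ 1`, `A, B ≥ 0`.
* `trace_pow_concave` : `tr B^g ≤ tr A^g + g tr A^(g-1)(B - A)` for `0 < g ≤ 1`, `A > 0`, `B ≥ 0`.
* `trace_young`       : `tr A B ≤ α tr A^p + β tr B^p'` when the scalar inequality holds.
* `trace_cfc_mul_comm`: `tr f(U Uᴴ) = tr f(Uᴴ U)` if `f 0 = 0`, `U` rectangular.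
-/

namespace LTG

open Matrix Unitary
open scoped ComplexOrder

set_option linter.unusedSectionVars false

variable {n : Type*} [Fintype n] [DecidableEq n]

theorem trace_cfc_re {A : Matrix n n ℂ} (hA : A.IsHermitian) (p : ℝ → ℝ) :
    ((cfc p A).trace).re = ∑ i, p (hA.eigenvalues i) := by
  rw [trace_cfc hA p, Complex.ofReal_re]

theorem cfc_id_herm {A : Matrix n n ℂ} (hA : A.IsHermitian) : cfc (fun x : ℝ => x) A = A := by
  have hsa : IsSelfAdjoint A := hA
  exact cfc_id ℝ A hsa

theorem cfc_one_herm {A : Matrix n n ℂ} (hA : A.IsHermitian) :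
    cfc (fun _ : ℝ => (1 : ℝ)) A = 1 := by
  have hsa : IsSelfAdjoint A := hA
  exact cfc_const_one ℝ A hsa

/-- scalar tangent inequality, `g ≥ 1` -/
theorem rpow_tangent_le {a b g : ℝ} (ha : 0 ≤ a) (hb : 0 ≤ b) (hg : 1 ≤ g) :
    a ^ g + g * (a ^ (g - 1) * (b - a)) ≤ b ^ g := by
  rcases eq_or_lt_of_le hg with h1 | h1
  · subst h1
    rw [sub_self, Real.rpow_zero, Real.rpow_one, Real.rpow_one]
    linarith
  rcases eq_or_lt_of_le ha with h | h
  · rw [← h, Real.zero_rpow (by linarith), Real.zero_rpow (by linarith)]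
    have := Real.rpow_nonneg hb g
    linarith
  · have hx : -1 ≤ b / a - 1 := by
      have : 0 ≤ b / a := by positivity
      linarith
    have h2 := one_add_mul_self_le_rpow_one_add hx hg
    have h3 : 1 + (b / a - 1) = b / a := by ring
    rw [h3, Real.div_rpow hb ha, le_div_iff₀ (Real.rpow_pos_of_pos h g)] at h2
    have h4 : a ^ g = a ^ (g - 1) * a := by
      rw [← Real.rpow_add_one h.ne']
      congr 1
      ring
    have h5 : (1 + g * (b / a - 1)) * a ^ g = a ^ g + g * (a ^ (g - 1) * (b - a)) := by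
      rw [h4]
      field_simp
    rw [h5] at h2
    exact h2

/-- scalar tangent inequality, `0 < g ≤ 1` -/
theorem rpow_le_tangent {a b g : ℝ} (ha : 0 < a) (hb : 0 ≤ b) (hg0 : 0 < g) (hg : g ≤ 1) :
    b ^ g ≤ a ^ g + g * (a ^ (g - 1) * (b - a)) := by
  have hx : -1 ≤ b / a - 1 := by
    have : 0 ≤ b / a := by positivity
    linarith
  have h2 := rpow_one_add_le_one_add_mul_self hx hg0.le hg
  have h3 : 1 + (b / a - 1) = b / a := by ring
  rw [h3, Real.div_rpow hb ha.le, div_le_iff₀ (Real.rpow_pos_of_pos ha g)] at h2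
  have h4 : a ^ g = a ^ (g - 1) * a := by
    rw [← Real.rpow_add_one ha.ne']
    congr 1
    ring
  have h5 : (1 + g * (b / a - 1)) * a ^ g = a ^ g + g * (a ^ (g - 1) * (b - a)) := by
    rw [h4]
    field_simp
  rw [h5] at h2
  exact h2

/-- convexity of `tr A^g`, `g ≥ 1` -/
theorem trace_pow_convex {A B : Matrix n n ℂ} (hA : A.PosSemidef) (hB : B.PosSemidef) {g : ℝ}
    (hg : 1 ≤ g) :
    ((cfc (fun x : ℝ => x ^ g) A).trace).re +
      g * ((cfc (fun x : ℝ => x ^ (g - 1)) A * (B - A)).trace).re ≤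
      ((cfc (fun x : ℝ => x ^ g) B).trace).re := by
  have h := klein hA.1 hB.1 (Finset.univ : Finset (Fin 3))
    (![fun _ => 1, fun x => g * x ^ (g - 1) * x - x ^ g, fun x => g * x ^ (g - 1)])
    (![fun x => x ^ g, fun _ => 1, fun x => -x]) (by
      intro i j
      simp only [Fin.sum_univ_three, Matrix.cons_val_zero, Matrix.cons_val_one,
        Matrix.cons_val]
      have := rpow_tangent_le (hA.eigenvalues_nonneg i) (hB.eigenvalues_nonneg j) hg
      linarith)
  simp only [Fin.sum_univ_three, Matrix.cons_val_zero, Matrix.cons_val_one,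
        Matrix.cons_val] at h
  rw [cfc_one_herm hA.1, cfc_one_herm hB.1, one_mul, mul_one] at h
  have e1 : ((cfc (fun x => g * x ^ (g - 1) * x - x ^ g) A).trace).re =
      g * ((cfc (fun x : ℝ => x ^ (g - 1)) A * A).trace).re -
        ((cfc (fun x : ℝ => x ^ g) A).trace).re := by
    have e0 : cfc (fun x : ℝ => x ^ (g - 1)) A * A =
        cfc (fun x : ℝ => x ^ (g - 1) * x) A := by
      conv_lhs => rw [← cfc_id_herm hA.1]
      rw [cfc_id_herm hA.1]
      have := cfc_mul_cfc hA.1 (fun x : ℝ => x ^ (g - 1)) (fun x => x)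
      rwa [cfc_id_herm hA.1] at this
    rw [e0, trace_cfc_re hA.1, trace_cfc_re hA.1, trace_cfc_re hA.1, Finset.mul_sum,
      ← Finset.sum_sub_distrib]
    exact Finset.sum_congr rfl fun i _ => by ring
  have e2 : ((cfc (fun x => g * x ^ (g - 1)) A * cfc (fun x : ℝ => -x) B).trace).re =
      - (g * ((cfc (fun x : ℝ => x ^ (g - 1)) A * B).trace).re) := by
    have hb1 : B = cfc (fun x : ℝ => x) B := (cfc_id_herm hB.1).symm
    rw [trace_cfc_mul_cfc hA.1 hB.1]
    conv_rhs => rw [hb1]
    rw [trace_cfc_mul_cfc hA.1 hB.1, Complex.ofReal_re, Complex.ofReal_re, Finset.mul_sum,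
      ← Finset.sum_neg_distrib]
    refine Finset.sum_congr rfl fun i _ => ?_
    rw [Finset.mul_sum, ← Finset.sum_neg_distrib]
    exact Finset.sum_congr rfl fun j _ => by ring
  rw [e1, e2] at h
  rw [Matrix.mul_sub, Matrix.trace_sub, Complex.sub_re]
  linarith

/-- concavity of `tr A^g`, `0 < g ≤ 1` -/
theorem trace_pow_concave {A B : Matrix n n ℂ} (hA : A.PosDef) (hB : B.PosSemidef) {g : ℝ}
    (hg0 : 0 < g) (hg : g ≤ 1) :
    ((cfc (fun x : ℝ => x ^ g) B).trace).re ≤
      ((cfc (fun x : ℝ => x ^ g) A).trace).re +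
      g * ((cfc (fun x : ℝ => x ^ (g - 1)) A * (B - A)).trace).re := by
  have h := klein hA.1 hB.1 (Finset.univ : Finset (Fin 3))
    (![fun _ => 1, fun x => x ^ g - g * x ^ (g - 1) * x, fun x => g * x ^ (g - 1)])
    (![fun x => -x ^ g, fun _ => 1, fun x => x]) (by
      intro i j
      simp only [Fin.sum_univ_three, Matrix.cons_val_zero, Matrix.cons_val_one,
        Matrix.cons_val]
      have := rpow_le_tangent (hA.eigenvalues_pos i) (hB.eigenvalues_nonneg j) hg0 hg
      linarith)
  simp only [Fin.sum_univ_three, Matrix.cons_val_zero, Matrix.cons_val_one,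
        Matrix.cons_val] at h
  rw [cfc_one_herm hA.1, cfc_one_herm hB.1, one_mul, mul_one] at h
  have e0 : ((cfc (fun x : ℝ => -x ^ g) B).trace).re =
      -((cfc (fun x : ℝ => x ^ g) B).trace).re := by
    rw [trace_cfc_re hB.1, trace_cfc_re hB.1, Finset.sum_neg_distrib]
  have e1 : ((cfc (fun x => x ^ g - g * x ^ (g - 1) * x) A).trace).re =
      ((cfc (fun x : ℝ => x ^ g) A).trace).re -
      g * ((cfc (fun x : ℝ => x ^ (g - 1)) A * A).trace).re := by
    have e0 : cfc (fun x : ℝ => x ^ (g - 1)) A * A =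
        cfc (fun x : ℝ => x ^ (g - 1) * x) A := by
      have := cfc_mul_cfc hA.1 (fun x : ℝ => x ^ (g - 1)) (fun x => x)
      rwa [cfc_id_herm hA.1] at this
    rw [e0, trace_cfc_re hA.1, trace_cfc_re hA.1, trace_cfc_re hA.1, Finset.mul_sum,
      ← Finset.sum_sub_distrib]
    exact Finset.sum_congr rfl fun i _ => by ring
  have e2 : ((cfc (fun x => g * x ^ (g - 1)) A * cfc (fun x : ℝ => x) B).trace).re =
      (g * ((cfc (fun x : ℝ => x ^ (g - 1)) A * B).trace).re) := by
    have hb1 : B = cfc (fun x : ℝ => x) B := (cfc_id_herm hB.1).symm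
    rw [trace_cfc_mul_cfc hA.1 hB.1]
    conv_rhs => rw [hb1]
    rw [trace_cfc_mul_cfc hA.1 hB.1, Complex.ofReal_re, Complex.ofReal_re, Finset.mul_sum]
    refine Finset.sum_congr rfl fun i _ => ?_
    rw [Finset.mul_sum]
    exact Finset.sum_congr rfl fun j _ => by ring
  rw [e0, e1, e2] at h
  rw [Matrix.mul_sub, Matrix.trace_sub, Complex.sub_re]
  linarith

/-- Young's inequality for traces. -/
theorem trace_young {A B : Matrix n n ℂ} (hA : A.PosSemidef) (hB : B.PosSemidef)
    (α β : ℝ) (f g : ℝ → ℝ)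
    (h : ∀ a b : ℝ, 0 ≤ a → 0 ≤ b → a * b ≤ α * f a + β * g b) :
    ((A * B).trace).re ≤ α * ((cfc f A).trace).re + β * ((cfc g B).trace).re := by
  have hk := klein hA.1 hB.1 (Finset.univ : Finset (Fin 3))
    (![fun x => α * f x, fun _ => 1, fun x => -x])
    (![fun _ => 1, fun x => β * g x, fun x => x]) (by
      intro i j
      simp only [Fin.sum_univ_three, Matrix.cons_val_zero, Matrix.cons_val_one,
        Matrix.cons_val]
      have := h _ _ (hA.eigenvalues_nonneg i) (hB.eigenvalues_nonneg j)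
      linarith)
  simp only [Fin.sum_univ_three, Matrix.cons_val_zero, Matrix.cons_val_one,
        Matrix.cons_val] at hk
  rw [cfc_one_herm hA.1, cfc_one_herm hB.1, one_mul, mul_one] at hk
  have e0 : ((cfc (fun x : ℝ => α * f x) A).trace).re = α * ((cfc f A).trace).re := by
    rw [trace_cfc_re hA.1, trace_cfc_re hA.1, Finset.mul_sum]
  have e1 : ((cfc (fun x : ℝ => β * g x) B).trace).re = β * ((cfc g B).trace).re := by
    rw [trace_cfc_re hB.1, trace_cfc_re hB.1, Finset.mul_sum]
  have e2 : ((cfc (fun x : ℝ => -x) A * cfc (fun x : ℝ => x) B).trace).re =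
      -(((A * B).trace).re) := by
    have ha1 : A = cfc (fun x : ℝ => x) A := (cfc_id_herm hA.1).symm
    have hb1 : B = cfc (fun x : ℝ => x) B := (cfc_id_herm hB.1).symm
    rw [trace_cfc_mul_cfc hA.1 hB.1]
    conv_rhs => rw [ha1, hb1]
    rw [trace_cfc_mul_cfc hA.1 hB.1, Complex.ofReal_re, Complex.ofReal_re,
      ← Finset.sum_neg_distrib]
    refine Finset.sum_congr rfl fun i _ => ?_
    rw [← Finset.sum_neg_distrib]
    exact Finset.sum_congr rfl fun j _ => by ring
  rw [e0, e1, e2] at hk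
  linarith

section Rect

variable {m : Type*} [Fintype m] [DecidableEq m]

theorem trace_cfc_roots {A : Matrix n n ℂ} (hA : A.IsHermitian) (f : ℝ → ℝ) :
    ((cfc f A).trace).re = (A.charpoly.roots.map (fun z : ℂ => f z.re)).sum := by
  have h1 : A.charpoly.roots = Finset.univ.val.map fun i => ((hA.eigenvalues i : ℝ) : ℂ) := by
    rw [hA.charpoly_eq]
    have h2 : (∏ i, (Polynomial.X - Polynomial.C ((hA.eigenvalues i : ℝ) : ℂ))) =
        ((Finset.univ.val.map fun i => ((hA.eigenvalues i : ℝ) : ℂ)).map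
          fun a => Polynomial.X - Polynomial.C a).prod := by
      rw [Multiset.map_map]
      rfl
    exact (congrArg Polynomial.roots h2).trans (Polynomial.roots_multiset_prod_X_sub_C _)
  rw [trace_cfc_re hA, h1, Multiset.map_map]
  rfl

theorem trace_cfc_mul_comm (U : Matrix n m ℂ) (f : ℝ → ℝ) (hf : f 0 = 0) :
    ((cfc f (U * Uᴴ)).trace).re = ((cfc f (Uᴴ * U)).trace).re := by
  have h1 : (U * Uᴴ).IsHermitian := Matrix.isHermitian_mul_conjTranspose_self U
  have h2 : (Uᴴ * U).IsHermitian := Matrix.isHermitian_conjTranspose_mul_self U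
  rw [trace_cfc_roots h1, trace_cfc_roots h2]
  have hc := Matrix.charpoly_mul_comm' U Uᴴ
  have hr := congrArg (fun p : Polynomial ℂ => (p.roots.map (fun z : ℂ => f z.re)).sum) hc
  beta_reduce at hr
  have hX : ∀ (k : ℕ) (M : Polynomial ℂ), M ≠ 0 →
      ((Polynomial.X ^ k * M).roots.map (fun z : ℂ => f z.re)).sum =
        (M.roots.map (fun z : ℂ => f z.re)).sum := by
    intro k M hM
    rw [Polynomial.roots_mul (mul_ne_zero (pow_ne_zero _ Polynomial.X_ne_zero) hM),
      Polynomial.roots_X_pow, Multiset.map_add, Multiset.sum_add, Multiset.map_nsmul,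
      Multiset.map_singleton, Multiset.sum_nsmul, Multiset.sum_singleton, Complex.zero_re, hf,
      smul_zero, zero_add]
  rw [hX _ _ (Matrix.charpoly_monic _).ne_zero, hX _ _ (Matrix.charpoly_monic _).ne_zero] at hr
  exact hr

end Rect

end LTG
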