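import Vale.Agent.P371G.Base
import Vale.Agent.P371G.TrIneq

/-!
# [YNG] pointwise Young inequality for general exponents, and convexity/concavity of `Tr Λ^γ`

`young_r`: with `A` the `m × N` matrix of columns `v_j`, `U = S Aᴴ`: the gram matrix form is
`S (gram) S = U Uᴴ`, and `tr (S Wgram S) = tr (W (Uᴴ U))`.
Then `tr (W ρ) ≤ tr ρ^(1+1/r) + a_r tr W^(1+r)` by Klein's inequality (`trace_young`) and
`tr f(U Uᴴ) = tr f(Uᴴ U)` for `f 0 = 0`.
-/

namespace LTG

open Matrix MeasureTheory Set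
open scoped ComplexOrder

variable {m N : ℕ}

/-- `⟨v_i, W v_j⟩` -/
noncomputable def Wgram (W : Matrix (Fin m) (Fin m) ℂ) (v : Fin N → EuclideanSpace ℂ (Fin m)) :
    Matrix (Fin N) (Fin N) ℂ :=
  Matrix.of fun i j => inner ℂ (v i) (Matrix.toEuclideanLin W (v j))

/-- scalar Young inequality `w ρ ≤ ρ^(1+1/r) + a_r w^(1+r)` -/
theorem scal_young_r {r : ℝ} (h0 : 0 < r) {w p : ℝ} (hw : 0 ≤ w) (hp : 0 ≤ p) :
    w * p ≤ aaR r * w ^ (1 + r) + 1 * p ^ (1 + 1 / r) := by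
  have hr1 : 0 < 1 + r := by linarith
  have hrr : 0 < (1 + r) / r := div_pos hr1 h0
  have e1 : (1 + 1 / r : ℝ) = (1 + r) / r := by field_simp; ring
  have hconj : (1 + 1 / r : ℝ).HolderConjugate (1 + r) := by
    rw [Real.holderConjugate_iff]
    constructor
    · have : 0 < 1 / r := by positivity
      linarith
    · rw [e1]
      field_simp
      try ring
  set c : ℝ := ((1 + r) / r) ^ (r / (1 + r)) with hc
  have hc0 : 0 < c := Real.rpow_pos_of_pos hrr _
  have h := Real.young_inequality_of_nonneg (a := c * p) (b := w / c) (by positivity)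
    (by positivity) hconj
  have e2 : c * p * (w / c) = w * p := by
    field_simp
  have e3 : (c * p) ^ (1 + 1 / r) / (1 + 1 / r) = p ^ (1 + 1 / r) := by
    rw [Real.mul_rpow hc0.le hp, hc, ← Real.rpow_mul hrr.le, e1]
    have : r / (1 + r) * ((1 + r) / r) = 1 := by field_simp
    rw [this, Real.rpow_one]
    field_simp
  have e4 : (w / c) ^ (1 + r) / (1 + r) = aaR r * w ^ (1 + r) := by
    rw [Real.div_rpow hw hc0.le, hc, ← Real.rpow_mul hrr.le]
    have h5 : r / (1 + r) * (1 + r) = r := by field_simp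
    rw [h5]
    have h6 : ((1 + r) / r) ^ r = ((r / (1 + r)) ^ r)⁻¹ := by
      rw [← Real.inv_rpow (by positivity), inv_div]
    rw [h6]
    unfold aaR
    have h7 : 0 < (r / (1 + r)) ^ r := Real.rpow_pos_of_pos (by positivity) _
    field_simp
  rw [e2, e3, e4] at h
  linarith

/-- the matrix of the vectors `v_j` -/
def colMat (v : Fin N → EuclideanSpace ℂ (Fin m)) : Matrix (Fin m) (Fin N) ℂ :=
  Matrix.of fun a j => v j a

theorem gram_eq (v : Fin N → EuclideanSpace ℂ (Fin m)) :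
    (Matrix.of fun i j => (inner ℂ (v i) (v j) : ℂ)) = (colMat v)ᴴ * colMat v := by
  ext i j
  rw [Matrix.of_apply, Matrix.mul_apply, PiLp.inner_apply]
  refine Finset.sum_congr rfl fun a _ => ?_
  rw [Matrix.conjTranspose_apply, colMat, Matrix.of_apply, Matrix.of_apply]
  rw [RCLike.inner_apply, mul_comm]
  rfl

theorem wgram_eq (W : Matrix (Fin m) (Fin m) ℂ) (v : Fin N → EuclideanSpace ℂ (Fin m)) :
    Wgram W v = (colMat v)ᴴ * W * colMat v := by
  ext i j
  rw [Wgram, Matrix.of_apply, Matrix.mul_assoc, Matrix.mul_apply, PiLp.inner_apply]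
  refine Finset.sum_congr rfl fun a _ => ?_
  rw [Matrix.conjTranspose_apply, RCLike.inner_apply, mul_comm]
  congr 1

theorem young_r {r : ℝ} (h0 : 0 < r) (h1 : r < 1) {W : Matrix (Fin m) (Fin m) ℂ}
    (hW : W.PosSemidef) (v : Fin N → EuclideanSpace ℂ (Fin m))
    {S : Matrix (Fin N) (Fin N) ℂ} (hS : S.IsHermitian) :
    (S * Wgram W v * S).trace.re ≤
      trf (fun x => x ^ (1 + 1 / r))
        (S * (Matrix.of fun i j => (inner ℂ (v i) (v j) : ℂ)) * S) +
      aaR r * LT371.trPow W (1 + r) := by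
  set A := colMat v with hA
  set U : Matrix (Fin N) (Fin m) ℂ := S * Aᴴ with hU
  have hUH : Uᴴ = A * S := by
    rw [hU, Matrix.conjTranspose_mul, Matrix.conjTranspose_conjTranspose, hS.eq]
  have e1 : S * (Matrix.of fun i j => (inner ℂ (v i) (v j) : ℂ)) * S = U * Uᴴ := by
    rw [gram_eq, hUH, hU]
    simp only [Matrix.mul_assoc, hA]
  have e2 : (S * Wgram W v * S).trace = (W * (Uᴴ * U)).trace := by
    have e3 : S * Wgram W v * S = U * W * Uᴴ := by
      rw [wgram_eq, hUH, hU]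
      simp only [Matrix.mul_assoc, hA]
    rw [e3, Matrix.trace_mul_comm, ← Matrix.mul_assoc, Matrix.trace_mul_comm]
  have hps : (Uᴴ * U).PosSemidef := Matrix.posSemidef_conjTranspose_mul_self U
  have hy := trace_young hW hps (aaR r) 1 (fun x => x ^ (1 + r)) (fun x => x ^ (1 + 1 / r))
    (fun a b ha hb => scal_young_r h0 ha hb)
  rw [e1, e2]
  have hz : (0 : ℝ) ^ (1 + 1 / r) = 0 := by
    apply Real.zero_rpow
    have : 0 < 1 / r := by positivity
    linarith
  have e4 : trf (fun x => x ^ (1 + 1 / r)) (U * Uᴴ) =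
      ((cfc (fun x : ℝ => x ^ (1 + 1 / r)) (Uᴴ * U)).trace).re :=
    trace_cfc_mul_comm U (fun x => x ^ (1 + 1 / r)) hz
  have e5 : ((cfc (fun x : ℝ => x ^ (1 + r)) W).trace).re = LT371.trPow W (1 + r) := by
    rw [trace_cfc_re hW.1, LT371.trPow, dif_pos hW.1]
  rw [e4, ← e5]
  linarith

/-- `γ ≥ 1`: with `M = γ L^(γ-1)`, `L = diag κ²`: `tr L^γ ≤ tr M L - tr M Λ + tr Λ^γ`. -/
theorem conv_ge {γ : ℝ} (hγ : 1 ≤ γ) {L Λ : Matrix (Fin N) (Fin N) ℂ} (hL : L.PosDef)
    (hΛ : Λ.PosDef) :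
    trf (fun x => x ^ γ) L ≤ trf (fun x => x ^ γ) Λ +
      ((cfc (fun x : ℝ => γ * x ^ (γ - 1)) L * (L - Λ)).trace).re := by
  have h := trace_pow_convex hL.posSemidef hΛ.posSemidef hγ
  have e : cfc (fun x : ℝ => γ * x ^ (γ - 1)) L = (γ : ℂ) • cfc (fun x : ℝ => x ^ (γ - 1)) L := by
    rw [cfc_form hL.1, cfc_form hL.1, ← Matrix.smul_mul, ← Matrix.mul_smul]
    congr 2
    rw [← Matrix.diagonal_smul]
    congr 1
    funext i
    simp
  rw [e, Matrix.smul_mul, Matrix.trace_smul, smul_eq_mul, Complex.re_ofReal_mul]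
  have e2 : ((cfc (fun x : ℝ => x ^ (γ - 1)) L * (L - Λ)).trace).re =
      -((cfc (fun x : ℝ => x ^ (γ - 1)) L * (Λ - L)).trace).re := by
    rw [Matrix.mul_sub, Matrix.mul_sub, Matrix.trace_sub, Matrix.trace_sub, Complex.sub_re,
      Complex.sub_re]
    ring
  rw [e2]
  unfold trf
  linarith

/-- `γ ≤ 1`: with `M = γ Λ^(γ-1)`. -/
theorem conv_le {γ : ℝ} (h0 : 0 < γ) (hγ : γ ≤ 1) {L Λ : Matrix (Fin N) (Fin N) ℂ}
    (hL : L.PosDef) (hΛ : Λ.PosDef) :
    trf (fun x => x ^ γ) L ≤ trf (fun x => x ^ γ) Λ +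
      ((cfc (fun x : ℝ => γ * x ^ (γ - 1)) Λ * (L - Λ)).trace).re := by
  have h := trace_pow_concave hΛ hL.posSemidef h0 hγ
  have e : cfc (fun x : ℝ => γ * x ^ (γ - 1)) Λ = (γ : ℂ) • cfc (fun x : ℝ => x ^ (γ - 1)) Λ := by
    rw [cfc_form hΛ.1, cfc_form hΛ.1, ← Matrix.smul_mul, ← Matrix.mul_smul]
    congr 2
    rw [← Matrix.diagonal_smul]
    congr 1
    funext i
    simp
  rw [e, Matrix.smul_mul, Matrix.trace_smul, smul_eq_mul, Complex.re_ofReal_mul]
  exact h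

end LTG
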