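import Vale.Agent.P371G.LLT
import Vale.Agent.P371G.Kin
import Vale.Agent.P371G.YoungR
import Vale.Agent.P371G.Const
import Vale.Agent.P371G.EXmain
import Vale.Agent.P371G.CoreStepA

/-!
# P371, general gamma, [FIN1] `core_step`
-/

namespace LTG

open Matrix MeasureTheory Set Filter Topology
open scoped ComplexOrder ENNReal

variable {m N : ℕ}

theorem cs_inner_expand (W : Matrix (Fin m) (Fin m) ℂ) (x y : EuclideanSpace ℂ (Fin m)) :
    (inner ℂ x (Matrix.toEuclideanLin W y) : ℂ) = ∑ a, star (x a) * ∑ b, W a b * y b := by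
  rw [LT371.inner_eq_sum]
  refine Finset.sum_congr rfl fun a _ => ?_
  congr 1

theorem cs_data {W : ℝ → Matrix (Fin m) (Fin m) ℂ}
    (hmeas : ∀ i j, Measurable fun x => W x i j) (hpsd : ∀ x, (W x).PosSemidef)
    {lam : Fin N → ℝ} {u : Fin N → ℝ → EuclideanSpace ℂ (Fin m)}
    (h : LT371.IsNegFamily W lam u) :
    ∃ g : Fin N → ℝ → EuclideanSpace ℂ (Fin m), (∀ j, LT371.IsH1 (u j) (g j)) ∧
      (∀ i j, Integrable (fun x => Wgram (W x) (fun k => u k x) i j)) ∧
      (∀ i j, Tmat g i j = (∫ x, Wgram (W x) (fun k => u k x) i j) +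
        (if i = j then (lam j : ℂ) else 0)) := by
  have heig := h.eig
  choose g hg hweak using heig
  have horth := h.orth
  have hself : ∀ j, (∫ x, inner ℂ (u j x) (u j x) : ℂ) = 1 := fun j => by
    simpa using horth j j
  have e0 : ∀ j, (∫ x, ‖g j x‖ ^ 2) -
      (∫ x, inner ℂ (u j x) (Matrix.toEuclideanLin (W x) (u j x)) : ℂ).re = lam j := by
    intro j
    have := hweak j (u j) (g j) (hg j)
    rw [hself j, mul_one] at this
    have h1 : (∫ x, inner ℂ (g j x) (g j x) : ℂ) = ((∫ x, ‖g j x‖ ^ 2 : ℝ) : ℂ) := by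
      rw [← integral_complex_ofReal]
      refine integral_congr_ae (Filter.Eventually.of_forall fun x => ?_)
      simp [inner_self_eq_norm_sq_to_K]
    rw [h1] at this
    have h2 := congrArg Complex.re this
    simpa using h2
  have hdiag : ∀ j, Integrable fun x =>
      (inner ℂ (u j x) (Matrix.toEuclideanLin (W x) (u j x)) : ℂ) := by
    intro j
    by_contra hni
    have h1 := e0 j
    rw [integral_undef hni] at h1
    have h2 : 0 ≤ ∫ x, ‖g j x‖ ^ 2 := integral_nonneg fun x => by positivity
    have h3 := h.neg j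
    simp at h1
    linarith
  refine ⟨g, hg, fun i j => ?_, fun i j => ?_⟩
  · have hm : AEStronglyMeasurable (fun x => Wgram (W x) (fun k => u k x) i j) volume := by
      have he : (fun x => Wgram (W x) (fun k => u k x) i j) =
          fun x => ∑ a, star (u i x a) * ∑ b, W x a b * u j x b := by
        funext x
        exact cs_inner_expand _ _ _
      rw [he]
      have hc : ∀ k a, Continuous fun x => u k x a := fun k a =>
        (EuclideanSpace.proj (𝕜 := ℂ) a).continuous.comp (hg k).continuous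
      refine Measurable.aestronglyMeasurable ?_
      refine Finset.measurable_sum _ fun a _ => ?_
      refine Measurable.mul (hc i a).star.measurable ?_
      refine Finset.measurable_sum _ fun b _ => ?_
      exact (hmeas a b).mul (hc j b).measurable
    refine Integrable.mono' (((hdiag i).re.add (hdiag j).re).const_mul (1 / 2)) hm ?_
    refine Filter.Eventually.of_forall fun x => ?_
    exact cs_inner_le (hpsd x) (u i x) (u j x)
  · have h2 := hweak j (u i) (g i) (hg i)
    rw [horth i j] at h2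
    have h3 : Tmat g i j = ∫ x, inner ℂ (g i x) (g j x) := rfl
    have h4 : (∫ x, Wgram (W x) (fun k => u k x) i j) =
        ∫ x, inner ℂ (u i x) (Matrix.toEuclideanLin (W x) (u j x)) := rfl
    rw [h3, h4, sub_eq_iff_eq_add'.mp h2]
    split_ifs <;> simp

theorem cs_trace_swap (S M : Matrix (Fin N) (Fin N) ℂ) :
    (S * M * S).trace = (S * S * M).trace := by
  rw [Matrix.trace_mul_comm, ← Matrix.mul_assoc]

theorem cs_trace_expand (Q M : Matrix (Fin N) (Fin N) ℂ) :
    (Q * M).trace = ∑ i, ∑ j, Q i j * M j i := by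
  simp [Matrix.trace, Matrix.mul_apply]

theorem cs_integrable_trace {F : ℝ → Matrix (Fin N) (Fin N) ℂ} {μ : Measure ℝ}
    (hF : ∀ i j, Integrable (fun x => F x i j) μ) (Q : Matrix (Fin N) (Fin N) ℂ) :
    Integrable (fun x => (Q * F x).trace) μ := by
  simp only [cs_trace_expand]
  exact integrable_finsetSum _ fun i _ => integrable_finsetSum _ fun j _ =>
    (hF j i).const_mul _

theorem cs_integral_trace {F : ℝ → Matrix (Fin N) (Fin N) ℂ} {a b : ℝ}
    (hF : ∀ i j, Integrable (fun x => F x i j)) (Q : Matrix (Fin N) (Fin N) ℂ) :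
    ∫ x in a..b, ((Q * F x).trace).re = ((Q * intM a b F).trace).re := by
  have h1 : ∫ x in a..b, ((Q * F x).trace).re = (∫ x in a..b, (Q * F x).trace).re := by
    have := (cs_integrable_trace hF Q).intervalIntegrable (a := a) (b := b)
    exact (Complex.reCLM.intervalIntegral_comp_comm this)
  rw [h1]
  congr 1
  simp only [cs_trace_expand]
  rw [intervalIntegral.integral_finsetSum]
  · refine Finset.sum_congr rfl fun i _ => ?_
    rw [intervalIntegral.integral_finsetSum]
    · refine Finset.sum_congr rfl fun j _ => ?_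
      rw [intervalIntegral.integral_const_mul]
      rfl
    · intro j _
      exact ((hF j i).const_mul _).intervalIntegrable
  · intro i _
    exact (integrable_finsetSum _ fun j _ => (hF j i).const_mul _).intervalIntegrable

theorem cs_intM_psd {F : ℝ → Matrix (Fin N) (Fin N) ℂ} (hF : ∀ x, (F x).PosSemidef)
    (hint : ∀ i j, Integrable (fun x => F x i j)) {a b : ℝ} (hab : a ≤ b) :
    (intM a b F).PosSemidef := by
  have h := LT371.psd_integral F hF (volume.restrict (Ioc a b))
    (fun i j => (hint i j).restrict)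
  have e : intM a b F = Matrix.of fun i j => ∫ x, F x i j ∂(volume.restrict (Ioc a b)) := by
    ext i j
    simp only [intM, Matrix.of_apply]
    rw [intervalIntegral.integral_of_le hab]
  rw [e]
  exact h

theorem cs_intM_tendsto {F : ℝ → Matrix (Fin N) (Fin N) ℂ}
    (hint : ∀ i j, Integrable (fun x => F x i j)) (i j : Fin N) :
    Tendsto (fun n : ℕ => intM (-(n : ℝ)) n F i j) atTop (𝓝 (∫ x, F x i j)) := by
  have hb : Tendsto (fun k : ℕ => ((k : ℕ) : ℝ)) atTop atTop := tendsto_natCast_atTop_atTop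
  have ha : Tendsto (fun k : ℕ => -((k : ℕ) : ℝ)) atTop atBot :=
    tendsto_neg_atTop_atBot.comp hb
  exact intervalIntegral_tendsto_integral (hint i j) ha hb

theorem cs_eventually {M : Matrix (Fin N) (Fin N) ℂ} (hM : M.PosDef)
    {A : ℕ → Matrix (Fin N) (Fin N) ℂ} (hA : ∀ n, (A n).IsHermitian)
    (hlim : ∀ i j, Tendsto (fun n => A n i j) atTop (𝓝 (M i j))) :
    ∀ᶠ n in atTop, (A n).PosDef := by
  obtain ⟨ε, hε, hnear⟩ := cs_posDef_near hM
  have h1 : ∀ᶠ n in atTop, ∀ i j, ‖A n i j - M i j‖ ≤ ε := by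
    rw [eventually_all]
    intro i
    rw [eventually_all]
    intro j
    have h2 : Tendsto (fun n => ‖A n i j - M i j‖) atTop (𝓝 0) := by
      have := ((hlim i j).sub_const (M i j)).norm
      simpa using this
    exact (h2.eventually (gt_mem_nhds hε)).mono fun n hn => hn.le
  exact h1.mono fun n hn => hnear _ (hA n) hn

theorem cs_wgram_psd {W : Matrix (Fin m) (Fin m) ℂ} (hW : W.PosSemidef)
    (v : Fin N → EuclideanSpace ℂ (Fin m)) : (Wgram W v).PosSemidef := by
  obtain ⟨B, hB⟩ := cs_sqrt hW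
  have h1 : Wgram W v = (LT371.colM (fun j (_ : ℝ) => v j) 0)ᴴ * Bᴴ *
      (B * LT371.colM (fun j (_ : ℝ) => v j) 0) := by
    ext i j
    simp only [Wgram, Matrix.of_apply]
    rw [cs_inner_expand, Matrix.mul_assoc, ← Matrix.mul_assoc Bᴴ, ← hB]
    simp [Matrix.mul_apply, LT371.colM]
  rw [h1, ← Matrix.conjTranspose_mul]
  exact Matrix.posSemidef_conjTranspose_mul_self _

theorem cs_const {r : ℝ} (h0 : 0 < r) : aaR r * ((1 + r) / r) ^ (1 + r) = 1 / r := by
  unfold aaR
  have h1 : 0 < (1 + r) / r := by positivity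
  have h2 : 0 < r / (1 + r) := by positivity
  rw [Real.rpow_add h1, Real.rpow_one]
  have h3 : (r / (1 + r)) ^ r * ((1 + r) / r) ^ r = 1 := by
    rw [← Real.mul_rpow h2.le h1.le]
    have : r / (1 + r) * ((1 + r) / r) = 1 := by field_simp
    rw [this, Real.one_rpow]
  calc (r / (1 + r)) ^ r / (1 + r) * ((1 + r) / r * ((1 + r) / r) ^ r)
      = ((r / (1 + r)) ^ r * ((1 + r) / r) ^ r) * (((1 + r) / r) / (1 + r)) := by ring
    _ = 1 / r := by
        rw [h3, one_mul]
        field_simp

/-- choice of `R` -/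
theorem cs_choose {W : ℝ → Matrix (Fin m) (Fin m) ℂ} (hpsd : ∀ x, (W x).PosSemidef)
    {u g : Fin N → ℝ → EuclideanSpace ℂ (Fin m)} (hu : ∀ j, LT371.IsH1 (u j) (g j))
    (horth : ∀ i j, ∫ x, inner ℂ (u i x) (u j x) = if i = j then (1 : ℂ) else 0)
    (hint : ∀ i j, Integrable (fun x => Wgram (W x) (fun k => u k x) i j))
    {lam : Fin N → ℝ} (hlam : ∀ j, lam j < 0) {δ : ℝ} (hδ : 0 < δ) :
    ∃ R : ℝ, 0 < R ∧ (intM (-R) R (LT371.gram u)).PosDef ∧
      (Matrix.diagonal (fun j => ((δ * |lam j| : ℝ) : ℂ)) -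
        ((Matrix.of fun i j => ∫ x, Wgram (W x) (fun k => u k x) i j) -
          intM (-R) R (fun x => Wgram (W x) (fun k => u k x)))).PosSemidef := by
  have hgi : ∀ i j, Integrable (fun x => LT371.gram u x i j) := fun i j => LT371.gram_int hu i j
  have hWh : (Matrix.of fun i j => ∫ x, Wgram (W x) (fun k => u k x) i j).IsHermitian :=
    (LT371.psd_integral (fun x => Wgram (W x) (fun k => u k x))
      (fun x => cs_wgram_psd (hpsd x) _) volume hint).1
  have hn0 : ∀ n : ℕ, -(n : ℝ) ≤ n := fun n => by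
    have : (0 : ℝ) ≤ n := Nat.cast_nonneg n
    linarith
  have e1 := cs_eventually (M := (1 : Matrix (Fin N) (Fin N) ℂ)) Matrix.PosDef.one
    (A := fun n : ℕ => intM (-(n : ℝ)) n (LT371.gram u))
    (fun n => (cs_intM_psd (LT371.gram_psd u) hgi (hn0 n)).1)
    (fun i j => by
      have h1 := cs_intM_tendsto hgi i j
      have h2 : ∫ x, LT371.gram u x i j = (1 : Matrix (Fin N) (Fin N) ℂ) i j := by
        have := horth i j
        simp only [LT371.gram, Matrix.of_apply]
        rw [this, Matrix.one_apply]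
      rw [h2] at h1
      exact h1)
  have hD : (Matrix.diagonal (fun j => ((δ * |lam j| : ℝ) : ℂ)) :
      Matrix (Fin N) (Fin N) ℂ).PosDef := by
    rw [Matrix.posDef_diagonal_iff]
    intro i
    have : 0 < δ * |lam i| := mul_pos hδ (abs_pos.mpr (hlam i).ne)
    exact_mod_cast this
  have e2 := cs_eventually hD
    (A := fun n : ℕ => Matrix.diagonal (fun j => ((δ * |lam j| : ℝ) : ℂ)) -
        ((Matrix.of fun i j => ∫ x, Wgram (W x) (fun k => u k x) i j) -
          intM (-(n : ℝ)) n (fun x => Wgram (W x) (fun k => u k x))))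
    (fun n => hD.1.sub (hWh.sub
      (cs_intM_psd (fun x => cs_wgram_psd (hpsd x) _) hint (hn0 n)).1))
    (fun i j => by
      have h1 := cs_intM_tendsto hint i j
      have h2 : Tendsto (fun n : ℕ => (Matrix.diagonal (fun j => ((δ * |lam j| : ℝ) : ℂ)) :
          Matrix (Fin N) (Fin N) ℂ) i j - ((∫ x, Wgram (W x) (fun k => u k x) i j) -
          intM (-(n : ℝ)) n (fun x => Wgram (W x) (fun k => u k x)) i j)) atTop
          (𝓝 ((Matrix.diagonal (fun j => ((δ * |lam j| : ℝ) : ℂ)) :
          Matrix (Fin N) (Fin N) ℂ) i j - ((∫ x, Wgram (W x) (fun k => u k x) i j) -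
          (∫ x, Wgram (W x) (fun k => u k x) i j)))) :=
        tendsto_const_nhds.sub (tendsto_const_nhds.sub h1)
      rw [sub_self, sub_zero] at h2
      exact h2)
  obtain ⟨n, hn1, hn2, hn3⟩ := (e1.and (e2.and (eventually_ge_atTop 1))).exists
  refine ⟨n, by exact_mod_cast hn3, hn1, hn2.posSemidef⟩

/-- integrated pointwise Young inequality, no measurability of `tr W^p` needed -/
theorem cs_young_int {gam a b : ℝ} (hab : a ≤ b) {W : ℝ → Matrix (Fin m) (Fin m) ℂ}
    (hW : LT371.IsPotential gam W) {c : ℝ} (hc : 0 ≤ c) {D : ℝ → ℝ}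
    (hD : IntervalIntegrable D volume a b)
    (hpt : ∀ x, D x ≤ c * LT371.trPow (W x) (gam + 1 / 2)) :
    ∫ x in a..b, D x ≤ c * (LT371.potNorm gam W).toReal := by
  rw [intervalIntegral.integral_of_le hab]
  have hDi : Integrable D (volume.restrict (Ioc a b)) :=
    (intervalIntegrable_iff_integrableOn_Ioc_of_le hab).mp hD
  rw [integral_eq_lintegral_pos_part_sub_lintegral_neg_part hDi]
  refine (sub_le_self _ ENNReal.toReal_nonneg).trans ?_
  have h1 : ∫⁻ x in Ioc a b, ENNReal.ofReal (D x) ≤ ENNReal.ofReal c * LT371.potNorm gam W := by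
    calc ∫⁻ x in Ioc a b, ENNReal.ofReal (D x)
        ≤ ∫⁻ x, ENNReal.ofReal (D x) := setLIntegral_le_lintegral _ _
      _ ≤ ∫⁻ x, ENNReal.ofReal c * ENNReal.ofReal (LT371.trPow (W x) (gam + 1 / 2)) := by
          refine lintegral_mono fun x => ?_
          rw [← ENNReal.ofReal_mul hc]
          exact ENNReal.ofReal_le_ofReal (hpt x)
      _ = _ := by
          rw [lintegral_const_mul' _ _ ENNReal.ofReal_ne_top]
          rfl
  have h2 : ENNReal.ofReal c * LT371.potNorm gam W ≠ ∞ :=
    ENNReal.mul_ne_top ENNReal.ofReal_ne_top hW.finite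
  have h3 := ENNReal.toReal_mono h2 h1
  rw [ENNReal.toReal_mul, ENNReal.toReal_ofReal hc] at h3
  exact h3

theorem core_step' {gam : ℝ} (h0 : 1 / 2 < gam) (h1 : gam < 3 / 2)
    {W : ℝ → Matrix (Fin m) (Fin m) ℂ} (hW : LT371.IsPotential gam W)
    {lam : Fin N → ℝ} {u : Fin N → ℝ → EuclideanSpace ℂ (Fin m)}
    (h : LT371.IsNegFamily W lam u) {δ : ℝ} (hδ0 : 0 < δ) (_hδ1 : δ < 1) :
    ∃ R : ℝ, 0 < R ∧ (intM (-R) R (LT371.gram u)).PosDef ∧
      ∀ (S K : Matrix (Fin N) (Fin N) ℂ) (P : ℝ → Matrix (Fin N) (Fin N) ℂ), S.PosDef →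
        K.PosDef →
        RicPath (-R) R K
          (fun x => cfc (fun y : ℝ => (1 + (gam - 1 / 2)) / (gam - 1 / 2) * y ^ (1 / (gam - 1 / 2)))
            (S * LT371.gram u x * S)) P →
        ccR (gam - 1 / 2) * trf (fun k => k ^ (2 * gam)) K +
          (1 - δ) * (S * S * Matrix.diagonal (fun j => ((|lam j| : ℝ) : ℂ))).trace.re -
          (K * K * (S * S)).trace.re ≤
        aaR (gam - 1 / 2) * (LT371.potNorm gam W).toReal := by
  obtain ⟨g, hg, hint, hT⟩ := cs_data hW.meas hW.psd h
  obtain ⟨R, hR0, hRE, hRO⟩ := cs_choose hW.psd hg h.orth hint h.neg hδ0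
  refine ⟨R, hR0, hRE, fun S K P hS hK hP => ?_⟩
  set r : ℝ := gam - 1 / 2 with hr
  have hr0 : 0 < r := by rw [hr]; linarith
  have hr1 : r < 1 := by rw [hr]; linarith
  set c : ℝ := (1 + r) / r with hcdef
  have hc0 : 0 < c := by positivity
  have hab : -R < R := by linarith
  have hSh : Sᴴ = S := hS.1
  set ES : ℝ → Matrix (Fin N) (Fin N) ℂ := fun x => S * LT371.gram u x * S with hES
  have hESp : ∀ x, (ES x).PosSemidef := fun x => by
    have := (LT371.gram_psd u x).conjTranspose_mul_mul_same S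
    rw [hSh] at this
    exact this
  have hgc : Continuous fun x => LT371.gram u x :=
    continuous_matrix fun i j => LT371.gram_cont hg i j
  have hESc : Continuous ES := (continuous_const.matrix_mul hgc).matrix_mul continuous_const
  have hq0 : 0 < 1 / r := by positivity
  have hfc : Continuous fun y : ℝ => c * y ^ (1 / r) :=
    continuous_const.mul (Real.continuous_rpow_const hq0.le)
  have hWc : ContinuousOn (fun x => cfc (fun y : ℝ => c * y ^ (1 / r)) (ES x)) (Icc (-R) R) :=
    cfc_cont' hfc hESc.continuousOn fun x _ => (hESp x).1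
  have hWp : ∀ x ∈ Icc (-R) R, (cfc (fun y : ℝ => c * y ^ (1 / r)) (ES x)).PosSemidef :=
    fun x _ => cs_psd_of_cfc (hESp x).1 fun i => by
      have := (hESp x).eigenvalues_nonneg i
      positivity
  -- the function `j`
  set jf : ℝ → ℝ := fun x => trf (fun y => y ^ (1 + 1 / r)) (ES x) with hjf
  have hjc : ContinuousOn jf (Icc (-R) R) := by
    have h2 : ContinuousOn (fun x => cfc (fun y : ℝ => y ^ (1 + 1 / r)) (ES x)) (Icc (-R) R) :=
      cfc_cont' (Real.continuous_rpow_const (by positivity)) hESc.continuousOn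
        fun x _ => (hESp x).1
    have h3 : Continuous fun M : Matrix (Fin N) (Fin N) ℂ => M.trace.re :=
      Complex.continuous_re.comp (continuous_id.matrix_trace)
    exact h3.comp_continuousOn h2
  have hji : IntervalIntegrable jf volume (-R) R := by
    refine ContinuousOn.intervalIntegrable ?_
    rw [uIcc_of_le hab.le]
    exact hjc
  set J : ℝ := ∫ x in (-R)..R, jf x with hJ
  -- kinetic inequality
  have hkin := kin hg h.orth hab hWc hWp hP hS.1
  have hk1 : (∫ x in (-R)..R, ((cfc (fun y : ℝ => c * y ^ (1 / r)) (ES x) *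
      (S * LT371.gram u x * S)).trace).re) = c * J := by
    rw [hJ, ← intervalIntegral.integral_const_mul]
    refine intervalIntegral.integral_congr fun x _ => ?_
    change ((cfc (fun y : ℝ => c * y ^ (1 / r)) (ES x) * ES x).trace).re = c * jf x
    rw [cs_trf_mul (hESp x).1, hjf, ← cs_trf_const_mul (hESp x).1]
    refine cs_trf_congr (hESp x) fun y hy => ?_
    rw [add_comm (1 : ℝ) (1 / r), Real.rpow_add_one' hy (by positivity)]
    ring
  rw [hk1] at hkin
  -- lifted Lieb-Thirring
  have hllt := llt hab hWc hWp hP hr0 hr1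
  have hl1 : (∫ x in (-R)..R, trf (fun w => w ^ (1 + r))
      (cfc (fun y : ℝ => c * y ^ (1 / r)) (ES x))) = c ^ (1 + r) * J := by
    rw [hJ, ← intervalIntegral.integral_const_mul]
    refine intervalIntegral.integral_congr fun x _ => ?_
    change trf (fun w => w ^ (1 + r)) (cfc (fun y : ℝ => c * y ^ (1 / r)) (ES x)) =
      c ^ (1 + r) * jf x
    rw [cs_trf_comp (hESp x).1, hjf, ← cs_trf_const_mul (hESp x).1]
    refine cs_trf_congr (hESp x) fun y hy => ?_
    have hexp : 1 / r * (1 + r) = 1 + 1 / r := by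
      field_simp
      ring
    rw [Real.mul_rpow hc0.le (Real.rpow_nonneg hy _), ← Real.rpow_mul hy, hexp]
  rw [hl1, ← mul_assoc, cs_const hr0] at hllt
  -- Young
  have hyo : ∫ x in (-R)..R, (((S * Wgram (W x) (fun k => u k x) * S).trace.re) - jf x) ≤
      aaR r * (LT371.potNorm gam W).toReal := by
    refine cs_young_int hab.le hW (aaR_pos hr0).le ?_ ?_
    · refine IntervalIntegrable.sub ?_ hji
      have h2 : Integrable (fun x => ((S * Wgram (W x) (fun k => u k x) * S).trace)) := by
        simp only [cs_trace_swap]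
        exact cs_integrable_trace hint _
      exact h2.re.intervalIntegrable
    · intro x
      have h2 := young_r hr0 hr1 (hW.psd x) (fun k => u k x) hS.1
      have h3 : (1 + r) = gam + 1 / 2 := by rw [hr]; ring
      rw [h3] at h2
      have h4 : (Matrix.of fun i j => (inner ℂ (u i x) (u j x) : ℂ)) = LT371.gram u x := rfl
      rw [h4] at h2
      change _ - trf (fun y => y ^ (1 + 1 / r)) (S * LT371.gram u x * S) ≤ _
      linarith
  have hy1 : ∫ x in (-R)..R, (((S * Wgram (W x) (fun k => u k x) * S).trace.re) - jf x) =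
      (S * S * intM (-R) R (fun x => Wgram (W x) (fun k => u k x))).trace.re - J := by
    rw [intervalIntegral.integral_sub _ hji, ← hJ]
    · congr 1
      simp only [cs_trace_swap]
      exact cs_integral_trace hint _
    · have h2 : Integrable (fun x => ((S * Wgram (W x) (fun k => u k x) * S).trace)) := by
        simp only [cs_trace_swap]
        exact cs_integrable_trace hint _
      exact h2.re.intervalIntegrable
  rw [hy1] at hyo
  -- the kinetic matrix
  set WG : Matrix (Fin N) (Fin N) ℂ :=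
    Matrix.of fun i j => ∫ x, Wgram (W x) (fun k => u k x) i j with hWG
  set WR : Matrix (Fin N) (Fin N) ℂ := intM (-R) R (fun x => Wgram (W x) (fun k => u k x))
    with hWR
  set Lm : Matrix (Fin N) (Fin N) ℂ := Matrix.diagonal (fun j => ((|lam j| : ℝ) : ℂ)) with hLm
  have hTm : Tmat g = WG - Lm := by
    ext i j
    rw [hT i j, Matrix.sub_apply, hWG, hLm, Matrix.of_apply, Matrix.diagonal_apply]
    split_ifs with hij
    · subst hij
      rw [abs_of_neg (h.neg i)]
      push_cast
      ring
    · ring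
  have hdiag : (Matrix.diagonal (fun j => ((δ * |lam j| : ℝ) : ℂ)) : Matrix (Fin N) (Fin N) ℂ) =
      (δ : ℂ) • Lm := by
    rw [hLm, ← Matrix.diagonal_smul]
    congr 1
    funext j
    simp
  rw [hdiag] at hRO
  have hpos := (hRO.conjTranspose_mul_mul_same S).trace_nonneg
  rw [hSh, cs_trace_swap, Matrix.mul_sub, Matrix.mul_sub, Matrix.trace_sub, Matrix.trace_sub,
    Matrix.mul_smul, Matrix.trace_smul] at hpos
  have hpos' := (Complex.le_def.mp hpos).1
  rw [Complex.zero_re, Complex.sub_re, Complex.sub_re, smul_eq_mul, Complex.re_ofReal_mul] at hpos'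
  have hTS : (S * Tmat g * S).trace.re = (S * S * WG).trace.re - (S * S * Lm).trace.re := by
    rw [cs_trace_swap, hTm, Matrix.mul_sub, Matrix.trace_sub, Complex.sub_re]
  rw [hTS] at hkin
  have h2g : 2 * gam = 2 * r + 1 := by rw [hr]; ring
  rw [h2g]
  have hcJ : c * J = J + 1 / r * J := by
    rw [hcdef]
    field_simp
    ring
  rw [hcJ] at hkin
  have e5 : (1 - δ) * (S * S * Lm).trace.re =
      (S * S * Lm).trace.re - δ * (S * S * Lm).trace.re := by ring
  rw [e5]
  linarith

end LTG
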