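import Vale.Agent.Brouwer.Brouwer

/-!
# P371 general gamma: the topological step (Brouwer) for positive semidefinite matrix fields

`exists_zero` : a continuous field `B` of singular positive semidefinite matrices on the set
`D = {X ≥ 0, tr X = 1}` such that `X e = 0`, `e ≠ 0` implies `B X e ≠ 0`, has a zero.
-/

namespace LTG

open Matrix
open scoped ComplexOrder Matrix.Norms.L2Operator

variable {N : ℕ}

/-- density matrices -/
def densSet (N : ℕ) : Set (Matrix (Fin N) (Fin N) ℂ) := {X | X.PosSemidef ∧ X.trace = 1}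

theorem isClosed_posSemidef : IsClosed {X : Matrix (Fin N) (Fin N) ℂ | X.PosSemidef} := by
  have h : {X : Matrix (Fin N) (Fin N) ℂ | X.PosSemidef} =
      {X | star X = X} ∩ ⋂ x : Fin N → ℂ, {X | 0 ≤ star x ⬝ᵥ (X *ᵥ x)} := by
    ext X
    simp only [Set.mem_inter_iff, Set.mem_iInter, Set.mem_ofPred_eq]
    constructor
    · intro hX
      exact ⟨hX.1, fun x => hX.dotProduct_mulVec_nonneg x⟩
    · rintro ⟨h1, h2⟩
      exact PosSemidef.of_dotProduct_mulVec_nonneg h1 h2
  rw [h]
  refine IsClosed.inter (isClosed_eq continuous_star continuous_id) ?_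
  refine isClosed_iInter fun x => ?_
  refine isClosed_le continuous_const ?_
  exact (continuous_const.dotProduct (Continuous.matrix_mulVec continuous_id continuous_const))

theorem convex_densSet : Convex ℝ (densSet N) := by
  intro X hX Y hY a b ha hb hab
  refine ⟨(hX.1.smul ?_).add (hY.1.smul ?_), ?_⟩
  · exact ha
  · exact hb
  · rw [trace_add, trace_smul, trace_smul, hX.2, hY.2]
    simp only [Complex.real_smul, mul_one]
    rw [← Complex.ofReal_add, hab, Complex.ofReal_one]

theorem entry_le_of_densSet {X : Matrix (Fin N) (Fin N) ℂ} (hX : X ∈ densSet N) (i j : Fin N) :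
    ‖X i j‖ ≤ N := by
  obtain ⟨C, hC⟩ : ∃ C : Matrix (Fin N) (Fin N) ℂ, X = Cᴴ * C := by
    open scoped MatrixOrder in
    obtain ⟨C, hC⟩ := CStarAlgebra.nonneg_iff_eq_star_mul_self.mp hX.1.nonneg
    exact ⟨C, hC⟩
  have htr : ∑ i, ∑ k, ‖C k i‖ ^ 2 = 1 := by
    have h1 : (X.trace).re = 1 := by rw [hX.2]; simp
    rw [hC, Matrix.trace] at h1
    simp only [Matrix.diag_apply, Matrix.mul_apply, conjTranspose_apply] at h1
    rw [← h1, Complex.re_sum]
    refine Finset.sum_congr rfl fun i _ => ?_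
    rw [Complex.re_sum]
    refine Finset.sum_congr rfl fun k _ => ?_
    rw [Complex.star_def, ← Complex.normSq_eq_conj_mul_self, Complex.normSq_eq_norm_sq,
      Complex.ofReal_re]
  have hent : ∀ k i, ‖C k i‖ ≤ 1 := by
    intro k i
    have h2 : ‖C k i‖ ^ 2 ≤ 1 := by
      rw [← htr]
      refine le_trans ?_ (Finset.single_le_sum (f := fun i => ∑ k, ‖C k i‖ ^ 2)
        (fun i _ => Finset.sum_nonneg fun k _ => sq_nonneg _) (Finset.mem_univ i))
      exact Finset.single_le_sum (f := fun k => ‖C k i‖ ^ 2) (fun k _ => sq_nonneg _)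
        (Finset.mem_univ k)
    nlinarith [norm_nonneg (C k i)]
  rw [hC, Matrix.mul_apply]
  refine (norm_sum_le _ _).trans ?_
  have : ∀ k ∈ (Finset.univ : Finset (Fin N)), ‖Cᴴ i k * C k j‖ ≤ 1 := by
    intro k _
    rw [norm_mul, conjTranspose_apply, norm_star]
    exact mul_le_one₀ (hent k i) (norm_nonneg _) (hent k j)
  refine (Finset.sum_le_sum this).trans ?_
  simp

theorem isCompact_densSet : IsCompact (densSet N) := by
  have : FiniteDimensional ℝ (Matrix (Fin N) (Fin N) ℂ) := inferInstance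
  have : ProperSpace (Matrix (Fin N) (Fin N) ℂ) := FiniteDimensional.proper ℝ _
  refine Metric.isCompact_of_isClosed_isBounded ?_ ?_
  · refine isClosed_posSemidef.inter (isClosed_eq ?_ continuous_const)
    exact Continuous.matrix_trace continuous_id
  · rw [isBounded_iff_forall_norm_le]
    refine ⟨∑ i, ∑ j, (N : ℝ) * ‖(Matrix.single i j (1 : ℂ) : Matrix (Fin N) (Fin N) ℂ)‖, ?_⟩
    intro X hX
    rw [show X = ∑ i, ∑ j, X i j • (Matrix.single i j (1 : ℂ)) by
      conv_lhs => rw [Matrix.matrix_eq_sum_single X]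
      refine Finset.sum_congr rfl fun i _ => Finset.sum_congr rfl fun j _ => ?_
      rw [Matrix.smul_single]; simp]
    refine (norm_sum_le _ _).trans (Finset.sum_le_sum fun i _ => ?_)
    refine (norm_sum_le _ _).trans (Finset.sum_le_sum fun j _ => ?_)
    rw [norm_smul]
    exact mul_le_mul_of_nonneg_right (entry_le_of_densSet hX i j) (norm_nonneg _)

theorem exists_zero [NeZero N] (B : Matrix (Fin N) (Fin N) ℂ → Matrix (Fin N) (Fin N) ℂ)
    (hB : ContinuousOn B (densSet N)) (hpsd : ∀ X ∈ densSet N, (B X).PosSemidef)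
    (hsing : ∀ X ∈ densSet N, ∃ v : Fin N → ℂ, v ≠ 0 ∧ B X *ᵥ v = 0)
    (hbd : ∀ X ∈ densSet N, ∀ e : Fin N → ℂ, e ≠ 0 → X *ᵥ e = 0 → B X *ᵥ e ≠ 0) :
    ∃ X ∈ densSet N, B X = 0 := by
  by_contra hcon
  push Not at hcon
  have htr : ∀ X ∈ densSet N, 0 < (B X).trace.re := by
    intro X hX
    have h1 := (hpsd X hX).trace_nonneg
    have h2 : (B X).trace ≠ 0 := by
      intro h
      exact hcon X hX ((hpsd X hX).trace_eq_zero_iff.1 h)
    have h3 := (Complex.le_def.1 h1)
    simp only [Complex.zero_re, Complex.zero_im] at h3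
    refine lt_of_le_of_ne h3.1 fun h => h2 ?_
    exact Complex.ext h.symm h3.2.symm
  have him : ∀ X ∈ densSet N, (B X).trace = (((B X).trace.re : ℝ) : ℂ) := by
    intro X hX
    have h3 := (Complex.le_def.1 (hpsd X hX).trace_nonneg)
    simp only [Complex.zero_re, Complex.zero_im] at h3
    exact Complex.ext rfl (by simpa using h3.2.symm)
  set f : Matrix (Fin N) (Fin N) ℂ → Matrix (Fin N) (Fin N) ℂ :=
    fun X => ((B X).trace.re)⁻¹ • B X with hf
  have hne : (densSet N).Nonempty := by
    refine ⟨Matrix.single 0 0 1, ?_, ?_⟩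
    · have h := Matrix.posSemidef_conjTranspose_mul_self
        (Matrix.single (0 : Fin N) (0 : Fin N) (1 : ℂ))
      simpa using h
    · simp
  have hfc : ContinuousOn f (densSet N) := by
    refine ContinuousOn.smul (ContinuousOn.inv₀ ?_ fun X hX => (htr X hX).ne') hB
    have : Continuous fun Y : Matrix (Fin N) (Fin N) ℂ => Y.trace.re :=
      Complex.continuous_re.comp (Continuous.matrix_trace continuous_id)
    exact this.comp_continuousOn hB
  have hfm : Set.MapsTo f (densSet N) (densSet N) := by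
    intro X hX
    refine ⟨(hpsd X hX).smul ?_, ?_⟩
    · exact (inv_nonneg.2 (htr X hX).le)
    · rw [hf]
      simp only [trace_smul]
      rw [him X hX]
      simp only [Complex.ofReal_re, Complex.real_smul]
      rw [← Complex.ofReal_mul, inv_mul_cancel₀ (htr X hX).ne', Complex.ofReal_one]
  obtain ⟨X, hX, hfX⟩ := Brouwer.brouwer isCompact_densSet convex_densSet hne hfc hfm
  obtain ⟨v, hv, hBv⟩ := hsing X hX
  refine hbd X hX v hv ?_ hBv
  rw [← hfX, hf]
  simp only [Matrix.smul_mulVec, hBv, smul_zero]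

end LTG
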