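import Mathlib

/-! # P371, all γ: existence of K (part EX). Definitions and fixed interfaces.

Everything lives on a compact interval `[a,b]`; `K` is a positive definite `N × N` matrix, the
potential `W K x` (which may depend on `K`) is positive semidefinite and continuous.
`(V,U)` solves `V' = U`, `U' = (K² - W) V`, `V a = 1`, `U a = K`; then `P = U V⁻¹` solves the Riccati
equation `P' = K² - P² - W`, `P a = K`. -/

namespace LTX

open Matrix Set MeasureTheory
open scoped ComplexOrder Topology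

variable {N : ℕ}

/-- square matrices -/
abbrev Mat (N : ℕ) := Matrix (Fin N) (Fin N) ℂ

/-- quadratic form `Re ⟨e, A e⟩` -/
def qf (A : Mat N) (e : Fin N → ℂ) : ℝ := (star e ⬝ᵥ (A *ᵥ e)).re

/-- squared length `|e|²` -/
def nsq (e : Fin N → ℂ) : ℝ := (star e ⬝ᵥ e).re

/-- `V' = U`, `U' = (K² - W) V`, `V a = 1`, `U a = K` -/
structure Sol (a : ℝ) (K : Mat N) (W : ℝ → Mat N) (V U : ℝ → Mat N) : Prop where
  initV : V a = 1
  initU : U a = K
  derivV : ∀ x, HasDerivAt V (U x) x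
  derivU : ∀ x, HasDerivAt U ((K * K - W x) * V x) x

/-- weakly good: no conjugate point on `[a,b]` and `B = P(b) + K ≥ 0` -/
def WG (a b : ℝ) (K : Mat N) (V U : ℝ → Mat N) : Prop :=
  (∀ x ∈ Icc a b, IsUnit (V x).det) ∧ ((V b)ᴴ * (U b + K * V b)).PosSemidef

/-- good: no conjugate point on `[a,b]` and `B = P(b) + K > 0` -/
def OG (a b : ℝ) (K : Mat N) (V U : ℝ → Mat N) : Prop :=
  (∀ x ∈ Icc a b, IsUnit (V x).det) ∧ ((V b)ᴴ * (U b + K * V b)).PosDef

/-- the data: a continuous family of potentials `W K x`, decreasing along rays in `K`, not too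
small (`lower`) for `K` with a small eigenvalue and bounded (`upper`) for `K ≥ k0`. -/
structure Data (N : ℕ) (a b k0 w : ℝ) (W : Mat N → ℝ → Mat N) : Prop where
  hab : a < b
  hk0 : 0 < k0
  hw : 0 < w
  cont : ContinuousOn (fun p : Mat N × ℝ => W p.1 p.2) ({K | K.PosDef} ×ˢ univ)
  psd : ∀ K : Mat N, K.PosDef → ∀ x, (W K x).PosSemidef
  mono : ∀ K : Mat N, K.PosDef → ∀ s : ℝ, 1 ≤ s → ∀ x, (W K x - W (s • K) x).PosSemidef
  lower : ∀ K : Mat N, K.PosDef → ∀ e : Fin N → ℂ, nsq e = 1 → ∀ k : ℝ, k < k0 →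
    K *ᵥ e = (k : ℂ) • e → 2 * k + (b - a) * k ^ 2 < ∫ x in a..b, qf (W K x) e
  upper : ∀ K : Mat N, (K - (k0 : ℂ) • (1 : Mat N)).PosSemidef → ∀ x ∈ Icc a b,
    ((w : ℂ) • (1 : Mat N) - W K x).PosSemidef

/-- density matrices -/
def Dens (N : ℕ) : Set (Mat N) := {X | X.PosSemidef ∧ X.trace = 1}

/-- the ray: `K = τ (X + δ)⁻¹` -/
noncomputable def ray (δ : ℝ) (X : Mat N) (τ : ℝ) : Mat N := (τ : ℂ) • (X + (δ : ℂ) • (1 : Mat N))⁻¹

/-- a family of solutions depending continuously on `K` -/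
structure Fam (a : ℝ) (W : Mat N → ℝ → Mat N) (V U : Mat N → ℝ → Mat N) : Prop where
  sol : ∀ K : Mat N, K.PosDef → Sol a K (W K) (V K) (U K)
  contV : ContinuousOn (fun p : Mat N × ℝ => V p.1 p.2) ({K | K.PosDef} ×ˢ univ)
  contU : ContinuousOn (fun p : Mat N × ℝ => U p.1 p.2) ({K | K.PosDef} ×ˢ univ)

end LTX
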