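import Vale.Agent.P371G.EXDefs
import Vale.Agent.BrouwerFP.C

/-! skeleton of EX: all statements with `sorry` (proofs go in EXa.lean ... EXf.lean) -/

namespace LTX

open Matrix Set MeasureTheory
open scoped ComplexOrder Topology

variable {N : ℕ}

/-! ### [EXa] linear ODE with parameters (file EXa.lean) -/
theorem exists_fam (a : ℝ) (W : Mat N → ℝ → Mat N)
    (hW : ContinuousOn (fun p : Mat N × ℝ => W p.1 p.2) ({K | K.PosDef} ×ˢ univ)) :
    ∃ V U : Mat N → ℝ → Mat N, Fam a W V U := sorry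

/-! ### [EXb] one K: Riccati facts (file EXb.lean) -/
theorem sol_symm {a : ℝ} {K : Mat N} {W V U : ℝ → Mat N} (hK : K.IsHermitian)
    (hW : ∀ x, (W x).IsHermitian) (h : Sol a K W V U) (x : ℝ) : (V x)ᴴ * U x = (U x)ᴴ * V x := sorry

theorem P_herm {a : ℝ} {K : Mat N} {W V U : ℝ → Mat N} (hK : K.IsHermitian)
    (hW : ∀ x, (W x).IsHermitian) (h : Sol a K W V U) {x : ℝ} (hx : IsUnit (V x).det) :
    (U x * (V x)⁻¹).IsHermitian := sorry

theorem P_deriv {a : ℝ} {K : Mat N} {W V U : ℝ → Mat N} (h : Sol a K W V U) {x : ℝ}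
    (hx : IsUnit (V x).det) :
    HasDerivAt (fun y => U y * (V y)⁻¹)
      (K * K - (U x * (V x)⁻¹) * (U x * (V x)⁻¹) - W x) x := sorry

theorem P_bounds {a b : ℝ} (hab : a < b) {K : Mat N} {W V U : ℝ → Mat N} (hK : K.PosDef)
    (hW : ∀ x, (W x).PosSemidef) (h : Sol a K W V U) (hg : WG a b K V U) {x : ℝ} (hx : x ∈ Icc a b) :
    (K - U x * (V x)⁻¹).PosSemidef ∧ (K + U x * (V x)⁻¹).PosSemidef := sorry

/-- if `-κ ≤ P ≤ κ` then `|P e|² ≤ κ² |e|²` -/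
theorem nsq_le_of_bounds {P : Mat N} {κ : ℝ} (hκ : 0 ≤ κ) (h1 : ((κ : ℂ) • (1 : Mat N) - P).PosSemidef)
    (h2 : ((κ : ℂ) • (1 : Mat N) + P).PosSemidef) (e : Fin N → ℂ) :
    nsq (P *ᵥ e) ≤ κ ^ 2 * nsq e := sorry

theorem V_lower {a b : ℝ} (hab : a < b) {K : Mat N} {W V U : ℝ → Mat N} (hK : K.PosDef)
    (hW : ∀ x, (W x).PosSemidef) (h : Sol a K W V U) (hg : WG a b K V U) {κ : ℝ}
    (hκ : ((κ : ℂ) • (1 : Mat N) - K).PosSemidef) {x : ℝ} (hx : x ∈ Icc a b) (c : Fin N → ℂ) :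
    Real.exp (-(2 * κ * (x - a))) * nsq c ≤ nsq (V x *ᵥ c) := sorry

/-! ### [EXc] comparison (file EXc.lean) -/
theorem cmp {a b : ℝ} (hab : a < b) {K K' : Mat N} {W W' V U V' U' : ℝ → Mat N}
    (hK : K.PosDef) (hK' : K'.IsHermitian) (hKK : (K' - K).PosDef)
    (hΛ : ∀ x ∈ Icc a b, ((K' * K' - W' x) - (K * K - W x)).PosSemidef)
    (hW : ∀ x, (W x).IsHermitian) (hW' : ∀ x, (W' x).IsHermitian)
    (h : Sol a K W V U) (h' : Sol a K' W' V' U') (hg : WG a b K V U) : OG a b K' V' U' := sorry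

theorem good_large {a b : ℝ} (hab : a < b) {K : Mat N} {W V U : ℝ → Mat N} (hK : K.PosDef)
    (hW : ∀ x, (W x).IsHermitian) (hΛ : ∀ x ∈ Icc a b, (K * K - W x).PosSemidef)
    (h : Sol a K W V U) : OG a b K V U := sorry

/-- test with an eigenvector of `K` -/
theorem WG_test {a b : ℝ} (hab : a < b) {K : Mat N} {W V U : ℝ → Mat N} (hK : K.PosDef)
    (hW : ∀ x, (W x).PosSemidef) (hWc : Continuous W) (h : Sol a K W V U) (hg : WG a b K V U)
    {e : Fin N → ℂ} (he : nsq e = 1) {k : ℝ} (hk : K *ᵥ e = (k : ℂ) • e) :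
    ∫ x in a..b, qf (W x) e ≤ 2 * k + (b - a) * k ^ 2 := sorry

/-! ### [EXd] openness of OG and closedness of WG (file EXd.lean) -/
theorem OG_open {a b : ℝ} (hab : a < b) {W V U : Mat N → ℝ → Mat N}
    (hW : ∀ K : Mat N, K.PosDef → ∀ x, (W K x).PosSemidef) (hF : Fam a W V U) {K : Mat N}
    (hK : K.PosDef) (h : OG a b K (V K) (U K)) :
    ∀ᶠ K' in 𝓝[{K | K.PosDef}] K, OG a b K' (V K') (U K') := sorry

theorem WG_closed {a b : ℝ} (hab : a < b) {W V U : Mat N → ℝ → Mat N}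
    (hW : ∀ K : Mat N, K.PosDef → ∀ x, (W K x).PosSemidef) (hF : Fam a W V U) {K : Mat N}
    (hK : K.PosDef) (h : ∃ᶠ K' in 𝓝[{K | K.PosDef}] K, WG a b K' (V K') (U K')) :
    WG a b K (V K) (U K) := sorry

/-! ### [EXe] the threshold (file EXe.lean) -/
theorem ray_posDef {δ : ℝ} (hδ : 0 < δ) {X : Mat N} (hX : X ∈ Dens N) {τ : ℝ} (hτ : 0 < τ) :
    (ray δ X τ).PosDef := sorry

theorem ray_cont {δ : ℝ} (hδ : 0 < δ) :
    ContinuousOn (fun p : Mat N × ℝ => ray δ p.1 p.2) (Dens N ×ˢ univ) := sorry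

theorem WG_ge {a b k0 w : ℝ} {W V U : Mat N → ℝ → Mat N} (hD : Data N a b k0 w W)
    (hF : Fam a W V U) {K : Mat N} (hK : K.PosDef) (h : WG a b K (V K) (U K)) :
    (K - (k0 : ℂ) • (1 : Mat N)).PosSemidef := sorry

theorem exists_threshold {a b k0 w : ℝ} {W V U : Mat N → ℝ → Mat N} (hD : Data N a b k0 w W)
    (hF : Fam a W V U) (hN : 0 < N) {δ : ℝ} (hδ : 0 < δ) :
    ∃ τ : Mat N → ℝ, ContinuousOn τ (Dens N) ∧ ∀ X ∈ Dens N, 0 < τ X ∧
      WG a b (ray δ X (τ X)) (V (ray δ X (τ X))) (U (ray δ X (τ X))) ∧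
      ¬ OG a b (ray δ X (τ X)) (V (ray δ X (τ X))) (U (ray δ X (τ X))) := sorry

/-! ### [EXf] Brouwer and conclusion (file EXf.lean) -/
theorem dens_compact : IsCompact (Dens N) := sorry
theorem dens_convex : Convex ℝ (Dens N) := sorry
theorem dens_nonempty (hN : 0 < N) : (Dens N).Nonempty := sorry

/-- a fixed point of `B/tr B` is impossible for small `δ` -/
theorem no_fixed {a b k0 w : ℝ} {W V U : Mat N → ℝ → Mat N} (hD : Data N a b k0 w W)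
    (hF : Fam a W V U) {δ : ℝ} (hδ : 0 < δ) (hδs : δ * (w * (b - a)) < k0 * 2 / N)
    {X : Mat N} (hX : X ∈ Dens N) {τ : ℝ} (hτ : 0 < τ)
    (hg : WG a b (ray δ X τ) (V (ray δ X τ)) (U (ray δ X τ)))
    {e : Fin N → ℂ} (he : nsq e = 1) (hXe : X *ᵥ e = 0)
    (hBe : (U (ray δ X τ) b * (V (ray δ X τ) b)⁻¹ + ray δ X τ) *ᵥ e = 0) : False := sorry

theorem exists_crit {a b k0 w : ℝ} {W : Mat N → ℝ → Mat N} (hD : Data N a b k0 w W) (hN : 0 < N) :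
    ∃ K : Mat N, K.PosDef ∧ (K - (k0 : ℂ) • (1 : Mat N)).PosSemidef ∧ ∃ P : ℝ → Mat N,
      P a = K ∧ P b = -K ∧ (∀ x ∈ Icc a b, (P x).IsHermitian) ∧
      (∀ x ∈ Icc a b, HasDerivAt P (K * K - P x * P x - W K x) x) ∧
      (∀ x ∈ Icc a b, (K - P x).PosSemidef ∧ (K + P x).PosSemidef) := sorry

end LTX
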