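import Mathlib

/-!
# P371 general gamma: scalar tests of a matrix Riccati path

`P' = K² - P² - W` on `[a,b]`, `P a = K`, tested on an eigenvector of `K`.
-/

namespace LTG

open Matrix MeasureTheory Set
open scoped ComplexOrder

variable {N : ℕ}

/-- the quadratic form -/
noncomputable def qf (A : Matrix (Fin N) (Fin N) ℂ) (e : Fin N → ℂ) : ℝ := (star e ⬝ᵥ (A *ᵥ e)).re

/-- squared length -/
noncomputable def sq2 (e : Fin N → ℂ) : ℝ := (star e ⬝ᵥ e).re

theorem qf_add (A B : Matrix (Fin N) (Fin N) ℂ) (e : Fin N → ℂ) :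
    qf (A + B) e = qf A e + qf B e := by
  simp [qf, add_mulVec, dotProduct_add]

theorem qf_sub (A B : Matrix (Fin N) (Fin N) ℂ) (e : Fin N → ℂ) :
    qf (A - B) e = qf A e - qf B e := by
  simp [qf, sub_mulVec, dotProduct_sub]

theorem qf_neg (A : Matrix (Fin N) (Fin N) ℂ) (e : Fin N → ℂ) :
    qf (-A) e = - qf A e := by
  simp [qf, neg_mulVec]

theorem qf_eq_sum (A : Matrix (Fin N) (Fin N) ℂ) (e : Fin N → ℂ) :
    qf A e = ∑ i, ∑ j, (star (e i) * (A i j * e j)).re := by
  simp only [qf, dotProduct, mulVec, Finset.mul_sum, Complex.re_sum, Pi.star_apply]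

theorem qf_nonneg {A : Matrix (Fin N) (Fin N) ℂ} (hA : A.PosSemidef) (e : Fin N → ℂ) :
    0 ≤ qf A e := by
  have h := hA.dotProduct_mulVec_nonneg e
  exact (Complex.le_def.1 h).1

theorem qf_eig {K : Matrix (Fin N) (Fin N) ℂ} {e : Fin N → ℂ} {k : ℝ}
    (he : K *ᵥ e = (k : ℂ) • e) : qf K e = k * sq2 e := by
  rw [qf, he, dotProduct_smul, sq2, smul_eq_mul, Complex.re_ofReal_mul]

theorem qf_sq {K : Matrix (Fin N) (Fin N) ℂ} (hK : K.IsHermitian) (e : Fin N → ℂ) :
    qf (K * K) e = sq2 (K *ᵥ e) := by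
  rw [qf, sq2, ← mulVec_mulVec, star_mulVec, hK.eq, ← dotProduct_mulVec]

theorem sq2_smul (k : ℝ) (e : Fin N → ℂ) : sq2 ((k : ℂ) • e) = k ^ 2 * sq2 e := by
  rw [sq2, star_smul, smul_dotProduct, dotProduct_smul, sq2]
  simp only [Complex.star_def, Complex.conj_ofReal, smul_eq_mul, Complex.re_ofReal_mul]
  ring

theorem sq2_nonneg (e : Fin N → ℂ) : 0 ≤ sq2 e := by
  have h : (0 : ℂ) ≤ star e ⬝ᵥ e := dotProduct_star_self_nonneg e
  exact (Complex.le_def.1 h).1

theorem sq2_pos {e : Fin N → ℂ} (he : e ≠ 0) : 0 < sq2 e := by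
  have h : (0 : ℂ) < star e ⬝ᵥ e := dotProduct_star_self_pos_iff.2 he
  exact (Complex.lt_def.1 h).1

/-- `-κ ≤ P ≤ κ` implies `|P e|² ≤ κ² |e|²` -/
theorem sq2_mulVec_le {P : Matrix (Fin N) (Fin N) ℂ} {κ : ℝ} (hκ : 0 < κ) (hP : P.IsHermitian)
    (h1 : ((κ : ℂ) • (1 : Matrix (Fin N) (Fin N) ℂ) - P).PosSemidef)
    (h2 : ((κ : ℂ) • (1 : Matrix (Fin N) (Fin N) ℂ) + P).PosSemidef) (e : Fin N → ℂ) :
    sq2 (P *ᵥ e) ≤ κ ^ 2 * sq2 e := by
  set C := (κ : ℂ) • (1 : Matrix (Fin N) (Fin N) ℂ) - P with hC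
  set D := (κ : ℂ) • (1 : Matrix (Fin N) (Fin N) ℂ) + P with hD
  have e1 : C * D * C + D * C * D =
      ((2 * κ : ℝ) : ℂ) • (((κ : ℂ) ^ 2) • (1 : Matrix (Fin N) (Fin N) ℂ) - P * P) := by
    rw [hC, hD]
    simp only [Matrix.sub_mul, Matrix.mul_sub, Matrix.add_mul, Matrix.mul_add, Matrix.smul_mul,
      Matrix.mul_smul, Matrix.one_mul, Matrix.mul_one, smul_sub, smul_add, smul_smul]
    push_cast
    ext i j
    simp only [Matrix.add_apply, Matrix.sub_apply, Matrix.smul_apply, smul_eq_mul]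
    ring
  have h3 : (C * D * C).PosSemidef := by
    have := h2.mul_mul_conjTranspose_same C
    rwa [h1.1.eq] at this
  have h4 : (D * C * D).PosSemidef := by
    have := h1.mul_mul_conjTranspose_same D
    rwa [h2.1.eq] at this
  have h5 := qf_nonneg (h3.add h4) e
  rw [e1] at h5
  have e2 : qf (((2 * κ : ℝ) : ℂ) • (((κ : ℂ) ^ 2) • (1 : Matrix (Fin N) (Fin N) ℂ) - P * P)) e
      = (2 * κ) * (κ ^ 2 * sq2 e - sq2 (P *ᵥ e)) := by
    rw [← qf_sq hP, qf, smul_mulVec, dotProduct_smul, smul_eq_mul, Complex.re_ofReal_mul,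
      sub_mulVec, dotProduct_sub, smul_mulVec, dotProduct_smul, one_mulVec, qf, sq2]
    simp only [Complex.sub_re, smul_eq_mul]
    rw [show (κ : ℂ) ^ 2 = ((κ ^ 2 : ℝ) : ℂ) by push_cast; rfl, Complex.re_ofReal_mul]
  rw [e2] at h5
  nlinarith [(mul_nonneg_iff_of_pos_left (by positivity : (0 : ℝ) < 2 * κ)).1 h5]

/-- derivative of the quadratic form along the path -/
theorem qf_hasDerivWithinAt {P : ℝ → Matrix (Fin N) (Fin N) ℂ} {P' : Matrix (Fin N) (Fin N) ℂ}
    {s : Set ℝ} {x : ℝ}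
    (h : ∀ i j, HasDerivWithinAt (fun y => P y i j) (P' i j) s x) (e : Fin N → ℂ) :
    HasDerivWithinAt (fun y => qf (P y) e) (qf P' e) s x := by
  simp only [qf_eq_sum]
  refine HasDerivWithinAt.fun_sum fun i _ => HasDerivWithinAt.fun_sum fun j _ => ?_
  have h1 : HasDerivWithinAt (fun y => star (e i) * (P y i j * e j))
      (star (e i) * (P' i j * e j)) s x := ((h i j).mul_const (e j)).const_mul (star (e i))
  exact (Complex.reCLM.hasFDerivAt.comp_hasDerivWithinAt x h1)

section path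

variable {a b : ℝ} {K : Matrix (Fin N) (Fin N) ℂ} {P W : ℝ → Matrix (Fin N) (Fin N) ℂ}

/-- the top eigenvector of `K` cannot be turned by a bounded potential -/
theorem ric_top (hab : a ≤ b) (hK : K.IsHermitian) (hPh : ∀ x ∈ Icc a b, (P x).IsHermitian)
    (hd : ∀ x ∈ Icc a b, ∀ i j, HasDerivWithinAt (fun y => P y i j)
      ((K * K - P x * P x - W x) i j) (Icc a b) x)
    (ha : P a = K) {κ w : ℝ} (hκ : 0 < κ)
    (hK1 : ((κ : ℂ) • (1 : Matrix (Fin N) (Fin N) ℂ) - K).PosSemidef)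
    (hlo : ∀ x ∈ Icc a b, (K + P x).PosSemidef) (hhi : ∀ x ∈ Icc a b, (K - P x).PosSemidef)
    {e : Fin N → ℂ} (he : K *ᵥ e = (κ : ℂ) • e)
    (hw : ∀ x ∈ Icc a b, qf (W x) e ≤ w * sq2 e) :
    (κ - w * (b - a)) * sq2 e ≤ qf (P b) e := by
  have hder : ∀ x ∈ Icc a b, HasDerivWithinAt (fun y => qf (P y) e + w * sq2 e * y)
      (qf (K * K - P x * P x - W x) e + w * sq2 e * 1) (Icc a b) x := by
    intro x hx
    exact (qf_hasDerivWithinAt (hd x hx) e).add ((hasDerivWithinAt_id x _).const_mul _)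
  have hnn : ∀ x ∈ Icc a b, 0 ≤ qf (K * K - P x * P x - W x) e + w * sq2 e * 1 := by
    intro x hx
    rw [qf_sub, qf_sub, qf_sq hK, qf_sq (hPh x hx), he, sq2_smul]
    have h1 : sq2 (P x *ᵥ e) ≤ κ ^ 2 * sq2 e := by
      refine sq2_mulVec_le hκ (hPh x hx) ?_ ?_ e
      · have := hK1.add (hhi x hx)
        rwa [show (κ : ℂ) • (1 : Matrix (Fin N) (Fin N) ℂ) - K + (K - P x)
          = (κ : ℂ) • (1 : Matrix (Fin N) (Fin N) ℂ) - P x by abel] at this
      · have := hK1.add (hlo x hx)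
        rwa [show (κ : ℂ) • (1 : Matrix (Fin N) (Fin N) ℂ) - K + (K + P x)
          = (κ : ℂ) • (1 : Matrix (Fin N) (Fin N) ℂ) + P x by abel] at this
    have h2 := hw x hx
    linarith
  have hmono : MonotoneOn (fun y => qf (P y) e + w * sq2 e * y) (Icc a b) := by
    refine monotoneOn_of_hasDerivWithinAt_nonneg (convex_Icc a b)
      (fun x hx => (hder x hx).continuousWithinAt)
      (fun x hx => (hder x (interior_subset hx)).mono interior_subset)
      (fun x hx => hnn x (interior_subset hx))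
  have h3 := hmono (left_mem_Icc.2 hab) (right_mem_Icc.2 hab) hab
  simp only at h3
  rw [ha, qf_eig he] at h3
  linarith

/-- lower bound of the eigenvalues of `K` -/
theorem ric_low (hab : a ≤ b) (hK : K.IsHermitian) (hPh : ∀ x ∈ Icc a b, (P x).IsHermitian)
    (hd : ∀ x ∈ Icc a b, ∀ i j, HasDerivWithinAt (fun y => P y i j)
      ((K * K - P x * P x - W x) i j) (Icc a b) x)
    (ha : P a = K) (hb : (P b + K).PosSemidef) {k : ℝ}
    {e : Fin N → ℂ} (he : K *ᵥ e = (k : ℂ) • e)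
    (hW : ContinuousOn (fun x => qf (W x) e) (Icc a b)) :
    ∫ x in a..b, qf (W x) e ≤ (2 * k + k ^ 2 * (b - a)) * sq2 e := by
  have hder : ∀ x ∈ Icc a b, HasDerivWithinAt (fun y => qf (P y) e)
      (qf (K * K - P x * P x - W x) e) (Icc a b) x :=
    fun x hx => qf_hasDerivWithinAt (hd x hx) e
  have hPc : ∀ i j, ContinuousOn (fun x => P x i j) (Icc a b) :=
    fun i j x hx => (hd x hx i j).continuousWithinAt
  have hPP : ContinuousOn (fun x => sq2 (P x *ᵥ e)) (Icc a b) := by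
    have h1 : ContinuousOn (fun x => P x *ᵥ e) (Icc a b) := by
      refine continuousOn_pi.2 fun i => ?_
      simp only [mulVec, dotProduct]
      exact continuousOn_finset_sum _ fun j _ => (hPc i j).mul continuousOn_const
    have h2 : Continuous (fun v : Fin N → ℂ => sq2 v) := by
      simp only [sq2, dotProduct, Complex.re_sum]
      exact continuous_finset_sum _ fun i _ => Complex.continuous_re.comp
        ((continuous_star.comp (continuous_apply i)).mul (continuous_apply i))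
    exact h2.comp_continuousOn h1
  have hdc : ContinuousOn (fun x => qf (K * K - P x * P x - W x) e) (Icc a b) := by
    have h3 : ContinuousOn (fun x => k ^ 2 * sq2 e - sq2 (P x *ᵥ e) - qf (W x) e) (Icc a b) :=
      (continuousOn_const.sub hPP).sub hW
    refine h3.congr fun x hx => ?_
    simp only [qf_sub, qf_sq hK, qf_sq (hPh x hx), he, sq2_smul]
  have hint : IntervalIntegrable (fun x => qf (K * K - P x * P x - W x) e) volume a b := by
    refine ContinuousOn.intervalIntegrable ?_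
    rwa [uIcc_of_le hab]
  have hFTC := intervalIntegral.integral_eq_sub_of_hasDerivAt_of_le hab
    (fun x hx => (hder x hx).continuousWithinAt)
    (fun x hx => (hder x (Ioo_subset_Icc_self hx)).hasDerivAt (Icc_mem_nhds hx.1 hx.2)) hint
  have hWi : IntervalIntegrable (fun x => qf (W x) e) volume a b := by
    refine ContinuousOn.intervalIntegrable ?_
    rwa [uIcc_of_le hab]
  have hle : (∫ x in a..b, qf (K * K - P x * P x - W x) e) ≤
      ∫ x in a..b, (k ^ 2 * sq2 e - qf (W x) e) := by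
    refine intervalIntegral.integral_mono_on hab hint
      ((intervalIntegrable_const).sub hWi) fun x hx => ?_
    rw [qf_sub, qf_sub, qf_sq hK, qf_sq (hPh x hx), he, sq2_smul]
    linarith [sq2_nonneg (P x *ᵥ e)]
  rw [intervalIntegral.integral_sub intervalIntegrable_const hWi,
    intervalIntegral.integral_const, smul_eq_mul] at hle
  have h4 := qf_nonneg hb e
  rw [qf_add, qf_eig he] at h4
  rw [hFTC, ha, qf_eig he] at hle
  linarith

end path

end LTG
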