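import Mathlib

/-!
# P371G / LinODE: linear ordinary differential equations with a parameter

Peano-Baker series: `u 0 = y0`, `u (n+1) z x = ∫ s in a..x, A z s (u n z s)`.
-/

namespace LTG

set_option linter.unusedSectionVars false

open MeasureTheory Set Filter Topology intervalIntegral

section lin

variable {Z : Type*} [TopologicalSpace Z] {E : Type*} [NormedAddCommGroup E] [NormedSpace ℝ E]

/-- iterates of the Peano-Baker series -/
noncomputable def pbIter (A : Z → ℝ → E →L[ℝ] E) (y0 : Z → E) (a : ℝ) : ℕ → Z → ℝ → E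
  | 0 => fun z _ => y0 z
  | n + 1 => fun z x => ∫ s in a..x, A z s (pbIter A y0 a n z s)

theorem pbIter_zero (A : Z → ℝ → E →L[ℝ] E) (y0 : Z → E) (a : ℝ) :
    pbIter A y0 a 0 = fun z _ => y0 z := rfl

theorem pbIter_succ (A : Z → ℝ → E →L[ℝ] E) (y0 : Z → E) (a : ℝ) (n : ℕ) :
    pbIter A y0 a (n + 1) = fun z x => ∫ s in a..x, A z s (pbIter A y0 a n z s) := rfl

theorem pbIter_cont {A : Z → ℝ → E →L[ℝ] E} (hA : Continuous (Function.uncurry A))
    {y0 : Z → E} (hy0 : Continuous y0) (a : ℝ) (n : ℕ) :
    Continuous (Function.uncurry (pbIter A y0 a n)) := by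
  induction n with
  | zero =>
    rw [pbIter_zero]
    exact hy0.comp continuous_fst
  | succ n ih =>
    rw [pbIter_succ]
    have h1 : Continuous (Function.uncurry
        (fun (p : Z × ℝ) (s : ℝ) => A p.1 s (pbIter A y0 a n p.1 s))) := by
      have hc1 : Continuous (fun q : (Z × ℝ) × ℝ => A q.1.1 q.2) :=
        hA.comp (Continuous.prodMk (continuous_fst.comp continuous_fst) continuous_snd)
      have hc2 : Continuous (fun q : (Z × ℝ) × ℝ => pbIter A y0 a n q.1.1 q.2) :=
        ih.comp (Continuous.prodMk (continuous_fst.comp continuous_fst) continuous_snd)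
      exact hc1.clm_apply hc2
    exact continuous_parametric_intervalIntegral_of_continuous h1 continuous_snd

theorem pbIter_bound {A : Z → ℝ → E →L[ℝ] E} (hA : Continuous (Function.uncurry A))
    {y0 : Z → E} (hy0 : Continuous y0) (a : ℝ) {z : Z} {R M C : ℝ} (hM : 0 ≤ M)
    (hAb : ∀ s, |s - a| ≤ R → ‖A z s‖ ≤ M) (hC : ‖y0 z‖ ≤ C) (n : ℕ) :
    ∀ x, |x - a| ≤ R → ‖pbIter A y0 a n z x‖ ≤ C * (M * |x - a|) ^ n / n.factorial := by
  have hC0 : 0 ≤ C := (norm_nonneg _).trans hC
  induction n with
  | zero =>
    intro x _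
    rw [pbIter_zero]
    simpa using hC
  | succ n ih =>
    intro x hx
    rw [pbIter_succ]
    simp only
    have hcont : Continuous (fun s => A z s (pbIter A y0 a n z s)) := by
      have h1 : Continuous (fun s => A z s) := hA.comp (Continuous.prodMk continuous_const continuous_id)
      have h2 : Continuous (fun s => pbIter A y0 a n z s) :=
        (pbIter_cont hA hy0 a n).comp (Continuous.prodMk continuous_const continuous_id)
      exact h1.clm_apply h2
    have hpt : ∀ s, |s - a| ≤ |x - a| → ‖A z s (pbIter A y0 a n z s)‖ ≤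
        C * M ^ (n + 1) / n.factorial * |s - a| ^ n := by
      intro s hs
      have h1 := ih s (hs.trans hx)
      have h2 := hAb s (hs.trans hx)
      calc ‖A z s (pbIter A y0 a n z s)‖ ≤ ‖A z s‖ * ‖pbIter A y0 a n z s‖ :=
            (A z s).le_opNorm _
        _ ≤ M * (C * (M * |s - a|) ^ n / n.factorial) :=
            mul_le_mul h2 h1 (norm_nonneg _) hM
        _ = _ := by rw [mul_pow]; ring
    have hfac : ((n + 1).factorial : ℝ) = (n + 1) * n.factorial := by
      rw [Nat.factorial_succ]; push_cast; ring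
    have hfpos : (0 : ℝ) < n.factorial := by exact_mod_cast Nat.factorial_pos n
    have hn1 : (0 : ℝ) < (n : ℝ) + 1 := by positivity
    have hfinal : C * M ^ (n + 1) / n.factorial * (|x - a| ^ (n + 1) / (n + 1)) =
        C * (M * |x - a|) ^ (n + 1) / (n + 1).factorial := by
      rw [hfac, mul_pow]
      field_simp
    rw [← hfinal]
    rcases le_total a x with hax | hxa
    · have hxabs : |x - a| = x - a := abs_of_nonneg (by linarith)
      calc ‖∫ s in a..x, A z s (pbIter A y0 a n z s)‖
          ≤ ∫ s in a..x, ‖A z s (pbIter A y0 a n z s)‖ := norm_integral_le_integral_norm hax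
        _ ≤ ∫ s in a..x, C * M ^ (n + 1) / n.factorial * (s - a) ^ n := by
            refine integral_mono_on hax (hcont.norm.intervalIntegrable _ _)
              (by apply Continuous.intervalIntegrable; fun_prop) fun s hs => ?_
            have h1 : |s - a| = s - a := abs_of_nonneg (by linarith [hs.1])
            have h2 := hpt s (by rw [h1, hxabs]; linarith [hs.2])
            rwa [h1] at h2
        _ = C * M ^ (n + 1) / n.factorial * ((x - a) ^ (n + 1) / (n + 1)) := by
            rw [intervalIntegral.integral_const_mul,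
              intervalIntegral.integral_comp_sub_right (fun s => s ^ n) a, integral_pow]
            simp
        _ = _ := by rw [hxabs]
    · have hxabs : |x - a| = a - x := by rw [abs_sub_comm]; exact abs_of_nonneg (by linarith)
      calc ‖∫ s in a..x, A z s (pbIter A y0 a n z s)‖
          = ‖∫ s in x..a, A z s (pbIter A y0 a n z s)‖ := by
            rw [intervalIntegral.integral_symm, norm_neg]
        _ ≤ ∫ s in x..a, ‖A z s (pbIter A y0 a n z s)‖ := norm_integral_le_integral_norm hxa
        _ ≤ ∫ s in x..a, C * M ^ (n + 1) / n.factorial * (a - s) ^ n := by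
            refine integral_mono_on hxa (hcont.norm.intervalIntegrable _ _)
              (by apply Continuous.intervalIntegrable; fun_prop) fun s hs => ?_
            have h1 : |s - a| = a - s := by
              rw [abs_sub_comm]; exact abs_of_nonneg (by linarith [hs.2])
            have h2 := hpt s (by rw [h1, hxabs]; linarith [hs.1])
            rwa [h1] at h2
        _ = C * M ^ (n + 1) / n.factorial * ((a - x) ^ (n + 1) / (n + 1)) := by
            rw [intervalIntegral.integral_const_mul,
              intervalIntegral.integral_comp_sub_left (fun s => s ^ n) a, integral_pow]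
            simp
        _ = _ := by rw [hxabs]

/-- local uniform bounds -/
theorem lin_local_bound {A : Z → ℝ → E →L[ℝ] E} (hA : Continuous (Function.uncurry A))
    {y0 : Z → E} (hy0 : Continuous y0) (a R : ℝ) (z0 : Z) :
    ∃ M C : ℝ, 0 ≤ M ∧ ∀ᶠ z in 𝓝 z0, (∀ s, |s - a| ≤ R → ‖A z s‖ ≤ M) ∧ ‖y0 z‖ ≤ C := by
  have hK : IsCompact (Icc (a - R) (a + R)) := isCompact_Icc
  have hc : Continuous (fun s => ‖A z0 s‖) :=
    (hA.comp (Continuous.prodMk continuous_const continuous_id)).norm
  obtain ⟨M0, hM0⟩ := (hK.image hc).bddAbove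
  refine ⟨max M0 0 + 1, ‖y0 z0‖ + 1, by positivity, ?_⟩
  have h1 : ∀ᶠ z in 𝓝 z0, ∀ s ∈ Icc (a - R) (a + R), ‖A z s‖ < max M0 0 + 1 := by
    refine hK.eventually_forall_of_forall_eventually fun s hs => ?_
    have hlt : ‖A z0 s‖ < max M0 0 + 1 := by
      have := hM0 (mem_image_of_mem _ hs)
      have h2 := le_max_left M0 0
      linarith
    have hcc : Continuous (fun p : Z × ℝ => ‖A p.1 p.2‖) := hA.norm
    exact hcc.continuousAt.eventually (gt_mem_nhds hlt)
  have h2 : ∀ᶠ z in 𝓝 z0, ‖y0 z‖ < ‖y0 z0‖ + 1 :=
    hy0.norm.continuousAt.eventually (gt_mem_nhds (by linarith))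
  filter_upwards [h1, h2] with z hz hz2
  refine ⟨fun s hs => (hz s ?_).le, hz2.le⟩
  rw [abs_le] at hs
  exact ⟨by linarith [hs.1], by linarith [hs.2]⟩

variable [CompleteSpace E]

/-- **Linear ODE with a parameter**: global solution, jointly continuous. -/
theorem linODE (A : Z → ℝ → E →L[ℝ] E) (hA : Continuous (Function.uncurry A))
    (y0 : Z → E) (hy0 : Continuous y0) (a : ℝ) :
    ∃ y : Z → ℝ → E, (∀ z, y z a = y0 z) ∧
      (∀ z x, HasDerivAt (y z) (A z x (y z x)) x) ∧ Continuous (Function.uncurry y) := by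
  set u := pbIter A y0 a with hu
  set y : Z → ℝ → E := fun z x => ∑' n, u n z x with hy
  have hbd : ∀ z R, ∃ M C : ℝ, 0 ≤ M ∧ ∀ n x, |x - a| ≤ R →
      ‖u n z x‖ ≤ C * ((M * R) ^ n / n.factorial) := by
    intro z R
    obtain ⟨M, C, hM, hev⟩ := lin_local_bound hA hy0 a R z
    obtain ⟨h1, h2⟩ := hev.self_of_nhds
    refine ⟨M, C, hM, fun n x hx => ?_⟩
    have h3 := pbIter_bound hA hy0 a hM h1 h2 n x hx
    have hC0 : 0 ≤ C := (norm_nonneg _).trans h2
    refine h3.trans ?_
    rw [mul_div_assoc]
    refine mul_le_mul_of_nonneg_left ?_ hC0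
    refine div_le_div_of_nonneg_right ?_ (by positivity)
    exact pow_le_pow_left₀ (by positivity) (mul_le_mul_of_nonneg_left hx hM) n
  have hsumm : ∀ z x, Summable (fun n => u n z x) := by
    intro z x
    obtain ⟨M, C, hM, h⟩ := hbd z |x - a|
    exact Summable.of_norm_bounded ((Real.summable_pow_div_factorial (M * |x - a|)).mul_left C)
      fun n => h n x le_rfl
  have hjoint : Continuous (Function.uncurry y) := by
    rw [continuous_iff_continuousAt]
    rintro ⟨z0, x0⟩
    set R := |x0 - a| + 1 with hR
    obtain ⟨M, C, hM, hev⟩ := lin_local_bound hA hy0 a R z0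
    obtain ⟨U, hU, hUo, hz0⟩ := eventually_nhds_iff.1 hev
    have hopen : IsOpen (U ×ˢ Metric.ball x0 1) := hUo.prod Metric.isOpen_ball
    have hmem : (z0, x0) ∈ U ×ˢ Metric.ball x0 1 := ⟨hz0, Metric.mem_ball_self one_pos⟩
    have hcon : ContinuousOn (fun p : Z × ℝ => ∑' n, u n p.1 p.2) (U ×ˢ Metric.ball x0 1) := by
      refine continuousOn_tsum (fun n => (pbIter_cont hA hy0 a n).continuousOn)
        ((Real.summable_pow_div_factorial (M * R)).mul_left C) ?_
      rintro n ⟨z, x⟩ ⟨hz, hx⟩
      have h1 := hU z hz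
      have hxR : |x - a| ≤ R := by
        rw [Metric.mem_ball, Real.dist_eq] at hx
        calc |x - a| = |(x0 - a) + (x - x0)| := by congr 1; ring
          _ ≤ |x0 - a| + |x - x0| := abs_add_le _ _
          _ ≤ R := by rw [hR]; linarith
      have h3 := pbIter_bound hA hy0 a hM h1.1 h1.2 n x hxR
      have hC0 : 0 ≤ C := (norm_nonneg _).trans h1.2
      refine h3.trans ?_
      rw [mul_div_assoc]
      refine mul_le_mul_of_nonneg_left ?_ hC0
      refine div_le_div_of_nonneg_right ?_ (by positivity)
      exact pow_le_pow_left₀ (by positivity) (mul_le_mul_of_nonneg_left hxR hM) n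
    exact hcon.continuousAt (hopen.mem_nhds hmem)
  have hcy : ∀ z, Continuous (y z) := fun z =>
    hjoint.comp (Continuous.prodMk continuous_const continuous_id)
  have hcA : ∀ z, Continuous (A z) := fun z =>
    hA.comp (Continuous.prodMk continuous_const continuous_id)
  have hint : ∀ z x, y z x = y0 z + ∫ s in a..x, A z s (y z s) := by
    intro z x
    obtain ⟨M, C, hM, h⟩ := hbd z |x - a|
    obtain ⟨M1, hM1⟩ := (isCompact_uIcc (a := a) (b := x)).bddAbove_image
      (hcA z).norm.continuousOn
    have hs : HasSum (fun n => ∫ s in a..x, A z s (u n z s)) (∫ s in a..x, A z s (y z s)) := by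
      refine intervalIntegral.hasSum_integral_of_dominated_convergence
        (fun n _ => M1 * (C * ((M * |x - a|) ^ n / n.factorial))) ?_ ?_ ?_ ?_ ?_
      · intro n
        have hc : Continuous (fun s => A z s (u n z s)) :=
          (hcA z).clm_apply ((pbIter_cont hA hy0 a n).comp
            (Continuous.prodMk continuous_const continuous_id))
        exact hc.aestronglyMeasurable
      · intro n
        refine Eventually.of_forall fun s hs => ?_
        have hs' : s ∈ uIcc a x := uIoc_subset_uIcc hs
        have hsa : |s - a| ≤ |x - a| := abs_sub_left_of_mem_uIcc hs'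
        have hM1s : ‖A z s‖ ≤ M1 := hM1 (mem_image_of_mem _ hs')
        calc ‖A z s (u n z s)‖ ≤ ‖A z s‖ * ‖u n z s‖ := (A z s).le_opNorm _
          _ ≤ M1 * (C * ((M * |x - a|) ^ n / n.factorial)) :=
              mul_le_mul hM1s (h n s hsa) (norm_nonneg _) ((norm_nonneg _).trans hM1s)
      · exact Eventually.of_forall fun s _ =>
          ((Real.summable_pow_div_factorial (M * |x - a|)).mul_left C).mul_left M1
      · exact intervalIntegrable_const
      · refine Eventually.of_forall fun s _ => ?_
        exact (A z s).hasSum (hsumm z s).hasSum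
    have h0 := (hsumm z x).tsum_eq_zero_add
    have h1 : ∀ n, u (n + 1) z x = ∫ s in a..x, A z s (u n z s) := fun n => by
      rw [hu, pbIter_succ]
    have h2 : u 0 z x = y0 z := by rw [hu, pbIter_zero]
    simp only [hy]
    rw [h0, h2]
    congr 1
    simp only [h1]
    exact hs.tsum_eq
  refine ⟨y, fun z => ?_, fun z x => ?_, hjoint⟩
  · rw [hint z a, intervalIntegral.integral_same, add_zero]
  · have hc : Continuous (fun s => A z s (y z s)) := (hcA z).clm_apply (hcy z)
    have h1 : HasDerivAt (fun x => y0 z + ∫ s in a..x, A z s (y z s)) (A z x (y z x)) x :=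
      (intervalIntegral.integral_hasDerivAt_right (hc.intervalIntegrable _ _)
        (hc.stronglyMeasurableAtFilter _ _) hc.continuousAt).const_add (y0 z)
    exact h1.congr_of_eventuallyEq (Eventually.of_forall (hint z))

end lin

section uniq

variable {E : Type*} [NormedAddCommGroup E] [NormedSpace ℝ E]

/-- uniqueness on a compact interval -/
theorem linODE_unique {a b : ℝ} {A : ℝ → E →L[ℝ] E} (hA : ContinuousOn A (Icc a b)) {f g : ℝ → E}
    (hf : ∀ x ∈ Icc a b, HasDerivWithinAt f (A x (f x)) (Icc a b) x)
    (hg : ∀ x ∈ Icc a b, HasDerivWithinAt g (A x (g x)) (Icc a b) x) (h : f a = g a) :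
    EqOn f g (Icc a b) := by
  obtain ⟨M, hM⟩ := isCompact_Icc.bddAbove_image hA.norm
  have hlip : ∀ t ∈ Ico a b, LipschitzOnWith (max M 0).toNNReal (fun v => A t v) univ := by
    intro t ht
    refine LipschitzOnWith.of_dist_le_mul fun v _ w _ => ?_
    rw [dist_eq_norm, dist_eq_norm, ← map_sub, Real.coe_toNNReal _ (le_max_right _ _)]
    refine ((A t).le_opNorm _).trans (mul_le_mul_of_nonneg_right ?_ (norm_nonneg _))
    exact (hM (mem_image_of_mem _ (Ico_subset_Icc_self ht))).trans (le_max_left _ _)
  refine ODE_solution_unique_of_mem_Icc_right (v := fun t v => A t v) (s := fun _ => univ) hlip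
    (fun x hx => (hf x hx).continuousWithinAt) (fun t ht => ?_) (fun _ _ => mem_univ _)
    (fun x hx => (hg x hx).continuousWithinAt) (fun t ht => ?_) (fun _ _ => mem_univ _) h
  · exact (hf t (Ico_subset_Icc_self ht)).mono_of_mem_nhdsWithin (Icc_mem_nhdsGE_of_mem ht)
  · exact (hg t (Ico_subset_Icc_self ht)).mono_of_mem_nhdsWithin (Icc_mem_nhdsGE_of_mem ht)

end uniq

section second

variable {Z : Type*} [TopologicalSpace Z] {R : Type*} [NormedRing R] [NormedAlgebra ℝ R]
  [CompleteSpace R]

/-- second order linear equation `V'' = L V`, `V a = 1`, `V' a = K` in a Banach algebra -/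
theorem linODE2 (L : Z → ℝ → R) (hL : Continuous (Function.uncurry L)) (K : Z → R)
    (hK : Continuous K) (a : ℝ) :
    ∃ V U : Z → ℝ → R, (∀ z, V z a = 1) ∧ (∀ z, U z a = K z) ∧
      (∀ z x, HasDerivAt (V z) (U z x) x) ∧
      (∀ z x, HasDerivAt (U z) (L z x * V z x) x) ∧
      Continuous (Function.uncurry V) ∧ Continuous (Function.uncurry U) := by
  set A : Z → ℝ → (R × R) →L[ℝ] (R × R) := fun z x =>
    (ContinuousLinearMap.snd ℝ R R).prod
      ((ContinuousLinearMap.mul ℝ R (L z x)).comp (ContinuousLinearMap.fst ℝ R R)) with hA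
  have hAc : Continuous (Function.uncurry A) := by
    have h1 : Continuous (fun p : Z × ℝ => (ContinuousLinearMap.mul ℝ R (L p.1 p.2)).comp
        (ContinuousLinearMap.fst ℝ R R)) :=
      ((ContinuousLinearMap.mul ℝ R).continuous.comp hL).clm_comp continuous_const
    have h2 : Continuous (fun p : Z × ℝ => (ContinuousLinearMap.snd ℝ R R).prod
        ((ContinuousLinearMap.mul ℝ R (L p.1 p.2)).comp (ContinuousLinearMap.fst ℝ R R))) :=
      (ContinuousLinearMap.prodₗᵢ ℝ).continuous.comp
        (Continuous.prodMk continuous_const h1)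
    exact h2
  obtain ⟨y, hy0, hyd, hyc⟩ := linODE A hAc (fun z => ((1 : R), K z))
    (Continuous.prodMk continuous_const hK) a
  refine ⟨fun z x => (y z x).1, fun z x => (y z x).2, fun z => ?_, fun z => ?_, fun z x => ?_,
    fun z x => ?_, continuous_fst.comp hyc, continuous_snd.comp hyc⟩
  · simp only [hy0]
  · simp only [hy0]
  · exact (hyd z x).fst
  · exact (hyd z x).snd

end second

end LTG
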