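import Vale.Agent.P371G.EXDefs
import Vale.Agent.P371G.LinODE

/-! # EXa: the family of solutions of the linear matrix ODE -/

namespace LTX

open Matrix Set MeasureTheory
open scoped ComplexOrder Topology

variable {N : ℕ}

section
attribute [local instance] Matrix.normedAddCommGroup Matrix.normedSpace

/-- left multiplication, as a linear map with values in continuous linear maps -/
noncomputable def lmulC (N : ℕ) : Mat N →ₗ[ℝ] (Mat N →L[ℝ] Mat N) where
  toFun L := LinearMap.toContinuousLinearMap (LinearMap.mulLeft ℝ L)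
  map_add' L L' := by
    ext1 v
    simp [add_mul]
  map_smul' c L := by
    ext1 v
    simp

theorem lmulC_apply (L v : Mat N) : lmulC N L v = L * v := rfl

theorem exists_fam_aux (a : ℝ) {Z : Type*} [TopologicalSpace Z] (L : Z → ℝ → Mat N)
    (hL : Continuous (Function.uncurry L)) (K : Z → Mat N) (hK : Continuous K) :
    ∃ V U : Z → ℝ → Mat N, (∀ z, V z a = 1) ∧ (∀ z, U z a = K z) ∧
      (∀ z x, HasDerivAt (V z) (U z x) x) ∧
      (∀ z x, HasDerivAt (U z) (L z x * V z x) x) ∧
      Continuous (Function.uncurry V) ∧ Continuous (Function.uncurry U) := by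
  have hc : Continuous (lmulC N) := (lmulC N).continuous_of_finiteDimensional
  set A : Z → ℝ → (Mat N × Mat N) →L[ℝ] (Mat N × Mat N) := fun z x =>
    (ContinuousLinearMap.snd ℝ (Mat N) (Mat N)).prod
      ((lmulC N (L z x)).comp (ContinuousLinearMap.fst ℝ (Mat N) (Mat N))) with hA
  have hAc : Continuous (Function.uncurry A) := by
    have h1 : Continuous (fun p : Z × ℝ => (lmulC N (L p.1 p.2)).comp
        (ContinuousLinearMap.fst ℝ (Mat N) (Mat N))) :=
      (hc.comp hL).clm_comp continuous_const
    exact (ContinuousLinearMap.prodₗᵢ ℝ).continuous.comp (Continuous.prodMk continuous_const h1)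
  obtain ⟨y, hy0, hyd, hyc⟩ := LTG.linODE A hAc (fun z => ((1 : Mat N), K z))
    (Continuous.prodMk continuous_const hK) a
  refine ⟨fun z x => (y z x).1, fun z x => (y z x).2, fun z => ?_, fun z => ?_, fun z x => ?_,
    fun z x => ?_, continuous_fst.comp hyc, continuous_snd.comp hyc⟩
  · simp only [hy0]
  · simp only [hy0]
  · exact (hyd z x).fst
  · exact (hyd z x).snd

end

theorem exists_fam (a : ℝ) (W : Mat N → ℝ → Mat N)
    (hW : ContinuousOn (fun p : Mat N × ℝ => W p.1 p.2) ({K | K.PosDef} ×ˢ univ)) :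
    ∃ V U : Mat N → ℝ → Mat N, Fam a W V U := by
  classical
  have hL : Continuous (Function.uncurry
      (fun (z : {K : Mat N // K.PosDef}) (x : ℝ) => z.1 * z.1 - W z.1 x)) := by
    have h1 : Continuous (fun q : {K : Mat N // K.PosDef} × ℝ => W q.1.1 q.2) :=
      hW.comp_continuous
        (Continuous.prodMk (continuous_subtype_val.comp continuous_fst) continuous_snd)
        fun q => ⟨q.1.2, mem_univ _⟩
    have h2 : Continuous (fun q : {K : Mat N // K.PosDef} × ℝ => q.1.1 * q.1.1) :=
      (continuous_subtype_val.comp continuous_fst).mul (continuous_subtype_val.comp continuous_fst)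
    exact h2.sub h1
  obtain ⟨V, U, hV0, hU0, hVd, hUd, hVc, hUc⟩ := exists_fam_aux (Z := {K : Mat N // K.PosDef}) a
    (fun z x => z.1 * z.1 - W z.1 x) hL (fun z => z.1) continuous_subtype_val
  refine ⟨fun K x => if h : K.PosDef then V ⟨K, h⟩ x else 0,
    fun K x => if h : K.PosDef then U ⟨K, h⟩ x else 0, ?_, ?_, ?_⟩
  · intro K hK
    have e1 : (fun x => if h : K.PosDef then V ⟨K, h⟩ x else 0) = V ⟨K, hK⟩ := by
      funext x; rw [dif_pos hK]
    have e2 : (fun x => if h : K.PosDef then U ⟨K, h⟩ x else 0) = U ⟨K, hK⟩ := by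
      funext x; rw [dif_pos hK]
    rw [e1, e2]
    exact ⟨hV0 _, hU0 _, hVd _, hUd _⟩
  · rw [continuousOn_iff_continuous_domRestrict]
    have h1 : Continuous (fun p : ({K : Mat N | K.PosDef} ×ˢ (univ : Set ℝ) : Set (Mat N × ℝ)) =>
        V ⟨p.1.1, p.2.1⟩ p.1.2) :=
      hVc.comp (Continuous.prodMk (Continuous.subtype_mk (continuous_fst.comp continuous_subtype_val)
        fun p => p.2.1) (continuous_snd.comp continuous_subtype_val))
    refine h1.congr fun p => ?_
    have hp : p.1.1.PosDef := p.2.1
    simp only [Set.domRestrict_apply]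
    rw [dif_pos hp]
  · rw [continuousOn_iff_continuous_domRestrict]
    have h1 : Continuous (fun p : ({K : Mat N | K.PosDef} ×ˢ (univ : Set ℝ) : Set (Mat N × ℝ)) =>
        U ⟨p.1.1, p.2.1⟩ p.1.2) :=
      hUc.comp (Continuous.prodMk (Continuous.subtype_mk (continuous_fst.comp continuous_subtype_val)
        fun p => p.2.1) (continuous_snd.comp continuous_subtype_val))
    refine h1.congr fun p => ?_
    have hp : p.1.1.PosDef := p.2.1
    simp only [Set.domRestrict_apply]
    rw [dif_pos hp]

end LTX
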