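import Vale.Agent.P371G.EXDefs

/-! # P371, all γ: part EX, file EXb: Riccati facts for one `K` -/

namespace LTX

open Matrix Set MeasureTheory Filter
open scoped ComplexOrder Topology

variable {N : ℕ}

/-! ### entrywise calculus for matrix functions -/

theorem hasDerivAt_mat {A : ℝ → Mat N} {A' : Mat N} {x : ℝ} :
    HasDerivAt A A' x ↔ ∀ i j, HasDerivAt (fun y => A y i j) (A' i j) x := by
  constructor
  · intro h i j
    exact (hasDerivAt_pi.mp (hasDerivAt_pi.mp h i)) j
  · intro h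
    exact hasDerivAt_pi.mpr fun i => hasDerivAt_pi.mpr fun j => h i j

theorem deriv_mul {A B : ℝ → Mat N} {A' B' : Mat N} {x : ℝ} (hA : HasDerivAt A A' x)
    (hB : HasDerivAt B B' x) : HasDerivAt (fun y => A y * B y) (A' * B x + A x * B') x := by
  rw [hasDerivAt_mat] at *
  intro i j
  have h := HasDerivAt.fun_sum (u := Finset.univ) (A := fun k y => A y i k * B y k j)
    (A' := fun k => A' i k * B x k j + A x i k * B' k j) (x := x)
    (fun k _ => (hA i k).mul (hB k j))
  simpa only [Matrix.mul_apply, Matrix.add_apply, Finset.sum_add_distrib] using h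

theorem deriv_star {A : ℝ → Mat N} {A' : Mat N} {x : ℝ} (hA : HasDerivAt A A' x) :
    HasDerivAt (fun y => (A y)ᴴ) (A'ᴴ) x := by
  rw [hasDerivAt_mat] at *
  intro i j
  simpa only [Matrix.conjTranspose_apply] using (hA j i).star

theorem deriv_const_mul (C : Mat N) {A : ℝ → Mat N} {A' : Mat N} {x : ℝ}
    (hA : HasDerivAt A A' x) : HasDerivAt (fun y => C * A y) (C * A') x := by
  have h : HasDerivAt (fun _ : ℝ => C) (0 : Mat N) x := by
    rw [hasDerivAt_mat]
    intro i j
    exact hasDerivAt_const x (C i j)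
  simpa using deriv_mul h hA

theorem deriv_add {A B : ℝ → Mat N} {A' B' : Mat N} {x : ℝ} (hA : HasDerivAt A A' x)
    (hB : HasDerivAt B B' x) : HasDerivAt (fun y => A y + B y) (A' + B') x := by
  rw [hasDerivAt_mat] at *
  intro i j
  simpa only [Matrix.add_apply] using (hA i j).fun_add (hB i j)

theorem deriv_sub {A B : ℝ → Mat N} {A' B' : Mat N} {x : ℝ} (hA : HasDerivAt A A' x)
    (hB : HasDerivAt B B' x) : HasDerivAt (fun y => A y - B y) (A' - B') x := by
  rw [hasDerivAt_mat] at *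
  intro i j
  simpa only [Matrix.sub_apply] using (hA i j).fun_sub (hB i j)

theorem cont_of_deriv {A : ℝ → Mat N} {A' : Mat N} {x : ℝ} (hA : HasDerivAt A A' x) :
    ContinuousAt A x := by
  rw [hasDerivAt_mat] at hA
  exact continuousAt_pi.mpr fun i => continuousAt_pi.mpr fun j => (hA i j).continuousAt

/-- derivative of the inverse matrix -/
theorem deriv_inv {A : ℝ → Mat N} {A' : Mat N} {x : ℝ} (hA : HasDerivAt A A' x)
    (hx : IsUnit (A x).det) : HasDerivAt (fun y => (A y)⁻¹) (-((A x)⁻¹ * A' * (A x)⁻¹)) x := by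
  have hc : ContinuousAt A x := cont_of_deriv hA
  have hdet : ContinuousAt (fun y => (A y).det) x :=
    (continuous_id.matrix_det).continuousAt.comp hc
  have hadj : ContinuousAt (fun y => (A y).adjugate) x :=
    (continuous_id.matrix_adjugate).continuousAt.comp hc
  have hx0 : (A x).det ≠ 0 := hx.ne_zero
  have hinv : ContinuousAt (fun y => (A y)⁻¹) x := by
    have : (fun y => (A y)⁻¹) = fun y => ((A y).det)⁻¹ • (A y).adjugate := by
      funext y
      rw [Matrix.inv_def, Ring.inverse_eq_inv']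
    rw [this]
    exact (hdet.inv₀ hx0).smul hadj
  have hev : ∀ᶠ y in 𝓝[≠] x, (A y).det ≠ 0 :=
    (hdet.eventually_ne hx0).filter_mono nhdsWithin_le_nhds
  have hslope : ∀ i j, Tendsto (fun y => slope (fun z => A z i j) x y) (𝓝[≠] x) (𝓝 (A' i j)) :=
    fun i j => hasDerivAt_iff_tendsto_slope.mp (hasDerivAt_mat.mp hA i j)
  rw [hasDerivAt_mat]
  intro i j
  rw [hasDerivAt_iff_tendsto_slope]
  have hinv' : ∀ i k, Tendsto (fun y => (A y)⁻¹ i k) (𝓝[≠] x) (𝓝 ((A x)⁻¹ i k)) := fun i k =>
    (((continuousAt_pi.mp (continuousAt_pi.mp hinv i)) k).tendsto).mono_left nhdsWithin_le_nhds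
  have hlim : Tendsto (fun y => -(∑ l, (∑ k, (A y)⁻¹ i k * slope (fun z => A z k l) x y) *
      (A x)⁻¹ l j)) (𝓝[≠] x) (𝓝 (-(∑ l, (∑ k, (A x)⁻¹ i k * A' k l) * (A x)⁻¹ l j))) := by
    refine Tendsto.neg (tendsto_finsetSum _ fun l _ => ?_)
    refine Tendsto.mul_const _ (tendsto_finsetSum _ fun k _ => ?_)
    exact (hinv' i k).mul (hslope k l)
  have hval : (-((A x)⁻¹ * A' * (A x)⁻¹)) i j =
      -(∑ l, (∑ k, (A x)⁻¹ i k * A' k l) * (A x)⁻¹ l j) := by
    simp only [Matrix.neg_apply, Matrix.mul_apply]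
  rw [hval]
  refine hlim.congr' ?_
  filter_upwards [hev] with y hy
  have hu : IsUnit (A y).det := isUnit_iff_ne_zero.mpr hy
  have key : (A y)⁻¹ - (A x)⁻¹ = -((A y)⁻¹ * (A y - A x) * (A x)⁻¹) := by
    rw [Matrix.mul_sub, Matrix.nonsing_inv_mul _ hu, Matrix.sub_mul, Matrix.one_mul,
      Matrix.mul_assoc, Matrix.mul_nonsing_inv _ hx, Matrix.mul_one]
    abel
  have key' := congrFun (congrFun key i) j
  simp only [Matrix.sub_apply, Matrix.neg_apply, Matrix.mul_apply] at key'
  simp only [slope_def_module]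
  rw [key', smul_neg, Finset.smul_sum]
  congr 1
  refine Finset.sum_congr rfl fun l _ => ?_
  rw [Finset.sum_mul, Finset.sum_mul, Finset.smul_sum]
  refine Finset.sum_congr rfl fun k _ => ?_
  simp only [Complex.real_smul]
  ring

/-! ### qf, nsq -/

theorem nsq_eq (e : Fin N → ℂ) : nsq e = ∑ i, Complex.normSq (e i) := by
  simp only [nsq, dotProduct, Pi.star_apply, Complex.re_sum]
  refine Finset.sum_congr rfl fun i _ => ?_
  rw [Complex.star_def, ← Complex.normSq_eq_conj_mul_self, Complex.ofReal_re]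

theorem nsq_nonneg (e : Fin N → ℂ) : 0 ≤ nsq e := by
  rw [nsq_eq]
  exact Finset.sum_nonneg fun i _ => Complex.normSq_nonneg _

theorem qf_add (A B : Mat N) (e : Fin N → ℂ) : qf (A + B) e = qf A e + qf B e := by
  simp [qf, Matrix.add_mulVec, dotProduct_add]

theorem qf_sub (A B : Mat N) (e : Fin N → ℂ) : qf (A - B) e = qf A e - qf B e := by
  simp [qf, Matrix.sub_mulVec, dotProduct_sub]

theorem qf_neg (A : Mat N) (e : Fin N → ℂ) : qf (-A) e = -qf A e := by
  simp [qf, Matrix.neg_mulVec, dotProduct_neg]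

theorem qf_smul_one (c : ℝ) (e : Fin N → ℂ) : qf ((c : ℂ) • (1 : Mat N)) e = c * nsq e := by
  simp [qf, nsq, Matrix.smul_mulVec, dotProduct_smul]

theorem qf_nonneg {A : Mat N} (hA : A.PosSemidef) (e : Fin N → ℂ) : 0 ≤ qf A e :=
  (Complex.le_def.mp (hA.dotProduct_mulVec_nonneg e)).1

theorem psd_of_qf {A : Mat N} (hA : A.IsHermitian) (h : ∀ e, 0 ≤ qf A e) : A.PosSemidef := by
  refine Matrix.PosSemidef.of_dotProduct_mulVec_nonneg hA fun e => ?_
  rw [Complex.le_def]
  exact ⟨h e, (hA.im_star_dotProduct_mulVec_self e).symm⟩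

theorem qf_expand (A : Mat N) (e : Fin N → ℂ) :
    qf A e = (∑ i, star (e i) * ∑ j, A i j * e j).re := by
  simp [qf, dotProduct, Matrix.mulVec]

theorem deriv_qf {A : ℝ → Mat N} {A' : Mat N} {x : ℝ} (hA : HasDerivAt A A' x)
    (e : Fin N → ℂ) : HasDerivAt (fun y => qf (A y) e) (qf A' e) x := by
  rw [hasDerivAt_mat] at hA
  have h : HasDerivAt (fun y => ∑ i, star (e i) * ∑ j, A y i j * e j)
      (∑ i, star (e i) * ∑ j, A' i j * e j) x :=
    HasDerivAt.fun_sum fun i _ => (HasDerivAt.fun_sum fun j _ => (hA i j).mul_const (e j)).const_mul _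
  simp only [qf_expand]
  exact Complex.reCLM.hasFDerivAt.comp_hasDerivAt x h

/-- a matrix function with positive semidefinite derivative is increasing -/
theorem mono_of_deriv {F F' : ℝ → Mat N} {a b : ℝ} (hF : ∀ x ∈ Icc a b, HasDerivAt F (F' x) x)
    (hp : ∀ x ∈ Icc a b, (F' x).PosSemidef) {x y : ℝ} (hx : x ∈ Icc a b) (hy : y ∈ Icc a b)
    (hxy : x ≤ y) (e : Fin N → ℂ) : qf (F x) e ≤ qf (F y) e := by
  have hm : MonotoneOn (fun z => qf (F z) e) (Icc a b) := by
    refine monotoneOn_of_hasDerivWithinAt_nonneg (convex_Icc a b) ?_ ?_ ?_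
      (f' := fun z => qf (F' z) e)
    · intro z hz
      exact ((deriv_qf (hF z hz) e).continuousAt).continuousWithinAt
    · intro z hz
      exact (deriv_qf (hF z (interior_subset hz)) e).hasDerivWithinAt
    · intro z hz
      exact qf_nonneg (hp z (interior_subset hz)) e
  exact hm hx hy hxy

/-- the matrix exponential `e^{K (x - a)}` of a Hermitian matrix -/
theorem exists_expm {K : Mat N} (hK : K.IsHermitian) (a : ℝ) : ∃ E : ℝ → Mat N, E a = 1 ∧
    (∀ x, HasDerivAt E (K * E x) x) ∧ (∀ x, K * E x = E x * K) ∧ (∀ x, (E x)ᴴ = E x) ∧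
    (∀ x, IsUnit (E x).det) := by
  set Q : Mat N := (hK.eigenvectorUnitary : Mat N) with hQ
  have hQQ : star Q * Q = 1 := Unitary.coe_star_mul_self _
  have hQQ' : Q * star Q = 1 := Unitary.coe_mul_star_self _
  have hsp : K = Q * diagonal (fun i => ((hK.eigenvalues i : ℝ) : ℂ)) * star Q := by
    have := hK.spectral_theorem
    rw [Unitary.conjStarAlgAut_apply] at this
    exact this
  set d : ℝ → Fin N → ℂ := fun x i => ((Real.exp (hK.eigenvalues i * (x - a)) : ℝ) : ℂ) with hd
  have hconj : ∀ A B : Mat N, (Q * A * star Q) * (Q * B * star Q) = Q * (A * B) * star Q := by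
    intro A B
    calc (Q * A * star Q) * (Q * B * star Q) = Q * A * (star Q * Q) * B * star Q := by
          simp only [Matrix.mul_assoc]
      _ = _ := by rw [hQQ, Matrix.mul_one, Matrix.mul_assoc Q A B]
  refine ⟨fun x => Q * diagonal (d x) * star Q, ?_, ?_, ?_, ?_, ?_⟩
  · simp [hd, hQQ']
  · intro x
    have h1 : HasDerivAt (fun y => diagonal (d y))
        (diagonal (fun i => ((hK.eigenvalues i : ℝ) : ℂ)) * diagonal (d x)) x := by
      rw [hasDerivAt_mat]
      intro i j
      rw [Matrix.diagonal_mul_diagonal]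
      by_cases hij : i = j
      · subst hij
        simp only [Matrix.diagonal_apply_eq, hd]
        have h2 : HasDerivAt (fun y : ℝ => Real.exp (hK.eigenvalues i * (y - a)))
            (hK.eigenvalues i * Real.exp (hK.eigenvalues i * (x - a))) x := by
          have h3 : HasDerivAt (fun y : ℝ => hK.eigenvalues i * (y - a)) (hK.eigenvalues i) x := by
            simpa using ((hasDerivAt_id x).sub_const a).const_mul (hK.eigenvalues i)
          have h4 := h3.exp
          rwa [mul_comm] at h4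
        have h5 := h2.ofReal_comp
        push_cast at h5 ⊢
        exact h5
      · simp only [Matrix.diagonal_apply_ne _ hij]
        exact hasDerivAt_const x 0
    have h2 : HasDerivAt (fun y => Q * diagonal (d y) * star Q)
        (Q * (diagonal (fun i => ((hK.eigenvalues i : ℝ) : ℂ)) * diagonal (d x)) * star Q) x := by
      have h3 := deriv_const_mul Q h1
      have h4 : HasDerivAt (fun _ : ℝ => star Q) (0 : Mat N) x := by
        rw [hasDerivAt_mat]
        intro i j
        exact hasDerivAt_const x _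
      simpa using deriv_mul h3 h4
    rw [← hconj, ← hsp] at h2
    exact h2
  · intro x
    simp only
    conv_lhs => rw [hsp, hconj]
    conv_rhs => rw [hsp, hconj]
    rw [Matrix.diagonal_mul_diagonal, Matrix.diagonal_mul_diagonal]
    simp only [mul_comm]
  · intro x
    simp only [Matrix.conjTranspose_mul, Matrix.diagonal_conjTranspose, Matrix.star_eq_conjTranspose,
      Matrix.conjTranspose_conjTranspose, Matrix.mul_assoc]
    congr 2
    congr 1
    funext i
    simp only [hd, Pi.star_apply, Complex.star_def, Complex.conj_ofReal]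
  · intro x
    simp only [Matrix.det_mul, Matrix.det_diagonal]
    refine IsUnit.mul (IsUnit.mul ?_ ?_) ?_
    · exact (Matrix.isUnit_iff_isUnit_det Q).mp (IsUnit.of_mul_eq_one _ hQQ')
    · refine isUnit_iff_ne_zero.mpr (Finset.prod_ne_zero_iff.mpr fun i _ => ?_)
      simp only [hd]
      exact_mod_cast (Real.exp_pos _).ne'
    · exact (Matrix.isUnit_iff_isUnit_det _).mp (IsUnit.of_mul_eq_one _ hQQ)

/-! ### the facts -/

theorem sol_symm {a : ℝ} {K : Mat N} {W V U : ℝ → Mat N} (hK : K.IsHermitian)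
    (hW : ∀ x, (W x).IsHermitian) (h : Sol a K W V U) (x : ℝ) : (V x)ᴴ * U x = (U x)ᴴ * V x := by
  have hd : ∀ y, HasDerivAt (fun z => (V z)ᴴ * U z - (U z)ᴴ * V z) (0 : Mat N) y := by
    intro y
    have h1 := deriv_mul (deriv_star (h.derivV y)) (h.derivU y)
    have h2 := deriv_mul (deriv_star (h.derivU y)) (h.derivV y)
    have h3 := deriv_sub h1 h2
    convert h3 using 1
    rw [Matrix.conjTranspose_mul, Matrix.conjTranspose_sub, Matrix.conjTranspose_mul, hK.eq,
      (hW y).eq]
    noncomm_ring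
  have hzero : ∀ i j, ((V x)ᴴ * U x - (U x)ᴴ * V x) i j = ((V a)ᴴ * U a - (U a)ᴴ * V a) i j := by
    intro i j
    exact is_const_of_deriv_eq_zero (f := fun z => ((V z)ᴴ * U z - (U z)ᴴ * V z) i j)
      (fun y => (hasDerivAt_mat.mp (hd y) i j).differentiableAt)
      (fun y => (hasDerivAt_mat.mp (hd y) i j).deriv) x a
  have h0 : (V a)ᴴ * U a - (U a)ᴴ * V a = 0 := by
    rw [h.initV, h.initU]
    simp [hK.eq]
  have : (V x)ᴴ * U x - (U x)ᴴ * V x = 0 := by
    ext i j
    rw [hzero i j, h0]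
  exact sub_eq_zero.mp this

theorem P_herm {a : ℝ} {K : Mat N} {W V U : ℝ → Mat N} (hK : K.IsHermitian)
    (hW : ∀ x, (W x).IsHermitian) (h : Sol a K W V U) {x : ℝ} (hx : IsUnit (V x).det) :
    (U x * (V x)⁻¹).IsHermitian := by
  have hs := sol_symm hK hW h x
  have hx' : IsUnit ((V x)ᴴ).det := by
    rw [Matrix.det_conjTranspose]
    exact hx.star
  unfold Matrix.IsHermitian
  rw [Matrix.conjTranspose_mul, Matrix.conjTranspose_nonsing_inv]
  calc ((V x)ᴴ)⁻¹ * (U x)ᴴ = ((V x)ᴴ)⁻¹ * ((U x)ᴴ * V x) * (V x)⁻¹ := by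
        rw [Matrix.mul_assoc, Matrix.mul_assoc, Matrix.mul_nonsing_inv _ hx, Matrix.mul_one]
    _ = ((V x)ᴴ)⁻¹ * ((V x)ᴴ * U x) * (V x)⁻¹ := by rw [hs]
    _ = _ := by rw [← Matrix.mul_assoc, Matrix.nonsing_inv_mul _ hx', Matrix.one_mul]

theorem P_deriv {a : ℝ} {K : Mat N} {W V U : ℝ → Mat N} (h : Sol a K W V U) {x : ℝ}
    (hx : IsUnit (V x).det) :
    HasDerivAt (fun y => U y * (V y)⁻¹)
      (K * K - (U x * (V x)⁻¹) * (U x * (V x)⁻¹) - W x) x := by
  have h1 := deriv_mul (h.derivU x) (deriv_inv (h.derivV x) hx)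
  convert h1 using 1
  rw [Matrix.mul_assoc _ (V x), Matrix.mul_nonsing_inv _ hx, Matrix.mul_one]
  noncomm_ring

theorem psd_of_conj {E A : Mat N} (hE : Eᴴ = E) (hu : IsUnit E.det)
    (h : (E * A * E).PosSemidef) : A.PosSemidef := by
  have h1 := h.conjTranspose_mul_mul_same (E⁻¹)
  have h2 : (E⁻¹)ᴴ = E⁻¹ := by rw [Matrix.conjTranspose_nonsing_inv, hE]
  rw [h2] at h1
  have h3 : E⁻¹ * (E * A * E) * E⁻¹ = A := by
    calc E⁻¹ * (E * A * E) * E⁻¹ = (E⁻¹ * E) * A * (E * E⁻¹) := by simp only [Matrix.mul_assoc]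
      _ = A := by rw [Matrix.nonsing_inv_mul _ hu, Matrix.mul_nonsing_inv _ hu, Matrix.one_mul,
        Matrix.mul_one]
  rwa [h3] at h1

theorem P_bounds {a b : ℝ} (hab : a < b) {K : Mat N} {W V U : ℝ → Mat N} (hK : K.PosDef)
    (hW : ∀ x, (W x).PosSemidef) (h : Sol a K W V U) (hg : WG a b K V U) {x : ℝ} (hx : x ∈ Icc a b) :
    (K - U x * (V x)⁻¹).PosSemidef ∧ (K + U x * (V x)⁻¹).PosSemidef := by
  have hKh : K.IsHermitian := hK.isHermitian
  have hWh : ∀ x, (W x).IsHermitian := fun x => (hW x).isHermitian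
  set P : ℝ → Mat N := fun y => U y * (V y)⁻¹ with hP
  have hPd : ∀ y ∈ Icc a b, HasDerivAt P (K * K - P y * P y - W y) y := fun y hy =>
    P_deriv h (hg.1 y hy)
  have hPh : ∀ y ∈ Icc a b, (P y)ᴴ = P y := fun y hy => P_herm hKh hWh h (hg.1 y hy)
  have hKc : ∀ y : ℝ, HasDerivAt (fun _ : ℝ => K) (0 : Mat N) y := fun y => by
    rw [hasDerivAt_mat]
    intro i j
    exact hasDerivAt_const y _
  have ha : a ∈ Icc a b := left_mem_Icc.mpr hab.le
  have hb : b ∈ Icc a b := right_mem_Icc.mpr hab.le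
  have hPa : P a = K := by simp [hP, h.initV, h.initU]
  have hPb : (K + P b).PosSemidef := by
    have h1 := hg.2
    have hu := hg.1 b hb
    have h2 := h1.conjTranspose_mul_mul_same ((V b)⁻¹)
    have hu' : IsUnit ((V b)ᴴ).det := by
      rw [Matrix.det_conjTranspose]
      exact hu.star
    have h3 : ((V b)⁻¹)ᴴ * ((V b)ᴴ * (U b + K * V b)) * (V b)⁻¹ = K + P b := by
      rw [Matrix.conjTranspose_nonsing_inv]
      calc ((V b)ᴴ)⁻¹ * ((V b)ᴴ * (U b + K * V b)) * (V b)⁻¹
          = (((V b)ᴴ)⁻¹ * (V b)ᴴ) * (U b * (V b)⁻¹ + K * (V b * (V b)⁻¹)) := by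
            simp only [Matrix.mul_assoc, Matrix.mul_add, Matrix.add_mul]
        _ = K + P b := by
            rw [Matrix.nonsing_inv_mul _ hu', Matrix.mul_nonsing_inv _ hu, Matrix.one_mul,
              Matrix.mul_one, hP]
            abel
    rwa [h3] at h2
  constructor
  · obtain ⟨E, hEa, hEd, hEc, hEs, hEu⟩ := exists_expm hKh a
    have hF : ∀ y ∈ Icc a b, HasDerivAt (fun z => E z * (K - P z) * E z)
        (E y * ((K - P y)ᴴ * (K - P y) + W y) * E y) y := by
      intro y hy
      have h1 := deriv_mul (deriv_mul (hEd y) (deriv_sub (hKc y) (hPd y hy))) (hEd y)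
      convert h1 using 1
      have e1 : K * E y * (K - P y) = E y * K * (K - P y) := by rw [hEc y]
      rw [Matrix.conjTranspose_sub, hPh y hy, hKh.eq, e1]
      noncomm_ring
    have hpos : ∀ y ∈ Icc a b, (E y * ((K - P y)ᴴ * (K - P y) + W y) * E y).PosSemidef := by
      intro y hy
      have h1 : ((K - P y)ᴴ * (K - P y) + W y).PosSemidef :=
        (Matrix.posSemidef_conjTranspose_mul_self _).add (hW y)
      have h2 := h1.conjTranspose_mul_mul_same (E y)
      rwa [hEs y] at h2
    refine psd_of_conj (hEs x) (hEu x) (psd_of_qf ?_ fun e => ?_)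
    · unfold Matrix.IsHermitian
      rw [Matrix.conjTranspose_mul, Matrix.conjTranspose_mul, hEs x, Matrix.conjTranspose_sub,
        hKh.eq, hPh x hx, Matrix.mul_assoc]
    · have h1 := mono_of_deriv hF hpos ha hx hx.1 e
      have h2 : qf (E a * (K - P a) * E a) e = 0 := by
        rw [hPa, sub_self, Matrix.mul_zero, Matrix.zero_mul]
        simp [qf]
      rw [h2] at h1
      exact h1
  · obtain ⟨E, hEa, hEd, hEc, hEs, hEu⟩ := exists_expm hKh.neg a
    have hF : ∀ y ∈ Icc a b, HasDerivAt (fun z => -(E z * (K + P z) * E z))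
        (E y * ((K + P y)ᴴ * (K + P y) + W y) * E y) y := by
      intro y hy
      have h1 := deriv_mul (deriv_mul (hEd y) (deriv_add (hKc y) (hPd y hy))) (hEd y)
      have h2 : HasDerivAt (fun z => -(E z * (K + P z) * E z))
          (-((-K * E y * (K + P y) + E y * (0 + (K * K - P y * P y - W y))) * E y +
            E y * (K + P y) * (-K * E y))) y := by
        rw [hasDerivAt_mat] at h1 ⊢
        intro i j
        simpa only [Matrix.neg_apply] using (h1 i j).fun_neg
      convert h2 using 1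
      have hc : E y * K = K * E y := by
        have := hEc y
        rw [Matrix.neg_mul, Matrix.mul_neg] at this
        exact (neg_injective this).symm
      have e1 : -K * E y * (K + P y) = -(E y * K * (K + P y)) := by
        rw [Matrix.neg_mul, Matrix.neg_mul, hc]
      rw [Matrix.conjTranspose_add, hPh y hy, hKh.eq, e1]
      noncomm_ring
    have hpos : ∀ y ∈ Icc a b, (E y * ((K + P y)ᴴ * (K + P y) + W y) * E y).PosSemidef := by
      intro y hy
      have h1 : ((K + P y)ᴴ * (K + P y) + W y).PosSemidef :=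
        (Matrix.posSemidef_conjTranspose_mul_self _).add (hW y)
      have h2 := h1.conjTranspose_mul_mul_same (E y)
      rwa [hEs y] at h2
    refine psd_of_conj (hEs x) (hEu x) (psd_of_qf ?_ fun e => ?_)
    · unfold Matrix.IsHermitian
      rw [Matrix.conjTranspose_mul, Matrix.conjTranspose_mul, hEs x, Matrix.conjTranspose_add,
        hKh.eq, hPh x hx, Matrix.mul_assoc]
    · have h1 := mono_of_deriv hF hpos hx hb hx.2 e
      have h2 : 0 ≤ qf (E b * (K + P b) * E b) e := by
        have h3 := hPb.conjTranspose_mul_mul_same (E b)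
        rw [hEs b] at h3
        exact qf_nonneg h3 e
      rw [qf_neg, qf_neg] at h1
      linarith

theorem nsq_mulVec (A : Mat N) (e : Fin N → ℂ) : nsq (A *ᵥ e) = qf (Aᴴ * A) e := by
  simp only [nsq, qf]
  rw [Matrix.star_mulVec, ← Matrix.dotProduct_mulVec, Matrix.mulVec_mulVec]

/-- if `-κ ≤ P ≤ κ` then `|P e|² ≤ κ² |e|²` -/
theorem nsq_le_of_bounds {P : Mat N} {κ : ℝ} (hκ : 0 ≤ κ) (h1 : ((κ : ℂ) • (1 : Mat N) - P).PosSemidef)
    (h2 : ((κ : ℂ) • (1 : Mat N) + P).PosSemidef) (e : Fin N → ℂ) :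
    nsq (P *ᵥ e) ≤ κ ^ 2 * nsq e := by
  have hone : ∀ c : ℝ, ((c : ℂ) • (1 : Mat N)).IsHermitian := by
    intro c
    unfold Matrix.IsHermitian
    rw [Matrix.conjTranspose_smul, Matrix.conjTranspose_one, Complex.star_def, Complex.conj_ofReal]
  have hPh : P.IsHermitian := by
    have := (hone κ).sub h1.isHermitian
    simpa using this
  -- first for strictly larger constants
  have key : ∀ c : ℝ, κ < c → nsq (P *ᵥ e) ≤ c ^ 2 * nsq e := by
    intro c hc
    have hc0 : 0 < c := lt_of_le_of_lt hκ hc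
    have hA : ((c : ℂ) • (1 : Mat N) - P).PosSemidef := by
      have h3 : ((((c - κ : ℝ)) : ℂ) • (1 : Mat N)).PosSemidef :=
        Matrix.PosSemidef.one.smul (by
          rw [Complex.zero_le_real]
          linarith)
      have h4 := h3.add h1
      convert h4 using 1
      push_cast
      rw [sub_smul]
      abel
    have hB : ((c : ℂ) • (1 : Mat N) + P).PosSemidef := by
      have h3 : ((((c - κ : ℝ)) : ℂ) • (1 : Mat N)).PosSemidef :=
        Matrix.PosSemidef.one.smul (by
          rw [Complex.zero_le_real]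
          linarith)
      have h4 := h3.add h2
      convert h4 using 1
      push_cast
      rw [sub_smul]
      abel
    set A : Mat N := (c : ℂ) • (1 : Mat N) - P with hAd
    set B : Mat N := (c : ℂ) • (1 : Mat N) + P with hBd
    have h5 := hB.conjTranspose_mul_mul_same A
    have h6 := hA.conjTranspose_mul_mul_same B
    rw [hA.isHermitian.eq] at h5
    rw [hB.isHermitian.eq] at h6
    have h7 : A * B * A + B * A * B = (((2 * c : ℝ)) : ℂ) • (((c ^ 2 : ℝ) : ℂ) • (1 : Mat N) - P * P) := by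
      rw [hAd, hBd]
      push_cast
      simp only [Matrix.mul_add, Matrix.add_mul, Matrix.mul_sub, Matrix.sub_mul, Matrix.smul_mul,
        Matrix.mul_smul, Matrix.one_mul, Matrix.mul_one, smul_sub, smul_add, smul_smul]
      module
    have h8 := qf_nonneg (h5.add h6) e
    rw [h7] at h8
    have h9 : qf ((((2 * c : ℝ)) : ℂ) • (((c ^ 2 : ℝ) : ℂ) • (1 : Mat N) - P * P)) e =
        2 * c * (c ^ 2 * nsq e - qf (P * P) e) := by
      have : ∀ (r : ℝ) (M : Mat N), qf ((r : ℂ) • M) e = r * qf M e := by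
        intro r M
        simp [qf, Matrix.smul_mulVec, dotProduct_smul]
      rw [this, qf_sub, qf_smul_one]
    rw [h9] at h8
    rw [nsq_mulVec, hPh.eq]
    have h10 : 0 ≤ c ^ 2 * nsq e - qf (P * P) e := by
      by_contra hcon
      push Not at hcon
      nlinarith
    linarith
  have hlim : Tendsto (fun c : ℝ => c ^ 2 * nsq e) (𝓝[>] κ) (𝓝 (κ ^ 2 * nsq e)) := by
    have hc : Continuous fun c : ℝ => c ^ 2 * nsq e := by fun_prop
    exact (hc.tendsto κ).mono_left nhdsWithin_le_nhds
  refine ge_of_tendsto hlim ?_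
  filter_upwards [self_mem_nhdsWithin] with c hc
  exact key c hc

theorem V_lower {a b : ℝ} (hab : a < b) {K : Mat N} {W V U : ℝ → Mat N} (hK : K.PosDef)
    (hW : ∀ x, (W x).PosSemidef) (h : Sol a K W V U) (hg : WG a b K V U) {κ : ℝ}
    (hκ : ((κ : ℂ) • (1 : Mat N) - K).PosSemidef) {x : ℝ} (hx : x ∈ Icc a b) (c : Fin N → ℂ) :
    Real.exp (-(2 * κ * (x - a))) * nsq c ≤ nsq (V x *ᵥ c) := by
  have hd : ∀ y, HasDerivAt (fun z => qf ((V z)ᴴ * V z) c) (2 * qf ((V y)ᴴ * U y) c) y := by
    intro y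
    have h1 := deriv_qf (deriv_mul (deriv_star (h.derivV y)) (h.derivV y)) c
    rw [← sol_symm hK.isHermitian (fun x => (hW x).isHermitian) h y, qf_add, ← two_mul] at h1
    exact h1
  have hlow : ∀ y ∈ Icc a b, -(κ * qf ((V y)ᴴ * V y) c) ≤ qf ((V y)ᴴ * U y) c := by
    intro y hy
    have h1 := (P_bounds hab hK hW h hg hy).2
    have h2 := (hκ.add h1).conjTranspose_mul_mul_same (V y)
    have h3 : (V y)ᴴ * ((κ : ℂ) • (1 : Mat N) - K + (K + U y * (V y)⁻¹)) * V y =
        (κ : ℂ) • ((V y)ᴴ * V y) + (V y)ᴴ * U y := by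
      have : (κ : ℂ) • (1 : Mat N) - K + (K + U y * (V y)⁻¹) = (κ : ℂ) • (1 : Mat N) + U y * (V y)⁻¹ := by
        abel
      rw [this, Matrix.mul_add, Matrix.add_mul, Matrix.mul_smul, Matrix.mul_one, Matrix.smul_mul,
        Matrix.mul_assoc ((V y)ᴴ) (U y * (V y)⁻¹), Matrix.mul_assoc (U y),
        Matrix.nonsing_inv_mul _ (hg.1 y hy), Matrix.mul_one]
    rw [h3] at h2
    have h4 := qf_nonneg h2 c
    have : ∀ (r : ℝ) (M : Mat N), qf ((r : ℂ) • M) c = r * qf M c := by
      intro r M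
      simp [qf, Matrix.smul_mulVec, dotProduct_smul]
    rw [qf_add, this] at h4
    linarith
  set f : ℝ → ℝ := fun z => Real.exp (2 * κ * (z - a)) * qf ((V z)ᴴ * V z) c with hf
  have hfd : ∀ y, HasDerivAt f (Real.exp (2 * κ * (y - a)) *
      (2 * κ * qf ((V y)ᴴ * V y) c + 2 * qf ((V y)ᴴ * U y) c)) y := by
    intro y
    have h1 : HasDerivAt (fun z : ℝ => Real.exp (2 * κ * (z - a)))
        (Real.exp (2 * κ * (y - a)) * (2 * κ)) y := by
      have h2 : HasDerivAt (fun z : ℝ => 2 * κ * (z - a)) (2 * κ) y := by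
        simpa using ((hasDerivAt_id y).sub_const a).const_mul (2 * κ)
      exact h2.exp
    have h3 := h1.mul (hd y)
    have h4 : Real.exp (2 * κ * (y - a)) *
      (2 * κ * qf ((V y)ᴴ * V y) c + 2 * qf ((V y)ᴴ * U y) c) =
      Real.exp (2 * κ * (y - a)) * (2 * κ) * qf ((V y)ᴴ * V y) c +
        Real.exp (2 * κ * (y - a)) * (2 * qf ((V y)ᴴ * U y) c) := by ring
    rw [h4]
    exact h3
  have hm : MonotoneOn f (Icc a b) := by
    refine monotoneOn_of_hasDerivWithinAt_nonneg (convex_Icc a b)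
      (f' := fun y => Real.exp (2 * κ * (y - a)) *
        (2 * κ * qf ((V y)ᴴ * V y) c + 2 * qf ((V y)ᴴ * U y) c)) ?_ ?_ ?_
    · intro z hz
      exact (hfd z).continuousAt.continuousWithinAt
    · intro z hz
      exact (hfd z).hasDerivWithinAt
    · intro z hz
      have := hlow z (interior_subset hz)
      refine mul_nonneg (Real.exp_pos _).le ?_
      linarith
  have h5 := hm (left_mem_Icc.mpr hab.le) hx hx.1
  simp only [hf, sub_self, mul_zero, Real.exp_zero, one_mul, h.initV] at h5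
  rw [Matrix.conjTranspose_one, Matrix.one_mul] at h5
  have h6 : qf (1 : Mat N) c = nsq c := by simp [qf, nsq]
  rw [h6] at h5
  rw [nsq_mulVec, Real.exp_neg, inv_mul_le_iff₀ (Real.exp_pos _)]
  exact h5

end LTX
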