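import Vale.Agent.P371G.EXb
import Vale.Agent.P371G.EXcalc

/-! EXc: comparison theorem for Riccati solutions, in terms of the linear system. -/

namespace LTX

open Matrix Set MeasureTheory LTXc
open scoped ComplexOrder Topology

variable {N : ℕ}

theorem isUnit_det_of_inj {A : Mat N} (h : ∀ c : Fin N → ℂ, c ≠ 0 → A *ᵥ c ≠ 0) :
    IsUnit A.det := by
  rw [isUnit_iff_ne_zero]
  intro h0
  obtain ⟨v, hv, hv2⟩ := Matrix.exists_mulVec_eq_zero_iff.2 h0
  exact h v hv hv2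

theorem OG_of_pos {a b : ℝ} {K : Mat N} {W V U : ℝ → Mat N} (hK : K.IsHermitian)
    (hW : ∀ x, (W x).IsHermitian) (h : Sol a K W V U)
    (h1 : ∀ c : Fin N → ℂ, c ≠ 0 → ∀ x ∈ Icc a b, V x *ᵥ c ≠ 0)
    (h2 : ∀ c : Fin N → ℂ, c ≠ 0 →
      0 < (star (V b *ᵥ c) ⬝ᵥ (U b *ᵥ c)).re + qf K (V b *ᵥ c)) : OG a b K V U := by
  refine ⟨fun x hx => isUnit_det_of_inj fun c hc => h1 c hc x hx, ?_⟩
  have hH : ((V b)ᴴ * (U b + K * V b)).IsHermitian := by
    unfold Matrix.IsHermitian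
    rw [Matrix.conjTranspose_mul, Matrix.conjTranspose_conjTranspose, Matrix.conjTranspose_add,
      Matrix.conjTranspose_mul, hK.eq, Matrix.add_mul, Matrix.mul_add,
      ← sol_symm hK hW h b, Matrix.mul_assoc]
  refine posDef_of_qf hH fun e he => ?_
  have := h2 e he
  have e1 : qf ((V b)ᴴ * (U b + K * V b)) e
      = (star (V b *ᵥ e) ⬝ᵥ (U b *ᵥ e)).re + qf K (V b *ᵥ e) := by
    unfold qf
    rw [← Complex.add_re, ← dotProduct_add, ← Matrix.mulVec_mulVec, Matrix.star_mulVec,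
      ← Matrix.dotProduct_mulVec, Matrix.add_mulVec, ← Matrix.mulVec_mulVec]
  rw [e1]; exact this

theorem good_large {a b : ℝ} (hab : a < b) {K : Mat N} {W V U : ℝ → Mat N} (hK : K.PosDef)
    (hW : ∀ x, (W x).IsHermitian) (hΛ : ∀ x ∈ Icc a b, (K * K - W x).PosSemidef)
    (h : Sol a K W V U) : OG a b K V U := by
  have key : ∀ c : Fin N → ℂ, c ≠ 0 → ∀ x ∈ Icc a b,
      0 < (star (V x *ᵥ c) ⬝ᵥ (U x *ᵥ c)).re := by
    intro c hc x hx
    have hd : ∀ y ∈ Icc a b, HasDerivAt (fun y => (star (V y *ᵥ c) ⬝ᵥ (U y *ᵥ c)).re)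
        (nsq (U y *ᵥ c) + qf (K * K - W y) (V y *ᵥ c)) y := by
      intro y _
      have h1 := hd_dot (hd_mulVec_const (h.derivV y) c) (hd_mulVec_const (h.derivU y) c)
      convert h1 using 1
      unfold nsq qf
      rw [Complex.add_re, Matrix.mulVec_mulVec]
    have h0 : (0:ℝ) < (star (V a *ᵥ c) ⬝ᵥ (U a *ᵥ c)).re := by
      rw [h.initV, h.initU, Matrix.one_mulVec]
      exact qf_pos hK hc
    have hm := mono_real hd (fun y hy => add_nonneg (nsq_nonneg _) (qf_nonneg (hΛ y hy) _))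
      (left_mem_Icc.2 hab.le) hx hx.1
    exact lt_of_lt_of_le h0 hm
  have hne : ∀ c : Fin N → ℂ, c ≠ 0 → ∀ x ∈ Icc a b, V x *ᵥ c ≠ 0 := by
    intro c hc x hx h0
    have := key c hc x hx
    rw [h0] at this
    simp at this
  refine OG_of_pos hK.isHermitian hW h hne ?_
  intro c hc
  have hb : b ∈ Icc a b := right_mem_Icc.2 hab.le
  exact add_pos (key c hc b hb) (qf_pos hK (hne c hc b hb))

/-- comparison -/
theorem cmp {a b : ℝ} (hab : a < b) {K K' : Mat N} {W W' V U V' U' : ℝ → Mat N}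
    (hK : K.PosDef) (hK' : K'.IsHermitian) (hKK : (K' - K).PosDef)
    (hΛ : ∀ x ∈ Icc a b, ((K' * K' - W' x) - (K * K - W x)).PosSemidef)
    (hW : ∀ x, (W x).IsHermitian) (hW' : ∀ x, (W' x).IsHermitian)
    (h : Sol a K W V U) (h' : Sol a K' W' V' U') (hg : WG a b K V U) : OG a b K' V' U' := by
  set P : ℝ → Mat N := fun x => U x * (V x)⁻¹ with hP
  have hPh : ∀ x ∈ Icc a b, (P x).IsHermitian := fun x hx =>
    P_herm hK.isHermitian hW h (hg.1 x hx)
  have hPd : ∀ x ∈ Icc a b, HasDerivAt P (K * K - P x * P x - W x) x := fun x hx =>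
    P_deriv h (hg.1 x hx)
  have hPa : P a = K := by simp [hP, h.initV, h.initU]
  have key : ∀ c : Fin N → ℂ, c ≠ 0 → ∀ x ∈ Icc a b,
      0 < (star (V' x *ᵥ c) ⬝ᵥ (U' x *ᵥ c)).re - qf (P x) (V' x *ᵥ c) := by
    intro c hc x hx
    have hd : ∀ y ∈ Icc a b, HasDerivAt
        (fun y => (star (V' y *ᵥ c) ⬝ᵥ (U' y *ᵥ c)).re - qf (P y) (V' y *ᵥ c))
        (nsq (U' y *ᵥ c - P y *ᵥ (V' y *ᵥ c))
          + qf ((K' * K' - W' y) - (K * K - W y)) (V' y *ᵥ c)) y := by
      intro y hy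
      have hv := hd_mulVec_const (h'.derivV y) c
      have h1 := hd_dot hv (hd_mulVec_const (h'.derivU y) c)
      have h2 := hd_dot hv (hd_mulVec (hPd y hy) hv)
      have h3 := h1.sub h2
      refine HasDerivAt.congr_deriv h3 (Eq.symm ?_)
      set v := V' y *ᵥ c
      set u := U' y *ᵥ c
      set Q := P y
      have hQ : Q.IsHermitian := hPh y hy
      have e1 : (((K' * K' - W' y) * V' y) *ᵥ c) = (K' * K' - W' y) *ᵥ v := by
        rw [Matrix.mulVec_mulVec]
      rw [e1]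
      have e2 : (star v ⬝ᵥ (Q *ᵥ u)).re = (star u ⬝ᵥ (Q *ᵥ v)).re := by
        rw [herm_dot hQ, dot_re_symm]
      have e3 : (star v ⬝ᵥ ((Q * Q) *ᵥ v)).re = (star (Q *ᵥ v) ⬝ᵥ (Q *ᵥ v)).re := by
        rw [← Matrix.mulVec_mulVec, herm_dot hQ]
      have e4 : (star (Q *ᵥ v) ⬝ᵥ u).re = (star u ⬝ᵥ (Q *ᵥ v)).re := dot_re_symm _ _
      simp only [nsq, qf, Matrix.sub_mulVec, star_sub, sub_dotProduct, dotProduct_sub,
        dotProduct_add, Complex.add_re, Complex.sub_re]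
      rw [e2, e3, e4]
      ring
    have h0 : (0:ℝ) < (star (V' a *ᵥ c) ⬝ᵥ (U' a *ᵥ c)).re - qf (P a) (V' a *ᵥ c) := by
      rw [h'.initV, h'.initU, Matrix.one_mulVec, hPa]
      have := qf_pos hKK hc
      rw [qf_sub] at this
      exact this
    have hm := mono_real hd (fun y hy => add_nonneg (nsq_nonneg _) (qf_nonneg (hΛ y hy) _))
      (left_mem_Icc.2 hab.le) hx hx.1
    exact lt_of_lt_of_le h0 hm
  have hne : ∀ c : Fin N → ℂ, c ≠ 0 → ∀ x ∈ Icc a b, V' x *ᵥ c ≠ 0 := by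
    intro c hc x hx h0
    have := key c hc x hx
    rw [h0] at this
    simp [qf] at this
  refine OG_of_pos hK' hW' h' hne ?_
  intro c hc
  have hb : b ∈ Icc a b := right_mem_Icc.2 hab.le
  have h1 := key c hc b hb
  set v := V' b *ᵥ c with hv
  have h2 : 0 ≤ qf (P b) v + qf K v := by
    have h3 := qf_nonneg hg.2 ((V b)⁻¹ *ᵥ v)
    have e1 : V b *ᵥ ((V b)⁻¹ *ᵥ v) = v := by
      rw [Matrix.mulVec_mulVec, Matrix.mul_nonsing_inv _ (hg.1 b hb), Matrix.one_mulVec]
    have e2 : qf ((V b)ᴴ * (U b + K * V b)) ((V b)⁻¹ *ᵥ v) = qf (P b) v + qf K v := by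
      unfold qf
      rw [← Matrix.mulVec_mulVec, Matrix.dotProduct_mulVec, ← Matrix.star_mulVec, e1,
        Matrix.add_mulVec, ← Matrix.mulVec_mulVec, e1, Matrix.mulVec_mulVec, dotProduct_add,
        Complex.add_re]
    rw [e2] at h3; exact h3
  have h4 : 0 < qf (K' - K) v := qf_pos hKK (hne c hc b hb)
  rw [qf_sub] at h4
  linarith

/-- test with an eigenvector of `K` -/
theorem WG_test {a b : ℝ} (hab : a < b) {K : Mat N} {W V U : ℝ → Mat N} (hK : K.PosDef)
    (hW : ∀ x, (W x).PosSemidef) (hWc : Continuous W) (h : Sol a K W V U) (hg : WG a b K V U)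
    {e : Fin N → ℂ} (he : nsq e = 1) {k : ℝ} (hk : K *ᵥ e = (k : ℂ) • e) :
    ∫ x in a..b, qf (W x) e ≤ 2 * k + (b - a) * k ^ 2 := by
  have hWh : ∀ x, (W x).IsHermitian := fun x => (hW x).isHermitian
  set P : ℝ → Mat N := fun x => U x * (V x)⁻¹ with hP
  have hPh : ∀ x ∈ Icc a b, (P x).IsHermitian := fun x hx =>
    P_herm hK.isHermitian hWh h (hg.1 x hx)
  have hPd : ∀ x ∈ Icc a b, HasDerivAt P (K * K - P x * P x - W x) x := fun x hx =>
    P_deriv h (hg.1 x hx)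
  have hPa : P a = K := by simp [hP, h.initV, h.initU]
  have hb : b ∈ Icc a b := right_mem_Icc.2 hab.le
  have hKe : qf K e = k := by
    have : (star e ⬝ᵥ (K *ᵥ e)).re = k := by
      rw [hk, dotProduct_smul, smul_eq_mul, Complex.re_ofReal_mul]
      have : (star e ⬝ᵥ e).re = 1 := he
      rw [this, mul_one]
    exact this
  have hKKe : qf (K * K) e = k ^ 2 := by
    have h1 : (K * K) *ᵥ e = ((k ^ 2 : ℝ) : ℂ) • e := by
      rw [← Matrix.mulVec_mulVec, hk, Matrix.mulVec_smul, hk, smul_smul]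
      push_cast
      ring_nf
    have : (star e ⬝ᵥ ((K * K) *ᵥ e)).re = k ^ 2 := by
      rw [h1, dotProduct_smul, smul_eq_mul, Complex.re_ofReal_mul]
      have : (star e ⬝ᵥ e).re = 1 := he
      rw [this, mul_one]
    exact this
  -- `Re ⟨e, P e⟩`
  have hd : ∀ y ∈ Icc a b, HasDerivAt (fun y => qf (P y) e)
      (qf (K * K - P y * P y - W y) e) y := by
    intro y hy
    have h1 := hd_dot (hasDerivAt_const y e) (hd_mulVec_const (hPd y hy) e)
    simpa [qf] using h1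
  have hcW : Continuous fun x => qf (W x) e := by
    unfold qf
    exact Complex.continuous_re.comp
      (Continuous.dotProduct continuous_const (Continuous.matrix_mulVec hWc continuous_const))
  -- the function `k² x - ∫ W - P` is monotone
  have hI : ∀ y, HasDerivAt (fun y => ∫ x in a..y, qf (W x) e) (qf (W y) e) y := fun y =>
    intervalIntegral.integral_hasDerivAt_right (hcW.intervalIntegrable _ _)
      hcW.stronglyMeasurable.stronglyMeasurableAtFilter hcW.continuousAt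
  have hm := mono_real (a := a) (b := b)
    (f := fun y => k ^ 2 * y - (∫ x in a..y, qf (W x) e) - qf (P y) e)
    (f' := fun y => k ^ 2 * 1 - qf (W y) e - qf (K * K - P y * P y - W y) e)
    (fun y hy => (((hasDerivAt_id y).const_mul (k ^ 2)).sub (hI y)).sub (hd y hy))
    (by
      intro y hy
      rw [qf_sub, qf_sub, hKKe]
      have : 0 ≤ qf (P y * P y) e := by
        have e3 : qf (P y * P y) e = nsq (P y *ᵥ e) := by
          unfold qf nsq
          rw [← Matrix.mulVec_mulVec, herm_dot (hPh y hy)]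
        rw [e3]; exact nsq_nonneg _
      linarith) (left_mem_Icc.2 hab.le) hb hab.le
  simp only [intervalIntegral.integral_same] at hm
  rw [hPa, hKe] at hm
  have h2 : 0 ≤ qf (P b) e + k := by
    have h3 := qf_nonneg hg.2 ((V b)⁻¹ *ᵥ e)
    have e1 : V b *ᵥ ((V b)⁻¹ *ᵥ e) = e := by
      rw [Matrix.mulVec_mulVec, Matrix.mul_nonsing_inv _ (hg.1 b hb), Matrix.one_mulVec]
    have e2 : qf ((V b)ᴴ * (U b + K * V b)) ((V b)⁻¹ *ᵥ e) = qf (P b) e + qf K e := by
      unfold qf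
      rw [← Matrix.mulVec_mulVec, Matrix.dotProduct_mulVec, ← Matrix.star_mulVec, e1,
        Matrix.add_mulVec, ← Matrix.mulVec_mulVec, e1, Matrix.mulVec_mulVec, dotProduct_add,
        Complex.add_re]
    rw [e2, hKe] at h3; exact h3
  nlinarith [hm, h2]

end LTX
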