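import Vale.Agent.P371G.EXb

/-! [EXd] openness of OG and closedness of WG -/

namespace LTX

open Matrix Set MeasureTheory Filter
open scoped ComplexOrder Topology

variable {N : ℕ}

theorem qf_cont_d (e : Fin N → ℂ) : Continuous fun A : Mat N => qf A e := by
  unfold qf
  exact Complex.continuous_re.comp
    (continuous_const.dotProduct (continuous_id.matrix_mulVec continuous_const))

theorem qf_cont2_d : Continuous fun p : Mat N × (Fin N → ℂ) => qf p.1 p.2 := by
  unfold qf
  exact Complex.continuous_re.comp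
    ((continuous_star.comp continuous_snd).dotProduct
      (continuous_fst.matrix_mulVec continuous_snd))

theorem herm_im_zero_d {M : Mat N} (hM : M.IsHermitian) (c : Fin N → ℂ) :
    (star c ⬝ᵥ (M *ᵥ c)).im = 0 := by
  have h : star (star c ⬝ᵥ (M *ᵥ c)) = star c ⬝ᵥ (M *ᵥ c) := by
    rw [← star_dotProduct_star, star_star, star_mulVec, hM.eq, ← dotProduct_mulVec,
      dotProduct_comm]
  have h2 := congrArg Complex.im h
  rw [Complex.star_def, Complex.conj_im] at h2
  linarith

theorem posSemidef_of_qf_d {M : Mat N} (hM : M.IsHermitian) (h : ∀ c, 0 ≤ qf M c) :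
    M.PosSemidef := by
  refine PosSemidef.of_dotProduct_mulVec_nonneg hM fun c => ?_
  rw [Complex.le_def]
  exact ⟨h c, (herm_im_zero_d hM c).symm⟩

theorem posDef_of_qf_d {M : Mat N} (hM : M.IsHermitian) (h : ∀ c, c ≠ 0 → 0 < qf M c) :
    M.PosDef := by
  refine PosDef.of_dotProduct_mulVec_pos hM fun c hc => ?_
  rw [Complex.lt_def]
  exact ⟨h c hc, (herm_im_zero_d hM c).symm⟩

theorem qf_pos_d {M : Mat N} (hM : M.PosDef) {c : Fin N → ℂ} (hc : c ≠ 0) : 0 < qf M c := by
  have := hM.dotProduct_mulVec_pos hc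
  rw [Complex.lt_def] at this
  exact this.1

theorem qf_nonneg_d {M : Mat N} (hM : M.PosSemidef) (c : Fin N → ℂ) : 0 ≤ qf M c := by
  have := hM.dotProduct_mulVec_nonneg c
  rw [Complex.le_def] at this
  exact this.1

theorem qf_smul_vec_d (M : Mat N) (r : ℝ) (c : Fin N → ℂ) :
    qf M ((r : ℂ) • c) = r ^ 2 * qf M c := by
  unfold qf
  rw [mulVec_smul, star_smul, smul_dotProduct, dotProduct_smul]
  simp only [smul_eq_mul, Complex.star_def, Complex.conj_ofReal]
  rw [← mul_assoc, ← Complex.ofReal_mul, Complex.re_ofReal_mul]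
  ring

/-- A Hermitian matrix valued function which is continuous within `S` and positive definite at a
point is positive definite nearby. -/
theorem posDef_eventually {α : Type*} [TopologicalSpace α] {S : Set α} {x0 : α} {M : α → Mat N}
    (hM : ContinuousWithinAt M S x0) (hH : ∀ x ∈ S, (M x).IsHermitian) (h0 : (M x0).PosDef) :
    ∀ᶠ x in 𝓝[S] x0, (M x).PosDef := by
  have hc : IsCompact (Metric.sphere (0 : Fin N → ℂ) 1) := isCompact_sphere _ _
  have key : ∀ᶠ x in 𝓝 x0, ∀ c ∈ Metric.sphere (0 : Fin N → ℂ) 1, x ∈ S → 0 < qf (M x) c := by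
    apply hc.eventually_forall_of_forall_eventually
    intro c hcs
    have hc0 : c ≠ 0 := by
      rintro rfl
      simp at hcs
    have h1 := qf_pos_d h0 hc0
    have h6 : Tendsto (fun q : Mat N × (Fin N → ℂ) => qf q.1 q.2) (𝓝 (M x0) ×ˢ 𝓝 c)
        (𝓝 (qf (M x0) c)) := by
      have := (qf_cont2_d (N := N)).tendsto (M x0, c)
      rw [nhds_prod_eq] at this
      exact this
    have h3 : Tendsto (Prod.map M id) (𝓝[S] x0 ×ˢ 𝓝 c) (𝓝 (M x0) ×ˢ 𝓝 c) :=
      Tendsto.prodMap hM tendsto_id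
    have h2 := h6.comp h3
    have h4 := h2.eventually (lt_mem_nhds h1)
    have h5 : (𝓝[S] x0 ×ˢ 𝓝 c) = 𝓝[S ×ˢ univ] (x0, c) := by
      rw [nhdsWithin_prod_eq, nhdsWithin_univ]
    rw [h5, eventually_nhdsWithin_iff] at h4
    filter_upwards [h4] with p hp hpS
    exact hp ⟨hpS, mem_univ _⟩
  rw [eventually_nhdsWithin_iff]
  filter_upwards [key] with x hx hxS
  refine posDef_of_qf_d (hH x hxS) fun c hc => ?_
  have hn : 0 < ‖c‖ := norm_pos_iff.2 hc
  have h1 := hx (((‖c‖⁻¹ : ℝ) : ℂ) • c) (by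
    rw [mem_sphere_zero_iff_norm, norm_smul, Complex.norm_real, Real.norm_of_nonneg
      (inv_nonneg.2 hn.le), inv_mul_cancel₀ hn.ne']) hxS
  rw [qf_smul_vec_d] at h1
  exact (pos_iff_pos_of_mul_pos h1).1 (by positivity)

theorem nsq_eq_d (c : Fin N → ℂ) : nsq c = ∑ i, ‖c i‖ ^ 2 := by
  unfold nsq
  rw [dotProduct, Complex.re_sum]
  refine Finset.sum_congr rfl fun i _ => ?_
  rw [Pi.star_apply, Complex.star_def, ← Complex.normSq_eq_conj_mul_self, Complex.ofReal_re,
    Complex.normSq_eq_norm_sq]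

theorem nsq_pos_d {c : Fin N → ℂ} (hc : c ≠ 0) : 0 < nsq c := by
  have h : (0 : ℂ) < star c ⬝ᵥ c := dotProduct_star_self_pos_iff.2 hc
  exact (Complex.lt_def.1 h).1

theorem qf_le_d (M : Mat N) (c : Fin N → ℂ) : qf M c ≤ (∑ i, ∑ j, ‖M i j‖) * nsq c := by
  have h1 : ∀ i, ‖c i‖ ^ 2 ≤ nsq c := fun i => by
    rw [nsq_eq_d]
    exact Finset.single_le_sum (f := fun i => ‖c i‖ ^ 2) (fun _ _ => sq_nonneg _)
      (Finset.mem_univ i)
  have h2 : ∀ i j, ‖c i‖ * ‖c j‖ ≤ nsq c := fun i j => by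
    nlinarith [h1 i, h1 j, sq_nonneg (‖c i‖ - ‖c j‖)]
  unfold qf
  rw [dotProduct, Complex.re_sum, Finset.sum_mul]
  refine Finset.sum_le_sum fun i _ => ?_
  rw [mulVec, dotProduct, Finset.mul_sum, Complex.re_sum, Finset.sum_mul]
  refine Finset.sum_le_sum fun j _ => ?_
  refine (Complex.re_le_norm _).trans ?_
  rw [norm_mul, norm_mul, Pi.star_apply, norm_star]
  calc ‖c i‖ * (‖M i j‖ * ‖c j‖) = ‖M i j‖ * (‖c i‖ * ‖c j‖) := by ring
    _ ≤ ‖M i j‖ * nsq c := mul_le_mul_of_nonneg_left (h2 i j) (norm_nonneg _)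

theorem form_herm_d {a : ℝ} {K : Mat N} {W V U : ℝ → Mat N} (hK : K.IsHermitian)
    (hW : ∀ x, (W x).IsHermitian) (h : Sol a K W V U) (x : ℝ) :
    ((V x)ᴴ * (U x + K * V x)).IsHermitian := by
  have h1 := sol_symm hK hW h x
  unfold Matrix.IsHermitian
  rw [mul_add, conjTranspose_add, conjTranspose_mul, conjTranspose_mul, conjTranspose_mul,
    conjTranspose_conjTranspose, hK.eq, h1, mul_assoc]

theorem form_cont_d {a b : ℝ} {W V U : Mat N → ℝ → Mat N} (hF : Fam a W V U) {K : Mat N}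
    (hK : K.PosDef) : ContinuousWithinAt (fun K' : Mat N => (V K' b)ᴴ * (U K' b + K' * V K' b))
      {K | K.PosDef} K := by
  have hv : ContinuousWithinAt (fun K' : Mat N => V K' b) {K | K.PosDef} K := by
    have h1 := hF.contV (K, b) ⟨hK, mem_univ _⟩
    exact h1.comp (f := fun K' : Mat N => (K', b)) (by fun_prop)
      (fun K' hK' => ⟨hK', mem_univ _⟩)
  have hu : ContinuousWithinAt (fun K' : Mat N => U K' b) {K | K.PosDef} K := by
    have h1 := hF.contU (K, b) ⟨hK, mem_univ _⟩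
    exact h1.comp (f := fun K' : Mat N => (K', b)) (by fun_prop)
      (fun K' hK' => ⟨hK', mem_univ _⟩)
  have hvs : ContinuousWithinAt (fun K' : Mat N => (V K' b)ᴴ) {K | K.PosDef} K :=
    (Continuous.matrix_conjTranspose continuous_id).continuousAt.comp_continuousWithinAt hv
  exact hvs.mul (hu.add (continuousWithinAt_id.mul hv))

theorem OG_open {a b : ℝ} (_hab : a < b) {W V U : Mat N → ℝ → Mat N}
    (hW : ∀ K : Mat N, K.PosDef → ∀ x, (W K x).PosSemidef) (hF : Fam a W V U) {K : Mat N}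
    (hK : K.PosDef) (h : OG a b K (V K) (U K)) :
    ∀ᶠ K' in 𝓝[{K | K.PosDef}] K, OG a b K' (V K') (U K') := by
  have h1 : ∀ᶠ K' in 𝓝 K, ∀ x ∈ Icc a b, K'.PosDef → IsUnit (V K' x).det := by
    apply isCompact_Icc.eventually_forall_of_forall_eventually
    intro x hx
    have hc := hF.contV (K, x) ⟨hK, mem_univ _⟩
    have hd : ContinuousWithinAt (fun p : Mat N × ℝ => (V p.1 p.2).det)
        ({K | K.PosDef} ×ˢ univ) (K, x) :=
      (Continuous.matrix_det continuous_id).continuousAt.comp_continuousWithinAt hc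
    have hne : (V K x).det ≠ 0 := (h.1 x hx).ne_zero
    have h2 := hd.eventually_ne hne
    rw [eventually_nhdsWithin_iff] at h2
    filter_upwards [h2] with p hp hpd
    exact isUnit_iff_ne_zero.2 (hp ⟨hpd, mem_univ _⟩)
  have h2 := posDef_eventually (form_cont_d (b := b) hF hK)
    (fun K' hK' => form_herm_d (PosDef.isHermitian hK')
      (fun x => (hW K' hK' x).isHermitian) (hF.sol K' hK') b) h.2
  have h3 : ∀ᶠ K' in 𝓝[{K | K.PosDef}] K, ∀ x ∈ Icc a b, K'.PosDef → IsUnit (V K' x).det :=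
    h1.filter_mono nhdsWithin_le_nhds
  filter_upwards [h2, h3, self_mem_nhdsWithin] with K' hK1 hK2 hK3
  exact ⟨fun x hx => hK2 x hx hK3, hK1⟩

theorem WG_closed {a b : ℝ} (hab : a < b) {W V U : Mat N → ℝ → Mat N}
    (hW : ∀ K : Mat N, K.PosDef → ∀ x, (W K x).PosSemidef) (hF : Fam a W V U) {K : Mat N}
    (hK : K.PosDef) (h : ∃ᶠ K' in 𝓝[{K | K.PosDef}] K, WG a b K' (V K') (U K')) :
    WG a b K (V K) (U K) := by
  -- a uniform bound for `K'` near `K`
  obtain ⟨κ, hκ⟩ : ∃ κ : ℝ, ∀ᶠ K' in 𝓝[{K | K.PosDef}] K,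
      ((κ : ℂ) • (1 : Mat N) - K').PosSemidef := by
    set κ : ℝ := (∑ i, ∑ j, ‖K i j‖) + 1 with hκ
    refine ⟨κ, ?_⟩
    have hherm : ∀ K' : Mat N, K'.PosDef → ((κ : ℂ) • (1 : Mat N) - K').IsHermitian := by
      intro K' hK'
      have hh : K'.IsHermitian := PosDef.isHermitian hK'
      unfold Matrix.IsHermitian
      rw [conjTranspose_sub, conjTranspose_smul, conjTranspose_one, hh.eq]
      simp
    have h1 : ((κ : ℂ) • (1 : Mat N) - K).PosDef := by
      refine posDef_of_qf_d (hherm K hK) fun c hc => ?_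
      have e1 : qf ((κ : ℂ) • (1 : Mat N) - K) c = κ * nsq c - qf K c := by
        unfold qf nsq
        rw [sub_mulVec, dotProduct_sub, smul_mulVec, one_mulVec, dotProduct_smul, smul_eq_mul,
          Complex.sub_re, Complex.re_ofReal_mul]
      rw [e1]
      have e2 := qf_le_d K c
      have e3 := nsq_pos_d hc
      rw [hκ]
      nlinarith
    have h2 := posDef_eventually (M := fun K' : Mat N =>
      ((κ : ℂ) • (1 : Mat N) - K')) (S := {K | K.PosDef}) (x0 := K)
      (continuousWithinAt_const.sub continuousWithinAt_id)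
      (fun K' hK' => hherm K' hK') h1
    filter_upwards [h2] with K' hK'
    exact hK'.posSemidef
  have hWh : ∀ K : Mat N, K.PosDef → ∀ x, (W K x).IsHermitian :=
    fun K hK x => (hW K hK x).isHermitian
  refine ⟨?_, ?_⟩
  · intro x hx
    rw [isUnit_iff_ne_zero]
    intro hdet
    obtain ⟨c, hc, hVc⟩ := Matrix.exists_mulVec_eq_zero_iff.2 hdet
    have hcont : ContinuousWithinAt (fun K' : Mat N => nsq (V K' x *ᵥ c)) {K | K.PosDef} K := by
      have h1 := hF.contV (K, x) ⟨hK, mem_univ _⟩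
      have h2 : ContinuousWithinAt (fun K' : Mat N => V K' x) {K | K.PosDef} K :=
        h1.comp (f := fun K' : Mat N => (K', x)) (by fun_prop)
          (fun K' hK' => ⟨hK', mem_univ _⟩)
      have h3 : Continuous fun A : Mat N => nsq (A *ᵥ c) := by
        unfold nsq
        have h4 : Continuous fun A : Mat N => A *ᵥ c :=
          continuous_id.matrix_mulVec continuous_const
        exact Complex.continuous_re.comp ((continuous_star.comp h4).dotProduct h4)
      exact h3.continuousAt.comp_continuousWithinAt h2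
    have hfr : ∃ᶠ K' in 𝓝[{K | K.PosDef}] K,
        Real.exp (-(2 * κ * (x - a))) * nsq c ≤ nsq (V K' x *ᵥ c) := by
      refine (h.and_eventually (hκ.and self_mem_nhdsWithin)).mono ?_
      rintro K' ⟨hg, hk, hpd⟩
      exact V_lower hab hpd (hW K' hpd) (hF.sol K' hpd) hg hk hx c
    have h1 : Real.exp (-(2 * κ * (x - a))) * nsq c ≤ nsq (V K x *ᵥ c) :=
      ge_of_tendsto_of_frequently hcont hfr
    rw [hVc] at h1
    have h2 : 0 < nsq c := nsq_pos_d hc
    have h3 : nsq (0 : Fin N → ℂ) = 0 := by simp [nsq]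
    rw [h3] at h1
    have := mul_pos (Real.exp_pos (-(2 * κ * (x - a)))) h2
    linarith
  · refine posSemidef_of_qf_d (form_herm_d (PosDef.isHermitian hK) (hWh K hK) (hF.sol K hK) b)
      fun c => ?_
    have hcont : ContinuousWithinAt (fun K' : Mat N =>
        qf ((V K' b)ᴴ * (U K' b + K' * V K' b)) c) {K | K.PosDef} K :=
      (qf_cont_d c).continuousAt.comp_continuousWithinAt (form_cont_d (b := b) hF hK)
    have hfr : ∃ᶠ K' in 𝓝[{K | K.PosDef}] K,
        0 ≤ qf ((V K' b)ᴴ * (U K' b + K' * V K' b)) c := by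
      refine h.mono fun K' hK' => ?_
      exact qf_nonneg_d hK'.2 c
    exact ge_of_tendsto_of_frequently hcont hfr

end LTX
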