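import Mathlib

/-! P371G, existence of K: abstract topological lemma for the threshold `t(X)`. -/

open Set Filter Topology

namespace LTG

/-- Threshold lemma. `G` (good) is open in `t > 0`, its closure lies in `C`, `C` at `t` implies
`G` at every `s > t`, `G` holds for large `t`, and `C` fails for `t ≤ t0`. -/
theorem threshold {α : Type*} [TopologicalSpace α] (G C : α → ℝ → Prop) (t0 t1 : ℝ)
    (_h01 : t0 < t1)
    (hopen : ∀ x t, t0 < t → G x t → ∀ᶠ y in 𝓝 (x, t), G y.1 y.2)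
    (hclos : ∀ x t, t0 < t → (∃ᶠ y in 𝓝 (x, t), G y.1 y.2) → C x t)
    (hmono : ∀ x s t, t0 < t → C x t → t < s → G x s)
    (hGC : ∀ x t, G x t → C x t)
    (hlarge : ∀ x t, t1 ≤ t → G x t)
    (hsmall : ∃ t2, t0 < t2 ∧ ∀ x t, t ≤ t2 → ¬ C x t) :
    ∃ τ : α → ℝ, Continuous τ ∧ (∀ x, t0 < τ x ∧ τ x ≤ t1) ∧ (∀ x, C x (τ x)) ∧
      (∀ x, ¬ G x (τ x)) ∧ (∀ x s, τ x < s → G x s) ∧ (∀ x s, G x s → τ x < s) := by
  obtain ⟨t2, ht2, hsm⟩ := hsmall
  set S : α → Set ℝ := fun x => {t | G x t} with hS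
  have hne : ∀ x, (S x).Nonempty := fun x => ⟨t1, hlarge x t1 le_rfl⟩
  have hlow : ∀ x, ∀ t ∈ S x, t2 < t := by
    intro x t ht
    by_contra hcon
    exact hsm x t (not_lt.1 hcon) (hGC x t ht)
  have hbdd : ∀ x, BddBelow (S x) := fun x => ⟨t2, fun t ht => (hlow x t ht).le⟩
  set τ : α → ℝ := fun x => sInf (S x) with hτ
  have hτ2 : ∀ x, t2 ≤ τ x := fun x => le_csInf (hne x) fun t ht => (hlow x t ht).le
  have hτ0 : ∀ x, t0 < τ x := fun x => lt_of_lt_of_le ht2 (hτ2 x)
  have hτ1 : ∀ x, τ x ≤ t1 := fun x => csInf_le (hbdd x) (hlarge x t1 le_rfl)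
  have hup : ∀ x s, τ x < s → G x s := by
    intro x s hs
    obtain ⟨t, ht, hts⟩ := exists_lt_of_csInf_lt (hne x) hs
    exact hmono x s t (lt_of_lt_of_le ht2 (hlow x t ht).le) (hGC x t ht) hts
  have hnG : ∀ x, ¬ G x (τ x) := by
    intro x hG
    have h1 := hopen x (τ x) (hτ0 x) hG
    have h2 : ∀ᶠ s in 𝓝 (τ x), G x s := by
      have hc : Tendsto (fun s : ℝ => (x, s)) (𝓝 (τ x)) (𝓝 (x, τ x)) :=
        (Continuous.prodMk_right x).tendsto (τ x)
      exact hc.eventually h1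
    have h3 : ∀ᶠ s in 𝓝[<] (τ x), G x s := h2.filter_mono nhdsWithin_le_nhds
    obtain ⟨s, hs1, hs2⟩ := (h3.and self_mem_nhdsWithin).exists
    exact absurd (csInf_le (hbdd x) hs1) (not_le.2 hs2)
  have hlt : ∀ x s, G x s → τ x < s := by
    intro x s hs
    rcases (csInf_le (hbdd x) hs).lt_or_eq with h | h
    · exact h
    · exfalso
      apply hnG x
      rw [show τ x = s from h]
      exact hs
  have hC : ∀ x, C x (τ x) := by
    intro x
    apply hclos x (τ x) (hτ0 x)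
    have hc : Tendsto (fun s : ℝ => (x, s)) (𝓝[>] (τ x)) (𝓝 (x, τ x)) :=
      ((Continuous.prodMk_right x).tendsto (τ x)).mono_left nhdsWithin_le_nhds
    apply hc.frequently
    apply Eventually.frequently
    filter_upwards [self_mem_nhdsWithin] with s hs
    exact hup x s hs
  refine ⟨τ, ?_, fun x => ⟨hτ0 x, hτ1 x⟩, hC, hnG, hup, hlt⟩
  rw [continuous_iff_continuousAt]
  intro x
  rw [ContinuousAt, tendsto_order]
  constructor
  · -- lower semicontinuity
    intro s hs
    obtain ⟨s', hs1, hs2⟩ := exists_between (max_lt hs (hτ0 x))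
    by_contra hcon
    rw [not_eventually] at hcon
    have h1 : ∃ᶠ y in 𝓝 (x, s'), G y.1 y.2 := by
      have hc : Tendsto (fun y : α => (y, s')) (𝓝 x) (𝓝 (x, s')) :=
        (Continuous.prodMk_left s').tendsto x
      apply hc.frequently
      refine hcon.mono fun y hy => ?_
      exact hup y s' (lt_of_le_of_lt (not_lt.1 hy) (lt_of_le_of_lt (le_max_left _ _) hs1))
    have h2 : C x s' := hclos x s' (lt_of_le_of_lt (le_max_right _ _) hs1) h1
    have h3 : G x (τ x) := hmono x (τ x) s' (lt_of_le_of_lt (le_max_right _ _) hs1) h2 hs2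
    exact hnG x h3
  · intro s hs
    obtain ⟨s', hs1, hs2⟩ := exists_between hs
    have hG := hup x s' hs1
    have h1 := hopen x s' (lt_trans (hτ0 x) hs1) hG
    have hc : Tendsto (fun y : α => (y, s')) (𝓝 x) (𝓝 (x, s')) :=
      (Continuous.prodMk_left s').tendsto x
    filter_upwards [hc.eventually h1] with y hy
    exact lt_trans (hlt y s' hy) hs2

end LTG
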