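import Vale.Agent.P371G.EXc
import Vale.Agent.P371G.EXd
import Vale.Agent.P371G.ExTop

/-! [EXe] the threshold -/

namespace LTX

open Matrix Set MeasureTheory Filter
open scoped ComplexOrder Topology

variable {N : ℕ}

theorem shift_posDef {δ : ℝ} (hδ : 0 < δ) {X : Mat N} (hX : X ∈ Dens N) :
    (X + (δ : ℂ) • (1 : Mat N)).PosDef := by
  have h1 : ((δ : ℂ) • (1 : Mat N)).PosDef := PosDef.one.smul (by exact_mod_cast hδ)
  exact PosDef.posSemidef_add hX.1 h1

theorem ray_posDef {δ : ℝ} (hδ : 0 < δ) {X : Mat N} (hX : X ∈ Dens N) {τ : ℝ} (hτ : 0 < τ) :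
    (ray δ X τ).PosDef :=
  (shift_posDef hδ hX).inv.smul (by exact_mod_cast hτ)

theorem ray_cont {δ : ℝ} (hδ : 0 < δ) :
    ContinuousOn (fun p : Mat N × ℝ => ray δ p.1 p.2) (Dens N ×ˢ univ) := by
  unfold ray
  have h1 : Continuous fun p : Mat N × ℝ => p.1 + (δ : ℂ) • (1 : Mat N) := by fun_prop
  have h2 : ContinuousOn (fun p : Mat N × ℝ => (p.1 + (δ : ℂ) • (1 : Mat N))⁻¹)
      (Dens N ×ˢ univ) := by
    have h3 : ∀ p : Mat N × ℝ, (p.1 + (δ : ℂ) • (1 : Mat N))⁻¹ =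
        (p.1 + (δ : ℂ) • (1 : Mat N)).det⁻¹ • (p.1 + (δ : ℂ) • (1 : Mat N)).adjugate := by
      intro p
      rw [Matrix.inv_def, Ring.inverse_eq_inv']
    simp only [h3]
    refine ContinuousOn.smul (ContinuousOn.inv₀ h1.matrix_det.continuousOn ?_)
      h1.matrix_adjugate.continuousOn
    rintro ⟨X, t⟩ ⟨hX, _⟩
    exact ((Matrix.isUnit_iff_isUnit_det _).1 (shift_posDef hδ hX).isUnit).ne_zero
  have h4 : Continuous fun p : Mat N × ℝ => (p.2 : ℂ) := by fun_prop
  exact h4.continuousOn.smul h2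

/-- `α A + β` is positive semidefinite if `α λ + β ≥ 0` on the eigenvalues -/
theorem lin_psd {A : Mat N} (hA : A.IsHermitian) (α β : ℝ)
    (h : ∀ i, 0 ≤ α * hA.eigenvalues i + β) :
    ((α : ℂ) • A + (β : ℂ) • (1 : Mat N)).PosSemidef := by
  set Uu : Mat N := (hA.eigenvectorUnitary : Mat N) with hUu
  have hform : A = Uu * diagonal (fun i => ((hA.eigenvalues i : ℝ) : ℂ)) * Uuᴴ := by
    conv_lhs => rw [hA.spectral_theorem]
    rfl
  have hUU : Uu * Uuᴴ = 1 := Unitary.coe_mul_star_self _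
  have hform2 : (α : ℂ) • A + (β : ℂ) • (1 : Mat N)
      = Uu * diagonal (fun i => ((α * hA.eigenvalues i + β : ℝ) : ℂ)) * Uuᴴ := by
    have h1 : (diagonal (fun i => ((α * hA.eigenvalues i + β : ℝ) : ℂ)) : Mat N)
        = (α : ℂ) • diagonal (fun i => ((hA.eigenvalues i : ℝ) : ℂ)) + (β : ℂ) • (1 : Mat N) := by
      rw [smul_one_eq_diagonal, ← diagonal_smul, diagonal_add]
      congr 1
      funext i
      simp
    rw [h1, mul_add, add_mul, Matrix.mul_smul, Matrix.smul_mul, ← hform, Matrix.mul_smul,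
      Matrix.mul_one, Matrix.smul_mul, hUU]
  rw [hform2]
  refine PosSemidef.mul_mul_conjTranspose_same ?_ _
  rw [posSemidef_diagonal_iff]
  intro i
  exact_mod_cast h i

theorem WG_ge {a b k0 w : ℝ} {W V U : Mat N → ℝ → Mat N} (hD : Data N a b k0 w W)
    (hF : Fam a W V U) {K : Mat N} (hK : K.PosDef) (h : WG a b K (V K) (U K)) :
    (K - (k0 : ℂ) • (1 : Mat N)).PosSemidef := by
  have hKh : K.IsHermitian := PosDef.isHermitian hK
  by_contra hcon
  -- an eigenvalue below k0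
  obtain ⟨i, hi⟩ : ∃ i, hKh.eigenvalues i < k0 := by
    by_contra hall
    push Not at hall
    apply hcon
    have := lin_psd hKh 1 (-k0) (fun i => by linarith [hall i])
    have e1 : K - (k0 : ℂ) • (1 : Mat N) = ((1 : ℝ) : ℂ) • K + ((-k0 : ℝ) : ℂ) • (1 : Mat N) := by
      push_cast
      rw [one_smul, neg_smul, sub_eq_add_neg]
    rw [e1]
    exact this
  set e : Fin N → ℂ := (hKh.eigenvectorBasis i).ofLp with he
  have hKe : K *ᵥ e = ((hKh.eigenvalues i : ℝ) : ℂ) • e := by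
    have := hKh.mulVec_eigenvectorBasis i
    rw [he, this]
    rfl
  have hne : nsq e = 1 := by
    rw [nsq_eq_d]
    have h1 := (hKh.eigenvectorBasis).orthonormal.1 i
    rw [EuclideanSpace.norm_eq, Real.sqrt_eq_one] at h1
    exact h1
  have h1 := hD.lower K hK e hne _ hi hKe
  have hWc : Continuous (W K) := by
    rw [← continuousOn_univ]
    exact hD.cont.comp (f := fun x : ℝ => (K, x)) (by fun_prop) (fun x _ => ⟨hK, mem_univ _⟩)
  have h2 := WG_test hD.hab hK (hD.psd K hK) hWc (hF.sol K hK) h hne hKe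
  linarith

theorem WG_of_OG {a b : ℝ} {K : Mat N} {V U : ℝ → Mat N} (h : OG a b K V U) : WG a b K V U :=
  ⟨h.1, h.2.posSemidef⟩

theorem ray_smul {δ : ℝ} {X : Mat N} {t s : ℝ} (ht : 0 < t) :
    ray δ X s = ((s / t : ℝ) : ℂ) • ray δ X t := by
  unfold ray
  rw [smul_smul, ← Complex.ofReal_mul, div_mul_cancel₀ _ ht.ne']

/-- monotonicity along the ray -/
theorem OG_mono {a b k0 w : ℝ} {W V U : Mat N → ℝ → Mat N} (hD : Data N a b k0 w W)
    (hF : Fam a W V U) {δ : ℝ} (hδ : 0 < δ) {X : Mat N} (hX : X ∈ Dens N) {t s : ℝ} (ht : 0 < t)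
    (hts : t < s) (h : WG a b (ray δ X t) (V (ray δ X t)) (U (ray δ X t))) :
    OG a b (ray δ X s) (V (ray δ X s)) (U (ray δ X s)) := by
  have hs : 0 < s := ht.trans hts
  have hK := ray_posDef hδ hX ht
  have hK' := ray_posDef hδ hX hs
  set K := ray δ X t with hKd
  have hr : 1 < s / t := (one_lt_div ht).2 hts
  have hsm : ray δ X s = ((s / t : ℝ) : ℂ) • K := ray_smul ht
  refine cmp hD.hab hK (PosDef.isHermitian hK') ?_ ?_ (fun x => (hD.psd K hK x).isHermitian)
    (fun x => (hD.psd _ hK' x).isHermitian) (hF.sol K hK) (hF.sol _ hK') h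
  · rw [hsm]
    have h1 : ((s / t : ℝ) : ℂ) • K - K = ((s / t - 1 : ℝ) : ℂ) • K := by
      push_cast
      rw [sub_smul, one_smul]
    rw [h1]
    refine hK.smul ?_
    have : 0 < s / t - 1 := by linarith
    exact_mod_cast this
  · intro x _
    have h2 : ray δ X s * ray δ X s - W (ray δ X s) x - (K * K - W K x)
        = (((s / t) ^ 2 - 1 : ℝ) : ℂ) • (K * K) + (W K x - W (ray δ X s) x) := by
      rw [hsm, Matrix.smul_mul, Matrix.mul_smul, smul_smul]
      have : (((s / t) ^ 2 - 1 : ℝ) : ℂ) = ((s / t : ℝ) : ℂ) * ((s / t : ℝ) : ℂ) - 1 := by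
        push_cast; ring
      rw [this, sub_smul, one_smul]
      abel
    rw [h2]
    refine PosSemidef.add ?_ ?_
    · have h3 : (K * K).PosSemidef := by
        have := posSemidef_conjTranspose_mul_self K
        rwa [(PosDef.isHermitian hK).eq] at this
      refine h3.smul ?_
      have : 0 ≤ (s / t) ^ 2 - 1 := by nlinarith
      exact_mod_cast this
    · have h4 := hD.mono K hK (s / t) hr.le x
      have h5 : (s / t) • K = ray δ X s := by
        rw [hsm]; rfl
      rwa [h5] at h4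

theorem mul_self_le {Y : Mat N} {m : ℝ} (hm : 0 < m) (hY : Y.PosSemidef)
    (h : ((m : ℂ) • (1 : Mat N) - Y).PosSemidef) : ((m : ℂ) • Y - Y * Y).PosSemidef := by
  have hYh : Yᴴ = Y := hY.isHermitian.eq
  have h1 := hY.conjTranspose_mul_mul_same ((m : ℂ) • (1 : Mat N) - Y)
  have h2 := h.conjTranspose_mul_mul_same Y
  rw [h.isHermitian.eq] at h1
  rw [hYh] at h2
  have h3 := h1.add h2
  have h4 : ((m : ℂ) • (1 : Mat N) - Y) * Y * ((m : ℂ) • (1 : Mat N) - Y)
      + Y * ((m : ℂ) • (1 : Mat N) - Y) * Y = (m : ℂ) • ((m : ℂ) • Y - Y * Y) := by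
    simp only [sub_mul, mul_sub, Matrix.smul_mul, Matrix.mul_smul, Matrix.one_mul,
      Matrix.mul_one, smul_sub]
    abel
  rw [h4] at h3
  have h5 := h3.smul (a := ((m⁻¹ : ℝ) : ℂ)) (by
    have : 0 ≤ m⁻¹ := inv_nonneg.2 hm.le
    exact_mod_cast this)
  rw [smul_smul, ← Complex.ofReal_mul, inv_mul_cancel₀ hm.ne', Complex.ofReal_one, one_smul] at h5
  exact h5

theorem dens_le_one {X : Mat N} (hX : X ∈ Dens N) : ((1 : Mat N) - X).PosSemidef := by
  have hXh := hX.1.isHermitian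
  have h1 : ∀ i, hXh.eigenvalues i ≤ 1 := by
    intro i
    have h2 := hXh.trace_eq_sum_eigenvalues
    rw [hX.2] at h2
    have h3 : (1 : ℝ) = ∑ i, hXh.eigenvalues i := by
      have := congrArg Complex.re h2
      simpa using this
    rw [h3]
    exact Finset.single_le_sum (fun j _ => hX.1.eigenvalues_nonneg j) (Finset.mem_univ i)
  have := lin_psd hXh (-1) 1 (fun i => by linarith [h1 i])
  have e1 : (1 : Mat N) - X = ((-1 : ℝ) : ℂ) • X + ((1 : ℝ) : ℂ) • (1 : Mat N) := by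
    push_cast
    rw [one_smul, neg_smul, one_smul]
    abel
  rw [e1]
  exact this

theorem shift_le {δ : ℝ} {X : Mat N} (hX : X ∈ Dens N) :
    (((1 + δ : ℝ) : ℂ) • (1 : Mat N) - (X + (δ : ℂ) • (1 : Mat N))).PosSemidef := by
  have h := dens_le_one hX
  have e1 : ((1 + δ : ℝ) : ℂ) • (1 : Mat N) - (X + (δ : ℂ) • (1 : Mat N)) = (1 : Mat N) - X := by
    push_cast
    rw [add_smul, one_smul]
    abel
  rw [e1]
  exact h

/-- lower bound for the ray -/
theorem ray_ge {δ : ℝ} (hδ : 0 < δ) {X : Mat N} (hX : X ∈ Dens N) {t c : ℝ} (hc : 0 ≤ c)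
    (ht : (1 + δ) * c ≤ t) : (ray δ X t - (c : ℂ) • (1 : Mat N)).PosSemidef := by
  set Y := X + (δ : ℂ) • (1 : Mat N) with hYd
  have hY : Y.PosDef := shift_posDef hδ hX
  have hm : (0 : ℝ) < 1 + δ := by linarith
  have h1 := mul_self_le hm hY.posSemidef (shift_le hX)
  have hYi := hY.inv
  have hdet : IsUnit Y.det := (Matrix.isUnit_iff_isUnit_det _).1 hY.isUnit
  have h2 := h1.conjTranspose_mul_mul_same Y⁻¹
  rw [hYi.isHermitian.eq] at h2
  have h3 : Y⁻¹ * (((1 + δ : ℝ) : ℂ) • Y - Y * Y) * Y⁻¹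
      = ((1 + δ : ℝ) : ℂ) • Y⁻¹ - 1 := by
    rw [mul_sub, sub_mul, Matrix.mul_smul, Matrix.smul_mul, Matrix.nonsing_inv_mul Y hdet,
      Matrix.one_mul, ← Matrix.mul_assoc, Matrix.nonsing_inv_mul Y hdet, Matrix.one_mul,
      Matrix.mul_nonsing_inv Y hdet]
  rw [h3] at h2
  have h4 : ray δ X t - (c : ℂ) • (1 : Mat N)
      = ((t - (1 + δ) * c : ℝ) : ℂ) • Y⁻¹ + (c : ℂ) • (((1 + δ : ℝ) : ℂ) • Y⁻¹ - 1) := by
    unfold ray
    rw [← hYd, smul_sub, smul_smul]
    push_cast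
    rw [sub_smul, show (c : ℂ) * (1 + (δ : ℂ)) = (1 + δ) * c by ring]
    abel
  rw [h4]
  refine PosSemidef.add (hYi.posSemidef.smul ?_) (h2.smul ?_)
  · have : 0 ≤ t - (1 + δ) * c := by linarith
    exact_mod_cast this
  · exact_mod_cast hc

/-- large parameters are good -/
theorem OG_large {a b k0 w : ℝ} {W V U : Mat N → ℝ → Mat N} (hD : Data N a b k0 w W)
    (hF : Fam a W V U) {δ : ℝ} (hδ : 0 < δ) {X : Mat N} (hX : X ∈ Dens N) {t : ℝ}
    (ht : (1 + δ) * (k0 + w + 1) ≤ t) :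
    OG a b (ray δ X t) (V (ray δ X t)) (U (ray δ X t)) := by
  have hk0 := hD.hk0
  have hw := hD.hw
  have ht0 : 0 < t := lt_of_lt_of_le (by positivity) ht
  have hK := ray_posDef hδ hX ht0
  have h1 := ray_ge hδ hX (c := k0 + w + 1) (by positivity) ht
  set K := ray δ X t with hKd
  have hKh : K.IsHermitian := PosDef.isHermitian hK
  have hKk0 : (K - (k0 : ℂ) • (1 : Mat N)).PosSemidef :=
    ray_ge hδ hX hk0.le (le_trans (by nlinarith) ht)
  refine good_large hD.hab hK (fun x => (hD.psd K hK x).isHermitian) (fun x hx => ?_)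
    (hF.sol K hK)
  have h2 := hD.upper K hKk0 x hx
  -- K^2 ≥ w
  have h3 : (K * K - (w : ℂ) • (1 : Mat N)).PosSemidef := by
    set c : ℝ := k0 + w + 1 with hc
    have hc1 : (1 : ℝ) ≤ c := by linarith
    have e1 := posSemidef_conjTranspose_mul_self (K - (c : ℂ) • (1 : Mat N))
    rw [h1.isHermitian.eq] at e1
    have e2 : K * K - (w : ℂ) • (1 : Mat N)
        = (K - (c : ℂ) • (1 : Mat N)) * (K - (c : ℂ) • (1 : Mat N))
          + ((2 * c : ℝ) : ℂ) • (K - (c : ℂ) • (1 : Mat N))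
          + ((c ^ 2 - w : ℝ) : ℂ) • (1 : Mat N) := by
      simp only [sub_mul, mul_sub, Matrix.smul_mul, Matrix.mul_smul, Matrix.one_mul,
        Matrix.mul_one, smul_sub, smul_smul]
      push_cast
      module
    rw [e2]
    refine (e1.add (h1.smul ?_)).add (PosSemidef.one.smul ?_)
    · have : 0 ≤ 2 * c := by linarith
      exact_mod_cast this
    · have : 0 ≤ c ^ 2 - w := by nlinarith
      exact_mod_cast this
  have h4 := h3.add h2
  have h5 : K * K - (w : ℂ) • (1 : Mat N) + ((w : ℂ) • (1 : Mat N) - W K x) = K * K - W K x := by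
    abel
  rwa [h5] at h4

/-- small parameters are not good -/
theorem WG_small {a b k0 w : ℝ} {W V U : Mat N → ℝ → Mat N} (hD : Data N a b k0 w W)
    (hF : Fam a W V U) (hN : 0 < N) {δ : ℝ} (hδ : 0 < δ) {X : Mat N} (hX : X ∈ Dens N) {t : ℝ}
    (ht : 0 < t) (h : WG a b (ray δ X t) (V (ray δ X t)) (U (ray δ X t))) : k0 / N ≤ t := by
  have hk0 := hD.hk0
  have hN' : (0 : ℝ) < N := by exact_mod_cast hN
  have h1 := WG_ge hD hF (ray_posDef hδ hX ht) h
  set Y := X + (δ : ℂ) • (1 : Mat N) with hYd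
  have hY : Y.PosDef := shift_posDef hδ hX
  have hYh : Yᴴ = Y := hY.isHermitian.eq
  have hdet : IsUnit Y.det := (Matrix.isUnit_iff_isUnit_det _).1 hY.isUnit
  have h2 := h1.conjTranspose_mul_mul_same Y
  rw [hYh] at h2
  have h3 : Y * (ray δ X t - (k0 : ℂ) • (1 : Mat N)) * Y = (t : ℂ) • Y - (k0 : ℂ) • (Y * Y) := by
    unfold ray
    rw [← hYd, mul_sub, sub_mul, Matrix.mul_smul, Matrix.mul_nonsing_inv Y hdet, Matrix.smul_mul,
      Matrix.one_mul, Matrix.mul_smul, Matrix.mul_one, Matrix.smul_mul]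
  rw [h3] at h2
  have h4 : ∀ i, k0 * (Y i i).re ≤ t := by
    intro i
    have hpos : 0 < (Y i i).re := by
      have := hY.diag_pos (i := i)
      exact (Complex.lt_def.1 this).1
    have h5 := h2.diag_nonneg (i := i)
    have h6 := (Complex.le_def.1 h5).1
    rw [Matrix.sub_apply, Matrix.smul_apply, Matrix.smul_apply, smul_eq_mul, smul_eq_mul,
      Complex.sub_re, Complex.re_ofReal_mul, Complex.re_ofReal_mul, Complex.zero_re,
      Matrix.mul_apply, Complex.re_sum] at h6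
    have h7 : ((Y i i).re) ^ 2 ≤ ∑ j, (Y i j * Y j i).re := by
      have h8 : ∀ j, (Y i j * Y j i).re = Complex.normSq (Y i j) := by
        intro j
        have : Y j i = star (Y i j) := by
          conv_lhs => rw [← hYh]
          rfl
        rw [this, Complex.star_def, Complex.mul_conj, Complex.ofReal_re]
      simp only [h8]
      refine le_trans ?_ (Finset.single_le_sum (f := fun j => Complex.normSq (Y i j))
        (fun j _ => Complex.normSq_nonneg _) (Finset.mem_univ i))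
      rw [Complex.normSq_apply]
      nlinarith [mul_self_nonneg (Y i i).im]
    have h9 : k0 * (Y i i).re ^ 2 ≤ t * (Y i i).re := by nlinarith
    have h10 : (k0 * (Y i i).re) * (Y i i).re ≤ t * (Y i i).re := by nlinarith
    exact le_of_mul_le_mul_right h10 hpos
  have h5 : k0 * (∑ i, (Y i i).re) ≤ N * t := by
    rw [Finset.mul_sum]
    calc ∑ i, k0 * (Y i i).re ≤ ∑ _i : Fin N, t := Finset.sum_le_sum fun i _ => h4 i
      _ = N * t := by simp
  have h6 : 1 ≤ ∑ i, (Y i i).re := by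
    have h7 : ∑ i, (X i i).re = 1 := by
      have := congrArg Complex.re hX.2
      rw [Matrix.trace, Complex.re_sum] at this
      simpa using this
    have h8 : ∀ i, (Y i i).re = (X i i).re + δ := by
      intro i
      rw [hYd, Matrix.add_apply, Matrix.smul_apply, Matrix.one_apply_eq]
      simp
    simp only [h8]
    rw [Finset.sum_add_distrib, h7]
    have : 0 ≤ ∑ _i : Fin N, δ := Finset.sum_nonneg fun _ _ => hδ.le
    linarith
  rw [div_le_iff₀ hN']
  nlinarith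

theorem exists_threshold {a b k0 w : ℝ} {W V U : Mat N → ℝ → Mat N} (hD : Data N a b k0 w W)
    (hF : Fam a W V U) (hN : 0 < N) {δ : ℝ} (hδ : 0 < δ) :
    ∃ τ : Mat N → ℝ, ContinuousOn τ (Dens N) ∧ ∀ X ∈ Dens N, 0 < τ X ∧
      WG a b (ray δ X (τ X)) (V (ray δ X (τ X))) (U (ray δ X (τ X))) ∧
      ¬ OG a b (ray δ X (τ X)) (V (ray δ X (τ X))) (U (ray δ X (τ X))) := by
  classical
  have hN' : (0 : ℝ) < N := by exact_mod_cast hN
  have hk0 := hD.hk0
  have hray : ∀ (x : Dens N) (t : ℝ), Tendsto (fun y : Dens N × ℝ => ray δ (y.1 : Mat N) y.2) (𝓝 (x, t))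
      (𝓝 (ray δ (x : Mat N) t)) := by
    intro x t
    have h1 := ray_cont (N := N) hδ ((x : Mat N), t) ⟨x.2, mem_univ _⟩
    have h2 : Tendsto (fun y : Dens N × ℝ => ((y.1 : Mat N), y.2)) (𝓝 (x, t))
        (𝓝[Dens N ×ˢ univ] ((x : Mat N), t)) := by
      rw [tendsto_nhdsWithin_iff]
      refine ⟨?_, Eventually.of_forall fun y => ⟨y.1.2, mem_univ _⟩⟩
      have h3 : Continuous fun y : Dens N × ℝ => ((y.1 : Mat N), y.2) := by fun_prop
      exact h3.tendsto (x, t)
    exact h1.tendsto.comp h2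
  have hrayW : ∀ (x : Dens N) (t : ℝ), 0 < t → Tendsto (fun y : Dens N × ℝ => ray δ (y.1 : Mat N) y.2)
      (𝓝 (x, t)) (𝓝[{K | K.PosDef}] (ray δ (x : Mat N) t)) := by
    intro x t ht
    rw [tendsto_nhdsWithin_iff]
    refine ⟨hray x t, ?_⟩
    have h1 : ∀ᶠ y : Dens N × ℝ in 𝓝 (x, t), 0 < y.2 :=
      (continuous_snd.tendsto (x, t)).eventually (lt_mem_nhds ht)
    filter_upwards [h1] with y hy
    exact ray_posDef hδ y.1.2 hy
  obtain ⟨τ, hτc, hτ0, hτC, hτG, -, -⟩ := LTG.threshold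
    (fun (x : Dens N) (t : ℝ) => 0 < t ∧ OG a b (ray δ (x : Mat N) t) (V (ray δ (x : Mat N) t))
      (U (ray δ (x : Mat N) t)))
    (fun (x : Dens N) (t : ℝ) => 0 < t ∧ WG a b (ray δ (x : Mat N) t) (V (ray δ (x : Mat N) t))
      (U (ray δ (x : Mat N) t)))
    0 ((1 + δ) * (k0 + w + 1)) (by have := hD.hw; positivity)
    (by
      rintro x t ht ⟨-, hG⟩
      have h1 := OG_open hD.hab hD.psd hF (ray_posDef hδ x.2 ht) hG
      have h2 : ∀ᶠ y : Dens N × ℝ in 𝓝 (x, t), 0 < y.2 :=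
        (continuous_snd.tendsto (x, t)).eventually (lt_mem_nhds ht)
      filter_upwards [(hrayW x t ht).eventually h1, h2] with y hy1 hy2
      exact ⟨hy2, hy1⟩)
    (by
      intro x t ht hfr
      refine ⟨ht, WG_closed hD.hab hD.psd hF (ray_posDef hδ x.2 ht) ?_⟩
      apply (hrayW x t ht).frequently
      exact hfr.mono fun y hy => WG_of_OG hy.2)
    (by
      rintro x s t ht ⟨-, hC⟩ hts
      exact ⟨ht.trans hts, OG_mono hD hF hδ x.2 ht hts hC⟩)
    (fun x t h => ⟨h.1, WG_of_OG h.2⟩)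
    (by
      intro x t ht
      have : 0 < t := lt_of_lt_of_le (by have := hD.hw; positivity) ht
      exact ⟨this, OG_large hD hF hδ x.2 ht⟩)
    ⟨k0 / (2 * N), by positivity, by
      rintro x t ht ⟨ht0, hC⟩
      have h1 := WG_small hD hF hN hδ x.2 ht0 hC
      have h2 : k0 / (2 * N) < k0 / N := by
        apply div_lt_div_of_pos_left hk0 hN'
        linarith
      linarith⟩
  refine ⟨fun X => if h : X ∈ Dens N then τ ⟨X, h⟩ else 1, ?_, ?_⟩
  · rw [continuousOn_iff_continuous_domRestrict]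
    refine hτc.congr fun x => ?_
    simp
  · intro X hX
    simp only [dif_pos hX]
    refine ⟨(hτ0 ⟨X, hX⟩).1, (hτC ⟨X, hX⟩).2, fun hG => hτG ⟨X, hX⟩ ⟨(hτ0 ⟨X, hX⟩).1, hG⟩⟩

end LTX
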