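import Vale.Agent.P371G.EXBrouwer
import Vale.Agent.P371G.EXVec
import Vale.Agent.P371G.EXa
import Vale.Agent.P371G.EXe

/-! # EXf: Brouwer and the conclusion of part EX -/

namespace LTX

open Matrix Set MeasureTheory
open scoped ComplexOrder Topology

variable {N : ℕ}

theorem dens_compact : IsCompact (Dens N) := LTG.isCompact_densSet

theorem dens_convex : Convex ℝ (Dens N) := LTG.convex_densSet

theorem dens_nonempty (hN : 0 < N) : (Dens N).Nonempty := by
  have : NeZero N := ⟨hN.ne'⟩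
  refine ⟨Matrix.single 0 0 1, ?_, ?_⟩
  · have h := Matrix.posSemidef_conjTranspose_mul_self
      (Matrix.single (0 : Fin N) (0 : Fin N) (1 : ℂ))
    simpa using h
  · simp

theorem entry_deriv {P : ℝ → Mat N} {P' : Mat N} {x : ℝ} (h : HasDerivAt P P' x) (i j : Fin N) :
    HasDerivAt (fun y => P y i j) (P' i j) x := by
  let _ := Matrix.normedAddCommGroup (m := Fin N) (n := Fin N) (α := ℂ)
  let _ := Matrix.normedSpace (m := Fin N) (n := Fin N) (α := ℂ) (R := ℝ)
  have h1 : HasDerivAt (fun y => P y i) (P' i) x := hasDerivAt_pi.1 h i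
  exact hasDerivAt_pi.1 h1 j

theorem trace_mul_psd_nonneg {A B : Mat N} (hA : A.PosSemidef) (hB : B.PosSemidef) :
    0 ≤ (A * B).trace.re := by
  obtain ⟨C, hC⟩ : ∃ C : Mat N, B = Cᴴ * C := by
    open scoped MatrixOrder Matrix.Norms.L2Operator in
    obtain ⟨C, hC⟩ := CStarAlgebra.nonneg_iff_eq_star_mul_self.mp hB.nonneg
    exact ⟨C, hC⟩
  have h1 : (C * A * Cᴴ).PosSemidef := hA.mul_mul_conjTranspose_same C
  rw [hC, ← Matrix.mul_assoc, Matrix.trace_mul_comm, ← Matrix.mul_assoc]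
  exact (Complex.le_def.1 h1.trace_nonneg).1

theorem ray_base_posDef {δ : ℝ} (hδ : 0 < δ) {X : Mat N} (hX : X ∈ Dens N) :
    (X + (δ : ℂ) • (1 : Mat N)).PosDef := by
  have h1 : ((δ : ℂ) • (1 : Mat N)).PosDef := PosDef.one.smul (by exact_mod_cast hδ)
  rw [add_comm]
  exact h1.add_posSemidef hX.1

/-- a fixed point of `B/tr B` is impossible for small `δ` -/
theorem no_fixed {a b k0 w : ℝ} {W V U : Mat N → ℝ → Mat N} (hD : Data N a b k0 w W)
    (hF : Fam a W V U) {δ : ℝ} (hδ : 0 < δ) (hδs : δ * (w * (b - a)) < k0 * 2 / N)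
    {X : Mat N} (hX : X ∈ Dens N) {τ : ℝ} (hτ : 0 < τ)
    (hg : WG a b (ray δ X τ) (V (ray δ X τ)) (U (ray δ X τ)))
    {e : Fin N → ℂ} (he : nsq e = 1) (hXe : X *ᵥ e = 0)
    (hBe : (U (ray δ X τ) b * (V (ray δ X τ) b)⁻¹ + ray δ X τ) *ᵥ e = 0) : False := by
  have hM := ray_base_posDef hδ hX
  set M := X + (δ : ℂ) • (1 : Mat N) with hMdef
  have hMu : IsUnit M.det := (Matrix.isUnit_iff_isUnit_det _).1 hM.isUnit
  set K := ray δ X τ with hKdef
  have hKM : K = (τ : ℂ) • M⁻¹ := rfl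
  have hK : K.PosDef := ray_posDef hδ hX hτ
  have hab := hD.hab
  have hWG := WG_ge hD hF hK hg
  have hδ0 : (δ : ℂ) ≠ 0 := by exact_mod_cast hδ.ne'
  -- `K e = (τ/δ) e`
  have hMe : M *ᵥ e = (δ : ℂ) • e := by
    rw [hMdef, add_mulVec, hXe, zero_add, smul_mulVec, one_mulVec]
  have hMie : M⁻¹ *ᵥ e = (δ : ℂ)⁻¹ • e := by
    have : e = (δ : ℂ)⁻¹ • (M *ᵥ e) := by rw [hMe, smul_smul, inv_mul_cancel₀ hδ0, one_smul]
    conv_lhs => rw [this]
    rw [mulVec_smul, mulVec_mulVec, nonsing_inv_mul _ hMu, one_mulVec]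
  have hKe : K *ᵥ e = ((τ / δ : ℝ) : ℂ) • e := by
    rw [hKM, smul_mulVec, hMie, smul_smul]
    push_cast
    rw [div_eq_mul_inv]
  -- `K ≤ τ/δ`
  have hK1 : (((τ / δ : ℝ) : ℂ) • (1 : Mat N) - K).PosSemidef := by
    have h1 : ((τ / δ : ℝ) : ℂ) • (1 : Mat N) - K =
        ((τ / δ : ℝ) : ℂ) • (M⁻¹ * (M * X) * (M⁻¹)ᴴ) := by
      have hMi : (M⁻¹)ᴴ = M⁻¹ := by rw [conjTranspose_nonsing_inv, hM.1.eq]
      have hXM : X = M - (δ : ℂ) • (1 : Mat N) := by rw [hMdef]; abel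
      rw [hMi, ← Matrix.mul_assoc M⁻¹ M X, nonsing_inv_mul _ hMu, Matrix.one_mul]
      conv_rhs => rw [hXM]
      rw [Matrix.sub_mul, mul_nonsing_inv _ hMu, Matrix.smul_mul, Matrix.one_mul, smul_sub,
        smul_smul, hKM]
      congr 2
      push_cast
      field_simp
    rw [h1]
    have h2 : (M * X).PosSemidef := by
      have : M * X = Xᴴ * X + (δ : ℂ) • X := by
        rw [hMdef, Matrix.add_mul, Matrix.smul_mul, Matrix.one_mul, hX.1.1.eq]
      rw [this]
      exact (posSemidef_conjTranspose_mul_self X).add (hX.1.smul (by exact_mod_cast hδ.le))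
    exact (h2.mul_mul_conjTranspose_same _).smul (by exact_mod_cast (div_pos hτ hδ).le)
  -- the path
  set P : ℝ → Mat N := fun x => U K x * (V K x)⁻¹ with hPdef
  have hsol := hF.sol K hK
  have hWp := hD.psd K hK
  have hPa : P a = K := by
    rw [hPdef]; simp only [hsol.initV, hsol.initU, inv_one, mul_one]
  have htop := LTG.ric_top (P := P) (W := W K) (w := w) hab.le hK.1
    (fun x hx => P_herm hK.1 (fun x => (hWp x).1) hsol (hg.1 x hx))
    (fun x hx i j => (entry_deriv (P_deriv hsol (hg.1 x hx)) i j).hasDerivWithinAt)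
    hPa (div_pos hτ hδ) hK1
    (fun x hx => (P_bounds hab hK hWp hsol hg hx).2)
    (fun x hx => (P_bounds hab hK hWp hsol hg hx).1) hKe
    (fun x hx => by
      have h1 := LTG.qf_nonneg (hD.upper K hWG x hx) e
      rw [LTG.qf_sub] at h1
      have h2 : LTG.qf ((w : ℂ) • (1 : Mat N)) e = w * LTG.sq2 e := by
        rw [LTG.qf, smul_mulVec, one_mulVec, dotProduct_smul, LTG.sq2, smul_eq_mul,
          Complex.re_ofReal_mul]
      linarith)
  have he' : LTG.sq2 e = 1 := he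
  have hPb : LTG.qf (P b) e = - (τ / δ) := by
    have h1 : LTG.qf (P b + K) e = 0 := by
      rw [LTG.qf, hBe]; simp
    rw [LTG.qf_add, LTG.qf_eig hKe, he'] at h1
    linarith
  rw [hPb, he', mul_one] at htop
  have h2τ : 2 * τ ≤ δ * (w * (b - a)) := by
    have h3 : 2 * (τ / δ) ≤ w * (b - a) := by linarith
    have h4 := mul_le_mul_of_nonneg_left h3 hδ.le
    have h5 : δ * (2 * (τ / δ)) = 2 * τ := by field_simp
    linarith
  -- `k0 / N < τ`
  have htr := trace_mul_psd_nonneg hWG hM.posSemidef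
  have hNpos : 0 < (N : ℝ) := by
    rcases Nat.eq_zero_or_pos N with h | h
    · subst h
      exact absurd he (by simp [nsq, dotProduct])
    · exact_mod_cast h
  have hcomp : ((K - (k0 : ℂ) • (1 : Mat N)) * M).trace.re = τ * N - k0 * (1 + δ * N) := by
    rw [Matrix.sub_mul, hKM, Matrix.smul_mul, nonsing_inv_mul _ hMu, Matrix.smul_mul,
      Matrix.one_mul, trace_sub, trace_smul, trace_smul, hMdef, trace_add, trace_smul, hX.2,
      trace_one, Fintype.card_fin]
    simp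
  rw [hcomp] at htr
  have hk0 := hD.hk0
  have h6 : k0 / N < τ := by
    rw [div_lt_iff₀ hNpos]
    nlinarith [mul_pos hk0 (mul_pos hδ hNpos)]
  have h7 : k0 * 2 / N = 2 * (k0 / N) := by ring
  linarith

theorem exists_crit {a b k0 w : ℝ} {W : Mat N → ℝ → Mat N} (hD : Data N a b k0 w W) (hN : 0 < N) :
    ∃ K : Mat N, K.PosDef ∧ (K - (k0 : ℂ) • (1 : Mat N)).PosSemidef ∧ ∃ P : ℝ → Mat N,
      P a = K ∧ P b = -K ∧ (∀ x ∈ Icc a b, (P x).IsHermitian) ∧
      (∀ x ∈ Icc a b, HasDerivAt P (K * K - P x * P x - W K x) x) ∧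
      (∀ x ∈ Icc a b, (K - P x).PosSemidef ∧ (K + P x).PosSemidef) := by
  have : NeZero N := ⟨hN.ne'⟩
  have hab := hD.hab
  have hk0 := hD.hk0
  have hw := hD.hw
  have hNpos : 0 < (N : ℝ) := by exact_mod_cast hN
  obtain ⟨V, U, hF⟩ := exists_fam a W hD.cont
  obtain ⟨δ, hδ, hδs⟩ : ∃ δ : ℝ, 0 < δ ∧ δ * (w * (b - a)) < k0 * 2 / N := by
    have hwb : 0 < w * (b - a) := mul_pos hw (sub_pos.2 hab)
    refine ⟨k0 / N / (w * (b - a)), by positivity, ?_⟩
    rw [div_mul_cancel₀ _ hwb.ne', mul_div_right_comm]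
    linarith [div_pos hk0 hNpos]
  obtain ⟨τ, hτc, hτ⟩ := exists_threshold hD hF hN hδ
  set R : Mat N → Mat N := fun X => ray δ X (τ X) with hR
  have hRpd : ∀ X ∈ Dens N, (R X).PosDef := fun X hX => ray_posDef hδ hX (hτ X hX).1
  have hRc : ContinuousOn R (Dens N) := by
    have h1 : ContinuousOn (fun X : Mat N => (X, τ X)) (Dens N) :=
      continuousOn_id.prodMk hτc
    exact (ray_cont hδ).comp h1 fun X hX => ⟨hX, mem_univ _⟩
  have hVc : ContinuousOn (fun X => V (R X) b) (Dens N) :=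
    hF.contV.comp (hRc.prodMk continuousOn_const) fun X hX => ⟨hRpd X hX, mem_univ _⟩
  have hUc : ContinuousOn (fun X => U (R X) b) (Dens N) :=
    hF.contU.comp (hRc.prodMk continuousOn_const) fun X hX => ⟨hRpd X hX, mem_univ _⟩
  have hWGX : ∀ X ∈ Dens N, WG a b (R X) (V (R X)) (U (R X)) := fun X hX => (hτ X hX).2.1
  have hunit : ∀ X ∈ Dens N, IsUnit (V (R X) b).det := fun X hX =>
    (hWGX X hX).1 b (right_mem_Icc.2 hab.le)
  have hVic : ContinuousOn (fun X => (V (R X) b)⁻¹) (Dens N) := by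
    have h1 : ContinuousOn (fun X => ((V (R X) b).det)⁻¹ • (V (R X) b).adjugate) (Dens N) := by
      refine ContinuousOn.smul (ContinuousOn.inv₀ ?_ fun X hX => (hunit X hX).ne_zero) ?_
      · exact (Continuous.matrix_det continuous_id).comp_continuousOn hVc
      · exact (Continuous.matrix_adjugate continuous_id).comp_continuousOn hVc
    refine h1.congr fun X hX => ?_
    simp only [Matrix.inv_def, Ring.inverse_eq_inv]
  set B : Mat N → Mat N := fun X => U (R X) b * (V (R X) b)⁻¹ + R X with hB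
  have hBc : ContinuousOn B (Dens N) := (hUc.mul hVic).add hRc
  have hBpsd : ∀ X ∈ Dens N, (B X).PosSemidef := by
    intro X hX
    have := (P_bounds hab (hRpd X hX) (hD.psd _ (hRpd X hX)) (hF.sol _ (hRpd X hX)) (hWGX X hX)
      (right_mem_Icc.2 hab.le)).2
    rwa [add_comm] at this
  have hBV : ∀ X ∈ Dens N, (V (R X) b)ᴴ * (U (R X) b + R X * V (R X) b) =
      (V (R X) b)ᴴ * B X * V (R X) b := by
    intro X hX
    rw [hB]
    simp only
    rw [Matrix.mul_assoc, Matrix.add_mul, Matrix.mul_assoc, nonsing_inv_mul _ (hunit X hX),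
      Matrix.mul_one]
  have hsing : ∀ X ∈ Dens N, ∃ v : Fin N → ℂ, v ≠ 0 ∧ B X *ᵥ v = 0 := by
    intro X hX
    have hnot : ¬ (B X).PosDef := by
      intro hpd
      refine (hτ X hX).2.2 ⟨(hWGX X hX).1, ?_⟩
      change ((V (R X) b)ᴴ * (U (R X) b + R X * V (R X) b)).PosDef
      rw [hBV X hX]
      exact hpd.conjTranspose_mul_mul_same
        (Matrix.mulVec_injective_iff_isUnit.2 ((Matrix.isUnit_iff_isUnit_det _).2 (hunit X hX)))
    by_contra hcon
    push Not at hcon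
    refine hnot ?_
    refine (hBpsd X hX).posDef_iff_isUnit.2 ?_
    rw [← Matrix.mulVec_injective_iff_isUnit]
    intro v v' hv
    by_contra hne
    refine hcon (v - v') (sub_ne_zero.2 hne) ?_
    rw [mulVec_sub, sub_eq_zero]
    exact hv
  have hbd : ∀ X ∈ Dens N, ∀ e : Fin N → ℂ, e ≠ 0 → X *ᵥ e = 0 → B X *ᵥ e ≠ 0 := by
    intro X hX e he hXe hBe
    have hpos := LTG.sq2_pos he
    set c : ℝ := (Real.sqrt (LTG.sq2 e))⁻¹ with hc
    refine no_fixed hD hF hδ hδs hX (hτ X hX).1 (hWGX X hX) (e := (c : ℂ) • e) ?_ ?_ ?_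
    · change LTG.sq2 ((c : ℂ) • e) = 1
      rw [LTG.sq2_smul, hc, inv_pow, Real.sq_sqrt hpos.le, inv_mul_cancel₀ hpos.ne']
    · rw [mulVec_smul, hXe, smul_zero]
    · change B X *ᵥ ((c : ℂ) • e) = 0
      rw [mulVec_smul, hBe, smul_zero]
  obtain ⟨X, hX, hBX⟩ := LTG.exists_zero B hBc hBpsd hsing hbd
  have hK := hRpd X hX
  have hsol := hF.sol _ hK
  have hWp := hD.psd _ hK
  have hg := hWGX X hX
  refine ⟨R X, hK, WG_ge hD hF hK hg, fun x => U (R X) x * (V (R X) x)⁻¹, ?_, ?_, ?_, ?_, ?_⟩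
  · simp only [hsol.initV, hsol.initU, inv_one, mul_one]
  · exact eq_neg_of_add_eq_zero_left hBX
  · exact fun x hx => P_herm hK.1 (fun x => (hWp x).1) hsol (hg.1 x hx)
  · exact fun x hx => P_deriv hsol (hg.1 x hx)
  · exact fun x hx => P_bounds hab hK hWp hsol hg hx

end LTX
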