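import Mathlib

/-! P371G, existence of K: facts on the Riccati / linear system on a compact interval.

For fixed data: `V`, `V1` matrix functions with `V' = V1`, `V1' = L V` on `[a,b]`,
`V a = 1`, `V1 a = K`, `P = V1 V⁻¹`. -/

open Set Filter Topology Matrix
open scoped ComplexOrder Matrix.Norms.L2Operator

namespace LTGd

variable {N : ℕ}

/-- the real quadratic form `Re <c, M c>` as a linear functional of the matrix `M` -/
noncomputable def qf (c : Fin N → ℂ) : Matrix (Fin N) (Fin N) ℂ →ₗ[ℝ] ℝ where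
  toFun M := (star c ⬝ᵥ (M *ᵥ c)).re
  map_add' M M' := by rw [add_mulVec, dotProduct_add, Complex.add_re]
  map_smul' r M := by
    rw [smul_mulVec, dotProduct_smul]
    simp

theorem qf_apply (c : Fin N → ℂ) (M : Matrix (Fin N) (Fin N) ℂ) :
    qf c M = (star c ⬝ᵥ (M *ᵥ c)).re := rfl

theorem qf_continuous (c : Fin N → ℂ) : Continuous (qf c) :=
  LinearMap.continuous_of_finiteDimensional _

theorem qf_hasDerivAt (c : Fin N → ℂ) {G : ℝ → Matrix (Fin N) (Fin N) ℂ}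
    {G' : Matrix (Fin N) (Fin N) ℂ} {x : ℝ} (h : HasDerivAt G G' x) :
    HasDerivAt (fun x => qf c (G x)) (qf c G') x :=
  ((qf c).toContinuousLinearMap.hasFDerivAt (x := G x)).comp_hasDerivAt x h

theorem qf_nonneg {M : Matrix (Fin N) (Fin N) ℂ} (hM : M.PosSemidef) (c : Fin N → ℂ) :
    0 ≤ qf c M := by
  have := hM.dotProduct_mulVec_nonneg c
  rw [Complex.le_def] at this
  exact this.1

theorem qf_pos {M : Matrix (Fin N) (Fin N) ℂ} (hM : M.PosDef) {c : Fin N → ℂ} (hc : c ≠ 0) :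
    0 < qf c M := by
  have := hM.dotProduct_mulVec_pos hc
  rw [Complex.lt_def] at this
  exact this.1

theorem herm_im_zero {M : Matrix (Fin N) (Fin N) ℂ} (hM : M.IsHermitian) (c : Fin N → ℂ) :
    (star c ⬝ᵥ (M *ᵥ c)).im = 0 := by
  have h : star (star c ⬝ᵥ (M *ᵥ c)) = star c ⬝ᵥ (M *ᵥ c) := by
    rw [← star_dotProduct_star, star_star, star_mulVec, hM.eq, ← dotProduct_mulVec, dotProduct_comm]
  have h2 := congrArg Complex.im h
  rw [Complex.star_def, Complex.conj_im] at h2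
  linarith

theorem posSemidef_of_qf {M : Matrix (Fin N) (Fin N) ℂ} (hM : M.IsHermitian)
    (h : ∀ c, 0 ≤ qf c M) : M.PosSemidef := by
  refine PosSemidef.of_dotProduct_mulVec_nonneg hM fun c => ?_
  rw [Complex.le_def]
  exact ⟨h c, (herm_im_zero hM c).symm⟩

theorem posDef_of_qf {M : Matrix (Fin N) (Fin N) ℂ} (hM : M.IsHermitian)
    (h : ∀ c, c ≠ 0 → 0 < qf c M) : M.PosDef := by
  refine PosDef.of_dotProduct_mulVec_pos hM fun c hc => ?_
  rw [Complex.lt_def]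
  exact ⟨h c hc, (herm_im_zero hM c).symm⟩

theorem qf_conj (c : Fin N → ℂ) (M S : Matrix (Fin N) (Fin N) ℂ) :
    qf c (Sᴴ * M * S) = qf (S *ᵥ c) M := by
  rw [qf_apply, qf_apply, star_mulVec, ← mulVec_mulVec, ← mulVec_mulVec, dotProduct_mulVec,
    dotProduct_mulVec]

theorem mat_mul {F G : ℝ → Matrix (Fin N) (Fin N) ℂ} {F' G' : Matrix (Fin N) (Fin N) ℂ} {x : ℝ}
    (hF : HasDerivAt F F' x) (hG : HasDerivAt G G' x) :
    HasDerivAt (fun x => F x * G x) (F' * G x + F x * G') x := hF.mul hG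

theorem mat_sub {F G : ℝ → Matrix (Fin N) (Fin N) ℂ} {F' G' : Matrix (Fin N) (Fin N) ℂ} {x : ℝ}
    (hF : HasDerivAt F F' x) (hG : HasDerivAt G G' x) :
    HasDerivAt (fun x => F x - G x) (F' - G') x := hF.sub hG

theorem mat_add {F G : ℝ → Matrix (Fin N) (Fin N) ℂ} {F' G' : Matrix (Fin N) (Fin N) ℂ} {x : ℝ}
    (hF : HasDerivAt F F' x) (hG : HasDerivAt G G' x) :
    HasDerivAt (fun x => F x + G x) (F' + G') x := hF.add hG

theorem mat_ct {F : ℝ → Matrix (Fin N) (Fin N) ℂ} {F' : Matrix (Fin N) (Fin N) ℂ} {x : ℝ}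
    (hF : HasDerivAt F F' x) :
    HasDerivAt (fun x => (F x)ᴴ) (F'ᴴ) x := hF.star

theorem alg1 {V V1 P L L2 : Matrix (Fin N) (Fin N) ℂ} (hP : Pᴴ = P) :
    V1ᴴ * V1 + Vᴴ * (L2 * V) - ((V1ᴴ * P + Vᴴ * (L - P * P)) * V + Vᴴ * P * V1) =
      (V1 - P * V)ᴴ * (V1 - P * V) + Vᴴ * (L2 - L) * V := by
  simp only [conjTranspose_sub, conjTranspose_mul, hP]
  noncomm_ring

/-- strict monotonicity lemma -/
theorem lt_of_deriv {f f' : ℝ → ℝ} {a b : ℝ} (hab : a < b)
    (hf : ∀ x ∈ Icc a b, HasDerivAt f (f' x) x) (h0 : ∀ x ∈ Icc a b, 0 ≤ f' x)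
    (ha : 0 < f' a) : f a < f b := by
  have hmono : MonotoneOn f (Icc a b) := by
    refine monotoneOn_of_deriv_nonneg (convex_Icc a b)
      (fun x hx => (hf x hx).continuousAt.continuousWithinAt)
      (fun x hx => (hf x (interior_subset hx)).differentiableAt.differentiableWithinAt)
      (fun x hx => ?_)
    rw [(hf x (interior_subset hx)).deriv]
    exact h0 x (interior_subset hx)
  have h1 : ∀ᶠ x in 𝓝[>] a, f a < f x := by
    have h2 := (hf a ⟨le_rfl, hab.le⟩).hasDerivWithinAt (s := Ioi a)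
    rw [hasDerivWithinAt_iff_tendsto_slope] at h2
    have h3 := h2.eventually (lt_mem_nhds ha)
    have h4 : Ioi a \ {a} = Ioi a := by
      ext y; simp only [Set.mem_sdiff, mem_Ioi, mem_singleton_iff]
      exact ⟨fun h => h.1, fun h => ⟨h, h.ne'⟩⟩
    rw [h4] at h3
    filter_upwards [h3, self_mem_nhdsWithin] with x hx1 hx2
    rw [slope_def_field] at hx1
    have hx3 : 0 < x - a := sub_pos.2 hx2
    have := (div_pos_iff_of_pos_right hx3).1 hx1
    linarith
  obtain ⟨x, hx1, hx2⟩ := (h1.and (Ioc_mem_nhdsGT hab)).exists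
  exact lt_of_lt_of_le hx1 (hmono ⟨hx2.1.le, hx2.2⟩ ⟨hab.le, le_rfl⟩ hx2.2)

/-- Comparison lemma. `P` solves the Riccati equation with `L`; `V` the linear system with
`L2 > L` and initial slope `K2 ≥ P a`. Then `V` is invertible on `[a,b]` and
`V1 V⁻¹ > P` at `b`. -/
theorem compare {a b : ℝ} (hab : a < b) {P L L2 V V1 : ℝ → Matrix (Fin N) (Fin N) ℂ}
    {K2 : Matrix (Fin N) (Fin N) ℂ}
    (hP : ∀ x ∈ Icc a b, HasDerivAt P (L x - P x * P x) x)
    (hPh : ∀ x ∈ Icc a b, (P x).IsHermitian)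
    (hV : ∀ x ∈ Icc a b, HasDerivAt V (V1 x) x)
    (hV1 : ∀ x ∈ Icc a b, HasDerivAt V1 (L2 x * V x) x)
    (hVa : V a = 1) (hV1a : V1 a = K2)
    (hL : ∀ x ∈ Icc a b, (L2 x - L x).PosDef)
    (hK : (K2 - P a).PosSemidef) :
    (∀ x ∈ Icc a b, IsUnit (V x).det) ∧
      ∀ c : Fin N → ℂ, c ≠ 0 → 0 < qf c ((V b)ᴴ * V1 b - (V b)ᴴ * P b * V b) := by
  set G : ℝ → Matrix (Fin N) (Fin N) ℂ := fun x => (V x)ᴴ * V1 x - (V x)ᴴ * P x * V x with hG
  set S : ℝ → Matrix (Fin N) (Fin N) ℂ := fun x => V1 x - P x * V x with hS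
  have hGd : ∀ x ∈ Icc a b, HasDerivAt G ((S x)ᴴ * S x + (V x)ᴴ * (L2 x - L x) * V x) x := by
    intro x hx
    have e1 := mat_ct (hV x hx)
    have e2 := mat_sub (mat_mul e1 (hV1 x hx)) (mat_mul (mat_mul e1 (hP x hx)) (hV x hx))
    exact e2.congr_deriv (alg1 (hPh x hx).eq)
  have hpos : ∀ x1 ∈ Ioc a b, ∀ c : Fin N → ℂ, c ≠ 0 → 0 < qf c (G x1) := by
    intro x1 hx1 c hc
    have hsub : ∀ x ∈ Icc a x1, x ∈ Icc a b := fun x hx => ⟨hx.1, hx.2.trans hx1.2⟩
    have h1 : 0 ≤ qf c (G a) := by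
      have : G a = K2 - P a := by simp [hG, hVa, hV1a]
      rw [this]; exact qf_nonneg hK c
    have h2 : qf c (G a) < qf c (G x1) := by
      refine lt_of_deriv hx1.1 (f := fun x => qf c (G x))
        (f' := fun x => qf c ((S x)ᴴ * S x + (V x)ᴴ * (L2 x - L x) * V x))
        (fun x hx => qf_hasDerivAt c (hGd x (hsub x hx))) (fun x hx => ?_) ?_
      · apply qf_nonneg
        exact (posSemidef_conjTranspose_mul_self _).add
          ((hL x (hsub x hx)).posSemidef.conjTranspose_mul_mul_same _)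
      · have haI : a ∈ Icc a b := ⟨le_rfl, hab.le⟩
        change 0 < qf c ((S a)ᴴ * S a + (V a)ᴴ * (L2 a - L a) * V a)
        rw [map_add]
        have e1 := qf_nonneg (posSemidef_conjTranspose_mul_self (S a)) c
        have e2 : 0 < qf c ((V a)ᴴ * (L2 a - L a) * V a) := by
          rw [hVa]
          simpa using qf_pos (hL a haI) hc
        linarith
    linarith
  refine ⟨?_, fun c hc => hpos b ⟨hab, le_rfl⟩ c hc⟩
  intro x hx
  rcases hx.1.eq_or_lt with h | h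
  · rw [← h, hVa]; simp
  · rw [isUnit_iff_ne_zero]
    intro hdet
    obtain ⟨c, hc, hVc⟩ := Matrix.exists_mulVec_eq_zero_iff.2 hdet
    have h1 := hpos x ⟨h, hx.2⟩ c hc
    have h2 : qf c (G x) = 0 := by
      simp only [hG]
      rw [map_sub, qf_conj, hVc]
      rw [qf_apply, qf_apply, ← mulVec_mulVec, dotProduct_mulVec, ← star_mulVec, hVc]
      simp
    linarith

end LTGd
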