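import Vale.Agent.P371G.LLT
import Vale.Agent.P371G.Kin
import Vale.Agent.P371G.YoungR
import Vale.Agent.P371G.Const
import Vale.Agent.P371G.EXmain
import Vale.Agent.P371.Keller
import Vale.Agent.P371G.CoreStep

/-!
# [FIN] the Lieb-Thirring inequality with the constant `L^(1)_γ`, all `1/2 < γ < 3/2`, all `m`

Let `κ² = diag |lam_j|`, `r = γ - 1/2`, `q = 1/r`, `c = (1+r)/r`, `E = gram psi`, `δ ∈ (0,1)`.
Choose `R` with `O_R := ∫_{|x|>R} ⟨psi_i, W psi_j⟩ ≤ δ κ²` and `∫_{-R}^{R} E > 0` (PosDef).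
`[core_step]` Given `S > 0` Hermitian and a Riccati path on `[-R,R]` for
`W~ = c (S E S)^q` with `K > 0`:
  kin:   `c ∫ tr E_S^(q+1) ≤ tr S T S + tr K² S²`          (`E_S = S E S`)
  llt:   `c_r tr K^(2γ) ≤ a_r ∫ tr W~^(1+r) = (1/r) ∫ tr E_S^(q+1)`   (`c = 1 + 1/r`)
  weak form: `tr S T S = ∫_ℝ tr S Wgram S - tr S² κ²`
  young_r on `[-R,R]`: `∫_{-R}^{R} tr S Wgram S ≤ ∫ tr E_S^(q+1) + a_r ∫ tr W^(1+r)`
  so `c_r tr K^(2γ) + tr S² (κ² - O_R) - tr K² S² ≤ a_r ∫ tr W^(γ+1/2)`.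
`γ ≥ 1`: `S² = c_r γ ((1-δ) κ²)^(γ-1)` (ex_fixed), conv_ge with `L = (1-δ)κ²`, `Λ = K²`.
`γ < 1`: `S² = c_r γ K^(2γ-2)` (ex_moving with `α = 1-γ`), conv_le.
Both give `c_r (1-δ)^γ ∑ |lam_j|^γ ≤ a_r ∫ tr W^(γ+1/2)`; let `δ → 0`.
-/

namespace LTG

open Matrix MeasureTheory Set
open scoped ComplexOrder ENNReal

variable {m N : ℕ}

theorem core_step {gam : ℝ} (h0 : 1 / 2 < gam) (h1 : gam < 3 / 2)
    {W : ℝ → Matrix (Fin m) (Fin m) ℂ} (hW : LT371.IsPotential gam W)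
    {lam : Fin N → ℝ} {u : Fin N → ℝ → EuclideanSpace ℂ (Fin m)}
    (h : LT371.IsNegFamily W lam u) {δ : ℝ} (hδ0 : 0 < δ) (hδ1 : δ < 1) :
    ∃ R : ℝ, 0 < R ∧ (intM (-R) R (LT371.gram u)).PosDef ∧
      ∀ (S K : Matrix (Fin N) (Fin N) ℂ) (P : ℝ → Matrix (Fin N) (Fin N) ℂ), S.PosDef →
        K.PosDef →
        RicPath (-R) R K
          (fun x => cfc (fun y : ℝ => (1 + (gam - 1 / 2)) / (gam - 1 / 2) * y ^ (1 / (gam - 1 / 2)))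
            (S * LT371.gram u x * S)) P →
        ccR (gam - 1 / 2) * trf (fun k => k ^ (2 * gam)) K +
          (1 - δ) * (S * S * Matrix.diagonal (fun j => ((|lam j| : ℝ) : ℂ))).trace.re -
          (K * K * (S * S)).trace.re ≤
        aaR (gam - 1 / 2) * (LT371.potNorm gam W).toReal :=
  core_step' h0 h1 hW h hδ0 hδ1

end LTG
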