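import Vale.Agent.P371G.Fin

/-!
# P371 general gamma: final assembly
-/

namespace LTG

open Matrix MeasureTheory Set
open scoped ComplexOrder ENNReal

variable {m N : ℕ}

/-- `tr f(A) = ∑ f(λ_i)` -/
theorem trf_eqB {A : Matrix (Fin N) (Fin N) ℂ} (hA : A.IsHermitian) (f : ℝ → ℝ) :
    trf f A = ∑ i, f (hA.eigenvalues i) := by
  rw [trf, trace_cfc hA, Complex.ofReal_re]

theorem trf_diagonal (f : ℝ → ℝ) (d : Fin N → ℝ) :
    trf f (diagonal (fun i => ((d i : ℝ) : ℂ))) = ∑ i, f (d i) := by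
  have hH : (diagonal (fun i => ((d i : ℝ) : ℂ))).IsHermitian := by
    rw [Matrix.IsHermitian, diagonal_conjTranspose]
    congr 1
    ext i
    simp
  rw [trf_eqB hH]
  have h1 := hH.roots_charpoly_eq_eigenvalues
  rw [Matrix.charpoly_diagonal] at h1
  have h0 : (∏ i : Fin N, (Polynomial.X - Polynomial.C ((d i : ℝ) : ℂ))).roots =
      Finset.univ.val.map fun i => ((d i : ℝ) : ℂ) := by
    have := Polynomial.roots_multiset_prod_X_sub_C
      (Finset.univ.val.map fun i : Fin N => ((d i : ℝ) : ℂ))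
    rw [Multiset.map_map] at this
    exact this
  rw [h0] at h1
  have h2 : (Finset.univ.val.map fun i => (d i : ℝ)) =
      (Finset.univ.val.map fun i => hH.eigenvalues i) := by
    have h3 := congrArg (Multiset.map Complex.re) h1
    simpa [Multiset.map_map, Function.comp_def] using h3
  have h4 := congrArg (fun s : Multiset ℝ => (s.map f).sum) h2
  simp only [Multiset.map_map, Function.comp_def] at h4
  simpa [Finset.sum] using h4.symm

theorem eigU_isUnit {A : Matrix (Fin N) (Fin N) ℂ} (hA : A.IsHermitian) :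
    IsUnit (hA.eigenvectorUnitary : Matrix (Fin N) (Fin N) ℂ) :=
  isUnit_iff_exists.2 ⟨star (hA.eigenvectorUnitary : Matrix (Fin N) (Fin N) ℂ),
    Unitary.coe_mul_star_self _, Unitary.coe_star_mul_self _⟩

theorem cfc_posDef {A : Matrix (Fin N) (Fin N) ℂ} (hA : A.PosDef) {f : ℝ → ℝ}
    (hf : ∀ x, 0 < x → 0 < f x) : (cfc f A).PosDef := by
  rw [cfc_form hA.1 f]
  refine (Matrix.IsUnit.posDef_star_right_conjugate_iff (eigU_isUnit hA.1)).2 ?_
  rw [Matrix.posDef_diagonal_iff]
  intro i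
  have := hf _ (hA.eigenvalues_pos i)
  exact_mod_cast this

theorem cfc_posSemidef {A : Matrix (Fin N) (Fin N) ℂ} (hA : A.PosSemidef) {f : ℝ → ℝ}
    (hf : ∀ x, 0 ≤ x → 0 ≤ f x) : (cfc f A).PosSemidef := by
  rw [cfc_form hA.1 f]
  refine (Matrix.IsUnit.posSemidef_star_right_conjugate_iff (eigU_isUnit hA.1)).2 ?_
  rw [Matrix.posSemidef_diagonal_iff]
  intro i
  have := hf _ (hA.eigenvalues_nonneg i)
  exact_mod_cast this

/-- the quadratic form of `f(A)` -/
theorem qf_cfc {A : Matrix (Fin N) (Fin N) ℂ} (hA : A.IsHermitian) (f : ℝ → ℝ)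
    (v : Fin N → ℂ) :
    (star v ⬝ᵥ (cfc f A *ᵥ v)).re = ∑ i, f (hA.eigenvalues i) *
      ‖(star (hA.eigenvectorUnitary : Matrix (Fin N) (Fin N) ℂ) *ᵥ v) i‖ ^ 2 := by
  rw [cfc_form hA f]
  set U : Matrix (Fin N) (Fin N) ℂ := (hA.eigenvectorUnitary : Matrix (Fin N) (Fin N) ℂ) with hU
  set w : Fin N → ℂ := star U *ᵥ v with hw
  have e1 : star v ⬝ᵥ ((U * diagonal (fun i => ((f (hA.eigenvalues i) : ℝ) : ℂ)) * star U) *ᵥ v)
      = star w ⬝ᵥ (diagonal (fun i => ((f (hA.eigenvalues i) : ℝ) : ℂ)) *ᵥ w) := by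
    rw [hw, Matrix.star_mulVec, ← Matrix.mulVec_mulVec, ← Matrix.mulVec_mulVec,
      Matrix.dotProduct_mulVec, ← Matrix.star_eq_conjTranspose, star_star]
  rw [e1, dotProduct, Complex.re_sum]
  refine Finset.sum_congr rfl fun i _ => ?_
  rw [mulVec_diagonal, Pi.star_apply, ← Complex.normSq_eq_norm_sq]
  have : star (w i) * (((f (hA.eigenvalues i) : ℝ) : ℂ) * w i) =
      ((f (hA.eigenvalues i) * Complex.normSq (w i) : ℝ) : ℂ) := by
    rw [Complex.ofReal_mul, Complex.normSq_eq_conj_mul_self, Complex.star_def]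
    ring
  rw [this, Complex.ofReal_re]

/-- tangent line bound `y^q ≥ q ε^(q-1) y - (q-1) ε^q` -/
theorem rpow_tangent {q ε y : ℝ} (hq : 1 ≤ q) (hε : 0 < ε) (hy : 0 ≤ y) :
    q * ε ^ (q - 1) * y - (q - 1) * ε ^ q ≤ y ^ q := by
  have h1 := one_add_mul_self_le_rpow_one_add (s := y / ε - 1) (by
    have : 0 ≤ y / ε := by positivity
    linarith) hq
  have h2 : (1 + (y / ε - 1)) ^ q = y ^ q / ε ^ q := by
    rw [add_sub_cancel, Real.div_rpow hy hε.le]
  rw [h2, le_div_iff₀ (Real.rpow_pos_of_pos hε q)] at h1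
  have h3 : ε ^ q = ε ^ (q - 1) * ε := by
    rw [← Real.rpow_add_one hε.ne']
    congr 1
    ring
  have h4 : (1 + q * (y / ε - 1)) * ε ^ q = q * ε ^ (q - 1) * y - (q - 1) * ε ^ q := by
    rw [h3]
    field_simp
    ring
  linarith

/-- lower bound for the quadratic form of `c A^q` -/
theorem qf_rpow_ge {A : Matrix (Fin N) (Fin N) ℂ} (hA : A.PosSemidef) {c q ε : ℝ} (hc : 0 ≤ c)
    (hq : 1 ≤ q) (hε : 0 < ε) (v : Fin N → ℂ) :
    c * (q * ε ^ (q - 1) * (star v ⬝ᵥ (A *ᵥ v)).re - (q - 1) * ε ^ q * (star v ⬝ᵥ v).re) ≤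
      (star v ⬝ᵥ (cfc (fun y : ℝ => c * y ^ q) A *ᵥ v)).re := by
  have hid : cfc (fun x : ℝ => x) A = A := cfc_id' ℝ A hA.1.isSelfAdjoint
  have hone : cfc (fun _ : ℝ => (1 : ℝ)) A = 1 := cfc_const_one ℝ A hA.1.isSelfAdjoint
  have e1 := qf_cfc hA.1 (fun y : ℝ => c * y ^ q) v
  have e2 := qf_cfc hA.1 (fun y : ℝ => y) v
  have e3 := qf_cfc hA.1 (fun _ : ℝ => (1 : ℝ)) v
  rw [hid] at e2
  rw [hone, Matrix.one_mulVec] at e3
  rw [e1, e2, e3, Finset.mul_sum, Finset.mul_sum, ← Finset.sum_sub_distrib, Finset.mul_sum]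
  refine Finset.sum_le_sum fun i _ => ?_
  have h := rpow_tangent hq hε (hA.eigenvalues_nonneg i)
  have h2 := mul_le_mul_of_nonneg_left h hc
  have h3 : 0 ≤ ‖(star (hA.1.eigenvectorUnitary : Matrix (Fin N) (Fin N) ℂ) *ᵥ v) i‖ ^ 2 :=
    sq_nonneg _
  nlinarith [mul_le_mul_of_nonneg_right h2 h3]

/-- quadratic form of `intM` -/
theorem qf_intM {a b : ℝ} (hab : a ≤ b) {E : ℝ → Matrix (Fin N) (Fin N) ℂ}
    (hE : ContinuousOn E (Icc a b)) (v : Fin N → ℂ) :
    (star v ⬝ᵥ (intM a b E *ᵥ v)).re = ∫ x in a..b, (star v ⬝ᵥ (E x *ᵥ v)).re := by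
  have hint : ∀ i j, IntervalIntegrable (fun x => E x i j) volume a b := fun i j => by
    refine ContinuousOn.intervalIntegrable ?_
    rw [uIcc_of_le hab]
    exact (continuous_apply_apply i j).comp_continuousOn hE
  have hint2 : ∀ i j, IntervalIntegrable (fun x => star (v i) * (E x i j * v j)) volume a b :=
    fun i j => ((hint i j).mul_const _).const_mul _
  have e : star v ⬝ᵥ (intM a b E *ᵥ v) = ∫ x in a..b, (star v ⬝ᵥ (E x *ᵥ v)) := by
    simp only [dotProduct, Matrix.mulVec, intM, Matrix.of_apply, Pi.star_apply, Finset.mul_sum]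
    rw [intervalIntegral.integral_finsetSum]
    · refine Finset.sum_congr rfl fun i _ => ?_
      rw [intervalIntegral.integral_finsetSum]
      · refine Finset.sum_congr rfl fun j _ => ?_
        rw [intervalIntegral.integral_const_mul, intervalIntegral.integral_mul_const]
      · intro j _
        exact hint2 i j
    · intro i _
      have := IntervalIntegrable.sum Finset.univ fun j (_ : j ∈ Finset.univ) => hint2 i j
      simpa [Finset.sum_fn] using this
  rw [e]
  have hcont : ContinuousOn (fun x => star v ⬝ᵥ (E x *ᵥ v)) (Icc a b) := by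
    simp only [dotProduct, Matrix.mulVec]
    fun_prop
  have hii : IntervalIntegrable (fun x => star v ⬝ᵥ (E x *ᵥ v)) volume a b := by
    refine ContinuousOn.intervalIntegrable ?_
    rwa [uIcc_of_le hab]
  have := (Complex.reCLM).intervalIntegral_comp_comm hii
  simpa using this.symm

theorem posSemidef_conj {E S : Matrix (Fin N) (Fin N) ℂ} (hE : E.PosSemidef)
    (hS : S.IsHermitian) : (S * E * S).PosSemidef := by
  have := hE.mul_mul_conjTranspose_same S
  rwa [hS.eq] at this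

theorem conj_cont {a b : ℝ} {E : ℝ → Matrix (Fin N) (Fin N) ℂ}
    (hE : ContinuousOn E (Icc a b)) (S : Matrix (Fin N) (Fin N) ℂ) :
    ContinuousOn (fun x => S * E x * S) (Icc a b) := by
  fun_prop

theorem rpow_cont {c q : ℝ} (hq : 0 ≤ q) : Continuous fun y : ℝ => c * y ^ q :=
  continuous_const.mul (Real.continuous_rpow_const hq)

theorem intM_pos {a b : ℝ} (hab : a < b) {E : ℝ → Matrix (Fin N) (Fin N) ℂ}
    (hEc : ContinuousOn E (Icc a b)) (hE : ∀ x ∈ Icc a b, (E x).PosSemidef)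
    (hpos : (intM a b E).PosDef) {S : Matrix (Fin N) (Fin N) ℂ} (hS : S.PosDef)
    {c q : ℝ} (hc : 0 < c) (hq : 1 ≤ q) :
    (intM a b fun x => cfc (fun y : ℝ => c * y ^ q) (S * E x * S)).PosDef := by
  set G : ℝ → Matrix (Fin N) (Fin N) ℂ :=
    fun x => cfc (fun y : ℝ => c * y ^ q) (S * E x * S) with hG
  have hGc : ContinuousOn G (Icc a b) :=
    cfc_cont' (rpow_cont (by linarith)) (conj_cont hEc S)
      fun x hx => (posSemidef_conj (hE x hx) hS.1).1
  have hGh : ∀ x, (G x).IsHermitian := fun x => cfc_isHermitian _ _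
  rw [Matrix.posDef_iff_dotProduct_mulVec]
  have hherm : (intM a b G).IsHermitian := by
    ext i j
    simp only [intM, Matrix.conjTranspose_apply, Matrix.of_apply]
    rw [intervalIntegral.integral_of_le hab.le, intervalIntegral.integral_of_le hab.le,
      Complex.star_def, ← integral_conj]
    refine integral_congr_ae (Filter.Eventually.of_forall fun x => ?_)
    exact (hGh x).apply i j
  refine ⟨hherm, fun v hv => ?_⟩
  have him : (star v ⬝ᵥ (intM a b G *ᵥ v)).im = 0 := by
    have := hherm.im_star_dotProduct_mulVec_self v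
    simpa using this
  have hre : 0 < (star v ⬝ᵥ (intM a b G *ᵥ v)).re := by
    rw [qf_intM hab.le hGc v]
    set w : Fin N → ℂ := S *ᵥ v with hw
    have hw0 : w ≠ 0 := by
      intro h0
      apply hv
      have hu := hS.isUnit
      have hinj := Matrix.mulVec_injective_of_isUnit hu
      apply hinj
      rw [Matrix.mulVec_zero]
      exact h0
    have hl : 0 < (star w ⬝ᵥ (intM a b E *ᵥ w)).re := hpos.re_dotProduct_pos hw0
    have hv2 : 0 < (star v ⬝ᵥ v).re := by
      have := Matrix.dotProduct_star_self_pos_iff.2 hv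
      exact (Complex.lt_def.mp this).1
    set L : ℝ := (star w ⬝ᵥ (intM a b E *ᵥ w)).re with hL
    set V : ℝ := (star v ⬝ᵥ v).re with hV
    set ε : ℝ := L / (V * (b - a)) with hε
    have hba : 0 < b - a := by linarith
    have hε0 : 0 < ε := by positivity
    have hlow : ∀ x ∈ Icc a b,
        c * (q * ε ^ (q - 1) * (star w ⬝ᵥ (E x *ᵥ w)).re - (q - 1) * ε ^ q * V) ≤
        (star v ⬝ᵥ (G x *ᵥ v)).re := by
      intro x hx
      have h1 := qf_rpow_ge (posSemidef_conj (hE x hx) hS.1) hc.le hq hε0 v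
      have e1 : star v ⬝ᵥ ((S * E x * S) *ᵥ v) = star w ⬝ᵥ (E x *ᵥ w) := by
        rw [hw, Matrix.star_mulVec, hS.1.eq, ← Matrix.dotProduct_mulVec, Matrix.mulVec_mulVec,
          Matrix.mulVec_mulVec, Matrix.mul_assoc]
      rw [e1] at h1
      exact h1
    have hcE : ContinuousOn (fun x => (star w ⬝ᵥ (E x *ᵥ w)).re) (Icc a b) := by
      simp only [dotProduct, Matrix.mulVec]
      fun_prop
    have hcG : ContinuousOn (fun x => (star v ⬝ᵥ (G x *ᵥ v)).re) (Icc a b) := by
      simp only [dotProduct, Matrix.mulVec]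
      fun_prop
    have hi1 : IntervalIntegrable (fun x => (star w ⬝ᵥ (E x *ᵥ w)).re) volume a b := by
      refine ContinuousOn.intervalIntegrable ?_
      rwa [uIcc_of_le hab.le]
    have hi2 : IntervalIntegrable (fun x => (star v ⬝ᵥ (G x *ᵥ v)).re) volume a b := by
      refine ContinuousOn.intervalIntegrable ?_
      rwa [uIcc_of_le hab.le]
    have hmono := intervalIntegral.integral_mono_on hab.le
      (((hi1.const_mul (q * ε ^ (q - 1))).sub
        (intervalIntegrable_const (c := (q - 1) * ε ^ q * V))).const_mul c) hi2 hlow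
    refine lt_of_lt_of_le ?_ hmono
    rw [intervalIntegral.integral_const_mul, intervalIntegral.integral_sub
      (hi1.const_mul _) intervalIntegrable_const, intervalIntegral.integral_const_mul,
      intervalIntegral.integral_const, ← qf_intM hab.le hEc w, ← hL, smul_eq_mul]
    have h3 : ε ^ q = ε ^ (q - 1) * ε := by
      rw [← Real.rpow_add_one hε0.ne']
      congr 1
      ring
    have h4 : ε * (V * (b - a)) = L := by
      rw [hε]
      field_simp
    have h5 : q * ε ^ (q - 1) * L - (b - a) * ((q - 1) * ε ^ q * V) = ε ^ (q - 1) * L := by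
      rw [h3, ← h4]
      ring
    rw [h5]
    positivity
  exact Complex.lt_def.mpr ⟨hre, by simpa using him.symm⟩

theorem gram_contOn {u g : Fin N → ℝ → EuclideanSpace ℂ (Fin m)}
    (hu : ∀ j, LT371.IsH1 (u j) (g j)) (s : Set ℝ) : ContinuousOn (LT371.gram u) s := by
  refine continuousOn_pi.2 fun i => continuousOn_pi.2 fun j => ?_
  exact (LT371.gram_cont hu i j).continuousOn

theorem cfc_sq_pow {K : Matrix (Fin N) (Fin N) ℂ} (hK : K.PosDef) (f : ℝ → ℝ)
    (hf : ContinuousOn f (Ioi 0)) :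
    cfc f (K * K) = cfc (fun x => f (x ^ 2)) K := by
  have hid : cfc (fun x : ℝ => x) K = K := cfc_id' ℝ K hK.1.isSelfAdjoint
  have h2 : K * K = cfc (fun x : ℝ => x ^ 2) K := by
    conv_lhs => rw [← hid]
    rw [cfc_mul_cfc hK.1]
    simp only [pow_two]
  rw [h2]
  have hs : ∀ x ∈ spectrum ℝ K, 0 < x := by
    intro x hx
    obtain ⟨i, rfl⟩ : x ∈ Set.range hK.1.eigenvalues := by
      rw [← hK.1.spectrum_real_eq_range_eigenvalues]
      exact hx
    exact hK.eigenvalues_pos i
  exact (cfc_comp' f (fun x : ℝ => x ^ 2) K (hf.mono (by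
    rintro _ ⟨x, hx, rfl⟩
    exact pow_pos (hs x hx) 2)) (by fun_prop) hK.1.isSelfAdjoint).symm

theorem RicPath.congr {a b : ℝ} {K : Matrix (Fin N) (Fin N) ℂ}
    {W W' P : ℝ → Matrix (Fin N) (Fin N) ℂ} (h : RicPath a b K W P)
    (hW : ∀ x ∈ Icc a b, W x = W' x) : RicPath a b K W' P :=
  ⟨h.adm, fun x hx i j => by
    have := h.deriv x hx i j
    rwa [hW x hx] at this, h.left, h.right⟩

theorem cfc_smul_rpow {B : Matrix (Fin N) (Fin N) ℂ} (hB : B.PosSemidef) {c q s : ℝ}
    (hq : 0 ≤ q) (hs : 0 ≤ s) :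
    cfc (fun y : ℝ => c * y ^ q) (((s : ℝ) : ℂ) • B) =
      cfc (fun y : ℝ => c * s ^ q * y ^ q) B := by
  have e1 : ((s : ℝ) : ℂ) • B = s • B := by
    ext i j
    simp
  rw [e1, ← cfc_comp_const_mul s (fun y : ℝ => c * y ^ q) B
    ((rpow_cont hq).continuousOn) hB.1.isSelfAdjoint]
  refine cfc_congr_eig hB.1 fun i => ?_
  show c * (s * hB.1.eigenvalues i) ^ q = c * s ^ q * hB.1.eigenvalues i ^ q
  rw [Real.mul_rpow hs (hB.eigenvalues_nonneg i)]
  ring

/-- for every `δ` -/
theorem fin_delta {gam : ℝ} (h0 : 1 / 2 < gam) (h1 : gam < 3 / 2)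
    {W : ℝ → Matrix (Fin m) (Fin m) ℂ} (hW : LT371.IsPotential gam W)
    {lam : Fin N → ℝ} {u : Fin N → ℝ → EuclideanSpace ℂ (Fin m)}
    (h : LT371.IsNegFamily W lam u) {δ : ℝ} (hδ0 : 0 < δ) (hδ1 : δ < 1) :
    ccR (gam - 1 / 2) * ∑ j, ((1 - δ) * |lam j|) ^ gam ≤
      aaR (gam - 1 / 2) * (LT371.potNorm gam W).toReal := by
  obtain ⟨R, hR, hpos, hcore⟩ := core_step h0 h1 hW h hδ0 hδ1
  choose g hg hweak using h.eig
  set r : ℝ := gam - 1 / 2 with hr
  have hr0 : 0 < r := by rw [hr]; linarith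
  have hr1 : r < 1 := by rw [hr]; linarith
  have hc : 0 < ccR r := ccR_pos hr0
  have hab : -R < R := by linarith
  have hq : 1 ≤ 1 / r := by
    rw [le_div_iff₀ hr0]
    linarith
  have hcc : 0 < (1 + r) / r := by positivity
  set L : Matrix (Fin N) (Fin N) ℂ := diagonal (fun j => (((1 - δ) * |lam j| : ℝ) : ℂ)) with hL
  have hlam : ∀ j, 0 < (1 - δ) * |lam j| := fun j => by
    have := abs_pos.2 (h.neg j).ne
    have h2 : 0 < 1 - δ := by linarith
    positivity
  have hLpos : L.PosDef := by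
    rw [hL, Matrix.posDef_diagonal_iff]
    intro j
    exact_mod_cast hlam j
  have hLtr : trf (fun x => x ^ gam) L = ∑ j, ((1 - δ) * |lam j|) ^ gam := by
    rw [hL, trf_diagonal]
  have hLD : ∀ M : Matrix (Fin N) (Fin N) ℂ,
      (1 - δ) * (M * Matrix.diagonal (fun j => ((|lam j| : ℝ) : ℂ))).trace.re =
        (M * L).trace.re := by
    intro M
    have : L = ((1 - δ : ℝ) : ℂ) • Matrix.diagonal (fun j => ((|lam j| : ℝ) : ℂ)) := by
      rw [hL, ← Matrix.diagonal_smul]
      congr 1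
      ext j
      simp
    rw [this, Matrix.mul_smul, Matrix.trace_smul, smul_eq_mul, Complex.re_ofReal_mul]
  have hEc : ContinuousOn (LT371.gram u) (Icc (-R) R) := gram_contOn hg _
  have hE : ∀ x ∈ Icc (-R) R, (LT371.gram u x).PosSemidef := fun x _ => LT371.gram_psd u x
  rw [← hLtr]
  rcases le_or_gt 1 gam with hg1 | hg1
  · -- `γ ≥ 1`
    set S : Matrix (Fin N) (Fin N) ℂ :=
      cfc (fun x : ℝ => Real.sqrt (ccR r * (gam * x ^ (gam - 1)))) L with hS
    have hSpos : S.PosDef := cfc_posDef hLpos fun x hx => by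
      have : 0 < x ^ (gam - 1) := Real.rpow_pos_of_pos hx _
      positivity
    have hSS : S * S = ((ccR r : ℝ) : ℂ) • cfc (fun x : ℝ => gam * x ^ (gam - 1)) L := by
      rw [hS, cfc_mul_cfc hLpos.1]
      have e1 : cfc (fun x : ℝ => Real.sqrt (ccR r * (gam * x ^ (gam - 1))) *
          Real.sqrt (ccR r * (gam * x ^ (gam - 1)))) L =
          cfc (fun x : ℝ => ccR r * (gam * x ^ (gam - 1))) L := by
        refine cfc_congr_eig hLpos.1 fun i => ?_
        have : 0 < hLpos.1.eigenvalues i ^ (gam - 1) :=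
          Real.rpow_pos_of_pos (hLpos.eigenvalues_pos i) _
        exact Real.mul_self_sqrt (by positivity)
      rw [e1, cfc_form hLpos.1, cfc_form hLpos.1, ← Matrix.smul_mul, ← Matrix.mul_smul,
        ← Matrix.diagonal_smul]
      congr 3
      ext i
      simp
    obtain ⟨K, P, hK, hP⟩ := ex_fixed hab
      (W := fun x => cfc (fun y : ℝ => (1 + r) / r * y ^ (1 / r)) (S * LT371.gram u x * S))
      (cfc_cont' (rpow_cont (by positivity)) (conj_cont hEc S)
        fun x hx => (posSemidef_conj (hE x hx) hSpos.1).1)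
      (fun x hx => cfc_posSemidef (posSemidef_conj (hE x hx) hSpos.1)
        fun y hy => by positivity)
      (intM_pos hab hEc hE hpos hSpos hcc hq)
    have hmain := hcore S K P hSpos hK hP
    have hKK : (K * K).PosDef := by
      have := Matrix.PosDef.conjTranspose_mul_self K (Matrix.mulVec_injective_of_isUnit hK.isUnit)
      rwa [hK.1.eq] at this
    have hconv := conv_ge hg1 hLpos hKK
    have hKtr : trf (fun x : ℝ => x ^ gam) (K * K) = trf (fun k : ℝ => k ^ (2 * gam)) K := by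
      rw [trf, trf, cfc_sq_pow hK _ (fun x hx =>
        (Real.continuousAt_rpow_const x gam (Or.inl (ne_of_gt hx))).continuousWithinAt)]
      congr 2
      refine cfc_congr_eig hK.1 fun i => ?_
      have := (hK.eigenvalues_pos i).le
      rw [← Real.rpow_natCast, ← Real.rpow_mul this]
      norm_num
    rw [hKtr] at hconv
    rw [hLD, hSS] at hmain
    have e2 : (K * K * (((ccR r : ℝ) : ℂ) • cfc (fun x : ℝ => gam * x ^ (gam - 1)) L)).trace.re =
        ccR r * (cfc (fun x : ℝ => gam * x ^ (gam - 1)) L * (K * K)).trace.re := by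
      rw [Matrix.mul_smul, Matrix.trace_smul, smul_eq_mul, Complex.re_ofReal_mul,
        Matrix.trace_mul_comm]
    have e3 : ((((ccR r : ℝ) : ℂ) • cfc (fun x : ℝ => gam * x ^ (gam - 1)) L) * L).trace.re =
        ccR r * (cfc (fun x : ℝ => gam * x ^ (gam - 1)) L * L).trace.re := by
      rw [Matrix.smul_mul, Matrix.trace_smul, smul_eq_mul, Complex.re_ofReal_mul]
    rw [e2, e3] at hmain
    rw [Matrix.mul_sub, Matrix.trace_sub, Complex.sub_re] at hconv
    have := mul_le_mul_of_nonneg_left hconv hc.le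
    linarith
  · -- `γ < 1`
    set α : ℝ := 1 - gam with hα
    have hα0 : 0 < α := by rw [hα]; linarith
    have hcg : 0 < ccR r * gam := by positivity
    obtain ⟨K, P, hK, hP⟩ := ex_moving hab hEc hE hpos hα0 hq
      (c := (1 + r) / r * (ccR r * gam) ^ (1 / r)) (by positivity)
    set A : Matrix (Fin N) (Fin N) ℂ := cfc (fun k : ℝ => k ^ (-α)) K with hA
    have hApos : A.PosDef := cfc_posDef hK fun x hx => Real.rpow_pos_of_pos hx _
    set S : Matrix (Fin N) (Fin N) ℂ := ((Real.sqrt (ccR r * gam) : ℝ) : ℂ) • A with hS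
    have hsq : Real.sqrt (ccR r * gam) * Real.sqrt (ccR r * gam) = ccR r * gam :=
      Real.mul_self_sqrt hcg.le
    have hSpos : S.PosDef := by
      refine hApos.smul ?_
      have : 0 < Real.sqrt (ccR r * gam) := Real.sqrt_pos.2 hcg
      exact_mod_cast this
    have hSES : ∀ x, S * LT371.gram u x * S =
        ((ccR r * gam : ℝ) : ℂ) • (A * LT371.gram u x * A) := by
      intro x
      rw [hS, Matrix.smul_mul, Matrix.smul_mul, Matrix.mul_smul, smul_smul,
        ← Complex.ofReal_mul, hsq]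
    have hP' := hP.congr (W' := fun x => cfc (fun y : ℝ => (1 + r) / r * y ^ (1 / r))
        (S * LT371.gram u x * S)) (fun x hx => by
      rw [hSES x, cfc_smul_rpow (posSemidef_conj (hE x hx) hApos.1) (by positivity) hcg.le])
    have hmain := hcore S K P hSpos hK hP'
    have hKK : (K * K).PosDef := by
      have := Matrix.PosDef.conjTranspose_mul_self K (Matrix.mulVec_injective_of_isUnit hK.isUnit)
      rwa [hK.1.eq] at this
    have hgam0 : 0 < gam := by linarith
    have hconv := conv_le hgam0 hg1.le hLpos hKK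
    have hKtr : trf (fun x : ℝ => x ^ gam) (K * K) = trf (fun k : ℝ => k ^ (2 * gam)) K := by
      rw [trf, trf, cfc_sq_pow hK _ (fun x hx =>
        (Real.continuousAt_rpow_const x gam (Or.inl (ne_of_gt hx))).continuousWithinAt)]
      congr 2
      refine cfc_congr_eig hK.1 fun i => ?_
      have := (hK.eigenvalues_pos i).le
      rw [← Real.rpow_natCast, ← Real.rpow_mul this]
      norm_num
    have hSS : S * S = ((ccR r : ℝ) : ℂ) • cfc (fun x : ℝ => gam * x ^ (gam - 1)) (K * K) := by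
      rw [cfc_sq_pow hK _ (fun x hx =>
        ((Real.continuousAt_rpow_const x (gam - 1) (Or.inl (ne_of_gt hx))).const_mul
          gam).continuousWithinAt)]
      rw [hS, Matrix.smul_mul, Matrix.mul_smul, smul_smul, hA, cfc_mul_cfc hK.1]
      have e1 : cfc (fun x : ℝ => gam * (x ^ 2) ^ (gam - 1)) K =
          cfc (fun x : ℝ => gam * (x ^ (-α) * x ^ (-α))) K := by
        refine cfc_congr_eig hK.1 fun i => ?_
        have hp := hK.eigenvalues_pos i
        rw [← Real.rpow_add hp, ← Real.rpow_natCast, ← Real.rpow_mul hp.le, hα]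
        congr 2
        push_cast
        ring
      rw [e1, cfc_form hK.1, cfc_form hK.1, ← Matrix.smul_mul, ← Matrix.mul_smul,
        ← Matrix.smul_mul, ← Matrix.mul_smul, ← Matrix.diagonal_smul, ← Matrix.diagonal_smul]
      congr 3
      ext i
      simp only [Pi.smul_apply, smul_eq_mul]
      rw [show ((Real.sqrt (ccR r * gam) : ℝ) : ℂ) * ((Real.sqrt (ccR r * gam) : ℝ) : ℂ) =
        ((ccR r * gam : ℝ) : ℂ) by rw [← Complex.ofReal_mul, hsq]]
      push_cast
      ring
    rw [hKtr] at hconv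
    rw [hLD, hSS] at hmain
    have e2 : (K * K * (((ccR r : ℝ) : ℂ) •
        cfc (fun x : ℝ => gam * x ^ (gam - 1)) (K * K))).trace.re =
        ccR r * (cfc (fun x : ℝ => gam * x ^ (gam - 1)) (K * K) * (K * K)).trace.re := by
      rw [Matrix.mul_smul, Matrix.trace_smul, smul_eq_mul, Complex.re_ofReal_mul,
        Matrix.trace_mul_comm]
    have e3 : ((((ccR r : ℝ) : ℂ) •
        cfc (fun x : ℝ => gam * x ^ (gam - 1)) (K * K)) * L).trace.re =
        ccR r * (cfc (fun x : ℝ => gam * x ^ (gam - 1)) (K * K) * L).trace.re := by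
      rw [Matrix.smul_mul, Matrix.trace_smul, smul_eq_mul, Complex.re_ofReal_mul]
    rw [e2, e3] at hmain
    rw [Matrix.mul_sub, Matrix.trace_sub, Complex.sub_re] at hconv
    have := mul_le_mul_of_nonneg_left hconv hc.le
    linarith

theorem lt_real {gam : ℝ} (h0 : 1 / 2 < gam) (h1 : gam < 3 / 2)
    {W : ℝ → Matrix (Fin m) (Fin m) ℂ} (hW : LT371.IsPotential gam W)
    {lam : Fin N → ℝ} {u : Fin N → ℝ → EuclideanSpace ℂ (Fin m)}
    (h : LT371.IsNegFamily W lam u) :
    ccR (gam - 1 / 2) * ∑ j, |lam j| ^ gam ≤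
      aaR (gam - 1 / 2) * (LT371.potNorm gam W).toReal := by
  have hgam : 0 < gam := by linarith
  have hlim : Filter.Tendsto (fun δ : ℝ => ccR (gam - 1 / 2) * ∑ j, ((1 - δ) * |lam j|) ^ gam)
      (nhdsWithin 0 (Ioi 0)) (nhds (ccR (gam - 1 / 2) * ∑ j, ((1 - 0) * |lam j|) ^ gam)) := by
    refine Filter.Tendsto.mono_left ?_ nhdsWithin_le_nhds
    have hc : Continuous (fun δ : ℝ => ccR (gam - 1 / 2) * ∑ j, ((1 - δ) * |lam j|) ^ gam) := by
      refine continuous_const.mul (continuous_finsetSum _ fun j _ => ?_)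
      exact ((continuous_const.sub continuous_id).mul continuous_const).rpow_const
        fun x => Or.inr hgam.le
    exact hc.tendsto 0
  have h2 : ∀ᶠ δ : ℝ in nhdsWithin 0 (Ioi 0),
      ccR (gam - 1 / 2) * ∑ j, ((1 - δ) * |lam j|) ^ gam ≤
        aaR (gam - 1 / 2) * (LT371.potNorm gam W).toReal := by
    have : Ioo (0 : ℝ) 1 ∈ nhdsWithin (0 : ℝ) (Ioi 0) := Ioo_mem_nhdsGT one_pos
    filter_upwards [this] with δ hδ
    exact fin_delta h0 h1 hW h hδ.1 hδ.2
  have := le_of_tendsto hlim h2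
  simpa using this

theorem lt_general {gam : ℝ} (h0 : 1 / 2 < gam) (h1 : gam < 3 / 2)
    {W : ℝ → Matrix (Fin m) (Fin m) ℂ} (hW : LT371.IsPotential gam W)
    {lam : Fin N → ℝ} {u : Fin N → ℝ → EuclideanSpace ℂ (Fin m)}
    (h : LT371.IsNegFamily W lam u) :
    ∑ j, ENNReal.ofReal (|lam j| ^ gam) ≤
      ENNReal.ofReal (LT371.Lone gam) * LT371.potNorm gam W := by
  have hr0 : 0 < gam - 1 / 2 := by linarith
  have hc : 0 < ccR (gam - 1 / 2) := ccR_pos hr0
  have ha : 0 < aaR (gam - 1 / 2) := aaR_pos hr0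
  have hreal := lt_real h0 h1 hW h
  have h2 : ∑ j, |lam j| ^ gam ≤ LT371.Lone gam * (LT371.potNorm gam W).toReal := by
    rw [← const_eq h0, div_mul_eq_mul_div, le_div_iff₀ hc]
    linarith
  have hL : 0 ≤ LT371.Lone gam := by
    rw [← const_eq h0]
    positivity
  rw [← ENNReal.ofReal_sum_of_nonneg fun j _ => Real.rpow_nonneg (abs_nonneg _) _]
  refine (ENNReal.ofReal_le_ofReal h2).trans ?_
  have hfin : LT371.potNorm gam W ≠ ∞ := hW.finite
  rw [ENNReal.ofReal_mul hL, ENNReal.ofReal_toReal hfin]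

theorem LT_le {gam : ℝ} (h0 : 1 / 2 < gam) (h1 : gam < 3 / 2) (m : ℕ) :
    LT371.LT gam m ≤ ENNReal.ofReal (LT371.Lone gam) := by
  unfold LT371.LT
  refine iSup_le fun W => iSup_le fun hW => iSup_le fun hne => ?_
  refine ENNReal.div_le_of_le_mul ?_
  unfold LT371.TrNeg
  refine iSup_le fun N => iSup_le fun lam => iSup_le fun psi => iSup_le fun h => ?_
  exact lt_general h0 h1 hW h

end LTG
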