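import Mathlib

/-!
# P371 general gamma: the Lie-Trotter product formula in a real Banach algebra
-/

namespace LTG

set_option linter.unusedSectionVars false

open Filter Topology NormedSpace

section

variable {𝔸 : Type*} [NormedRing 𝔸] [NormedAlgebra ℝ 𝔸] [CompleteSpace 𝔸] [NormOneClass 𝔸]

theorem norm_exp_le_exp_norm' (x : 𝔸) : ‖NormedSpace.exp x‖ ≤ Real.exp ‖x‖ := by
  have h1 : HasSum (fun n : ℕ => ((n.factorial : ℝ)⁻¹) • x ^ n) (NormedSpace.exp x) :=
    exp_series_hasSum_exp' (𝕂 := ℝ) x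
  have h2 : HasSum (fun n : ℕ => ((n.factorial : ℝ)⁻¹) • ‖x‖ ^ n) (Real.exp ‖x‖) := by
    rw [Real.exp_eq_exp_ℝ]
    exact exp_series_hasSum_exp' (𝕂 := ℝ) ‖x‖
  refine tsum_of_norm_bounded h2 (fun n => ?_) |> fun h => by rwa [h1.tsum_eq] at h
  rw [norm_smul, norm_inv, Real.norm_natCast, smul_eq_mul]
  gcongr
  exact norm_pow_le x n

theorem norm_pow_sub_pow_le {a b : 𝔸} {M : ℝ} (hM : 1 ≤ M) (ha : ‖a‖ ≤ M) (hb : ‖b‖ ≤ M)
    (m : ℕ) : ‖a ^ m - b ^ m‖ ≤ m * ‖a - b‖ * M ^ m := by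
  have hM0 : 0 ≤ M := zero_le_one.trans hM
  induction m with
  | zero => simp
  | succ m ih =>
    have e : a ^ (m + 1) - b ^ (m + 1) = a * (a ^ m - b ^ m) + (a - b) * b ^ m := by
      rw [pow_succ', pow_succ']
      noncomm_ring
    have h1 : ‖b ^ m‖ ≤ M ^ m := (norm_pow_le b m).trans (pow_le_pow_left₀ (norm_nonneg _) hb m)
    have h2 : M ^ m ≤ M ^ (m + 1) := pow_le_pow_right₀ hM (Nat.le_succ m)
    calc ‖a ^ (m + 1) - b ^ (m + 1)‖ ≤ ‖a * (a ^ m - b ^ m)‖ + ‖(a - b) * b ^ m‖ := by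
          rw [e]; exact norm_add_le _ _
      _ ≤ ‖a‖ * ‖a ^ m - b ^ m‖ + ‖a - b‖ * ‖b ^ m‖ :=
          add_le_add (norm_mul_le _ _) (norm_mul_le _ _)
      _ ≤ M * (m * ‖a - b‖ * M ^ m) + ‖a - b‖ * M ^ (m + 1) := by
          gcongr
          exact h1.trans h2
      _ = ((m + 1 : ℕ) : ℝ) * ‖a - b‖ * M ^ (m + 1) := by
          push_cast
          ring

theorem trotter (x y : 𝔸) :
    Tendsto (fun m : ℕ => (NormedSpace.exp ((1 / ((m : ℝ) + 1)) • x) *
      NormedSpace.exp ((1 / ((m : ℝ) + 1)) • y)) ^ (m + 1)) atTop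
      (𝓝 (NormedSpace.exp (x + y))) := by
  let +nondep : NormedAlgebra ℚ 𝔸 := NormedAlgebra.restrictScalars ℚ ℝ 𝔸
  set f : ℝ → 𝔸 := fun t => NormedSpace.exp (t • (x + y)) with hf
  set g : ℝ → 𝔸 := fun t => NormedSpace.exp (t • x) * NormedSpace.exp (t • y) with hg
  have hf' : HasDerivAt f (x + y) 0 := by
    have h := hasDerivAt_exp_smul_const (𝕂 := ℝ) (x + y) (0 : ℝ)
    have e : NormedSpace.exp ((0 : ℝ) • (x + y)) * (x + y) = x + y := by
      rw [zero_smul, NormedSpace.exp_zero, one_mul]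
    rw [e] at h
    exact h
  have hg' : HasDerivAt g (x + y) 0 := by
    have h1 := hasDerivAt_exp_smul_const (𝕂 := ℝ) x (0 : ℝ)
    have h2 := hasDerivAt_exp_smul_const (𝕂 := ℝ) y (0 : ℝ)
    have h3 := h1.mul h2
    have e : NormedSpace.exp ((0 : ℝ) • x) * x * NormedSpace.exp ((0 : ℝ) • y) +
        NormedSpace.exp ((0 : ℝ) • x) * (NormedSpace.exp ((0 : ℝ) • y) * y) = x + y := by
      rw [zero_smul, zero_smul, NormedSpace.exp_zero, one_mul, mul_one, one_mul, one_mul]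
    rw [e] at h3
    exact h3
  have hfg : HasDerivAt (fun t => f t - g t) 0 0 := by
    have := hf'.sub hg'
    rwa [sub_self] at this
  have h0 : f 0 - g 0 = 0 := by simp [hf, hg, NormedSpace.exp_zero]
  have hslope := hasDerivAt_iff_tendsto_slope_zero.1 hfg
  have hseq : Tendsto (fun m : ℕ => (1 / ((m : ℝ) + 1))) atTop (𝓝[≠] 0) := by
    rw [tendsto_nhdsWithin_iff]
    exact ⟨tendsto_one_div_add_atTop_nhds_zero_nat, Filter.Eventually.of_forall fun m => by
      have : (0 : ℝ) < 1 / ((m : ℝ) + 1) := by positivity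
      exact this.ne'⟩
  have hlim : Tendsto (fun m : ℕ => ((m : ℝ) + 1) *
      ‖f (1 / ((m : ℝ) + 1)) - g (1 / ((m : ℝ) + 1))‖) atTop (𝓝 0) := by
    have h1 := (hslope.comp hseq).norm
    rw [norm_zero] at h1
    refine h1.congr fun m => ?_
    simp only [Function.comp_apply, zero_add]
    rw [h0, sub_zero, norm_smul, norm_inv, norm_div, norm_one, one_div, inv_inv,
      Real.norm_of_nonneg (by positivity)]
  set S : ℝ := ‖x‖ + ‖y‖ with hS
  have hbound : ∀ m : ℕ, ‖f (1 / ((m : ℝ) + 1)) ^ (m + 1) - g (1 / ((m : ℝ) + 1)) ^ (m + 1)‖ ≤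
      ((m : ℝ) + 1) * ‖f (1 / ((m : ℝ) + 1)) - g (1 / ((m : ℝ) + 1))‖ * Real.exp S := by
    intro m
    set t : ℝ := 1 / ((m : ℝ) + 1) with ht
    have ht0 : 0 ≤ t := by rw [ht]; positivity
    have hM1 : 1 ≤ Real.exp (t * S) := Real.one_le_exp (by positivity)
    have hfn : ‖f t‖ ≤ Real.exp (t * S) := by
      refine (norm_exp_le_exp_norm' _).trans (Real.exp_le_exp.2 ?_)
      rw [norm_smul, Real.norm_of_nonneg ht0]
      exact mul_le_mul_of_nonneg_left (norm_add_le x y) ht0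
    have hgn : ‖g t‖ ≤ Real.exp (t * S) := by
      refine (norm_mul_le _ _).trans ?_
      rw [hS, mul_add, Real.exp_add]
      refine mul_le_mul ?_ ?_ (norm_nonneg _) (Real.exp_pos _).le
      · refine (norm_exp_le_exp_norm' _).trans (Real.exp_le_exp.2 ?_)
        rw [norm_smul, Real.norm_of_nonneg ht0]
      · refine (norm_exp_le_exp_norm' _).trans (Real.exp_le_exp.2 ?_)
        rw [norm_smul, Real.norm_of_nonneg ht0]
    have h := norm_pow_sub_pow_le hM1 hfn hgn (m + 1)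
    have he : Real.exp (t * S) ^ (m + 1) = Real.exp S := by
      rw [← Real.exp_nat_mul]
      congr 1
      rw [ht]
      push_cast
      field_simp
    rw [he] at h
    push_cast at h
    exact h
  have hpow : ∀ m : ℕ, f (1 / ((m : ℝ) + 1)) ^ (m + 1) = NormedSpace.exp (x + y) := by
    intro m
    rw [hf]
    beta_reduce
    rw [← NormedSpace.exp_nsmul]
    congr 1
    rw [← Nat.cast_smul_eq_nsmul ℝ, smul_smul]
    have : (((m + 1 : ℕ) : ℝ)) * (1 / ((m : ℝ) + 1)) = 1 := by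
      push_cast
      field_simp
    rw [this, one_smul]
  rw [tendsto_iff_norm_sub_tendsto_zero]
  have hz : Tendsto (fun m : ℕ => ((m : ℝ) + 1) *
      ‖f (1 / ((m : ℝ) + 1)) - g (1 / ((m : ℝ) + 1))‖ * Real.exp S) atTop (𝓝 0) := by
    have := hlim.mul_const (Real.exp S)
    rwa [zero_mul] at this
  refine squeeze_zero (fun m => norm_nonneg _) (fun m => ?_) hz
  have h := hbound m
  rw [hpow m, norm_sub_rev] at h
  exact h

end

end LTG
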