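import Vale.Agent.P371G.GTpow
import Vale.Agent.P371G.Trotter

/-!
# P371 general gamma: the Golden-Thompson inequality

`golden_thompson_exp` : `Re tr exp(X + Y) ≤ Re tr (exp X * exp Y)` for Hermitian `X`, `Y`
(`exp` by functional calculus).
`golden_thompson` : `Re tr exp(log A + log B) ≤ Re tr (A B)` for positive definite `A`, `B`.
-/

namespace LTG

set_option linter.unusedSectionVars false

open Matrix Filter Topology
open scoped ComplexOrder Matrix.Norms.L2Operator

variable {n : Type*} [Fintype n] [DecidableEq n]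

theorem cfc_exp_eq {X : Matrix n n ℂ} (hX : X.IsHermitian) :
    cfc Real.exp X = NormedSpace.exp X := by
  have hsa : IsSelfAdjoint X := hX
  exact CFC.real_exp_eq_normedSpace_exp hsa

theorem exp_posSemidef {X : Matrix n n ℂ} (hX : X.IsHermitian) :
    (NormedSpace.exp X).PosSemidef := by
  rw [← cfc_exp_eq hX]
  have h : cfc Real.exp X = (cfc (fun x => Real.exp (x / 2)) X)ᴴ *
      cfc (fun x => Real.exp (x / 2)) X := by
    rw [(cfc_isHermitian X _).eq, cfc_mul_cfc hX]
    congr 1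
    funext x
    rw [← Real.exp_add]
    congr 1
    ring
  rw [h]
  exact Matrix.posSemidef_conjTranspose_mul_self _

theorem golden_thompson_normedExp {X Y : Matrix n n ℂ} (hX : X.IsHermitian)
    (hY : Y.IsHermitian) :
    ‖(NormedSpace.exp (X + Y)).trace‖ ≤ ((NormedSpace.exp X * NormedSpace.exp Y).trace).re := by
  rcases isEmpty_or_nonempty n with hn | hn
  · simp [Matrix.trace]
  have hlim := trotter X Y
  have hsub : Tendsto (fun k : ℕ => 2 ^ k - 1) atTop atTop := by
    refine tendsto_atTop.2 fun b => ?_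
    filter_upwards [eventually_ge_atTop (b + 1)] with k hk
    have := Nat.lt_two_pow_self (n := k)
    omega
  have h1 := hlim.comp hsub
  have h2 : Tendsto (fun k : ℕ => ‖(((NormedSpace.exp ((1 / (((2 ^ k - 1 : ℕ) : ℝ) + 1)) • X) *
      NormedSpace.exp ((1 / (((2 ^ k - 1 : ℕ) : ℝ) + 1)) • Y)) ^ (2 ^ k - 1 + 1)).trace)‖) atTop
      (𝓝 ‖(NormedSpace.exp (X + Y)).trace‖) := by
    have hc : Continuous fun M : Matrix n n ℂ => ‖M.trace‖ :=
      (continuous_id.matrix_trace).norm
    exact (hc.tendsto _).comp h1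
  refine le_of_tendsto h2 (Filter.Eventually.of_forall fun k => ?_)
  have hk : 2 ^ k - 1 + 1 = 2 ^ k := Nat.sub_add_cancel Nat.one_le_two_pow
  have hk' : (((2 ^ k - 1 : ℕ) : ℝ) + 1) = (2 : ℝ) ^ k := by
    have : ((2 ^ k - 1 + 1 : ℕ) : ℝ) = ((2 ^ k : ℕ) : ℝ) := by rw [hk]
    push_cast at this
    exact_mod_cast this
  rw [hk, hk']
  have hXk : ((1 / (2 : ℝ) ^ k) • X).IsHermitian := by
    have hsa : IsSelfAdjoint X := hX
    exact (IsSelfAdjoint.smul (IsSelfAdjoint.all _) hsa : IsSelfAdjoint ((1 / (2 : ℝ) ^ k) • X))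
  have hYk : ((1 / (2 : ℝ) ^ k) • Y).IsHermitian := by
    have hsa : IsSelfAdjoint Y := hY
    exact (IsSelfAdjoint.smul (IsSelfAdjoint.all _) hsa : IsSelfAdjoint ((1 / (2 : ℝ) ^ k) • Y))
  have h3 := trace_pow_le k (exp_posSemidef hXk) (exp_posSemidef hYk)
  have hpow : ∀ Z : Matrix n n ℂ, NormedSpace.exp ((1 / (2 : ℝ) ^ k) • Z) ^ (2 ^ k) =
      NormedSpace.exp Z := by
    intro Z
    let +nondep : NormedAlgebra ℚ (Matrix n n ℂ) :=
      NormedAlgebra.restrictScalars ℚ ℝ (Matrix n n ℂ)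
    rw [← NormedSpace.exp_nsmul]
    congr 1
    rw [← Nat.cast_smul_eq_nsmul ℝ, smul_smul]
    have : (((2 ^ k : ℕ) : ℝ)) * (1 / (2 : ℝ) ^ k) = 1 := by
      push_cast
      field_simp
    rw [this, one_smul]
  rw [hpow, hpow] at h3
  exact h3

/-- Golden-Thompson, exponential form. -/
theorem golden_thompson_exp {X Y : Matrix n n ℂ} (hX : X.IsHermitian) (hY : Y.IsHermitian) :
    ((cfc Real.exp (X + Y)).trace).re ≤ ((cfc Real.exp X * cfc Real.exp Y).trace).re := by
  rw [cfc_exp_eq hX, cfc_exp_eq hY, cfc_exp_eq (hX.add hY)]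
  exact (Complex.re_le_norm _).trans (golden_thompson_normedExp hX hY)

theorem cfc_exp_log {A : Matrix n n ℂ} (hA : A.PosDef) :
    cfc Real.exp (cfc Real.log A) = A := by
  have hsa : IsSelfAdjoint A := hA.1
  have hpos : ∀ x ∈ spectrum ℝ A, 0 < x := by
    intro x hx
    rw [hA.1.spectrum_real_eq_range_eigenvalues] at hx
    obtain ⟨i, rfl⟩ := hx
    exact hA.eigenvalues_pos i
  have hc : ContinuousOn Real.log (spectrum ℝ A) :=
    fun x hx => (Real.continuousAt_log (hpos x hx).ne').continuousWithinAt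
  have h1 : cfc Real.exp (cfc Real.log A) = cfc (fun x => Real.exp (Real.log x)) A :=
    (cfc_comp' Real.exp Real.log A Real.continuous_exp.continuousOn hc hsa).symm
  have h2 : cfc (fun x => Real.exp (Real.log x)) A = cfc (id : ℝ → ℝ) A :=
    cfc_congr_eig hA.1 fun i => Real.exp_log (hA.eigenvalues_pos i)
  have h3 : cfc (id : ℝ → ℝ) A = A := cfc_id ℝ A hsa
  rw [h1, h2, h3]

/-- Golden-Thompson, logarithmic form. -/
theorem golden_thompson {A B : Matrix n n ℂ} (hA : A.PosDef) (hB : B.PosDef) :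
    ((cfc Real.exp (cfc Real.log A + cfc Real.log B)).trace).re ≤ ((A * B).trace).re := by
  have h := golden_thompson_exp (cfc_isHermitian A Real.log) (cfc_isHermitian B Real.log)
  rwa [cfc_exp_log hA, cfc_exp_log hB] at h

end LTG
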