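import Vale.Agent.P371G.Klein

/-!
# P371 general gamma: the trace inequality behind Golden-Thompson

`trace_pow_le` : `|tr (P Q)^(2^k)| ≤ tr (P^(2^k) Q^(2^k))` for positive semidefinite `P`, `Q`.
-/

namespace LTG

open Matrix
open scoped ComplexOrder

set_option linter.unusedSectionVars false

variable {n : Type*} [Fintype n] [DecidableEq n]

theorem trace_mul_conj (X : Matrix n n ℂ) :
    ((X * Xᴴ).trace).re = ∑ i, ∑ j, ‖X i j‖ ^ 2 := by
  rw [Matrix.trace, Complex.re_sum]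
  refine Finset.sum_congr rfl fun i _ => ?_
  rw [Matrix.diag_apply, Matrix.mul_apply, Complex.re_sum]
  refine Finset.sum_congr rfl fun j _ => ?_
  rw [Matrix.conjTranspose_apply, Complex.star_def, Complex.mul_conj, Complex.normSq_eq_norm_sq,
    Complex.ofReal_re]

theorem trace_conj_mul (X : Matrix n n ℂ) :
    ((Xᴴ * X).trace).re = ((X * Xᴴ).trace).re := by
  rw [Matrix.trace_mul_comm]

/-- Cauchy-Schwarz in additive form -/
theorem norm_trace_mul_le (X Y : Matrix n n ℂ) :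
    ‖(X * Y).trace‖ ≤ (1 / 2) * (((X * Xᴴ).trace).re + ((Y * Yᴴ).trace).re) := by
  rw [trace_mul_conj, trace_mul_conj, Matrix.trace]
  have h1 : ‖∑ i, Matrix.diag (X * Y) i‖ ≤ ∑ i, ∑ j, ‖X i j‖ * ‖Y j i‖ := by
    refine (norm_sum_le _ _).trans (Finset.sum_le_sum fun i _ => ?_)
    rw [Matrix.diag_apply, Matrix.mul_apply]
    refine (norm_sum_le _ _).trans (Finset.sum_le_sum fun j _ => ?_)
    rw [norm_mul]
  refine h1.trans ?_
  have h2 : ∑ i, ∑ j, ‖Y i j‖ ^ 2 = ∑ i, ∑ j, ‖Y j i‖ ^ 2 := Finset.sum_comm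
  rw [h2, ← Finset.sum_add_distrib, Finset.mul_sum]
  refine Finset.sum_le_sum fun i _ => ?_
  rw [← Finset.sum_add_distrib, Finset.mul_sum]
  refine Finset.sum_le_sum fun j _ => ?_
  nlinarith [sq_nonneg (‖X i j‖ - ‖Y j i‖)]

/-- cyclicity of powers -/
theorem trace_mul_pow_comm (X Y : Matrix n n ℂ) (m : ℕ) :
    ((X * Y) ^ m).trace = ((Y * X) ^ m).trace := by
  cases m with
  | zero => simp
  | succ m =>
    have h : SemiconjBy X (Y * X) (X * Y) := by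
      unfold SemiconjBy
      rw [Matrix.mul_assoc]
    have h2 : X * (Y * X) ^ m = (X * Y) ^ m * X := h.pow_right m
    calc ((X * Y) ^ (m + 1)).trace = ((X * Y) ^ m * X * Y).trace := by
          rw [pow_succ, Matrix.mul_assoc]
      _ = (X * (Y * X) ^ m * Y).trace := by rw [h2]
      _ = ((Y * X) ^ m * Y * X).trace := by
          rw [Matrix.mul_assoc, Matrix.trace_mul_comm X]
      _ = ((Y * X) ^ (m + 1)).trace := by rw [pow_succ, Matrix.mul_assoc]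

theorem exists_conjTranspose_mul_self {Q : Matrix n n ℂ} (hQ : Q.PosSemidef) :
    ∃ B : Matrix n n ℂ, Q = Bᴴ * B := by
  refine ⟨cfc Real.sqrt Q, ?_⟩
  rw [(cfc_isHermitian Q Real.sqrt).eq, cfc_mul_cfc hQ.1]
  have h2 : cfc (fun x => Real.sqrt x * Real.sqrt x) Q = cfc id Q :=
    cfc_congr_eig hQ.1 fun i => Real.mul_self_sqrt (hQ.eigenvalues_nonneg i)
  have hsa : IsSelfAdjoint Q := hQ.1
  have h3 : cfc (id : ℝ → ℝ) Q = Q := cfc_id ℝ Q hsa
  rw [h2, h3]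

/-- statement G -/
def GT_G (n : Type*) [Fintype n] [DecidableEq n] (m : ℕ) : Prop :=
  ∀ P Q : Matrix n n ℂ, P.PosSemidef → Q.PosSemidef →
    ‖((P * Q) ^ m).trace‖ ≤ ((P ^ m * Q ^ m).trace).re

/-- statement H -/
def GT_H (n : Type*) [Fintype n] [DecidableEq n] (m : ℕ) : Prop :=
  ∀ Z : Matrix n n ℂ, ((Z ^ m * (Zᴴ) ^ m).trace).re ≤ (((Z * Zᴴ) ^ m).trace).re

theorem GT_G_one : GT_G n 1 := by
  intro P Q hP hQ
  rw [pow_one, pow_one, pow_one]
  obtain ⟨B, rfl⟩ := exists_conjTranspose_mul_self hQ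
  have h1 : (P * (Bᴴ * B)).trace = (B * P * Bᴴ).trace := by
    rw [← Matrix.mul_assoc, Matrix.trace_mul_comm, ← Matrix.mul_assoc]
  have h2 : (B * P * Bᴴ).PosSemidef := hP.mul_mul_conjTranspose_same B
  have h3 : 0 ≤ (B * P * Bᴴ).trace := h2.trace_nonneg
  rw [h1]
  obtain ⟨h4, h5⟩ := Complex.nonneg_iff.mp h3
  have h6 : (B * P * Bᴴ).trace = (((B * P * Bᴴ).trace).re : ℂ) := by
    apply Complex.ext <;> simp [← h5]
  rw [h6, Complex.norm_real, Real.norm_of_nonneg h4, Complex.ofReal_re]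

theorem GT_H_one : GT_H n 1 := by
  intro Z
  rw [pow_one, pow_one, pow_one]

theorem GT_G_double {m : ℕ} (hG : GT_G n m) (hH : GT_H n m) : GT_G n (2 * m) := by
  intro P Q hP hQ
  have hPh : Pᴴ = P := hP.1
  have hQh : Qᴴ = Q := hQ.1
  set Z := P * Q with hZ
  have hZh : Zᴴ = Q * P := by rw [hZ, Matrix.conjTranspose_mul, hPh, hQh]
  have e1 : Z ^ (2 * m) = Z ^ m * Z ^ m := by rw [two_mul, pow_add]
  have e2 : (Z ^ m)ᴴ = (Zᴴ) ^ m := Matrix.conjTranspose_pow Z m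
  have h1 := norm_trace_mul_le (Z ^ m) (Z ^ m)
  rw [← e1, e2] at h1
  have h2 := hH Z
  have e3 : ((Z * Zᴴ) ^ m).trace = ((P ^ 2 * Q ^ 2) ^ m).trace := by
    have : Z * Zᴴ = (P * Q ^ 2) * P := by
      rw [hZh, hZ, sq]
      simp only [Matrix.mul_assoc]
    rw [this, trace_mul_pow_comm, ← Matrix.mul_assoc, ← sq]
  have h3 := hG (P ^ 2) (Q ^ 2) (hP.pow 2) (hQ.pow 2)
  rw [← pow_mul, ← pow_mul] at h3
  have h4 : (((P ^ 2 * Q ^ 2) ^ m).trace).re ≤ ‖((P ^ 2 * Q ^ 2) ^ m).trace‖ :=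
    Complex.re_le_norm _
  rw [e3] at h2
  linarith

theorem GT_H_double {m : ℕ} (hG : GT_G n m) (hH : GT_H n m) : GT_H n (2 * m) := by
  intro Z
  have h1 := hH (Z ^ 2)
  rw [Matrix.conjTranspose_pow, ← pow_mul, ← pow_mul] at h1
  set P := Zᴴ * Z with hP
  set Q := Z * Zᴴ with hQ
  have hPp : P.PosSemidef := Matrix.posSemidef_conjTranspose_mul_self Z
  have hQp : Q.PosSemidef := Matrix.posSemidef_self_mul_conjTranspose Z
  have e1 : ((Z ^ 2 * Zᴴ ^ 2) ^ m).trace = ((P * Q) ^ m).trace := by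
    have : Z ^ 2 * Zᴴ ^ 2 = Z * (Q * Zᴴ) := by
      rw [hQ, sq, sq]
      simp only [Matrix.mul_assoc]
    rw [this, trace_mul_pow_comm]
    rw [hP, Matrix.mul_assoc, trace_mul_pow_comm, Matrix.mul_assoc]
  rw [e1] at h1
  have h2 := hG P Q hPp hQp
  have h3 : (((P * Q) ^ m).trace).re ≤ ‖((P * Q) ^ m).trace‖ := Complex.re_le_norm _
  have h4 := norm_trace_mul_le (P ^ m) (Q ^ m)
  have h5 : ((P ^ m * Q ^ m).trace).re ≤ ‖(P ^ m * Q ^ m).trace‖ := Complex.re_le_norm _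
  have e2 : P ^ m * (P ^ m)ᴴ = P ^ (2 * m) := by
    rw [Matrix.conjTranspose_pow, hPp.1, two_mul, pow_add]
  have e3 : Q ^ m * (Q ^ m)ᴴ = Q ^ (2 * m) := by
    rw [Matrix.conjTranspose_pow, hQp.1, two_mul, pow_add]
  have e4 : (P ^ (2 * m)).trace = (Q ^ (2 * m)).trace := by
    rw [hP, hQ, trace_mul_pow_comm]
  rw [e2, e3, e4] at h4
  linarith

theorem GT_both (k : ℕ) : GT_G n (2 ^ k) ∧ GT_H n (2 ^ k) := by
  induction k with
  | zero => exact ⟨by simpa using GT_G_one, by simpa using GT_H_one⟩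
  | succ k ih =>
    rw [pow_succ, mul_comm]
    exact ⟨GT_G_double ih.1 ih.2, GT_H_double ih.1 ih.2⟩

/-- `|tr (P Q)^(2^k)| ≤ tr (P^(2^k) Q^(2^k))`. -/
theorem trace_pow_le (k : ℕ) {P Q : Matrix n n ℂ} (hP : P.PosSemidef) (hQ : Q.PosSemidef) :
    ‖((P * Q) ^ (2 ^ k)).trace‖ ≤ ((P ^ (2 ^ k) * Q ^ (2 ^ k)).trace).re :=
  (GT_both k).1 P Q hP hQ

end LTG
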