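import Vale.Agent.P371G.Base

/-!
# [CFC2] positivity of `K_t ± P`, `K_t^2 = K^2 + t`
-/

namespace LTG

open Matrix MeasureTheory Set
open scoped ComplexOrder

variable {N : ℕ}

theorem cfc_posSemidef_of_nonneg {n : Type*} [Fintype n] [DecidableEq n] {A : Matrix n n ℂ}
    (hA : A.IsHermitian) {f : ℝ → ℝ}
    (hf : ∀ i, 0 ≤ f (hA.eigenvalues i)) : (cfc f A).PosSemidef := by
  have h : cfc f A = (cfc (fun x => Real.sqrt (f x)) A)ᴴ * cfc (fun x => Real.sqrt (f x)) A := by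
    rw [(cfc_isHermitian A _).eq, cfc_mul_cfc hA]
    exact cfc_congr_eig hA fun i => (Real.mul_self_sqrt (hf i)).symm
  rw [h]
  exact Matrix.posSemidef_conjTranspose_mul_self _

theorem cfc_one_of_eig {n : Type*} [Fintype n] [DecidableEq n] {A : Matrix n n ℂ}
    (hA : A.IsHermitian) {f : ℝ → ℝ}
    (hf : ∀ i, f (hA.eigenvalues i) = 1) : cfc f A = 1 := by
  rw [cfc_form hA f]
  have : (fun i => ((f (hA.eigenvalues i) : ℝ) : ℂ)) = fun _ => 1 := by
    funext i; rw [hf i]; simp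
  rw [this, Matrix.diagonal_one, Matrix.mul_one]
  exact Unitary.coe_mul_star_self _

theorem cfc_posDef_of_pos {n : Type*} [Fintype n] [DecidableEq n] {A : Matrix n n ℂ}
    (hA : A.IsHermitian) {f : ℝ → ℝ}
    (hf : ∀ i, 0 < f (hA.eigenvalues i)) : (cfc f A).PosDef := by
  rw [(cfc_posSemidef_of_nonneg hA fun i => (hf i).le).posDef_iff_isUnit]
  have h : cfc f A * cfc (fun x => (f x)⁻¹) A = 1 := by
    rw [cfc_mul_cfc hA]
    exact cfc_one_of_eig hA fun i => mul_inv_cancel₀ (hf i).ne'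
  exact IsUnit.of_mul_eq_one _ h

/-- `K_t > 0` for `t > 0` -/
theorem Kt_posDef {K : Matrix (Fin N) (Fin N) ℂ} (h : K.IsHermitian) {t : ℝ} (ht : 0 < t) :
    (Kt K t).PosDef := by
  unfold Kt
  refine cfc_posDef_of_pos h fun i => Real.sqrt_pos.2 ?_
  positivity

theorem cfc_id_eq {n : Type*} [Fintype n] [DecidableEq n] {A : Matrix n n ℂ}
    (hA : A.IsHermitian) : cfc (fun x : ℝ => x) A = A := by
  have : IsSelfAdjoint A := hA
  exact cfc_id' ℝ A

theorem cfc_add_cfc {n : Type*} [Fintype n] [DecidableEq n] {A : Matrix n n ℂ}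
    (hA : A.IsHermitian) (p q : ℝ → ℝ) :
    cfc p A + cfc q A = cfc (fun x => p x + q x) A := by
  rw [cfc_form hA p, cfc_form hA q, cfc_form hA (fun x => p x + q x), ← Matrix.add_mul,
    ← Matrix.mul_add, Matrix.diagonal_add]
  simp only [Complex.ofReal_add]

theorem cfc_sub_cfc {n : Type*} [Fintype n] [DecidableEq n] {A : Matrix n n ℂ}
    (hA : A.IsHermitian) (p q : ℝ → ℝ) :
    cfc p A - cfc q A = cfc (fun x => p x - q x) A := by
  rw [cfc_form hA p, cfc_form hA q, cfc_form hA (fun x => p x - q x), ← Matrix.sub_mul,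
    ← Matrix.mul_sub, Matrix.diagonal_sub]
  simp only [Complex.ofReal_sub]

theorem cfc_const_eq {n : Type*} [Fintype n] [DecidableEq n] {A : Matrix n n ℂ}
    (hA : A.IsHermitian) (c : ℝ) : cfc (fun _ : ℝ => c) A = (c : ℂ) • (1 : Matrix n n ℂ) := by
  rw [cfc_form hA]
  have : diagonal (fun _ : n => ((c : ℝ) : ℂ)) = (c : ℂ) • (1 : Matrix n n ℂ) := by
    rw [Matrix.smul_one_eq_diagonal]
  rw [this, Matrix.mul_smul, Matrix.mul_one, Matrix.smul_mul]
  congr 1
  exact Unitary.coe_mul_star_self _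

/-- `K_t^2 = K^2 + t` -/
theorem Kt_mul_self {K : Matrix (Fin N) (Fin N) ℂ} (h : K.IsHermitian) {t : ℝ} (ht : 0 ≤ t) :
    Kt K t * Kt K t = K * K + (t : ℂ) • (1 : Matrix (Fin N) (Fin N) ℂ) := by
  unfold Kt
  have e1 : K * K = cfc (fun x : ℝ => x * x) K := by
    rw [← cfc_mul_cfc h (fun x => x) (fun x => x), cfc_id_eq h]
  rw [cfc_mul_cfc h, e1, ← cfc_const_eq h t, cfc_add_cfc h]
  refine cfc_congr_eig h fun i => ?_
  rw [Real.mul_self_sqrt (by positivity)]
  ring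

theorem Kt_sub_self_posDef {K : Matrix (Fin N) (Fin N) ℂ} (h : K.IsHermitian) {t : ℝ}
    (ht : 0 < t) : (Kt K t - K).PosDef := by
  have e : Kt K t - K = cfc (fun x : ℝ => Real.sqrt (x ^ 2 + t) - x) K := by
    unfold Kt
    conv_lhs => rw [← cfc_id_eq h]
    rw [cfc_id_eq h]
    conv_lhs => rhs; rw [← cfc_id_eq h]
    rw [cfc_sub_cfc h]
  rw [e]
  refine cfc_posDef_of_pos h fun i => ?_
  have h1 : |h.eigenvalues i| < Real.sqrt (h.eigenvalues i ^ 2 + t) := by
    rw [← Real.sqrt_sq_eq_abs]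
    exact Real.sqrt_lt_sqrt (sq_nonneg _) (by linarith)
  linarith [le_abs_self (h.eigenvalues i)]

/-- `K_t ± P > 0` for `t > 0` -/
theorem Kt_add_posDef {K P : Matrix (Fin N) (Fin N) ℂ} (h : Adm K P) {t : ℝ} (ht : 0 < t) :
    (Kt K t + P).PosDef := by
  have e : Kt K t + P = (Kt K t - K) + (K + P) := by abel
  rw [e]
  exact (Kt_sub_self_posDef h.pos.1 ht).add_posSemidef h.ge

theorem Kt_sub_posDef {K P : Matrix (Fin N) (Fin N) ℂ} (h : Adm K P) {t : ℝ} (ht : 0 < t) :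
    (Kt K t - P).PosDef := by
  have e : Kt K t - P = (Kt K t - K) + (K - P) := by abel
  rw [e]
  exact (Kt_sub_self_posDef h.pos.1 ht).add_posSemidef h.le

end LTG
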