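import Vale.Agent.P371G.LLT1

/-!
# [L7] the lifted Lieb-Thirring inequality

For each `t > 0`: `D_t := s_t(K) - s_t(-K) = ∫_a^b Re tr ell_t(P) (W - X) dx` (SPath, FTC,
`P' = X - W`). With `ς = r/(1+r)`, Static at `V = ς W`:
`ς tr ell_t W ≤ tr phi_t(ς W) + psi_x(t)`, and `tr ell_t X = psi - u` ... precisely
`Re tr (X ell_t) = psi(t) - u(t)` (from the definitions), so
`ς D_t ≤ ∫ [tr phi_t(ς W) + psi_x - ς (psi_x - u_x)] dx = ∫ [tr phi_t(ςW)] + (1/(1+r)) ∫ [psi_x + r u_x]`.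
Multiply by `(1+r) t^(r-1)` and integrate over `[δ,T]` (Fubini on `[a,b] × [δ,T]`, continuity from
CfcCont.ell_cont), use `uu_int`:
`r ∫_δ^T t^(r-1) D_t dt ≤ (1+r) ∫_a^b tr [∫_δ^T t^(r-1) phi_t(ςW)] dx + ∫_a^b [t^r u_x]_δ^T dx`
`≤ IR r ∫ trf (ς^(1+r) w^(1+r)) + (b-a) (C T^(r-1) + C δ^r (1+|log δ|))`. Let `δ → 0`, `T → ∞`:
`r IR c_r tr K^(2r+1) ≤ IR ς^(1+r) ∫ tr W^(1+r)`, and `ς^(1+r)/r = a_r`.
-/

namespace LTG

open Matrix MeasureTheory Set Filter
open scoped ComplexOrder Topology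

variable {N : ℕ}

section

variable {a b : ℝ} {K : Matrix (Fin N) (Fin N) ℂ} {W P : ℝ → Matrix (Fin N) (Fin N) ℂ}

/-- `Re tr ell_t(P(x)) (W - X)` -/
noncomputable def FF (K : Matrix (Fin N) (Fin N) ℂ) (W P : ℝ → Matrix (Fin N) (Fin N) ℂ)
    (x t : ℝ) : ℝ := (ell K (P x) t * (W x - XX K (P x))).trace.re

theorem FF_cont (hWc : ContinuousOn W (Icc a b)) (hP : RicPath a b K W P) :
    ContinuousOn (fun z : ℝ × ℝ => FF K W P z.1 z.2) (Icc a b ×ˢ Ioi 0) := by
  have h1 := ell_cont hP.adm hP.cont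
  have h2 : ContinuousOn (fun z : ℝ × ℝ => W z.1) (Icc a b ×ˢ Ioi 0) :=
    hWc.comp continuous_fst.continuousOn fun z hz => hz.1
  have h3 : ContinuousOn (fun z : ℝ × ℝ => P z.1) (Icc a b ×ˢ Ioi 0) :=
    hP.cont.comp continuous_fst.continuousOn fun z hz => hz.1
  have h4 : ContinuousOn (fun z : ℝ × ℝ => XX K (P z.1)) (Icc a b ×ˢ Ioi 0) :=
    continuousOn_const.sub (h3.mul h3)
  exact retr_cont.comp_continuousOn (h1.mul (h2.sub h4))

theorem FF_cont_x (hWc : ContinuousOn W (Icc a b)) (hP : RicPath a b K W P) {t : ℝ} (ht : 0 < t) :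
    ContinuousOn (fun x => FF K W P x t) (Icc a b) := by
  intro x hx
  have h2 := FF_cont hWc hP (x, t) ⟨hx, ht⟩
  have h4 : ContinuousWithinAt (fun x : ℝ => (x, t)) (Icc a b) x :=
    (continuous_id.prodMk continuous_const).continuousWithinAt
  exact ContinuousWithinAt.comp (f := fun x : ℝ => (x, t))
    (g := fun z : ℝ × ℝ => FF K W P z.1 z.2) (x := x) h2 h4 (fun s hs => ⟨hs, ht⟩)

theorem FF_ftc (hab : a < b) (hWc : ContinuousOn W (Icc a b)) (hP : RicPath a b K W P) {t : ℝ}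
    (ht : 0 < t) : ∫ x in a..b, FF K W P x t = trf (fun k => DD k t) K := by
  have hK : K.PosDef := (hP.adm a (left_mem_Icc.2 hab.le)).pos
  have hder : ∀ x ∈ Icc a b, HasDerivWithinAt (fun y => sfun K (P y) t) (-FF K W P x t)
      (Icc a b) x := by
    intro x hx
    have h1 := sfun_deriv hx hP.adm hP.cont (hP.deriv x hx) ht
    refine h1.congr_deriv ?_
    rw [FF, XX, ← Complex.neg_re, ← Matrix.trace_neg, ← Matrix.mul_neg]
    congr 3
    abel
  have h2 := intervalIntegral.integral_eq_sub_of_hasDerivAt_of_le hab.le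
    (fun x hx => (hder x hx).continuousWithinAt)
    (fun x hx => (hder x (Ioo_subset_Icc_self hx)).hasDerivAt (Icc_mem_nhds hx.1 hx.2))
    (by
      refine ContinuousOn.intervalIntegrable ?_
      rw [uIcc_of_le hab.le]
      exact (FF_cont_x hWc hP ht).neg)
  rw [intervalIntegral.integral_neg, hP.left, hP.right] at h2
  rw [← sfun_ends hK ht]
  linarith

theorem fubini_rect {F : ℝ → ℝ → ℝ} {a b δ T : ℝ} (hab : a ≤ b) (hδT : δ ≤ T)
    (hF : ContinuousOn (fun z : ℝ × ℝ => F z.1 z.2) (Icc δ T ×ˢ Icc a b)) :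
    (∫ t in δ..T, ∫ x in a..b, F t x = ∫ x in a..b, ∫ t in δ..T, F t x) ∧
      IntervalIntegrable (fun x => ∫ t in δ..T, F t x) volume a b := by
  have hGi : Integrable (Function.uncurry F)
      ((volume.restrict (Ioc δ T)).prod (volume.restrict (Ioc a b))) := by
    have h2 : IntegrableOn (fun z : ℝ × ℝ => F z.1 z.2) (Icc δ T ×ˢ Icc a b)
        ((volume : Measure ℝ).prod volume) :=
      hF.integrableOn_compact (isCompact_Icc.prod isCompact_Icc)
    have h3 := h2.mono_set (prod_mono (Ioc_subset_Icc_self (a := δ) (b := T))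
      (Ioc_subset_Icc_self (a := a) (b := b)))
    rw [IntegrableOn, ← Measure.prod_restrict] at h3
    exact h3
  constructor
  · rw [intervalIntegral.integral_of_le hδT, intervalIntegral.integral_of_le hab]
    simp only [intervalIntegral.integral_of_le hδT, intervalIntegral.integral_of_le hab]
    exact integral_integral_swap hGi
  · rw [intervalIntegrable_iff_integrableOn_Ioc_of_le hab]
    simp only [intervalIntegral.integral_of_le hδT]
    exact hGi.integral_prod_right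

theorem GG_cont (hWc : ContinuousOn W (Icc a b)) (hP : RicPath a b K W P) {δ T r : ℝ}
    (hδ : 0 < δ) :
    ContinuousOn (fun z : ℝ × ℝ => z.1 ^ (r - 1) * (r * FF K W P z.2 z.1))
      (Icc δ T ×ˢ Icc a b) := by
  intro z hz
  have hz1 : 0 < z.1 := lt_of_lt_of_le hδ hz.1.1
  have h2 := FF_cont hWc hP (z.2, z.1) ⟨hz.2, hz1⟩
  have h4 : ContinuousWithinAt (fun z : ℝ × ℝ => (z.2, z.1)) (Icc δ T ×ˢ Icc a b) z :=
    (continuous_snd.prodMk continuous_fst).continuousWithinAt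
  have h5 : ContinuousWithinAt (fun z : ℝ × ℝ => FF K W P z.2 z.1) (Icc δ T ×ˢ Icc a b) z :=
    ContinuousWithinAt.comp (f := fun z : ℝ × ℝ => (z.2, z.1))
      (g := fun z : ℝ × ℝ => FF K W P z.1 z.2) (x := z) h2 h4
      (fun y hy => ⟨hy.2, lt_of_lt_of_le hδ hy.1.1⟩)
  have h6 : ContinuousWithinAt (fun z : ℝ × ℝ => z.1 ^ (r - 1)) (Icc δ T ×ˢ Icc a b) z := by
    have h7 : ContinuousAt (fun y : ℝ => y ^ (r - 1)) z.1 :=
      Real.continuousAt_rpow_const z.1 (r - 1) (Or.inl hz1.ne')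
    exact ContinuousAt.comp_continuousWithinAt (g := fun y : ℝ => y ^ (r - 1))
      (f := fun z : ℝ × ℝ => z.1) h7 continuous_fst.continuousWithinAt
  exact h6.mul (continuousWithinAt_const.mul h5)

/-- the inequality on `[δ,T]` -/
theorem llt_trunc (hab : a < b) (hWc : ContinuousOn W (Icc a b))
    (hW : ∀ x ∈ Icc a b, (W x).PosSemidef) (hP : RicPath a b K W P)
    {r : ℝ} (h0 : 0 < r) (h1 : r < 1) :
    ∃ C1 C2 : ℝ, ∀ δ T : ℝ, 0 < δ → δ ≤ 1 → 1 ≤ T → C1 ≤ T →
      r * ∫ t in δ..T, t ^ (r - 1) * trf (fun k => DD k t) K ≤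
        IR r * (r / (1 + r)) ^ (1 + r) * (∫ x in a..b, trf (fun w => w ^ (1 + r)) (W x)) +
          (b - a) * (C1 * T ^ (r - 1) + C2 * (δ ^ r * (1 + |Real.log δ|))) := by
  obtain ⟨C1, hC1⟩ := uu_infty K
  obtain ⟨C2, hC2⟩ := uu_zero K
  refine ⟨C1, C2, fun δ T hδ hδ1 hT1 hCT => ?_⟩
  have hδT : δ ≤ T := hδ1.trans hT1
  have hT0 : 0 < T := lt_of_lt_of_le hδ hδT
  obtain ⟨hswap, hint⟩ := fubini_rect (F := fun t x => t ^ (r - 1) * (r * FF K W P x t)) hab.le
    hδT (GG_cont hWc hP hδ)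
  have hleft : r * ∫ t in δ..T, t ^ (r - 1) * trf (fun k => DD k t) K =
      ∫ t in δ..T, ∫ x in a..b, t ^ (r - 1) * (r * FF K W P x t) := by
    rw [← intervalIntegral.integral_const_mul]
    refine intervalIntegral.integral_congr fun t ht => ?_
    rw [uIcc_of_le hδT] at ht
    have ht0 : 0 < t := lt_of_lt_of_le hδ ht.1
    rw [intervalIntegral.integral_const_mul, intervalIntegral.integral_const_mul,
      FF_ftc hab hWc hP ht0]
    ring
  rw [hleft, hswap]
  set E : ℝ := C1 * T ^ (r - 1) + C2 * (δ ^ r * (1 + |Real.log δ|)) with hE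
  have hWr : IntervalIntegrable (fun x => trf (fun w => w ^ (1 + r)) (W x)) volume a b := by
    refine ContinuousOn.intervalIntegrable ?_
    rw [uIcc_of_le hab.le]
    refine retr_cont.comp_continuousOn ?_
    exact cfc_cont' (Real.continuous_rpow_const (by positivity)) hWc fun x hx => (hW x hx).1
  have hmain : ∀ x ∈ Icc a b, ∫ t in δ..T, t ^ (r - 1) * (r * FF K W P x t) ≤
      IR r * (r / (1 + r)) ^ (1 + r) * trf (fun w => w ^ (1 + r)) (W x) + E := by
    intro x hx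
    have hA := hP.adm x hx
    refine (ptw_int hA (hW x hx) h0 h1 hδ hδT).trans ?_
    refine add_le_add le_rfl ?_
    have h3 : T ^ r * uu K (P x) T ≤ C1 * T ^ (r - 1) := by
      have h4 := mul_le_mul_of_nonneg_left (hC1 (P x) hA T hCT) (Real.rpow_nonneg hT0.le r)
      refine h4.trans (le_of_eq ?_)
      rw [Real.rpow_sub_one hT0.ne']
      ring
    have h5 : - (δ ^ r * uu K (P x) δ) ≤ C2 * (δ ^ r * (1 + |Real.log δ|)) := by
      have h6 := mul_le_mul_of_nonneg_left (hC2 (P x) hA δ hδ hδ1) (Real.rpow_nonneg hδ.le r)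
      refine le_trans (le_of_eq ?_) (h6.trans (le_of_eq ?_))
      · ring
      · ring
    rw [hE]
    linarith
  refine (intervalIntegral.integral_mono_on hab.le hint
    ((hWr.const_mul _).add intervalIntegrable_const) hmain).trans (le_of_eq ?_)
  rw [intervalIntegral.integral_add (hWr.const_mul _) intervalIntegrable_const,
    intervalIntegral.integral_const_mul, intervalIntegral.integral_const, smul_eq_mul]

end

theorem DD_tr_integral {K : Matrix (Fin N) (Fin N) ℂ} (hK : K.PosDef) {r : ℝ} (h0 : 0 < r)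
    (h1 : r < 1) :
    IntegrableOn (fun t => t ^ (r - 1) * trf (fun k => DD k t) K) (Ioi 0) ∧
    ∫ t in Ioi (0 : ℝ), t ^ (r - 1) * trf (fun k => DD k t) K =
      IR r * (ccR r * trf (fun k => k ^ (2 * r + 1)) K) := by
  have hk : ∀ i, 0 ≤ hK.1.eigenvalues i := fun i => (hK.eigenvalues_pos i).le
  have e1 : (fun t : ℝ => t ^ (r - 1) * trf (fun k => DD k t) K) =
      fun t => ∑ i, t ^ (r - 1) * DD (hK.1.eigenvalues i) t := by
    funext t
    rw [trf_eq hK.1, Finset.mul_sum]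
  rw [e1]
  refine ⟨integrable_finsetSum _ fun i _ => DD_integrable h0 h1 (hk i), ?_⟩
  rw [integral_finsetSum _ fun i _ => DD_integrable h0 h1 (hk i),
    trf_eq hK.1, Finset.mul_sum, Finset.mul_sum]
  exact Finset.sum_congr rfl fun i _ => DD_integral h0 h1 (hk i)

theorem llt {a b : ℝ} (hab : a < b) {K : Matrix (Fin N) (Fin N) ℂ}
    {W P : ℝ → Matrix (Fin N) (Fin N) ℂ} (hWc : ContinuousOn W (Icc a b))
    (hW : ∀ x ∈ Icc a b, (W x).PosSemidef) (hP : RicPath a b K W P)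
    {r : ℝ} (h0 : 0 < r) (h1 : r < 1) :
    ccR r * trf (fun k => k ^ (2 * r + 1)) K ≤
      aaR r * ∫ x in a..b, trf (fun w => w ^ (1 + r)) (W x) := by
  have hK : K.PosDef := (hP.adm a (left_mem_Icc.2 hab.le)).pos
  obtain ⟨hDi, hDD⟩ := DD_tr_integral hK h0 h1
  obtain ⟨C1, C2, hC⟩ := llt_trunc hab hWc hW hP h0 h1
  set A := IR r * (r / (1 + r)) ^ (1 + r) * (∫ x in a..b, trf (fun w => w ^ (1 + r)) (W x))
    with hA
  -- exhaustion of `(0,∞)`
  set s : ℕ → Set ℝ := fun n => Ioc (1 / ((n : ℝ) + 1)) ((n : ℝ) + 1) with hs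
  have hmono : Monotone s := by
    intro n m hnm
    have h2 : (n : ℝ) ≤ m := by exact_mod_cast hnm
    refine Ioc_subset_Ioc ?_ (by linarith)
    exact one_div_le_one_div_of_le (by positivity) (by linarith)
  have hunion : ⋃ n, s n = Ioi 0 := by
    ext x
    simp only [hs, mem_iUnion, mem_Ioc, mem_Ioi]
    constructor
    · rintro ⟨n, hn1, _⟩
      exact lt_trans (by positivity) hn1
    · intro hx
      obtain ⟨n, hn⟩ := exists_nat_gt (max x (1 / x))
      have h2 : x < n := lt_of_le_of_lt (le_max_left _ _) hn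
      have h3 : 1 / x < n := lt_of_le_of_lt (le_max_right _ _) hn
      refine ⟨n, ?_, by linarith⟩
      rw [div_lt_iff₀ (by positivity)]
      rw [div_lt_iff₀ hx] at h3
      nlinarith
  have hlim1 : Tendsto (fun n => ∫ t in s n, t ^ (r - 1) * trf (fun k => DD k t) K) atTop
      (𝓝 (IR r * (ccR r * trf (fun k => k ^ (2 * r + 1)) K))) := by
    have := tendsto_setIntegral_of_monotone (μ := volume)
      (f := fun t => t ^ (r - 1) * trf (fun k => DD k t) K) (s := s)
      (fun n => measurableSet_Ioc) hmono (by rw [hunion]; exact hDi)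
    rwa [hunion, hDD] at this
  have hcast : Tendsto (fun n : ℕ => (n : ℝ) + 1) atTop atTop :=
    tendsto_atTop_add_const_right _ _ tendsto_natCast_atTop_atTop
  have hzero : Tendsto (fun n : ℕ => 1 / ((n : ℝ) + 1)) atTop (𝓝[>] 0) := by
    refine tendsto_nhdsWithin_iff.2 ⟨tendsto_one_div_add_atTop_nhds_zero_nat, ?_⟩
    exact Eventually.of_forall fun n => by
      have : (0 : ℝ) < 1 / ((n : ℝ) + 1) := by positivity
      exact this
  have hE1 : Tendsto (fun n : ℕ => ((n : ℝ) + 1) ^ (r - 1)) atTop (𝓝 0) := by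
    have h2 := (tendsto_rpow_neg_atTop (by linarith : 0 < 1 - r)).comp hcast
    refine h2.congr fun n => ?_
    simp only [Function.comp_apply, neg_sub]
  have hE2 : Tendsto (fun δ : ℝ => δ ^ r * (1 + |Real.log δ|)) (𝓝[>] 0) (𝓝 0) := by
    have h2 : Tendsto (fun δ : ℝ => δ ^ r) (𝓝[>] 0) (𝓝 0) := by
      have h3 : ContinuousAt (fun δ : ℝ => δ ^ r) 0 :=
        Real.continuousAt_rpow_const 0 r (Or.inr h0.le)
      have h4 := h3.tendsto
      simp only [Real.zero_rpow h0.ne'] at h4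
      exact h4.mono_left nhdsWithin_le_nhds
    have h3 := (tendsto_log_mul_rpow_nhdsGT_zero h0).abs
    rw [abs_zero] at h3
    have h4 := h2.add h3
    rw [add_zero] at h4
    refine h4.congr' ?_
    filter_upwards [self_mem_nhdsWithin] with δ hδ
    have h5 : 0 ≤ δ ^ r := Real.rpow_nonneg (le_of_lt hδ) r
    rw [abs_mul, abs_of_nonneg h5]
    ring
  have hlim2 : Tendsto (fun n : ℕ => A + (b - a) * (C1 * ((n : ℝ) + 1) ^ (r - 1) +
      C2 * ((1 / ((n : ℝ) + 1)) ^ r * (1 + |Real.log (1 / ((n : ℝ) + 1))|)))) atTop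
      (𝓝 (A + (b - a) * (C1 * 0 + C2 * 0))) :=
    tendsto_const_nhds.add (((hE1.const_mul C1).add ((hE2.comp hzero).const_mul C2)).const_mul _)
  have hfin := le_of_tendsto_of_tendsto (hlim1.const_mul r) hlim2 (by
    have hev : ∀ᶠ n : ℕ in atTop, C1 ≤ (n : ℝ) + 1 := hcast.eventually_ge_atTop C1
    filter_upwards [hev] with n hn
    have hn0 : (0 : ℝ) ≤ n := Nat.cast_nonneg n
    have hd1 : 1 / ((n : ℝ) + 1) ≤ 1 := by
      rw [div_le_one (by positivity)]
      linarith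
    have h2 := hC (1 / ((n : ℝ) + 1)) ((n : ℝ) + 1) (by positivity) hd1 (by linarith) hn
    rwa [intervalIntegral.integral_of_le (hd1.trans (by linarith))] at h2)
  have hI := IR_pos h0 h1
  rw [mul_zero, mul_zero, add_zero, mul_zero, add_zero, hA] at hfin
  have h6 : aaR r = (r / (1 + r)) ^ (1 + r) / r := by
    rw [aaR, Real.rpow_add (by positivity), Real.rpow_one]
    field_simp
  rw [h6]
  have h7 : IR r * (r * (ccR r * trf (fun k => k ^ (2 * r + 1)) K)) ≤
      IR r * ((r / (1 + r)) ^ (1 + r) * ∫ x in a..b, trf (fun w => w ^ (1 + r)) (W x)) := by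
    linarith
  have h8 := le_of_mul_le_mul_left h7 hI
  rw [div_mul_eq_mul_div, le_div_iff₀ h0]
  linarith

end LTG
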