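import Vale.Agent.P371G.CfcCont

/-!
# [L4] derivative of `s_t` along a path: `d/dx s_t(P(x)) = Re tr (ell_t(P(x)) P'(x))`

Proof: for `eta' = log` and positive definite `A`, Klein's inequality gives
`tr log A (A' - A) ≤ tr eta(A') - tr eta(A) ≤ tr log A' (A' - A)`; divide by `x' - x` and use the
continuity of `log` (CfcCont).
-/

namespace LTG

open Matrix MeasureTheory Set
open scoped ComplexOrder

variable {N : ℕ}

theorem klein_eta {A B : Matrix (Fin N) (Fin N) ℂ} (hA : A.PosDef) (hB : B.PosDef) :
    ((cfc Real.log A * (B - A)).trace).re ≤ trf eta B - trf eta A := by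
  have hA' : A.IsHermitian := hA.1
  have hB' : B.IsHermitian := hB.1
  have h := klein hA' hB' (Finset.univ : Finset (Fin 4))
    (![fun _ => 1, fun x => - eta x, fun x => - Real.log x, fun x => Real.log x * x])
    (![eta, fun _ => 1, fun x => x, fun _ => 1]) (by
      intro i j
      simp only [Fin.sum_univ_four, Matrix.cons_val_zero, Matrix.cons_val_one,
        Matrix.cons_val]
      have ha := hA.eigenvalues_pos i
      have hb := hB.eigenvalues_pos j
      set x := hA'.eigenvalues i with hx
      set y := hB'.eigenvalues j with hy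
      have hx0 : 0 < x := ha
      have hy0 : 0 < y := hb
      have h1 : Real.log (x / y) ≤ x / y - 1 := Real.log_le_sub_one_of_pos (div_pos hx0 hy0)
      rw [Real.log_div hx0.ne' hy0.ne', div_sub_one hy0.ne', le_div_iff₀ hy0] at h1
      unfold eta
      nlinarith)
  simp only [Fin.sum_univ_four, Matrix.cons_val_zero, Matrix.cons_val_one,
        Matrix.cons_val] at h
  have c1 : cfc (fun _ : ℝ => (1 : ℝ)) A = 1 := cfc_const_one ℝ A
  have c1' : cfc (fun _ : ℝ => (1 : ℝ)) B = 1 := cfc_const_one ℝ B
  have c3 : cfc (fun x : ℝ => x) B = B := cfc_id ℝ B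
  have c3' : cfc (fun x : ℝ => x) A = A := cfc_id ℝ A
  have c4 : cfc (fun x : ℝ => - eta x) A = - cfc eta A := by rw [cfc_neg]
  have c5 : cfc (fun x : ℝ => - Real.log x) A = - cfc Real.log A := by rw [cfc_neg]
  have c6 : cfc (fun x : ℝ => Real.log x * x) A = cfc Real.log A * A := by
    rw [← cfc_mul_cfc hA' Real.log (fun x => x), c3']
  rw [c1, c1', c3, c4, c5, c6] at h
  simp only [mul_one, one_mul, neg_mul, Matrix.trace_neg, Complex.neg_re] at h
  unfold trf
  rw [Matrix.mul_sub, Matrix.trace_sub, Complex.sub_re]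
  linarith

theorem posDef_spectrum {A : Matrix (Fin N) (Fin N) ℂ} (hA : A.PosDef) :
    spectrum ℝ A ⊆ Ioi 0 := by
  intro x hx
  rw [hA.1.spectrum_real_eq_range_eigenvalues] at hx
  obtain ⟨i, rfl⟩ := hx
  exact hA.eigenvalues_pos i

/-- derivative of `tr eta(A(y))` along a path of positive definite matrices -/
theorem trf_eta_deriv {A : ℝ → Matrix (Fin N) (Fin N) ℂ} {A' : Matrix (Fin N) (Fin N) ℂ}
    {a b x : ℝ} (hx : x ∈ Icc a b) (hA : ∀ y ∈ Icc a b, (A y).PosDef)
    (hc : ContinuousOn A (Icc a b))
    (hd : ∀ i j, HasDerivWithinAt (fun y => A y i j) (A' i j) (Icc a b) x) :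
    HasDerivWithinAt (fun y => trf eta (A y)) ((cfc Real.log (A x) * A').trace.re)
      (Icc a b) x := by
  have hlog : ContinuousOn (fun y => cfc Real.log (A y)) (Icc a b) :=
    cfc_cont isOpen_Ioi (Real.continuousOn_log.mono (fun y hy => ne_of_gt hy)) hc
      (fun y hy => (hA y hy).1) (fun y hy => posDef_spectrum (hA y hy))
  -- the linear part
  have h1 : HasDerivWithinAt (fun y => (cfc Real.log (A x) * A y).trace.re)
      ((cfc Real.log (A x) * A').trace.re) (Icc a b) x := by
    have e : ∀ B : Matrix (Fin N) (Fin N) ℂ, (cfc Real.log (A x) * B).trace.re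
        = ∑ i, ∑ j, (cfc Real.log (A x) i j * B j i).re := by
      intro B
      simp only [Matrix.trace, Matrix.diag_apply, Matrix.mul_apply, Complex.re_sum]
    simp only [e]
    apply HasDerivWithinAt.fun_sum
    intro i _
    apply HasDerivWithinAt.fun_sum
    intro j _
    have h := (hd j i).const_mul (cfc Real.log (A x) i j)
    exact Complex.reCLM.hasFDerivAt.comp_hasDerivWithinAt x h
  -- the remainder
  have h2 : HasDerivWithinAt (fun y => trf eta (A y) - (cfc Real.log (A x) * A y).trace.re) 0
      (Icc a b) x := by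
    rw [hasDerivWithinAt_iff_isLittleO]
    have hR : (fun y => ((cfc Real.log (A y) - cfc Real.log (A x)) * (A y - A x)).trace.re)
        =o[nhdsWithin x (Icc a b)] fun y => y - x := by
      have e : ∀ y, ((cfc Real.log (A y) - cfc Real.log (A x)) * (A y - A x)).trace.re
          = ∑ i, ∑ j, (((cfc Real.log (A y) - cfc Real.log (A x)) i j) * ((A y - A x) j i)).re := by
        intro y
        simp only [Matrix.trace, Matrix.diag_apply, Matrix.mul_apply, Complex.re_sum]
      simp only [e]
      apply Asymptotics.IsLittleO.fun_sum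
      intro i _
      apply Asymptotics.IsLittleO.fun_sum
      intro j _
      have ho : (fun y => (cfc Real.log (A y) - cfc Real.log (A x)) i j)
          =o[nhdsWithin x (Icc a b)] fun _ => (1 : ℝ) := by
        rw [Asymptotics.isLittleO_one_iff]
        have hcx := hlog x hx
        have h3 : Filter.Tendsto (fun y => cfc Real.log (A y) i j) (nhdsWithin x (Icc a b))
            (nhds (cfc Real.log (A x) i j)) :=
          ((continuous_apply_apply i j).tendsto _).comp hcx
        have h4 := h3.sub_const (cfc Real.log (A x) i j)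
        rw [sub_self] at h4
        exact h4
      have hO : (fun y => (A y - A x) j i) =O[nhdsWithin x (Icc a b)] fun y => y - x :=
        (hd j i).isBigO_sub.comp_tendsto
          (Filter.tendsto_id.prodMk (Filter.tendsto_const_pure))
      have h5 := ho.mul_isBigO hO
      have h6 : (fun y => ((((cfc Real.log (A y) - cfc Real.log (A x)) i j)
          * ((A y - A x) j i)).re)) =O[nhdsWithin x (Icc a b)]
          fun y => ((cfc Real.log (A y) - cfc Real.log (A x)) i j) * ((A y - A x) j i) := by
        apply Asymptotics.IsBigO.of_bound 1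
        filter_upwards with y
        rw [one_mul, Real.norm_eq_abs]
        exact Complex.abs_re_le_norm _
      have h7 := h6.trans_isLittleO h5
      refine h7.trans_isBigO ?_
      apply Asymptotics.IsBigO.of_bound 1
      filter_upwards with y
      simp
    refine Asymptotics.IsBigO.trans_isLittleO ?_ hR
    apply Asymptotics.IsBigO.of_bound 1
    filter_upwards [self_mem_nhdsWithin] with y hy
    have k1 := klein_eta (hA x hx) (hA y hy)
    have k2 := klein_eta (hA y hy) (hA x hx)
    rw [Matrix.mul_sub, Matrix.trace_sub, Complex.sub_re] at k1 k2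
    have e2 : ((cfc Real.log (A y) - cfc Real.log (A x)) * (A y - A x)).trace.re
        = (cfc Real.log (A y) * A y).trace.re - (cfc Real.log (A y) * A x).trace.re
          - ((cfc Real.log (A x) * A y).trace.re - (cfc Real.log (A x) * A x).trace.re) := by
      rw [Matrix.sub_mul, Matrix.mul_sub, Matrix.mul_sub]
      simp only [Matrix.trace_sub, Complex.sub_re]
    rw [e2]
    simp only [smul_zero, sub_zero, one_mul, Real.norm_eq_abs]
    rw [abs_of_nonneg (by linarith), abs_of_nonneg (by linarith)]
    linarith
  have h3 := h1.add h2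
  rw [add_zero] at h3
  refine h3.congr (fun y _ => ?_) ?_
  · simp only [Pi.add_apply]; ring
  · simp only [Pi.add_apply]; ring

theorem sfun_deriv {K : Matrix (Fin N) (Fin N) ℂ} {P : ℝ → Matrix (Fin N) (Fin N) ℂ}
    {P' : Matrix (Fin N) (Fin N) ℂ}
    {a b x : ℝ} (hx : x ∈ Icc a b) (hP : ∀ x ∈ Icc a b, Adm K (P x))
    (hc : ContinuousOn P (Icc a b))
    (hd : ∀ i j, HasDerivWithinAt (fun y => P y i j) (P' i j) (Icc a b) x)
    {t : ℝ} (ht : 0 < t) :
    HasDerivWithinAt (fun y => sfun K (P y) t) ((ell K (P x) t * P').trace.re) (Icc a b) x := by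
  have h1 := trf_eta_deriv (A := fun y => Kt K t + P y) (A' := P') hx
    (fun y hy => Kt_add_posDef (hP y hy) ht) (continuousOn_const.add hc)
    (fun i j => (hd i j).const_add (Kt K t i j))
  have h2 := trf_eta_deriv (A := fun y => Kt K t - P y) (A' := -P') hx
    (fun y hy => Kt_sub_posDef (hP y hy) ht) (continuousOn_const.sub hc)
    (fun i j => (hd i j).const_sub (Kt K t i j))
  have h3 : HasDerivWithinAt (fun y => (P y).trace.re) (P'.trace.re) (Icc a b) x := by
    have e : ∀ B : Matrix (Fin N) (Fin N) ℂ, B.trace.re = ∑ i, (B i i).re := by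
      intro B
      simp only [Matrix.trace, Matrix.diag_apply, Complex.re_sum]
    simp only [e]
    apply HasDerivWithinAt.fun_sum
    intro i _
    exact Complex.reCLM.hasFDerivAt.comp_hasDerivWithinAt x (hd i i)
  have h4 := (h1.sub h2).sub (h3.const_mul (Real.log t))
  refine (h4.congr (fun y _ => ?_) ?_).congr_deriv ?_
  · rfl
  · rfl
  · unfold ell
    rw [Matrix.sub_mul, Matrix.add_mul, Matrix.trace_sub, Matrix.trace_add, Matrix.smul_mul,
      Matrix.one_mul, Matrix.trace_smul, Matrix.mul_neg, Matrix.trace_neg]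
    simp only [Complex.sub_re, Complex.add_re, Complex.neg_re, smul_eq_mul, Complex.mul_re,
      Complex.ofReal_re, Complex.ofReal_im, zero_mul, sub_zero]
    ring

end LTG
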