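import Mathlib

/-!
# P371G: `∫_0^∞ t^(r-1) log(1+s/t) dt = I_r s^r`
-/

namespace LTG

open MeasureTheory Set

theorem log_one_add_nonneg {s t : ℝ} (hs : 0 ≤ s) (ht : 0 < t) : 0 ≤ Real.log (1 + s / t) := by
  apply Real.log_nonneg
  have : 0 ≤ s / t := div_nonneg hs ht.le
  linarith

theorem logt_meas (r s : ℝ) : Measurable (fun t : ℝ => t ^ (r - 1) * Real.log (1 + s / t)) := by
  fun_prop

theorem logt_integrable {r s : ℝ} (h0 : 0 < r) (h1 : r < 1) (hs : 0 ≤ s) :
    IntegrableOn (fun t : ℝ => t ^ (r - 1) * Real.log (1 + s / t)) (Ioi 0) := by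
  rw [← Ioc_union_Ioi_eq_Ioi (zero_le_one (α := ℝ)), integrableOn_union]
  constructor
  · -- on (0,1]
    have hint : IntegrableOn (fun t : ℝ => (1 + s) ^ (r / 2) / (r / 2) * t ^ (r / 2 - 1))
        (Ioc 0 1) := by
      apply Integrable.const_mul
      have := intervalIntegral.intervalIntegrable_rpow' (a := 0) (b := 1) (r := r / 2 - 1)
        (by linarith)
      rwa [intervalIntegrable_iff_integrableOn_Ioc_of_le zero_le_one] at this
    refine Integrable.mono' hint (logt_meas r s).aestronglyMeasurable ?_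
    refine (ae_restrict_iff' measurableSet_Ioc).2 (Filter.Eventually.of_forall ?_)
    intro t ht
    have ht0 : 0 < t := ht.1
    have hl := log_one_add_nonneg hs ht0
    have hp : 0 < t ^ (r - 1) := Real.rpow_pos_of_pos ht0 _
    rw [Real.norm_of_nonneg (mul_nonneg hp.le hl)]
    have hle : Real.log (1 + s / t) ≤ ((1 + s) / t) ^ (r / 2) / (r / 2) := by
      have e1 : Real.log (1 + s / t) ≤ Real.log ((1 + s) / t) := by
        apply Real.log_le_log
        · have : 0 ≤ s / t := div_nonneg hs ht0.le
          linarith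
        · rw [add_div]
          have : 1 ≤ 1 / t := by
            rw [le_div_iff₀ ht0]
            linarith [ht.2]
          linarith
      exact e1.trans (Real.log_le_rpow_div (div_nonneg (by linarith) ht0.le) (by linarith))
    calc t ^ (r - 1) * Real.log (1 + s / t)
        ≤ t ^ (r - 1) * (((1 + s) / t) ^ (r / 2) / (r / 2)) :=
          mul_le_mul_of_nonneg_left hle hp.le
      _ = (1 + s) ^ (r / 2) / (r / 2) * (t ^ (r - 1) / t ^ (r / 2)) := by
          rw [Real.div_rpow (by linarith) ht0.le]
          ring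
      _ = (1 + s) ^ (r / 2) / (r / 2) * t ^ (r / 2 - 1) := by
          rw [← Real.rpow_sub ht0]
          congr 2
          ring
  · -- on (1, ∞)
    have hint : IntegrableOn (fun t : ℝ => s * t ^ (r - 2)) (Ioi 1) := by
      apply Integrable.const_mul
      exact integrableOn_Ioi_rpow_of_lt (by linarith) one_pos
    refine Integrable.mono' hint (logt_meas r s).aestronglyMeasurable ?_
    refine (ae_restrict_iff' measurableSet_Ioi).2 (Filter.Eventually.of_forall ?_)
    intro t ht
    have ht0 : 0 < t := lt_trans one_pos ht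
    have hl := log_one_add_nonneg hs ht0
    have hp : 0 < t ^ (r - 1) := Real.rpow_pos_of_pos ht0 _
    rw [Real.norm_of_nonneg (mul_nonneg hp.le hl)]
    have hle : Real.log (1 + s / t) ≤ s / t := by
      have h := Real.log_le_sub_one_of_pos (x := 1 + s / t)
        (by have : 0 ≤ s / t := div_nonneg hs ht0.le
            linarith)
      linarith
    calc t ^ (r - 1) * Real.log (1 + s / t) ≤ t ^ (r - 1) * (s / t) :=
          mul_le_mul_of_nonneg_left hle hp.le
      _ = s * (t ^ (r - 1) / t ^ (1 : ℝ)) := by rw [Real.rpow_one]; ring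
      _ = s * t ^ (r - 2) := by
          rw [← Real.rpow_sub ht0]
          congr 2
          ring

theorem logt_integral {r s : ℝ} (h0 : 0 < r) (hs : 0 ≤ s) :
    ∫ t in Ioi (0 : ℝ), t ^ (r - 1) * Real.log (1 + s / t) =
      (∫ t in Ioi (0 : ℝ), t ^ (r - 1) * Real.log (1 + 1 / t)) * s ^ r := by
  rcases eq_or_lt_of_le hs with h | h
  · rw [← h, Real.zero_rpow h0.ne', mul_zero]
    simp
  · have e := integral_comp_mul_left_Ioi
      (fun t : ℝ => t ^ (r - 1) * Real.log (1 + s / t)) 0 h
    rw [mul_zero, smul_eq_mul] at e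
    have e2 : ∫ x in Ioi (0 : ℝ), (s * x) ^ (r - 1) * Real.log (1 + s / (s * x)) =
        s ^ (r - 1) * ∫ t in Ioi (0 : ℝ), t ^ (r - 1) * Real.log (1 + 1 / t) := by
      rw [← integral_const_mul]
      refine setIntegral_congr_fun measurableSet_Ioi fun x hx => ?_
      have hx0 : (0 : ℝ) < x := hx
      show (s * x) ^ (r - 1) * Real.log (1 + s / (s * x)) =
        s ^ (r - 1) * (x ^ (r - 1) * Real.log (1 + 1 / x))
      rw [Real.mul_rpow h.le hx0.le, div_mul_eq_div_div, div_self h.ne']
      ring
    rw [e2] at e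
    have e3 : s ^ r = s * s ^ (r - 1) := by
      rw [Real.rpow_sub h, Real.rpow_one]
      field_simp
    have h' := h.ne'
    field_simp at e
    rw [e3, ← e]
    ring

end LTG
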