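import Vale.Agent.P371G.Base
import Vale.Agent.P371G.ScalBase

/-!
# P371G [L6b]: the integrals of `D(k,t)` and the ends of `s_t`
-/

namespace LTG

open Matrix MeasureTheory Set
open scoped ComplexOrder

variable {N : ℕ}

theorem DD_nonneg' {k t : ℝ} (hk : 0 ≤ k) (ht : 0 < t) :
    0 ≤ ∫ p in (-k)..k, Real.log (1 + (k ^ 2 - p ^ 2) / t) := by
  apply intervalIntegral.integral_nonneg (by linarith)
  intro p hp
  apply log_one_add_nonneg _ ht
  nlinarith [hp.1, hp.2]

theorem DD_joint {r k : ℝ} (h0 : 0 < r) (h1 : r < 1) :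
    Integrable (fun z : ℝ × ℝ => z.2 ^ (r - 1) * Real.log (1 + (k ^ 2 - z.1 ^ 2) / z.2))
      ((volume.restrict (Ioc (-k) k)).prod (volume.restrict (Ioi (0 : ℝ)))) := by
  have hb : Integrable (fun z : ℝ × ℝ => (1 : ℝ) * (z.2 ^ (r - 1) * Real.log (1 + k ^ 2 / z.2)))
      ((volume.restrict (Ioc (-k) k)).prod (volume.restrict (Ioi (0 : ℝ)))) := by
    apply Integrable.mul_prod (f := fun _ : ℝ => (1 : ℝ))
      (g := fun t : ℝ => t ^ (r - 1) * Real.log (1 + k ^ 2 / t))
    · exact integrable_const _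
    · exact logt_integrable h0 h1 (sq_nonneg k)
  have hm : Measurable (fun z : ℝ × ℝ =>
      z.2 ^ (r - 1) * Real.log (1 + (k ^ 2 - z.1 ^ 2) / z.2)) := by
    fun_prop
  refine Integrable.mono' hb hm.aestronglyMeasurable ?_
  rw [Measure.prod_restrict]
  refine (ae_restrict_iff' (measurableSet_Ioc.prod measurableSet_Ioi)).2
    (Filter.Eventually.of_forall ?_)
  rintro ⟨p, t⟩ ⟨hp, ht⟩
  have hp' : p ∈ Ioc (-k) k := hp
  have ht0 : (0 : ℝ) < t := ht
  have hsq : p ^ 2 ≤ k ^ 2 := by nlinarith [hp'.1, hp'.2]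
  have hl : 0 ≤ Real.log (1 + (k ^ 2 - p ^ 2) / t) := log_one_add_nonneg (by linarith) ht0
  have hpw : 0 < t ^ (r - 1) := Real.rpow_pos_of_pos ht0 _
  show ‖t ^ (r - 1) * Real.log (1 + (k ^ 2 - p ^ 2) / t)‖ ≤
    1 * (t ^ (r - 1) * Real.log (1 + k ^ 2 / t))
  rw [Real.norm_of_nonneg (mul_nonneg hpw.le hl), one_mul]
  apply mul_le_mul_of_nonneg_left _ hpw.le
  apply Real.log_le_log
  · have : 0 ≤ (k ^ 2 - p ^ 2) / t := div_nonneg (by linarith) ht0.le
    linarith
  · have : (k ^ 2 - p ^ 2) / t ≤ k ^ 2 / t := by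
      apply div_le_div_of_nonneg_right _ ht0.le
      nlinarith [sq_nonneg p]
    linarith

theorem DD_eq {r k : ℝ} (hk : 0 ≤ k) (t : ℝ) :
    t ^ (r - 1) * (∫ p in (-k)..k, Real.log (1 + (k ^ 2 - p ^ 2) / t)) =
      ∫ p in Ioc (-k) k, t ^ (r - 1) * Real.log (1 + (k ^ 2 - p ^ 2) / t) := by
  rw [intervalIntegral.integral_of_le (by linarith), integral_const_mul]

theorem DD_integrable' {r k : ℝ} (h0 : 0 < r) (h1 : r < 1) (hk : 0 ≤ k) :
    IntegrableOn (fun t => t ^ (r - 1) *
      (∫ p in (-k)..k, Real.log (1 + (k ^ 2 - p ^ 2) / t))) (Ioi 0) := by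
  have h := (DD_joint (k := k) h0 h1).integral_prod_right
  simp only [DD_eq hk]
  exact h

theorem ccR_scale {r k : ℝ} (h0 : 0 < r) (hk : 0 ≤ k) :
    ∫ p in (-k)..k, (k ^ 2 - p ^ 2) ^ r = ccR r * k ^ (2 * r + 1) := by
  rcases eq_or_lt_of_le hk with h | h
  · rw [← h, Real.zero_rpow (by linarith)]
    simp
  · have e := intervalIntegral.integral_comp_mul_left
      (fun p : ℝ => (k ^ 2 - p ^ 2) ^ r) (a := -1) (b := 1) h.ne'
    have e2 : ∫ x in (-1 : ℝ)..1, (k ^ 2 - (k * x) ^ 2) ^ r = (k ^ 2) ^ r * ccR r := by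
      rw [ccR, ← intervalIntegral.integral_const_mul]
      apply intervalIntegral.integral_congr
      intro x hx
      rw [uIcc_of_le (by norm_num)] at hx
      show (k ^ 2 - (k * x) ^ 2) ^ r = (k ^ 2) ^ r * (1 - x ^ 2) ^ r
      rw [← Real.mul_rpow (sq_nonneg k) (by nlinarith [hx.1, hx.2])]
      congr 1
      ring
    rw [e2, smul_eq_mul, mul_neg, mul_one] at e
    have e3 : k ^ (2 * r + 1) = k * (k ^ 2) ^ r := by
      rw [Real.rpow_add h, Real.rpow_one, Real.rpow_mul h.le]
      norm_num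
      ring
    have h' := h.ne'
    field_simp at e
    rw [e3, ← e]
    ring

theorem DD_integral' {r k : ℝ} (h0 : 0 < r) (h1 : r < 1) (hk : 0 ≤ k) :
    ∫ t in Ioi (0 : ℝ), t ^ (r - 1) *
      (∫ p in (-k)..k, Real.log (1 + (k ^ 2 - p ^ 2) / t)) =
    (∫ t in Ioi (0 : ℝ), t ^ (r - 1) * Real.log (1 + 1 / t)) * (ccR r * k ^ (2 * r + 1)) := by
  simp only [DD_eq hk]
  rw [integral_integral_swap
    (f := fun (t p : ℝ) => t ^ (r - 1) * Real.log (1 + (k ^ 2 - p ^ 2) / t))]
  · rw [← ccR_scale h0 hk, intervalIntegral.integral_of_le (by linarith), ← integral_const_mul]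
    refine setIntegral_congr_fun measurableSet_Ioc fun p hp => ?_
    have : 0 ≤ k ^ 2 - p ^ 2 := by nlinarith [hp.1, hp.2]
    exact logt_integral h0 this
  · exact (DD_joint (k := k) h0 h1).swap

theorem cfc_add_any {A : Matrix (Fin N) (Fin N) ℂ} (p q : ℝ → ℝ) :
    cfc p A + cfc q A = cfc (fun x => p x + q x) A := by
  rw [cfc_add (R := ℝ) A p q (A.finite_real_spectrum.continuousOn _)
    (A.finite_real_spectrum.continuousOn _)]

theorem trf_comp {A : Matrix (Fin N) (Fin N) ℂ} (hA : A.IsHermitian) (g f : ℝ → ℝ) :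
    trf g (cfc f A) = ∑ i, g (f (hA.eigenvalues i)) := by
  have hsa : IsSelfAdjoint A := hA
  have h : cfc (g ∘ f) A = cfc g (cfc f A) :=
    cfc_comp g f A hsa ((A.finite_real_spectrum.image f).continuousOn _)
      (A.finite_real_spectrum.continuousOn _)
  rw [trf, ← h, trace_cfc hA]
  simp

theorem DD_eval {k t : ℝ} (hk : 0 < k) (ht : 0 < t) :
    ∫ p in (-k)..k, Real.log (1 + (k ^ 2 - p ^ 2) / t) =
      2 * (eta (Real.sqrt (k ^ 2 + t) + k) - eta (Real.sqrt (k ^ 2 + t) - k) -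
        Real.log t * k) := by
  set s := Real.sqrt (k ^ 2 + t) with hs
  have hs2 : s ^ 2 = k ^ 2 + t := Real.sq_sqrt (by positivity)
  have hsk : k < s := by
    rw [hs]
    apply Real.lt_sqrt_of_sq_lt
    linarith
  have e1 : ∫ p in (-k)..k, Real.log (1 + (k ^ 2 - p ^ 2) / t) =
      ∫ p in (-k)..k, (Real.log (p + s) + Real.log (s - p) - Real.log t) := by
    apply intervalIntegral.integral_congr
    intro p hp
    rw [uIcc_of_le (by linarith)] at hp
    show Real.log (1 + (k ^ 2 - p ^ 2) / t) = Real.log (p + s) + Real.log (s - p) - Real.log t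
    have h1 : 0 < p + s := by linarith [hp.1]
    have h2 : 0 < s - p := by linarith [hp.2]
    rw [← Real.log_mul h1.ne' h2.ne', ← Real.log_div (by positivity) ht.ne']
    congr 1
    field_simp
    nlinarith
  have c1 : IntervalIntegrable (fun p => Real.log (p + s)) volume (-k) k := by
    apply ContinuousOn.intervalIntegrable
    rw [uIcc_of_le (by linarith)]
    apply ContinuousOn.log (by fun_prop)
    intro p hp
    have : 0 < p + s := by linarith [hp.1]
    exact this.ne'
  have c2 : IntervalIntegrable (fun p => Real.log (s - p)) volume (-k) k := by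
    apply ContinuousOn.intervalIntegrable
    rw [uIcc_of_le (by linarith)]
    apply ContinuousOn.log (by fun_prop)
    intro p hp
    have : 0 < s - p := by linarith [hp.2]
    exact this.ne'
  rw [e1, intervalIntegral.integral_sub (c1.add c2) (by simp),
    intervalIntegral.integral_add c1 c2, intervalIntegral.integral_const,
    intervalIntegral.integral_comp_add_right (fun x => Real.log x),
    intervalIntegral.integral_comp_sub_left (fun x => Real.log x)]
  have a1 : -k + s = s - k := by ring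
  have a2 : k + s = s + k := by ring
  have a3 : s - -k = s + k := by ring
  rw [a1, a2, a3, integral_log]
  simp only [smul_eq_mul, eta]
  ring

/-- value of `s_t` at the ends -/
theorem sfun_ends' {K : Matrix (Fin N) (Fin N) ℂ} (hK : K.PosDef) {t : ℝ} (ht : 0 < t) :
    sfun K K t - sfun K (-K) t =
      trf (fun k => ∫ p in (-k)..k, Real.log (1 + (k ^ 2 - p ^ 2) / t)) K := by
  have hH : K.IsHermitian := hK.1
  have hsa : IsSelfAdjoint K := hH
  have hid : cfc (fun x : ℝ => x) K = K := cfc_id' ℝ K hsa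
  have e1 : Kt K t + K = cfc (fun x : ℝ => Real.sqrt (x ^ 2 + t) + x) K := by
    conv_lhs => rw [← hid]
    rw [Kt, hid, ← cfc_add_any, hid]
  have e2 : Kt K t - K = cfc (fun x : ℝ => Real.sqrt (x ^ 2 + t) - x) K := by
    rw [Kt, cfc_sub (R := ℝ) _ _ K (K.finite_real_spectrum.continuousOn _)
      (K.finite_real_spectrum.continuousOn _), hid]
  have e3 : (K.trace).re = ∑ i, hH.eigenvalues i := by
    have := trace_cfc hH (fun x => x)
    rw [hid] at this
    rw [this, Complex.ofReal_re]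
  have e4 : trf (fun k => ∫ p in (-k)..k, Real.log (1 + (k ^ 2 - p ^ 2) / t)) K =
      ∑ i, ∫ p in (-(hH.eigenvalues i))..(hH.eigenvalues i),
        Real.log (1 + ((hH.eigenvalues i) ^ 2 - p ^ 2) / t) := by
    rw [trf, trace_cfc hH, Complex.ofReal_re]
  rw [e4]
  rw [Finset.sum_congr rfl fun i _ => DD_eval (hK.eigenvalues_pos i) ht]
  rw [sfun, sfun, sub_neg_eq_add, ← sub_eq_add_neg, e1, e2, trf_comp hH, trf_comp hH,
    Matrix.trace_neg, Complex.neg_re, e3]
  rw [← Finset.mul_sum, Finset.sum_sub_distrib, Finset.sum_sub_distrib, ← Finset.mul_sum]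
  ring

end LTG
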