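import Vale.Agent.P371G.ScalarA
import Vale.Agent.P371G.ScalarB

/-!
# [L6] scalar integrals in `t`

`I_r = ∫_0^∞ t^(r-1) log(1+1/t) dt ∈ (0, ∞)` for `0 < r < 1`;
`∫_0^∞ t^(r-1) log(1+σ/t) dt = I_r σ^r` (scaling);
`∫_0^∞ t^(r-1) phi_t(v) dt = I_r v^(1+r)/(1+r)` (`phi_t(v) = ∫_0^v log(1+s/t) ds`, Tonelli);
`D(k,t) = ∫_{-k}^{k} log(1+(k²-p²)/t) dp`, `∫_0^∞ t^(r-1) D(k,t) dt = I_r c_r k^(2r+1)`.
-/

namespace LTG

open Matrix MeasureTheory Set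
open scoped ComplexOrder

variable {N : ℕ}

/-- `D(k,t)` -/
noncomputable def DD (k t : ℝ) : ℝ := ∫ p in (-k)..k, Real.log (1 + (k ^ 2 - p ^ 2) / t)

theorem DD_nonneg {k t : ℝ} (hk : 0 ≤ k) (ht : 0 < t) : 0 ≤ DD k t :=
  DD_nonneg' hk ht

theorem DD_integrable {r k : ℝ} (h0 : 0 < r) (h1 : r < 1) (hk : 0 ≤ k) :
    IntegrableOn (fun t => t ^ (r - 1) * DD k t) (Ioi 0) :=
  DD_integrable' h0 h1 hk

theorem DD_integral {r k : ℝ} (h0 : 0 < r) (h1 : r < 1) (hk : 0 ≤ k) :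
    ∫ t in Ioi (0 : ℝ), t ^ (r - 1) * DD k t = IR r * (ccR r * k ^ (2 * r + 1)) :=
  DD_integral' h0 h1 hk

/-- value of `s_t` at the ends: `s_t(K) - s_t(-K) = ∑ D(k_i, t)` -/
theorem sfun_ends {K : Matrix (Fin N) (Fin N) ℂ} (hK : K.PosDef) {t : ℝ} (ht : 0 < t) :
    sfun K K t - sfun K (-K) t = trf (fun k => DD k t) K :=
  sfun_ends' hK ht

end LTG
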