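import Vale.Agent.P371G.TDerivB

/-!
# [L2] derivative in `t` of `u(t) = tr X - tr X_t ell_t`: `t u' ≥ psi`
-/

namespace LTG

set_option linter.unusedSectionVars false

open Matrix MeasureTheory Set Filter Topology
open scoped ComplexOrder Matrix.Norms.L2Operator

variable {N : ℕ}

/-- derivative of `K_t` -/
noncomputable def td_H (K : Matrix (Fin N) (Fin N) ℂ) (t : ℝ) : Matrix (Fin N) (Fin N) ℂ :=
  cfc (fun x : ℝ => 1 / (2 * Real.sqrt (x ^ 2 + t))) K

theorem td_cfc_sum {A : Matrix (Fin N) (Fin N) ℂ} (hA : A.IsHermitian) (g : ℝ → ℝ) :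
    cfc g A = ∑ i, (g (hA.eigenvalues i)) •
      ((hA.eigenvectorUnitary : Matrix (Fin N) (Fin N) ℂ) * Matrix.single i i 1 *
        star (hA.eigenvectorUnitary : Matrix (Fin N) (Fin N) ℂ)) := by
  rw [cfc_form hA]
  have h1 : diagonal (fun i => ((g (hA.eigenvalues i) : ℝ) : ℂ)) =
      ∑ i, (g (hA.eigenvalues i)) • Matrix.single i i (1 : ℂ) := by
    ext a b
    rw [Matrix.sum_apply]
    by_cases hab : a = b
    · subst hab
      rw [diagonal_apply_eq, Finset.sum_eq_single a]
      · simp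
      · intro c _ hc
        simp [hc]
      · simp
    · rw [diagonal_apply_ne _ hab]
      symm
      refine Finset.sum_eq_zero fun c _ => ?_
      rw [Matrix.smul_apply, Matrix.single_apply, if_neg, smul_zero]
      rintro ⟨h1, h2⟩
      exact hab (h1.symm.trans h2)
  rw [h1, Finset.mul_sum, Finset.sum_mul]
  refine Finset.sum_congr rfl fun i _ => ?_
  rw [Matrix.mul_smul, Matrix.smul_mul]

theorem td_Kt_deriv {K : Matrix (Fin N) (Fin N) ℂ} (hK : K.IsHermitian) {t : ℝ} (ht : 0 < t) :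
    HasDerivAt (fun τ => Kt K τ) (td_H K t) t := by
  have h1 : (fun τ => Kt K τ) = fun τ => ∑ i, (Real.sqrt (hK.eigenvalues i ^ 2 + τ)) •
      ((hK.eigenvectorUnitary : Matrix (Fin N) (Fin N) ℂ) * Matrix.single i i 1 *
        star (hK.eigenvectorUnitary : Matrix (Fin N) (Fin N) ℂ)) := by
    funext τ
    unfold Kt
    rw [td_cfc_sum hK]
  rw [h1]
  unfold td_H
  rw [td_cfc_sum hK]
  refine HasDerivAt.fun_sum fun i _ => ?_
  refine HasDerivAt.smul_const ?_ _
  have h2 : HasDerivAt (fun τ : ℝ => hK.eigenvalues i ^ 2 + τ) 1 t :=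
    (hasDerivAt_id t).const_add _
  exact h2.sqrt (by positivity)

theorem td_H_posDef {K : Matrix (Fin N) (Fin N) ℂ} (hK : K.IsHermitian) {t : ℝ} (ht : 0 < t) :
    (td_H K t).PosDef := st_posDef hK fun i => by positivity

theorem td_H_mul {K : Matrix (Fin N) (Fin N) ℂ} (hK : K.IsHermitian) {t : ℝ} (ht : 0 < t) :
    td_H K t * (Kt K t + Kt K t) = 1 ∧ (Kt K t + Kt K t) * td_H K t = 1 := by
  unfold td_H Kt
  rw [st_add hK, cfc_mul_cfc hK, cfc_mul_cfc hK]
  have h1 : (1 : Matrix (Fin N) (Fin N) ℂ) = cfc (fun _ : ℝ => (1 : ℝ)) K := by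
    rw [st_const hK]
    simp
  rw [h1]
  constructor <;>
  · refine cfc_congr_eig hK fun i => ?_
    have h2 : 0 < Real.sqrt (hK.eigenvalues i ^ 2 + t) := Real.sqrt_pos.2 (by positivity)
    field_simp
    ring

/-- one half of (PW) -/
theorem td_half {A B H : Matrix (Fin N) (Fin N) ℂ} (hA : A.PosDef) (hB : B.PosDef)
    (hH : H.IsHermitian) (h1 : H * (A + B) = 1) (h2 : (A + B) * H = 1)
    (hint : IntegrableOn (fun s => td_T ((1 / 2 : ℂ) • (A * B + B * A))
      (td_R A s * H * td_R A s)) (Ioi 0)) :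
    ∫ s in Ioi (0 : ℝ), td_T ((1 / 2 : ℂ) • (A * B + B * A)) (td_R A s * H * td_R A s) ≤
      N - ((H * A).trace).re := by
  have hG : (A + B).PosSemidef := (hA.add_posSemidef hB.posSemidef).posSemidef
  have hi1 : ∀ i ∈ (Finset.univ : Finset (Fin N)),
      Integrable (fun s : ℝ => hA.1.eigenvalues i * (1 / (hA.1.eigenvalues i + s) ^ 2))
        (volume.restrict (Ioi 0)) :=
    fun i _ => (td_int_sq (hA.eigenvalues_pos i)).1.const_mul _
  have hi2 : ∀ i ∈ (Finset.univ : Finset (Fin N)),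
      Integrable (fun s : ℝ => (hA.1.eigenvalues i ^ 2 * td_y hA.1 H i) *
        (1 / (hA.1.eigenvalues i + s) ^ 2))
        (volume.restrict (Ioi 0)) :=
    fun i _ => (td_int_sq (hA.eigenvalues_pos i)).1.const_mul _
  have f1 : (fun s : ℝ => ((cfc (fun a : ℝ => a / (a + s) ^ 2) A).trace).re) =
      fun s => ∑ i, hA.1.eigenvalues i * (1 / (hA.1.eigenvalues i + s) ^ 2) := by
    funext s
    rw [trace_cfc hA.1, Complex.ofReal_re]
    refine Finset.sum_congr rfl fun i _ => ?_
    ring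
  have f2 : (fun s : ℝ => ((H * cfc (fun a : ℝ => a ^ 2 / (a + s) ^ 2) A).trace).re) =
      fun s => ∑ i, (hA.1.eigenvalues i ^ 2 * td_y hA.1 H i) *
        (1 / (hA.1.eigenvalues i + s) ^ 2) := by
    funext s
    rw [td_trace_mul_cfc hA.1]
    refine Finset.sum_congr rfl fun i _ => ?_
    ring
  have g1 : Integrable (fun s : ℝ => ((cfc (fun a : ℝ => a / (a + s) ^ 2) A).trace).re)
      (volume.restrict (Ioi 0)) := by
    rw [f1]
    exact integrable_finsetSum _ hi1
  have g2 : Integrable (fun s : ℝ => ((H * cfc (fun a : ℝ => a ^ 2 / (a + s) ^ 2) A).trace).re)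
      (volume.restrict (Ioi 0)) := by
    rw [f2]
    exact integrable_finsetSum _ hi2
  have v1 : ∫ s in Ioi (0 : ℝ), ((cfc (fun a : ℝ => a / (a + s) ^ 2) A).trace).re = N := by
    rw [f1, integral_finsetSum _ hi1]
    have : ∀ i ∈ (Finset.univ : Finset (Fin N)), ∫ s in Ioi (0 : ℝ),
        hA.1.eigenvalues i * (1 / (hA.1.eigenvalues i + s) ^ 2) = 1 := by
      intro i _
      have hp := hA.eigenvalues_pos i
      rw [integral_const_mul, (td_int_sq hp).2]
      field_simp
    rw [Finset.sum_congr rfl this]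
    simp
  have v2 : ∫ s in Ioi (0 : ℝ), ((H * cfc (fun a : ℝ => a ^ 2 / (a + s) ^ 2) A).trace).re =
      ((H * A).trace).re := by
    rw [f2, integral_finsetSum _ hi2]
    have h3 : ((H * A).trace).re = ((H * cfc (fun x : ℝ => x) A).trace).re := by
      rw [st_id hA.1]
    rw [h3, td_trace_mul_cfc hA.1]
    refine Finset.sum_congr rfl fun i _ => ?_
    have hp := hA.eigenvalues_pos i
    rw [integral_const_mul, (td_int_sq hp).2]
    field_simp
  rw [← v1, ← v2, ← integral_sub g1 g2]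
  refine setIntegral_mono_on hint (g1.sub g2) measurableSet_Ioi fun s hs => ?_
  exact td_pt hA hH hG h1 h2 rfl (le_of_lt hs)

theorem uu_deriv' {K P : Matrix (Fin N) (Fin N) ℂ} (h : Adm K P) {t : ℝ} (ht : 0 < t) :
    ∃ d, HasDerivAt (fun s => uu K P s) d t ∧ psi K P t ≤ t * d := by
  have hK := h.pos.1
  -- uniform positivity
  have hlow : ∀ Q : Matrix (Fin N) (Fin N) ℂ, (Kt K (t / 2) + Q).PosDef → Q.IsHermitian →
      ∃ a0 : ℝ, 0 < a0 ∧ ∀ᶠ τ in 𝓝 t, (Kt K τ + Q).PosDef ∧
        (Kt K τ + Q - (a0 : ℂ) • (1 : Matrix (Fin N) (Fin N) ℂ)).PosSemidef := by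
    intro Q hQ hQh
    have hex : ∃ a0 : ℝ, 0 < a0 ∧ ∀ i, a0 ≤ hQ.1.eigenvalues i := by
      rcases isEmpty_or_nonempty (Fin N) with he | he
      · exact ⟨1, one_pos, fun i => he.elim i⟩
      · obtain ⟨i0, hi0⟩ := Finite.exists_min hQ.1.eigenvalues
        exact ⟨_, hQ.eigenvalues_pos i0, hi0⟩
    obtain ⟨a0, ha0, hmin⟩ := hex
    refine ⟨a0, ha0, ?_⟩
    filter_upwards [lt_mem_nhds (show t / 2 < t by linarith)] with τ hτ
    have hτ' : t / 2 < τ := hτ
    have hdiff : (Kt K τ - Kt K (t / 2)).PosSemidef := by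
      unfold Kt
      rw [st_sub hK]
      refine st_posSemidef hK fun i => ?_
      have := Real.sqrt_le_sqrt (show hK.eigenvalues i ^ 2 + t / 2 ≤ hK.eigenvalues i ^ 2 + τ
        by linarith)
      linarith
    constructor
    · have e : Kt K τ + Q = (Kt K (t / 2) + Q) + (Kt K τ - Kt K (t / 2)) := by abel
      rw [e]
      exact hQ.add_posSemidef hdiff
    · have e : Kt K τ + Q - (a0 : ℂ) • (1 : Matrix (Fin N) (Fin N) ℂ) =
          (Kt K τ - Kt K (t / 2)) +
            (Kt K (t / 2) + Q - (a0 : ℂ) • (1 : Matrix (Fin N) (Fin N) ℂ)) := by abel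
      rw [e]
      refine hdiff.add ?_
      have e2 : Kt K (t / 2) + Q - (a0 : ℂ) • (1 : Matrix (Fin N) (Fin N) ℂ) =
          cfc (fun x : ℝ => x - a0) (Kt K (t / 2) + Q) := by
        rw [← st_sub hQ.1 (fun x => x) (fun _ => a0), st_id hQ.1, st_const hQ.1]
      rw [e2]
      exact st_posSemidef hQ.1 fun i => by have := hmin i; linarith
  have hA2 := st_A_posDef h (show 0 < t / 2 by linarith)
  have hB2 := st_B_posDef h (show 0 < t / 2 by linarith)
  obtain ⟨a1, ha1, hev1⟩ := hlow P hA2 h.herm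
  obtain ⟨a2, ha2, hev2⟩ := hlow (-P) (by rw [← sub_eq_add_neg]; exact hB2) h.herm.neg
  have hA := st_A_posDef h ht
  have hB := st_B_posDef h ht
  have hKd := td_Kt_deriv hK ht
  have hHd : HasDerivAt (fun τ => Kt K τ + P) (td_H K t) t := hKd.add_const P
  have hHd2 : HasDerivAt (fun τ => Kt K τ + -P) (td_H K t) t := hKd.add_const (-P)
  have hH := td_H_posDef hK ht
  set H := td_H K t with hHdef
  set A := Kt K t + P with hAdef
  set B := Kt K t - P with hBdef
  set X := XX K P with hXdef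
  obtain ⟨iA, dA⟩ := td_log_deriv ha1 hev1 hHd X
  obtain ⟨iA1, dA1⟩ := td_log_deriv ha1 hev1 hHd 1
  obtain ⟨iB, dB⟩ := td_log_deriv ha2 hev2 hHd2 X
  obtain ⟨iB1, dB1⟩ := td_log_deriv ha2 hev2 hHd2 1
  simp only [← sub_eq_add_neg] at iB dB iB1 dB1
  -- the symmetric product
  have hABK : A + B = Kt K t + Kt K t := by rw [hAdef, hBdef]; abel
  have hAB1 : H * (A + B) = 1 := by rw [hABK]; exact (td_H_mul hK ht).1
  have hAB2 : (A + B) * H = 1 := by rw [hABK]; exact (td_H_mul hK ht).2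
  have hXt : (1 / 2 : ℂ) • (A * B + B * A) = X + (t : ℂ) • (1 : Matrix (Fin N) (Fin N) ℂ) := by
    have e1 : A * B + B * A = (2 : ℂ) • (Kt K t * Kt K t - P * P) := by
      rw [two_smul, hAdef, hBdef]
      noncomm_ring
    rw [e1, smul_smul, st_Kt_sq hK ht.le, hXdef]
    unfold XX
    norm_num
    abel
  have hXt' : (1 / 2 : ℂ) • (B * A + A * B) = X + (t : ℂ) • (1 : Matrix (Fin N) (Fin N) ℂ) := by
    rw [add_comm (B * A), hXt]
  have hTadd : ∀ M : Matrix (Fin N) (Fin N) ℂ,
      td_T (X + (t : ℂ) • (1 : Matrix (Fin N) (Fin N) ℂ)) M = td_T X M + t * td_T 1 M := by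
    intro M
    rw [td_T_apply, td_T_apply, td_T_apply, Matrix.add_mul, Matrix.trace_add, Complex.add_re,
      Matrix.smul_mul, Matrix.trace_smul, smul_eq_mul, Complex.re_ofReal_mul]
  -- (PW)
  have pA : (∫ s in Ioi (0 : ℝ), td_T X (td_R A s * H * td_R A s)) +
      t * (∫ s in Ioi (0 : ℝ), td_T 1 (td_R A s * H * td_R A s)) ≤ N - ((H * A).trace).re := by
    rw [← integral_const_mul, ← integral_add iA (iA1.const_mul t)]
    have h3 : (fun s => td_T X (td_R A s * H * td_R A s) +
        t * td_T 1 (td_R A s * H * td_R A s)) =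
        fun s => td_T ((1 / 2 : ℂ) • (A * B + B * A)) (td_R A s * H * td_R A s) := by
      funext s
      rw [hXt, hTadd]
    rw [h3]
    refine td_half hA hB hH.1 hAB1 hAB2 ?_
    rw [← h3]
    exact iA.add (iA1.const_mul t)
  have pB : (∫ s in Ioi (0 : ℝ), td_T X (td_R B s * H * td_R B s)) +
      t * (∫ s in Ioi (0 : ℝ), td_T 1 (td_R B s * H * td_R B s)) ≤ N - ((H * B).trace).re := by
    rw [← integral_const_mul, ← integral_add iB (iB1.const_mul t)]
    have h3 : (fun s => td_T X (td_R B s * H * td_R B s) +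
        t * td_T 1 (td_R B s * H * td_R B s)) =
        fun s => td_T ((1 / 2 : ℂ) • (B * A + A * B)) (td_R B s * H * td_R B s) := by
      funext s
      rw [hXt', hTadd]
    rw [h3]
    refine td_half hB hA hH.1 (by rw [add_comm]; exact hAB1) (by rw [add_comm]; exact hAB2) ?_
    rw [← h3]
    exact iB.add (iB1.const_mul t)
  have pN : ((H * A).trace).re + ((H * B).trace).re = N := by
    rw [← Complex.add_re, ← Matrix.trace_add, ← Matrix.mul_add, hAB1, Matrix.trace_one,
      Fintype.card_fin, Complex.natCast_re]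
  -- formula for `uu`
  have huu : (fun s => uu K P s) = fun s => (X.trace).re -
      ((((X * cfc Real.log (Kt K s + P)).trace).re + ((X * cfc Real.log (Kt K s - P)).trace).re)
        + s * ((((1 : Matrix (Fin N) (Fin N) ℂ) * cfc Real.log (Kt K s + P)).trace).re +
          (((1 : Matrix (Fin N) (Fin N) ℂ) * cfc Real.log (Kt K s - P)).trace).re) -
        Real.log s * ((X.trace).re + s * N)) := by
    funext s
    unfold uu ell
    rw [← hXdef, Matrix.mul_sub, Matrix.mul_add, Matrix.add_mul, Matrix.add_mul, Matrix.add_mul]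
    simp only [Matrix.smul_mul, Matrix.mul_smul, Matrix.mul_one, Matrix.one_mul,
      Matrix.trace_add, Matrix.trace_sub, Matrix.trace_smul, Matrix.trace_one, smul_eq_mul,
      Complex.add_re, Complex.sub_re, Complex.re_ofReal_mul, Fintype.card_fin,
      Complex.natCast_re]
    ring
  set JA := ∫ s in Ioi (0 : ℝ), td_T X (td_R A s * H * td_R A s) with hJA
  set JB := ∫ s in Ioi (0 : ℝ), td_T X (td_R B s * H * td_R B s) with hJB
  set JA1 := ∫ s in Ioi (0 : ℝ), td_T 1 (td_R A s * H * td_R A s) with hJA1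
  set JB1 := ∫ s in Ioi (0 : ℝ), td_T 1 (td_R B s * H * td_R B s) with hJB1
  have hder := ((hasDerivAt_const t (X.trace).re).sub (((dA.add dB).add
    ((hasDerivAt_id t).mul (dA1.add dB1))).sub
      ((Real.hasDerivAt_log ht.ne').mul
        ((hasDerivAt_const t (X.trace).re).add ((hasDerivAt_id t).mul_const (N : ℝ))))))
  rw [huu]
  refine ⟨_, hder, ?_⟩
  have hell : ((ell K P t).trace).re =
      (((1 : Matrix (Fin N) (Fin N) ℂ) * cfc Real.log A).trace).re +
        (((1 : Matrix (Fin N) (Fin N) ℂ) * cfc Real.log B).trace).re - Real.log t * N := by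
    unfold ell
    rw [← hAdef, ← hBdef, Matrix.trace_sub, Matrix.trace_add, Matrix.trace_smul,
      Matrix.trace_one, smul_eq_mul, Complex.sub_re, Complex.add_re, Complex.re_ofReal_mul,
      Fintype.card_fin, Complex.natCast_re, Matrix.one_mul, Matrix.one_mul]
  unfold psi
  rw [hell, ← hXdef]
  simp only [id_eq, zero_add, Pi.add_apply]
  have ht' : t ≠ 0 := ht.ne'
  have hkey : JA + t * JA1 + (JB + t * JB1) ≤ N := by linarith
  have hcalc := mul_le_mul_of_nonneg_left hkey ht.le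
  have hinv : t * t⁻¹ = 1 := mul_inv_cancel₀ ht'
  set lA := (((1 : Matrix (Fin N) (Fin N) ℂ) * cfc Real.log A).trace).re with hlA
  set lB := (((1 : Matrix (Fin N) (Fin N) ℂ) * cfc Real.log B).trace).re with hlB
  set xx := (X.trace).re with hxx
  have e9 : t * (0 - (JA + JB + (1 * (lA + lB) + t * (JA1 + JB1)) -
      (t⁻¹ * (xx + t * N) + Real.log t * (1 * N)))) =
      (t * t⁻¹) * (xx + t * N) - t * (JA + t * JA1 + (JB + t * JB1)) - t * (lA + lB) +
        t * Real.log t * N := by ring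
  rw [e9, hinv]
  nlinarith [hcalc]

end LTG
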