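import Vale.Agent.P371G.Base

/-!
# [L2b] integrated form of `t u' ≥ psi`

`uu_int_of` : from the pointwise inequality and the continuity of `t ↦ ell_t`.
-/

namespace LTG

open Matrix MeasureTheory Set
open scoped ComplexOrder

variable {N : ℕ}

theorem psi_cont_of {K P : Matrix (Fin N) (Fin N) ℂ}
    (hc : ContinuousOn (fun t : ℝ => ell K P t) (Ioi 0)) :
    ContinuousOn (fun t : ℝ => psi K P t) (Ioi 0) := by
  have h2 : ContinuousOn (fun t : ℝ => (ell K P t).trace.re) (Ioi 0) := by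
    have h3 : Continuous (fun A : Matrix (Fin N) (Fin N) ℂ => A.trace.re) := by fun_prop
    exact h3.comp_continuousOn hc
  unfold psi
  fun_prop

/-- integrated form -/
theorem uu_int_of {K P : Matrix (Fin N) (Fin N) ℂ}
    (hu : ∀ t : ℝ, 0 < t → ∃ d, HasDerivAt (fun s => uu K P s) d t ∧ psi K P t ≤ t * d)
    (hc : ContinuousOn (fun t : ℝ => ell K P t) (Ioi 0)) {r : ℝ}
    {δ T : ℝ} (hδ : 0 < δ) (hT : δ ≤ T) :
    ∫ t in δ..T, t ^ (r - 1) * (psi K P t + r * uu K P t) ≤
      T ^ r * uu K P T - δ ^ r * uu K P δ := by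
  have hpos : ∀ t ∈ Icc δ T, 0 < t := fun t ht => lt_of_lt_of_le hδ ht.1
  have hsub : Icc δ T ⊆ Ioi 0 := fun t ht => hpos t ht
  choose! d hd hd2 using hu
  have hu : ContinuousOn (fun t : ℝ => uu K P t) (Icc δ T) :=
    fun t ht => (hd t (hpos t ht)).continuousAt.continuousWithinAt
  have hp : ContinuousOn (fun t : ℝ => psi K P t) (Icc δ T) := (psi_cont_of hc).mono hsub
  have hr1 : ContinuousOn (fun t : ℝ => t ^ (r - 1)) (Icc δ T) :=
    fun t ht => (Real.continuousAt_rpow_const t (r - 1) (Or.inl (hpos t ht).ne')).continuousWithinAt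
  have hr2 : ContinuousOn (fun t : ℝ => t ^ r) (Icc δ T) :=
    fun t ht => (Real.continuousAt_rpow_const t r (Or.inl (hpos t ht).ne')).continuousWithinAt
  refine intervalIntegral.integral_le_sub_of_hasDeriv_right_of_le
    (g := fun t => t ^ r * uu K P t)
    (g' := fun t => (r * t ^ (r - 1)) * uu K P t + t ^ r * d t) hT (hr2.mul hu) ?_ ?_ ?_
  · intro t ht
    have ht0 : 0 < t := lt_trans hδ ht.1
    have e1 : HasDerivAt (fun t : ℝ => t ^ r) (r * t ^ (r - 1)) t :=
      Real.hasDerivAt_rpow_const (Or.inl ht0.ne')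
    exact (e1.mul (hd t ht0)).hasDerivWithinAt
  · have : ContinuousOn (fun t : ℝ => t ^ (r - 1) * (psi K P t + r * uu K P t)) (Icc δ T) := by
      exact hr1.mul (hp.add (continuousOn_const.mul hu))
    exact this.integrableOn_Icc
  · intro t ht
    have ht0 : 0 < t := lt_trans hδ ht.1
    have h1 := hd2 t ht0
    have h2 : t ^ r = t ^ (r - 1) * t := by
      rw [← Real.rpow_add_one ht0.ne']
      congr 1
      ring
    have h3 : 0 ≤ t ^ (r - 1) := Real.rpow_nonneg ht0.le _
    have h4 := mul_le_mul_of_nonneg_left h1 h3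
    rw [h2]
    nlinarith [h4]

end LTG
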