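import Vale.Agent.P371G.CfcCont
import Vale.Agent.P371G.UInt
import Vale.Agent.P371G.UDeriv

/-!
# [L2] derivative in `t`: `t u' ≥ psi`

`u(t) = tr X - tr X_t ell_t`, `X_t = X + t = (A B + B A)/2`, `A = K_t + P`, `B = K_t - P`.
`u' = - tr ell_t - tr X_t ell_t'`, `ell_t' = R_t - 1/t`, `R_t = d/dt (log A + log B)`, so
`t u' = - t tr ell_t - t tr X_t R_t + tr X_t = psi + t (N - tr X_t R_t)`, hence (PW):
`tr X_t R_t ≤ N` is what is needed.
(PW): with `log A = ∫_0^∞ (1/(1+s) - (A+s)⁻¹) ds` and `dK_t/dt = K_t⁻¹/2`,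
`tr X_t Dlog(A)[K_t⁻¹/2] = (1/2) ∫ tr (X_t R K_t⁻¹ R) ds`, `R = (A+s)⁻¹`, `X_t = A K_t + K_t A - A²`
(because `B = 2 K_t - A`), `∫ R A² R ds = A`, and
`R (A K + K A) R = K R + R K - 2 s R K R` with `Re tr (K⁻¹ R K R) ≥ tr R²`, so that
`∫ tr K⁻¹ R (A K + K A) R ds ≤ ∫ 2 tr (R - s R²) ds = 2 N`.
Altogether `tr X_t R_t ≤ (1/2) (2N - tr K⁻¹ A + 2N - tr K⁻¹ B) = N`.
(Any other proof of the two theorems below is fine, e.g. by difference quotients: only the
right derivative / an upper bound of difference quotients is needed for the integrated form.)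
-/

namespace LTG

open Matrix MeasureTheory Set
open scoped ComplexOrder

variable {N : ℕ}

theorem uu_deriv {K P : Matrix (Fin N) (Fin N) ℂ} (h : Adm K P) {t : ℝ} (ht : 0 < t) :
    ∃ d, HasDerivAt (fun s => uu K P s) d t ∧ psi K P t ≤ t * d := uu_deriv' h ht

/-- integrated form -/
theorem uu_int {K P : Matrix (Fin N) (Fin N) ℂ} (h : Adm K P) {r : ℝ} (hr : 0 < r)
    {δ T : ℝ} (hδ : 0 < δ) (hT : δ ≤ T) :
    ∫ t in δ..T, t ^ (r - 1) * (psi K P t + r * uu K P t) ≤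
      T ^ r * uu K P T - δ ^ r * uu K P δ := by
  have h1 := ell_cont (a := 0) (b := 1) (K := K) (P := fun _ => P) (fun x _ => h)
    continuousOn_const
  have h2 : ContinuousOn (fun t : ℝ => ((0 : ℝ), t)) (Ioi 0) := by fun_prop
  have h3 := h1.comp h2 (fun t ht => ⟨⟨le_refl _, zero_le_one⟩, ht⟩)
  have hc : ContinuousOn (fun t : ℝ => ell K P t) (Ioi 0) := h3
  exact uu_int_of (fun t ht => uu_deriv h ht) hc hδ hT

end LTG
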