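import Vale.Agent.P371G.UBoundA

/-!
# [L3b] lower bound of `u` for `t → 0`
-/

namespace LTG

open Matrix MeasureTheory Set
open scoped ComplexOrder

variable {N : ℕ}

theorem eig_le_trace {A : Matrix (Fin N) (Fin N) ℂ} (hA : A.PosDef) (j : Fin N) :
    hA.isHermitian.eigenvalues j ≤ A.trace.re := by
  have h1 : A.trace = ((∑ i, hA.isHermitian.eigenvalues i : ℝ) : ℂ) := by
    have := trace_cfc hA.isHermitian (fun x => x)
    rwa [cfc_id_mat hA.isHermitian] at this
  rw [h1, Complex.ofReal_re]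
  exact Finset.single_le_sum (f := fun i => hA.isHermitian.eigenvalues i)
    (fun i _ => (hA.eigenvalues_pos i).le) (Finset.mem_univ j)

theorem trace_re_nonneg {A : Matrix (Fin N) (Fin N) ℂ} (hA : A.PosSemidef) : 0 ≤ A.trace.re := by
  have := hA.trace_nonneg
  exact (Complex.le_def.mp this).1

theorem trace_Kt_le {K : Matrix (Fin N) (Fin N) ℂ} (hK : K.PosDef) {t : ℝ} (ht : 0 < t)
    (ht1 : t ≤ 1) : (Kt K t).trace.re ≤ K.trace.re + N := by
  have h1 : K.trace = ((∑ i, hK.isHermitian.eigenvalues i : ℝ) : ℂ) := by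
    have := trace_cfc hK.isHermitian (fun x => x)
    rwa [cfc_id_mat hK.isHermitian] at this
  rw [Kt, trace_cfc hK.isHermitian, h1, Complex.ofReal_re, Complex.ofReal_re]
  have h2 : (N : ℝ) = ∑ _i : Fin N, (1 : ℝ) := by simp
  rw [h2, ← Finset.sum_add_distrib]
  apply Finset.sum_le_sum
  intro i _
  have hk := hK.eigenvalues_pos i
  rw [Real.sqrt_le_left (by positivity)]
  nlinarith

theorem uu_zero' (K : Matrix (Fin N) (Fin N) ℂ) :
    ∃ C : ℝ, ∀ P : Matrix (Fin N) (Fin N) ℂ, Adm K P → ∀ δ : ℝ, 0 < δ → δ ≤ 1 →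
      - uu K P δ ≤ C * (1 + |Real.log δ|) := by
  set L : ℝ := 1 + 2 * (|K.trace.re| + N) with hL
  have hL1 : 1 ≤ L := by
    have : 0 ≤ 2 * (|K.trace.re| + N) := by positivity
    linarith
  set C1 : ℝ := L ^ 2 * Real.log (L ^ 2) + L ^ 2 + 1 with hC1
  have hlogL : 0 ≤ Real.log (L ^ 2) := Real.log_nonneg (by nlinarith)
  have hC10 : 0 ≤ C1 := by positivity
  refine ⟨N * C1, fun P h δ hδ hδ1 => ?_⟩
  have hCp := Kt_sub_posDef h hδ
  have hBp := Kt_add_posDef h hδ
  have hC := hCp.isHermitian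
  have hB := hBp.isHermitian
  have hKt := trace_Kt_le h.pos hδ hδ1
  have htr1 : P.trace.re ≤ K.trace.re := by
    have := trace_re_nonneg h.le
    rw [Matrix.trace_sub, Complex.sub_re] at this
    linarith
  have htr2 : - P.trace.re ≤ K.trace.re := by
    have := trace_re_nonneg h.ge
    rw [Matrix.trace_add, Complex.add_re] at this
    linarith
  have habs := le_abs_self K.trace.re
  have hb : ∀ j, hB.eigenvalues j ≤ L := by
    intro j
    have h1 := eig_le_trace hBp j
    rw [Matrix.trace_add, Complex.add_re] at h1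
    have : (0 : ℝ) ≤ N := Nat.cast_nonneg N
    linarith
  have hc : ∀ i, hC.eigenvalues i ≤ L := by
    intro i
    have h1 := eig_le_trace hCp i
    rw [Matrix.trace_sub, Complex.sub_re] at h1
    have : (0 : ℝ) ≤ N := Nat.cast_nonneg N
    linarith
  have hsum : ((N : ℝ)) = ∑ i, ∑ j, ovl hC hB i j := by
    have h1 := trace_cfc_mul_cfc hC hB (fun _ => (1 : ℝ)) (fun _ => (1 : ℝ))
    rw [cfc_one_mat hB, cfc_one_mat hC, Matrix.mul_one, Matrix.trace_one] at h1
    have h2 : ((N : ℝ) : ℂ) = ((∑ i, ∑ j, 1 * 1 * ovl hC hB i j : ℝ) : ℂ) := by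
      rw [← h1]; simp
    have h3 := Complex.ofReal_injective h2
    rw [h3]
    simp
  have hterm : ∀ i j, -((hC.eigenvalues i * hB.eigenvalues j - δ) -
      (hC.eigenvalues i * hB.eigenvalues j) *
        (Real.log (hC.eigenvalues i) + Real.log (hB.eigenvalues j) - Real.log δ)) ≤
      C1 * (1 + |Real.log δ|) := by
    intro i j
    have hci := hCp.eigenvalues_pos i
    have hbj := hBp.eigenvalues_pos j
    set c := hC.eigenvalues i
    set b := hB.eigenvalues j
    have hcb0 : 0 < c * b := mul_pos hci hbj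
    have hcb : c * b ≤ L ^ 2 := by
      have := mul_le_mul (hc i) (hb j) hbj.le (by linarith)
      rw [sq]
      exact this
    have hlog : Real.log c + Real.log b ≤ Real.log (L ^ 2) := by
      rw [← Real.log_mul hci.ne' hbj.ne']
      exact Real.log_le_log hcb0 hcb
    have h1 : c * b * (Real.log c + Real.log b) ≤ L ^ 2 * Real.log (L ^ 2) := by
      calc c * b * (Real.log c + Real.log b) ≤ c * b * Real.log (L ^ 2) :=
            mul_le_mul_of_nonneg_left hlog hcb0.le
        _ ≤ L ^ 2 * Real.log (L ^ 2) := mul_le_mul_of_nonneg_right hcb hlogL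
    have h2 : -(c * b * Real.log δ) ≤ L ^ 2 * |Real.log δ| := by
      calc -(c * b * Real.log δ) = c * b * (-Real.log δ) := by ring
        _ ≤ c * b * |Real.log δ| := mul_le_mul_of_nonneg_left (neg_le_abs _) hcb0.le
        _ ≤ L ^ 2 * |Real.log δ| := mul_le_mul_of_nonneg_right hcb (abs_nonneg _)
    have h3 : 0 ≤ |Real.log δ| := abs_nonneg _
    have h4 : 0 ≤ L ^ 2 * Real.log (L ^ 2) := by positivity
    have h5 : (0 : ℝ) ≤ L ^ 2 := sq_nonneg L
    rw [hC1]
    nlinarith [mul_nonneg h4 h3, mul_nonneg h5 h3]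
  rw [uu_formula h hδ, ← Finset.sum_neg_distrib]
  calc ∑ i, -∑ j, _ ≤ ∑ i, ∑ j, C1 * (1 + |Real.log δ|) * ovl hC hB i j := by
        apply Finset.sum_le_sum
        intro i _
        rw [← Finset.sum_neg_distrib]
        apply Finset.sum_le_sum
        intro j _
        rw [← neg_mul]
        exact mul_le_mul_of_nonneg_right (hterm i j) (ovl_nonneg _ _ i j)
    _ = N * C1 * (1 + |Real.log δ|) := by
        simp only [← Finset.mul_sum]
        rw [← hsum]
        ring

end LTG
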