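import Vale.Agent.P371G.TDeriv
import Vale.Agent.P371G.UBoundB

/-!
# [L3] bounds of `u` for `t → 0` and `t → ∞`, uniform in `P` (see UBoundA, UBoundB)

(a) `u(t) ≤ 0` for every `t > 0` (`LTG.uu_nonpos`), from the double-sum formula `uu_formula`.
(b) `t → 0`: eigenvalues of `K_δ ± P` are positive and `≤ 1 + 2 (tr K + N)`.
-/

namespace LTG

open Matrix MeasureTheory Set
open scoped ComplexOrder

variable {N : ℕ}

theorem uu_infty (K : Matrix (Fin N) (Fin N) ℂ) :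
    ∃ C : ℝ, ∀ P : Matrix (Fin N) (Fin N) ℂ, Adm K P → ∀ T : ℝ, C ≤ T → uu K P T ≤ C / T :=
  uu_infty' K

theorem uu_zero (K : Matrix (Fin N) (Fin N) ℂ) :
    ∃ C : ℝ, ∀ P : Matrix (Fin N) (Fin N) ℂ, Adm K P → ∀ δ : ℝ, 0 < δ → δ ≤ 1 →
      - uu K P δ ≤ C * (1 + |Real.log δ|) :=
  uu_zero' K

end LTG
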