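import Vale.Agent.P371G.Static
import Vale.Agent.P371G.TDeriv
import Vale.Agent.P371G.UBound
import Vale.Agent.P371G.SPath
import Vale.Agent.P371G.Scalar
import Vale.Agent.P371G.TrIneq

/-! # [L7] preparation: continuity, the pointwise inequality and its integral in `t` -/

namespace LTG

open Matrix MeasureTheory Set Filter
open scoped ComplexOrder Topology

variable {N : ℕ}

theorem RicPath.cont {a b : ℝ} {K : Matrix (Fin N) (Fin N) ℂ}
    {W P : ℝ → Matrix (Fin N) (Fin N) ℂ} (hP : RicPath a b K W P) :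
    ContinuousOn P (Icc a b) := by
  refine continuousOn_pi.2 fun i => continuousOn_pi.2 fun j => fun x hx => ?_
  exact (hP.deriv x hx i j).continuousWithinAt

theorem trf_eq {A : Matrix (Fin N) (Fin N) ℂ} (hA : A.IsHermitian) (f : ℝ → ℝ) :
    trf f A = ∑ i, f (hA.eigenvalues i) := trace_cfc_re hA f

theorem trf_smul_rpow {W : Matrix (Fin N) (Fin N) ℂ} (hW : W.PosSemidef) {c p : ℝ} (hc : 0 ≤ c) :
    trf (fun w => w ^ p) ((c : ℂ) • W) = c ^ p * trf (fun w => w ^ p) W := by
  have hsa : IsSelfAdjoint W := hW.1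
  have hfin : ∀ f : ℝ → ℝ, ∀ s : Set ℝ, s.Finite → ContinuousOn f s := fun f s hs =>
    hs.continuousOn f
  have h1 : (c : ℂ) • W = cfc (fun x : ℝ => c * x) W := by
    rw [cfc_const_mul_id c W hsa]
    ext i j
    simp
  have hs : (spectrum ℝ W).Finite := Matrix.finite_real_spectrum
  have h2 : cfc (fun w : ℝ => w ^ p) (cfc (fun x : ℝ => c * x) W) =
      cfc (fun x : ℝ => (c * x) ^ p) W :=
    (cfc_comp' (fun w : ℝ => w ^ p) (fun x : ℝ => c * x) W
      (hfin _ _ (hs.image _)) (hfin _ _ hs) hsa).symm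
  rw [trf, trf, h1, h2]
  have h3 : cfc (fun x : ℝ => (c * x) ^ p) W = cfc (fun x : ℝ => c ^ p * x ^ p) W := by
    refine cfc_congr fun x hx => ?_
    have hx0 : 0 ≤ x := by
      rw [hW.1.spectrum_real_eq_range_eigenvalues] at hx
      obtain ⟨i, rfl⟩ := hx
      exact hW.eigenvalues_nonneg i
    exact Real.mul_rpow hc hx0
  rw [h3, trace_cfc_re hW.1, trace_cfc_re hW.1, Finset.mul_sum]

theorem XX_herm {K P : Matrix (Fin N) (Fin N) ℂ} (h : Adm K P) : (XX K P).IsHermitian := by
  rw [XX, Matrix.IsHermitian, conjTranspose_sub, conjTranspose_mul, conjTranspose_mul,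
    h.pos.1.eq, h.herm.eq]

/-- `Re tr (X ell) = psi - u` -/
theorem tr_XX_ell (K P : Matrix (Fin N) (Fin N) ℂ) (t : ℝ) :
    (XX K P * ell K P t).trace.re = psi K P t - uu K P t := by
  rw [psi, uu, Matrix.add_mul, Matrix.trace_add, Complex.add_re, Matrix.smul_mul, Matrix.one_mul,
    Matrix.trace_smul, smul_eq_mul, Complex.re_ofReal_mul]
  ring

/-- the pointwise inequality -/
theorem ptw {K P W : Matrix (Fin N) (Fin N) ℂ} (h : Adm K P) (hW : W.PosSemidef) {r t : ℝ}
    (h0 : 0 < r) (ht : 0 < t) :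
    r * (ell K P t * (W - XX K P)).trace.re ≤
      (1 + r) * trf (phi t) (((r / (1 + r) : ℝ) : ℂ) • W) + (psi K P t + r * uu K P t) := by
  have hs : 0 ≤ r / (1 + r) := by positivity
  have hV : (((r / (1 + r) : ℝ) : ℂ) • W).PosSemidef := hW.smul (by exact_mod_cast hs)
  have h1 := star_static h hV ht
  rw [Matrix.smul_mul, Matrix.trace_smul, smul_eq_mul, Complex.re_ofReal_mul] at h1
  have h2 : (ell K P t * (W - XX K P)).trace.re =
      (W * ell K P t).trace.re - (psi K P t - uu K P t) := by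
    rw [Matrix.mul_sub, Matrix.trace_sub, Complex.sub_re, Matrix.trace_mul_comm,
      Matrix.trace_mul_comm (ell K P t) (XX K P), tr_XX_ell]
  rw [h2]
  have h3 : (1 + r) * (r / (1 + r) * (W * ell K P t).trace.re) = r * (W * ell K P t).trace.re := by
    have : (1 + r) ≠ 0 := by positivity
    field_simp
  have h4 := mul_le_mul_of_nonneg_left h1 (by positivity : 0 ≤ 1 + r)
  rw [h3] at h4
  nlinarith

theorem ell_cont_z {K P : Matrix (Fin N) (Fin N) ℂ} (h : Adm K P) :
    ContinuousOn (fun z : ℝ × ℝ => ell K P z.2) (Icc 0 1 ×ˢ Ioi 0) := by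
  exact ell_cont (K := K) (P := fun _ => P) (a := 0) (b := 1) (fun _ _ => h) continuousOn_const

theorem ell_cont_t {K P : Matrix (Fin N) (Fin N) ℂ} (h : Adm K P) :
    ContinuousOn (fun t : ℝ => ell K P t) (Ioi 0) := by
  have h1 := ell_cont_z h
  intro t ht
  have h2 := h1 ((0 : ℝ), t) ⟨left_mem_Icc.2 zero_le_one, ht⟩
  have h4 : ContinuousWithinAt (fun t : ℝ => ((0 : ℝ), t)) (Ioi 0) t :=
    (continuous_const.prodMk continuous_id).continuousWithinAt
  exact h2.comp h4 (fun s hs => ⟨left_mem_Icc.2 zero_le_one, hs⟩)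

theorem rpow_cont_t (p : ℝ) : ContinuousOn (fun t : ℝ => t ^ p) (Ioi 0) := fun t ht =>
  (Real.continuousAt_rpow_const t p (Or.inl (ne_of_gt ht))).continuousWithinAt

theorem retr_cont : Continuous (fun A : Matrix (Fin N) (Fin N) ℂ => A.trace.re) :=
  Complex.continuous_re.comp (Continuous.matrix_trace continuous_id)

theorem psi_cont_t {K P : Matrix (Fin N) (Fin N) ℂ} (h : Adm K P) :
    ContinuousOn (fun t : ℝ => psi K P t) (Ioi 0) := by
  refine continuousOn_const.sub (continuousOn_id.mul ?_)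
  exact retr_cont.comp_continuousOn (ell_cont_t h)

theorem uu_cont_t {K P : Matrix (Fin N) (Fin N) ℂ} (h : Adm K P) :
    ContinuousOn (fun t : ℝ => uu K P t) (Ioi 0) := by
  have h1 : ContinuousOn (fun t : ℝ => (XX K P * ell K P t).trace.re) (Ioi 0) :=
    retr_cont.comp_continuousOn ((continuousOn_const (c := XX K P)).mul (ell_cont_t h))
  refine ((psi_cont_t h).sub h1).congr fun t _ => ?_
  simp only [tr_XX_ell, Pi.sub_apply]
  ring

theorem phi_tr_integral {V : Matrix (Fin N) (Fin N) ℂ} (hV : V.PosSemidef) {r : ℝ} (h0 : 0 < r)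
    (h1 : r < 1) :
    IntegrableOn (fun t => t ^ (r - 1) * trf (phi t) V) (Ioi 0) ∧
    ∫ t in Ioi (0 : ℝ), t ^ (r - 1) * trf (phi t) V =
      IR r / (1 + r) * trf (fun w => w ^ (1 + r)) V := by
  have e1 : (fun t : ℝ => t ^ (r - 1) * trf (phi t) V) =
      fun t => ∑ i, t ^ (r - 1) * phi t (hV.1.eigenvalues i) := by
    funext t
    rw [trf_eq hV.1, Finset.mul_sum]
  rw [e1]
  refine ⟨integrable_finsetSum _ fun i _ => phi_integrable h0 h1 (hV.eigenvalues_nonneg i), ?_⟩
  rw [integral_finsetSum _ fun i _ => phi_integrable h0 h1 (hV.eigenvalues_nonneg i),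
    trf_eq hV.1, Finset.mul_sum]
  refine Finset.sum_congr rfl fun i _ => ?_
  rw [phi_integral h0 h1 (hV.eigenvalues_nonneg i)]
  ring

theorem cont_int {f : ℝ → ℝ} (hf : ContinuousOn f (Ioi 0)) {δ T : ℝ} (hδ : 0 < δ) (hT : δ ≤ T) :
    IntervalIntegrable f volume δ T := by
  refine ContinuousOn.intervalIntegrable (hf.mono ?_)
  rw [uIcc_of_le hT]
  exact fun x hx => lt_of_lt_of_le hδ hx.1

/-- the pointwise inequality integrated in `t` -/
theorem ptw_int {K P W : Matrix (Fin N) (Fin N) ℂ} (h : Adm K P) (hW : W.PosSemidef) {r : ℝ}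
    (h0 : 0 < r) (h1 : r < 1) {δ T : ℝ} (hδ : 0 < δ) (hT : δ ≤ T) :
    ∫ t in δ..T, t ^ (r - 1) * (r * (ell K P t * (W - XX K P)).trace.re) ≤
      IR r * (r / (1 + r)) ^ (1 + r) * trf (fun w => w ^ (1 + r)) W +
        (T ^ r * uu K P T - δ ^ r * uu K P δ) := by
  have hs : 0 ≤ r / (1 + r) := by positivity
  have hV : (((r / (1 + r) : ℝ) : ℂ) • W).PosSemidef := hW.smul (by exact_mod_cast hs)
  set V := ((r / (1 + r) : ℝ) : ℂ) • W with hVdef
  obtain ⟨hφi, hφ⟩ := phi_tr_integral hV h0 h1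
  have hI1 : IntervalIntegrable (fun t => t ^ (r - 1) * (r * (ell K P t * (W - XX K P)).trace.re))
      volume δ T := by
    refine cont_int ((rpow_cont_t _).mul (continuousOn_const.mul ?_)) hδ hT
    exact retr_cont.comp_continuousOn ((ell_cont_t h).mul continuousOn_const)
  have hI2 : IntervalIntegrable (fun t => t ^ (r - 1) * trf (phi t) V) volume δ T := by
    rw [intervalIntegrable_iff_integrableOn_Ioc_of_le hT]
    exact hφi.mono_set fun x hx => lt_trans hδ hx.1
  have hI3 : IntervalIntegrable (fun t => t ^ (r - 1) * (psi K P t + r * uu K P t)) volume δ T :=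
    cont_int ((rpow_cont_t _).mul ((psi_cont_t h).add (continuousOn_const.mul (uu_cont_t h))))
      hδ hT
  have hle : ∫ t in δ..T, t ^ (r - 1) * (r * (ell K P t * (W - XX K P)).trace.re) ≤
      ∫ t in δ..T, ((1 + r) * (t ^ (r - 1) * trf (phi t) V) +
        t ^ (r - 1) * (psi K P t + r * uu K P t)) := by
    refine intervalIntegral.integral_mono_on hT hI1 ((hI2.const_mul _).add hI3) fun t ht => ?_
    have ht0 : 0 < t := lt_of_lt_of_le hδ ht.1
    have h2 := mul_le_mul_of_nonneg_left (ptw h hW h0 ht0) (Real.rpow_nonneg ht0.le (r - 1))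
    refine h2.trans (le_of_eq ?_)
    rw [hVdef]
    ring
  refine hle.trans ?_
  rw [intervalIntegral.integral_add (hI2.const_mul _) hI3, intervalIntegral.integral_const_mul]
  have h3 := uu_int h h0 hδ hT
  have h4 : ∫ t in δ..T, t ^ (r - 1) * trf (phi t) V ≤
      IR r / (1 + r) * trf (fun w => w ^ (1 + r)) V := by
    rw [← hφ, intervalIntegral.integral_of_le hT]
    refine setIntegral_mono_set hφi ?_ ?_
    · refine (ae_restrict_mem measurableSet_Ioi).mono fun t ht => ?_
      refine mul_nonneg (Real.rpow_nonneg (le_of_lt ht) _) ?_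
      rw [trf_eq hV.1]
      exact Finset.sum_nonneg fun i _ => phi_nonneg ht (hV.eigenvalues_nonneg i)
    · exact Eventually.of_forall fun x hx => lt_trans hδ hx.1
  have h5 := mul_le_mul_of_nonneg_left h4 (by positivity : 0 ≤ 1 + r)
  rw [hVdef, trf_smul_rpow hW hs] at h5
  have h6 : (1 + r) * (IR r / (1 + r) * ((r / (1 + r)) ^ (1 + r) * trf (fun w => w ^ (1 + r)) W)) =
      IR r * (r / (1 + r)) ^ (1 + r) * trf (fun w => w ^ (1 + r)) W := by
    have : (1 + r) ≠ 0 := by positivity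
    field_simp
  rw [h6] at h5
  exact add_le_add h5 h3

end LTG
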