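import Vale.Agent.P371G.SPath

/-!
# [L7a] the fundamental theorem of calculus for `s_t` along a Riccati path

`s_t(K) - s_t(-K) = ∫_a^b Re tr (ell_t(P) (W - X)) dx`.
-/

namespace LTG

open Matrix MeasureTheory Set
open scoped ComplexOrder

variable {N : ℕ}

theorem ricPath_cont {a b : ℝ} {K : Matrix (Fin N) (Fin N) ℂ}
    {W P : ℝ → Matrix (Fin N) (Fin N) ℂ} (hP : RicPath a b K W P) :
    ContinuousOn P (Icc a b) := by
  refine continuousOn_pi.2 (fun i => continuousOn_pi.2 (fun j => ?_))
  intro x hx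
  exact (hP.deriv x hx i j).continuousWithinAt

/-- joint continuity of the integrand `Re tr (ell_t(P x) (W x - X x))` in `(x, t)` -/
theorem integrand_cont {a b : ℝ} {K : Matrix (Fin N) (Fin N) ℂ}
    {W P : ℝ → Matrix (Fin N) (Fin N) ℂ} (hWc : ContinuousOn W (Icc a b))
    (hP : RicPath a b K W P) :
    ContinuousOn (fun z : ℝ × ℝ => ((ell K (P z.1) z.2 * (W z.1 - XX K (P z.1))).trace).re)
      (Icc a b ×ˢ Ioi 0) := by
  have hc := ricPath_cont hP
  have h1 := ell_cont (K := K) hP.adm hc
  have hf : MapsTo (fun z : ℝ × ℝ => z.1) (Icc a b ×ˢ Ioi 0) (Icc a b) := fun z hz => hz.1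
  have h2 : ContinuousOn (fun z : ℝ × ℝ => P z.1) (Icc a b ×ˢ Ioi 0) :=
    hc.comp continuousOn_fst hf
  have h3 : ContinuousOn (fun z : ℝ × ℝ => W z.1) (Icc a b ×ˢ Ioi 0) :=
    hWc.comp continuousOn_fst hf
  have h4 : ContinuousOn (fun z : ℝ × ℝ => W z.1 - XX K (P z.1)) (Icc a b ×ˢ Ioi 0) := by
    unfold XX
    exact h3.sub (continuousOn_const.sub (h2.mul h2))
  have h5 := h1.mul h4
  have h6 : Continuous (fun B : Matrix (Fin N) (Fin N) ℂ => B.trace.re) :=
    Complex.continuous_re.comp (continuous_id.matrix_trace)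
  exact h6.comp_continuousOn h5

theorem lltA {a b : ℝ} (hab : a < b) {K : Matrix (Fin N) (Fin N) ℂ}
    {W P : ℝ → Matrix (Fin N) (Fin N) ℂ} (hWc : ContinuousOn W (Icc a b))
    (hP : RicPath a b K W P) {t : ℝ} (ht : 0 < t) :
    sfun K K t - sfun K (-K) t
      = ∫ x in a..b, ((ell K (P x) t * (W x - XX K (P x))).trace).re := by
  have hc := ricPath_cont hP
  have hd : ∀ x ∈ Icc a b, HasDerivWithinAt (fun y => sfun K (P y) t)
      (-((ell K (P x) t * (W x - XX K (P x))).trace).re) (Icc a b) x := by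
    intro x hx
    have h := sfun_deriv (K := K) (P := P) (P' := K * K - P x * P x - W x) hx hP.adm hc
      (fun i j => hP.deriv x hx i j) ht
    refine h.congr_deriv ?_
    have e : K * K - P x * P x - W x = -(W x - XX K (P x)) := by
      unfold XX; abel
    rw [e, Matrix.mul_neg, Matrix.trace_neg, Complex.neg_re]
  have hi : ContinuousOn (fun x : ℝ => ((ell K (P x) t * (W x - XX K (P x))).trace).re)
      (Icc a b) := by
    have h := integrand_cont hWc hP
    exact h.comp (f := fun x : ℝ => (x, t))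
      (by fun_prop) (fun x hx => ⟨hx, ht⟩)
  have h1 := intervalIntegral.integral_eq_sub_of_hasDeriv_right_of_le hab.le
    (f := fun y => sfun K (P y) t)
    (f' := fun x => -((ell K (P x) t * (W x - XX K (P x))).trace).re)
    (fun x hx => (hd x hx).continuousWithinAt)
    (fun x hx => by
      have h2 := (hd x (Ioo_subset_Icc_self hx)).hasDerivAt (Icc_mem_nhds hx.1 hx.2)
      exact h2.hasDerivWithinAt)
    (by
      apply ContinuousOn.intervalIntegrable
      rw [uIcc_of_le hab.le]
      exact hi.neg)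
  rw [intervalIntegral.integral_neg, hP.left, hP.right] at h1
  linarith

end LTG
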