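import Vale.Agent.P371G.Base

/-!
# [L6a] scalar integrals in `t`: the integrals of `log(1+s/t)` and of `phi_t(v)`
-/

set_option linter.unusedVariables false

namespace LTG

open Matrix MeasureTheory Set Filter Topology
open scoped ComplexOrder

/-- `I_r` -/
noncomputable def IR (r : ℝ) : ℝ := ∫ t in Ioi (0 : ℝ), t ^ (r - 1) * Real.log (1 + 1 / t)

theorem lg_nonneg {s t : ℝ} (hs : 0 ≤ s) (ht : 0 < t) : 0 ≤ Real.log (1 + s / t) := by
  apply Real.log_nonneg
  have : 0 ≤ s / t := div_nonneg hs ht.le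
  linarith

theorem lg_le_div {s t : ℝ} (hs : 0 ≤ s) (ht : 0 < t) : Real.log (1 + s / t) ≤ s / t := by
  have h1 : 0 ≤ s / t := div_nonneg hs ht.le
  have := Real.log_le_sub_one_of_pos (show 0 < 1 + s / t by linarith)
  linarith

/-- `log(1+s/t) ≤ (s+t)^e t^(-e) / e` -/
theorem lg_le_rpow {s t e : ℝ} (hs : 0 ≤ s) (ht : 0 < t) (he : 0 < e) :
    Real.log (1 + s / t) ≤ (s + t) ^ e * t ^ (-e) / e := by
  have h1 : 1 + s / t = (s + t) / t := by field_simp; ring
  rw [h1]
  have h2 : 0 ≤ (s + t) / t := by positivity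
  refine (Real.log_le_rpow_div h2 he).trans ?_
  rw [Real.div_rpow (by linarith) ht.le, Real.rpow_neg ht.le, div_eq_mul_inv ((s + t) ^ e)]

theorem lg_continuousOn (s : ℝ) (hs : 0 ≤ s) (p : ℝ) :
    ContinuousOn (fun t : ℝ => t ^ p * Real.log (1 + s / t)) (Ioi 0) := by
  intro t ht
  have ht' : (0 : ℝ) < t := ht
  apply ContinuousAt.continuousWithinAt
  apply ContinuousAt.mul
  · exact Real.continuousAt_rpow_const t p (Or.inl ht'.ne')
  · apply ContinuousAt.log
    · apply ContinuousAt.add continuousAt_const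
      exact ContinuousAt.div continuousAt_const continuousAt_id ht'.ne'
    · have : 0 ≤ s / t := div_nonneg hs ht'.le
      positivity

theorem rpow_int_01 {p : ℝ} (hp : -1 < p) : IntegrableOn (fun t : ℝ => t ^ p) (Ioc 0 1) := by
  have h := intervalIntegral.intervalIntegrable_rpow' (a := 0) (b := 1) hp
  rwa [intervalIntegrable_iff_integrableOn_Ioc_of_le zero_le_one] at h

theorem rpow_int_1 {p : ℝ} (hp : p < -1) : IntegrableOn (fun t : ℝ => t ^ p) (Ioi 1) :=
  integrableOn_Ioi_rpow_of_lt hp zero_lt_one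

/-- domination of an integrand on the half line by two powers -/
theorem int_of_bounds {f : ℝ → ℝ} (hc : ContinuousOn f (Ioi 0)) {C1 C2 p1 p2 : ℝ}
    (hp1 : -1 < p1) (hp2 : p2 < -1) (h0 : ∀ t, 0 < t → 0 ≤ f t)
    (h1 : ∀ t, 0 < t → t ≤ 1 → f t ≤ C1 * t ^ p1) (h2 : ∀ t, 1 ≤ t → f t ≤ C2 * t ^ p2) :
    IntegrableOn f (Ioi 0) := by
  have hsplit : Ioi (0 : ℝ) = Ioc 0 1 ∪ Ioi 1 := (Ioc_union_Ioi_eq_Ioi zero_le_one).symm
  rw [hsplit]
  apply IntegrableOn.union
  · have hg : IntegrableOn (fun t : ℝ => C1 * t ^ p1) (Ioc 0 1) := (rpow_int_01 hp1).const_mul C1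
    refine Integrable.mono' hg ?_ ?_
    · exact (hc.mono (fun t ht => ht.1)).aestronglyMeasurable measurableSet_Ioc
    · filter_upwards [ae_restrict_mem measurableSet_Ioc] with t ht
      rw [Real.norm_of_nonneg (h0 t ht.1)]
      exact h1 t ht.1 ht.2
  · have hg : IntegrableOn (fun t : ℝ => C2 * t ^ p2) (Ioi 1) := (rpow_int_1 hp2).const_mul C2
    refine Integrable.mono' hg ?_ ?_
    · exact (hc.mono (Ioi_subset_Ioi zero_le_one)).aestronglyMeasurable measurableSet_Ioi
    · filter_upwards [ae_restrict_mem measurableSet_Ioi] with t ht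
      have ht' : (1 : ℝ) < t := ht
      rw [Real.norm_of_nonneg (h0 t (by linarith))]
      exact h2 t ht'.le

theorem lg_integrable {r s : ℝ} (h0 : 0 < r) (h1 : r < 1) (hs : 0 ≤ s) :
    IntegrableOn (fun t => t ^ (r - 1) * Real.log (1 + s / t)) (Ioi 0) := by
  apply int_of_bounds (lg_continuousOn s hs (r - 1)) (C1 := (s + 1) ^ (r / 2) / (r / 2))
    (C2 := s) (p1 := r / 2 - 1) (p2 := r - 2) (by linarith) (by linarith)
  · intro t ht
    exact mul_nonneg (Real.rpow_nonneg ht.le _) (lg_nonneg hs ht)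
  · intro t ht ht1
    have h2 := lg_le_rpow (e := r / 2) hs ht (by linarith)
    have h3 : (s + t) ^ (r / 2) ≤ (s + 1) ^ (r / 2) :=
      Real.rpow_le_rpow (by linarith) (by linarith) (by linarith)
    have h4 : t ^ (r / 2 - 1) = t ^ (r - 1) * t ^ (-(r / 2)) := by
      rw [← Real.rpow_add ht]
      congr 1
      ring
    rw [h4]
    have h5 : 0 < t ^ (r - 1) := Real.rpow_pos_of_pos ht _
    have h6 : 0 < t ^ (-(r / 2)) := Real.rpow_pos_of_pos ht _
    calc t ^ (r - 1) * Real.log (1 + s / t)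
        ≤ t ^ (r - 1) * ((s + t) ^ (r / 2) * t ^ (-(r / 2)) / (r / 2)) :=
          mul_le_mul_of_nonneg_left h2 h5.le
      _ ≤ t ^ (r - 1) * ((s + 1) ^ (r / 2) * t ^ (-(r / 2)) / (r / 2)) := by
          apply mul_le_mul_of_nonneg_left _ h5.le
          apply div_le_div_of_nonneg_right _ (by linarith)
          exact mul_le_mul_of_nonneg_right h3 h6.le
      _ = (s + 1) ^ (r / 2) / (r / 2) * (t ^ (r - 1) * t ^ (-(r / 2))) := by ring
  · intro t ht
    have ht0 : 0 < t := by linarith
    have h2 := lg_le_div hs ht0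
    have h5 : 0 < t ^ (r - 1) := Real.rpow_pos_of_pos ht0 _
    have h4 : t ^ (r - 2) = t ^ (r - 1) * t ^ (-1 : ℝ) := by
      rw [← Real.rpow_add ht0]
      congr 1
      ring
    rw [h4, Real.rpow_neg_one]
    calc t ^ (r - 1) * Real.log (1 + s / t) ≤ t ^ (r - 1) * (s / t) :=
          mul_le_mul_of_nonneg_left h2 h5.le
      _ = s * (t ^ (r - 1) * t⁻¹) := by rw [div_eq_mul_inv]; ring

theorem lg_integral {r s : ℝ} (h0 : 0 < r) (h1 : r < 1) (hs : 0 ≤ s) :
    ∫ t in Ioi (0 : ℝ), t ^ (r - 1) * Real.log (1 + s / t) = IR r * s ^ r := by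
  rcases hs.eq_or_lt with h | h
  · rw [← h]
    simp [Real.zero_rpow h0.ne']
  · have key := integral_comp_mul_left_Ioi (fun t : ℝ => t ^ (r - 1) * Real.log (1 + s / t)) 0 h
    rw [mul_zero] at key
    have h2 : ∫ x in Ioi (0 : ℝ), (s * x) ^ (r - 1) * Real.log (1 + s / (s * x)) =
        s ^ (r - 1) * IR r := by
      unfold IR
      rw [← integral_const_mul]
      apply setIntegral_congr_fun measurableSet_Ioi
      intro x hx
      have hx' : (0 : ℝ) < x := hx
      simp only
      rw [Real.mul_rpow h.le hx'.le]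
      have h3 : s / (s * x) = 1 / x := by field_simp
      rw [h3]
      ring
    rw [h2, smul_eq_mul] at key
    have h4 : s ^ r = s * s ^ (r - 1) := by
      have := Real.rpow_add h 1 (r - 1)
      rw [Real.rpow_one] at this
      rw [← this]
      congr 1
      ring
    rw [h4]
    field_simp at key
    linarith

theorem IR_pos {r : ℝ} (h0 : 0 < r) (h1 : r < 1) : 0 < IR r := by
  unfold IR
  rw [setIntegral_pos_iff_support_of_nonneg_ae]
  · have hsub : Ioi (0 : ℝ) ⊆ Function.support (fun t : ℝ => t ^ (r - 1) * Real.log (1 + 1 / t)) ∩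
        Ioi 0 := by
      intro t ht
      have ht' : (0 : ℝ) < t := ht
      refine ⟨?_, ht⟩
      rw [Function.mem_support]
      have h2 : 0 < t ^ (r - 1) := Real.rpow_pos_of_pos ht' _
      have h3 : 0 < Real.log (1 + 1 / t) := by
        apply Real.log_pos
        have : 0 < 1 / t := by positivity
        linarith
      positivity
    refine lt_of_lt_of_le ?_ (measure_mono hsub)
    rw [Real.volume_Ioi]
    exact ENNReal.coe_lt_top
  · filter_upwards [ae_restrict_mem measurableSet_Ioi] with t ht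
    exact mul_nonneg (Real.rpow_nonneg (le_of_lt ht) _) (lg_nonneg zero_le_one ht)
  · exact lg_integrable h0 h1 zero_le_one

theorem phi_nonneg {t v : ℝ} (ht : 0 < t) (hv : 0 ≤ v) : 0 ≤ phi t v := by
  unfold phi
  have h1 : 0 < 1 + v / t := by
    have : 0 ≤ v / t := div_nonneg hv ht.le
    linarith
  have h2 := Real.one_sub_inv_le_log_of_pos h1
  have h3 : (v + t) * (1 - (1 + v / t)⁻¹) = v := by
    field_simp
    ring
  have h4 := mul_le_mul_of_nonneg_left h2 (show 0 ≤ v + t by linarith)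
  linarith

theorem phi_le_sq {t v : ℝ} (ht : 0 < t) (hv : 0 ≤ v) : phi t v ≤ v ^ 2 / t := by
  unfold phi
  have h1 := mul_le_mul_of_nonneg_left (lg_le_div hv ht) (show 0 ≤ v + t by linarith)
  have h2 : (v + t) * (v / t) = v ^ 2 / t + v := by
    field_simp
  linarith

theorem phi_le_lg {t v : ℝ} (hv : 0 ≤ v) : phi t v ≤ (v + t) * Real.log (1 + v / t) := by
  unfold phi
  linarith

theorem phi_continuousOn (v : ℝ) (hv : 0 ≤ v) (p : ℝ) :
    ContinuousOn (fun t : ℝ => t ^ p * phi t v) (Ioi 0) := by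
  have h1 := lg_continuousOn v hv p
  have h2 : (fun t : ℝ => t ^ p * phi t v) =
      fun t => (v + t) * (t ^ p * Real.log (1 + v / t)) - v * t ^ p := by
    funext t
    unfold phi
    ring
  rw [h2]
  apply ContinuousOn.sub
  · exact ContinuousOn.mul (by fun_prop) h1
  · apply ContinuousOn.mul continuousOn_const
    intro t ht
    exact (Real.continuousAt_rpow_const t p (Or.inl (ne_of_gt ht))).continuousWithinAt

theorem phi_integrable {r v : ℝ} (h0 : 0 < r) (h1 : r < 1) (hv : 0 ≤ v) :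
    IntegrableOn (fun t => t ^ (r - 1) * phi t v) (Ioi 0) := by
  apply int_of_bounds (phi_continuousOn v hv (r - 1))
    (C1 := (v + 1) * ((v + 1) ^ (r / 2) / (r / 2)))
    (C2 := v ^ 2) (p1 := r / 2 - 1) (p2 := r - 2) (by linarith) (by linarith)
  · intro t ht
    exact mul_nonneg (Real.rpow_nonneg ht.le _) (phi_nonneg ht hv)
  · intro t ht ht1
    have h2 := lg_le_rpow (e := r / 2) hv ht (by linarith)
    have h3 : (v + t) ^ (r / 2) ≤ (v + 1) ^ (r / 2) :=
      Real.rpow_le_rpow (by linarith) (by linarith) (by linarith)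
    have h4 : t ^ (r / 2 - 1) = t ^ (r - 1) * t ^ (-(r / 2)) := by
      rw [← Real.rpow_add ht]
      congr 1
      ring
    rw [h4]
    have h5 : 0 < t ^ (r - 1) := Real.rpow_pos_of_pos ht _
    have h6 : 0 < t ^ (-(r / 2)) := Real.rpow_pos_of_pos ht _
    have h7 : Real.log (1 + v / t) ≤ (v + 1) ^ (r / 2) * t ^ (-(r / 2)) / (r / 2) := by
      refine h2.trans ?_
      apply div_le_div_of_nonneg_right _ (by linarith)
      exact mul_le_mul_of_nonneg_right h3 h6.le
    have h8 : phi t v ≤ (v + 1) * ((v + 1) ^ (r / 2) * t ^ (-(r / 2)) / (r / 2)) := by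
      refine (phi_le_lg hv).trans ?_
      exact mul_le_mul (by linarith) h7 (lg_nonneg hv ht) (by linarith)
    calc t ^ (r - 1) * phi t v
        ≤ t ^ (r - 1) * ((v + 1) * ((v + 1) ^ (r / 2) * t ^ (-(r / 2)) / (r / 2))) :=
          mul_le_mul_of_nonneg_left h8 h5.le
      _ = (v + 1) * ((v + 1) ^ (r / 2) / (r / 2)) * (t ^ (r - 1) * t ^ (-(r / 2))) := by ring
  · intro t ht
    have ht0 : 0 < t := by linarith
    have h2 := phi_le_sq ht0 hv
    have h5 : 0 < t ^ (r - 1) := Real.rpow_pos_of_pos ht0 _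
    have h4 : t ^ (r - 2) = t ^ (r - 1) * t ^ (-1 : ℝ) := by
      rw [← Real.rpow_add ht0]
      congr 1
      ring
    rw [h4, Real.rpow_neg_one]
    calc t ^ (r - 1) * phi t v ≤ t ^ (r - 1) * (v ^ 2 / t) :=
          mul_le_mul_of_nonneg_left h2 h5.le
      _ = v ^ 2 * (t ^ (r - 1) * t⁻¹) := by rw [div_eq_mul_inv]; ring

theorem phi_hasDerivAt {r v t : ℝ} (hv : 0 ≤ v) (ht : 0 < t) :
    HasDerivAt (fun t => t ^ r * phi t v)
      ((1 + r) * (t ^ (r - 1) * phi t v) - v * (t ^ (r - 1) * Real.log (1 + v / t))) t := by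
  have hpos : 0 < 1 + v / t := by
    have : 0 ≤ v / t := div_nonneg hv ht.le
    linarith
  have h1 : HasDerivAt (fun t : ℝ => t ^ r) (r * t ^ (r - 1)) t :=
    Real.hasDerivAt_rpow_const (Or.inl ht.ne')
  have h2 : HasDerivAt (fun t : ℝ => 1 + v / t) (-(v / t ^ 2)) t := by
    have h3 := (hasDerivAt_inv ht.ne').const_mul v
    have h4 := h3.const_add 1
    refine (h4.congr_deriv ?_).congr_of_eventuallyEq ?_
    · rw [mul_neg, div_eq_mul_inv]
    · exact Eventually.of_forall (fun x => by simp [div_eq_mul_inv])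
  have h5 : HasDerivAt (fun t : ℝ => Real.log (1 + v / t)) (-(v / t ^ 2) / (1 + v / t)) t :=
    h2.log hpos.ne'
  have h6 : HasDerivAt (fun t : ℝ => phi t v)
      (1 * Real.log (1 + v / t) + (v + t) * (-(v / t ^ 2) / (1 + v / t))) t := by
    unfold phi
    exact (((hasDerivAt_id' t).const_add v).mul h5).sub_const v
  have h7 := h1.mul h6
  refine h7.congr_deriv ?_
  have h8 : (v + t) * (-(v / t ^ 2) / (1 + v / t)) = -(v / t) := by
    field_simp
    ring
  have h9 : t ^ r = t * t ^ (r - 1) := by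
    have := Real.rpow_add ht 1 (r - 1)
    rw [Real.rpow_one] at this
    rw [← this]
    congr 1
    ring
  rw [h8, h9]
  unfold phi
  field_simp
  ring

theorem phi_integral {r v : ℝ} (h0 : 0 < r) (h1 : r < 1) (hv : 0 ≤ v) :
    ∫ t in Ioi (0 : ℝ), t ^ (r - 1) * phi t v = IR r * v ^ (1 + r) / (1 + r) := by
  have hint : IntegrableOn (fun t => (1 + r) * (t ^ (r - 1) * phi t v) -
      v * (t ^ (r - 1) * Real.log (1 + v / t))) (Ioi 0) :=
    ((phi_integrable h0 h1 hv).const_mul (1 + r)).sub ((lg_integrable h0 h1 hv).const_mul v)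
  have hcont : ContinuousWithinAt (fun t : ℝ => t ^ r * phi t v) (Ici 0) 0 := by
    have hz : (0 : ℝ) ^ r * phi 0 v = 0 := by
      rw [Real.zero_rpow h0.ne', zero_mul]
    rw [ContinuousWithinAt, hz]
    have hup : Tendsto (fun t : ℝ => (v + t) * ((v + t) ^ (r / 2) * t ^ (r / 2) / (r / 2)))
        (𝓝[Ici 0] 0) (𝓝 0) := by
      have hc : ContinuousAt (fun t : ℝ => (v + t) * ((v + t) ^ (r / 2) * t ^ (r / 2) / (r / 2)))
          0 := by
        apply ContinuousAt.mul (by fun_prop)
        apply ContinuousAt.div_const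
        apply ContinuousAt.mul
        · exact (Real.continuousAt_rpow_const _ _ (Or.inr (by linarith))).comp (by fun_prop)
        · exact Real.continuousAt_rpow_const _ _ (Or.inr (by linarith))
      have h2 := hc.tendsto.mono_left (nhdsWithin_le_nhds (s := Ici (0 : ℝ)))
      have h3 : (fun t : ℝ => (v + t) * ((v + t) ^ (r / 2) * t ^ (r / 2) / (r / 2))) 0 = 0 := by
        simp [Real.zero_rpow (show r / 2 ≠ 0 by positivity)]
      simp only at h3
      rw [h3] at h2
      exact h2
    refine tendsto_of_tendsto_of_tendsto_of_le_of_le' tendsto_const_nhds hup ?_ ?_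
    · filter_upwards [self_mem_nhdsWithin] with t ht
      rcases (show (0 : ℝ) ≤ t from ht).eq_or_lt with h | h
      · rw [← h]
        simp [Real.zero_rpow h0.ne']
      · exact mul_nonneg (Real.rpow_nonneg h.le _) (phi_nonneg h hv)
    · filter_upwards [self_mem_nhdsWithin] with t ht
      rcases (show (0 : ℝ) ≤ t from ht).eq_or_lt with h | h
      · rw [← h]
        simp [Real.zero_rpow h0.ne', Real.zero_rpow (show r / 2 ≠ 0 by positivity)]
      · have h2 := lg_le_rpow (e := r / 2) hv h (by linarith)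
        have h3 : 0 < t ^ r := Real.rpow_pos_of_pos h r
        have h4 : phi t v ≤ (v + t) * ((v + t) ^ (r / 2) * t ^ (-(r / 2)) / (r / 2)) :=
          (phi_le_lg hv).trans (mul_le_mul_of_nonneg_left h2 (by linarith))
        have h5 : t ^ (r / 2) = t ^ r * t ^ (-(r / 2)) := by
          rw [← Real.rpow_add h]
          congr 1
          ring
        rw [h5]
        calc t ^ r * phi t v ≤ t ^ r * ((v + t) * ((v + t) ^ (r / 2) * t ^ (-(r / 2)) / (r / 2))) :=
              mul_le_mul_of_nonneg_left h4 h3.le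
          _ = _ := by ring
  have hinf : Tendsto (fun t : ℝ => t ^ r * phi t v) atTop (𝓝 0) := by
    have hup : Tendsto (fun t : ℝ => v ^ 2 * t ^ (-(1 - r))) atTop (𝓝 0) := by
      have := (tendsto_rpow_neg_atTop (show 0 < 1 - r by linarith)).const_mul (v ^ 2)
      simpa using this
    refine tendsto_of_tendsto_of_tendsto_of_le_of_le' tendsto_const_nhds hup ?_ ?_
    · filter_upwards [eventually_gt_atTop (0 : ℝ)] with t ht
      exact mul_nonneg (Real.rpow_nonneg ht.le _) (phi_nonneg ht hv)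
    · filter_upwards [eventually_gt_atTop (0 : ℝ)] with t ht
      have h2 := phi_le_sq ht hv
      have h3 : 0 < t ^ r := Real.rpow_pos_of_pos ht r
      have h4 : t ^ (-(1 - r)) = t ^ r * t⁻¹ := by
        rw [← Real.rpow_neg_one, ← Real.rpow_add ht]
        congr 1
        ring
      rw [h4]
      calc t ^ r * phi t v ≤ t ^ r * (v ^ 2 / t) := mul_le_mul_of_nonneg_left h2 h3.le
        _ = v ^ 2 * (t ^ r * t⁻¹) := by rw [div_eq_mul_inv]; ring
  have key := integral_Ioi_of_hasDerivAt_of_tendsto hcont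
    (fun t ht => phi_hasDerivAt (r := r) hv ht) hint hinf
  rw [integral_sub ((phi_integrable h0 h1 hv).const_mul (1 + r))
    ((lg_integrable h0 h1 hv).const_mul v), integral_const_mul, integral_const_mul,
    lg_integral h0 h1 hv] at key
  have hz : (fun t : ℝ => t ^ r * phi t v) 0 = 0 := by
    simp [Real.zero_rpow h0.ne']
  simp only at hz
  rw [hz, sub_zero] at key
  have h5 : v ^ (1 + r) = v * v ^ r := by
    rcases hv.eq_or_lt with h | h
    · rw [← h]
      simp [Real.zero_rpow (show 1 + r ≠ 0 by linarith)]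
    · rw [Real.rpow_add h, Real.rpow_one]
  rw [h5]
  have h6 : (1 + r) ≠ 0 := by linarith
  field_simp
  linarith

end LTG
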