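import Vale.Agent.P371G.Base

/-!
# P371 general gamma: functional calculus lemmas (prefix `st_`)
-/

namespace LTG

set_option linter.unusedSectionVars false

open Matrix
open scoped ComplexOrder

variable {N : ℕ}

theorem st_posDef {A : Matrix (Fin N) (Fin N) ℂ} (hA : A.IsHermitian) {g : ℝ → ℝ}
    (h : ∀ i, 0 < g (hA.eigenvalues i)) : (cfc g A).PosDef := by
  rw [cfc_form hA]
  have hU : IsUnit (hA.eigenvectorUnitary : Matrix (Fin N) (Fin N) ℂ) :=
    (Unitary.toUnits hA.eigenvectorUnitary).isUnit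
  rw [IsUnit.posDef_star_right_conjugate_iff hU, posDef_diagonal_iff]
  intro i
  exact_mod_cast h i

theorem st_posSemidef {A : Matrix (Fin N) (Fin N) ℂ} (hA : A.IsHermitian) {g : ℝ → ℝ}
    (h : ∀ i, 0 ≤ g (hA.eigenvalues i)) : (cfc g A).PosSemidef := by
  rw [cfc_form hA]
  have hU : IsUnit (hA.eigenvectorUnitary : Matrix (Fin N) (Fin N) ℂ) :=
    (Unitary.toUnits hA.eigenvectorUnitary).isUnit
  rw [IsUnit.posSemidef_star_right_conjugate_iff hU, posSemidef_diagonal_iff]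
  intro i
  exact_mod_cast h i

theorem st_add {A : Matrix (Fin N) (Fin N) ℂ} (hA : A.IsHermitian) (p q : ℝ → ℝ) :
    cfc p A + cfc q A = cfc (fun x => p x + q x) A := by
  rw [cfc_form hA p, cfc_form hA q, cfc_form hA (fun x => p x + q x), ← Matrix.add_mul,
    ← Matrix.mul_add, Matrix.diagonal_add]
  simp only [Complex.ofReal_add]

theorem st_sub {A : Matrix (Fin N) (Fin N) ℂ} (hA : A.IsHermitian) (p q : ℝ → ℝ) :
    cfc p A - cfc q A = cfc (fun x => p x - q x) A := by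
  rw [cfc_form hA p, cfc_form hA q, cfc_form hA (fun x => p x - q x), ← Matrix.sub_mul,
    ← Matrix.mul_sub, Matrix.diagonal_sub]
  simp only [Complex.ofReal_sub]

theorem st_const {A : Matrix (Fin N) (Fin N) ℂ} (hA : A.IsHermitian) (c : ℝ) :
    cfc (fun _ : ℝ => c) A = ((c : ℝ) : ℂ) • (1 : Matrix (Fin N) (Fin N) ℂ) := by
  rw [cfc_form hA]
  have h : (diagonal fun _ : Fin N => ((c : ℝ) : ℂ)) =
      ((c : ℝ) : ℂ) • (1 : Matrix (Fin N) (Fin N) ℂ) := by
    rw [Matrix.smul_one_eq_diagonal]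
  rw [h, Matrix.mul_smul, Matrix.mul_one, Matrix.smul_mul]
  congr 1
  exact Unitary.coe_mul_star_self _

theorem st_id {A : Matrix (Fin N) (Fin N) ℂ} (hA : A.IsHermitian) :
    cfc (fun x : ℝ => x) A = A := cfc_id ℝ A hA

theorem st_sq {A : Matrix (Fin N) (Fin N) ℂ} (hA : A.IsHermitian) :
    cfc (fun x : ℝ => x * x) A = A * A := by
  rw [← cfc_mul_cfc hA (fun x => x) (fun x => x), st_id hA]

theorem st_Kt_sq {K : Matrix (Fin N) (Fin N) ℂ} (hK : K.IsHermitian) {t : ℝ} (ht : 0 ≤ t) :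
    Kt K t * Kt K t = K * K + ((t : ℝ) : ℂ) • (1 : Matrix (Fin N) (Fin N) ℂ) := by
  unfold Kt
  rw [cfc_mul_cfc hK]
  have h1 : cfc (fun x : ℝ => Real.sqrt (x ^ 2 + t) * Real.sqrt (x ^ 2 + t)) K =
      cfc (fun x : ℝ => x * x + t) K :=
    cfc_congr_eig hK fun i => by
      rw [Real.mul_self_sqrt (by positivity)]
      ring
  rw [h1, ← st_add hK (fun x => x * x) (fun _ => t), st_sq hK, st_const hK]

theorem st_Kt_sub_K {K : Matrix (Fin N) (Fin N) ℂ} (hK : K.PosSemidef) {t : ℝ} (ht : 0 < t) :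
    (Kt K t - K).PosDef := by
  have h1 : Kt K t - K = cfc (fun x : ℝ => Real.sqrt (x ^ 2 + t) - x) K := by
    rw [← st_sub hK.1 (fun x => Real.sqrt (x ^ 2 + t)) (fun x => x), st_id hK.1]
    rfl
  rw [h1]
  refine st_posDef hK.1 fun i => ?_
  have h2 : hK.1.eigenvalues i < Real.sqrt (hK.1.eigenvalues i ^ 2 + t) := by
    apply Real.lt_sqrt_of_sq_lt
    linarith
  linarith

theorem st_A_posDef {K P : Matrix (Fin N) (Fin N) ℂ} (h : Adm K P) {t : ℝ} (ht : 0 < t) :
    (Kt K t + P).PosDef := by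
  have h1 : Kt K t + P = (Kt K t - K) + (K + P) := by abel
  rw [h1]
  exact (st_Kt_sub_K h.pos.posSemidef ht).add_posSemidef h.ge

theorem st_B_posDef {K P : Matrix (Fin N) (Fin N) ℂ} (h : Adm K P) {t : ℝ} (ht : 0 < t) :
    (Kt K t - P).PosDef := by
  have h1 : Kt K t - P = (Kt K t - K) + (K - P) := by abel
  rw [h1]
  exact (st_Kt_sub_K h.pos.posSemidef ht).add_posSemidef h.le

theorem st_Kt_posDef {K : Matrix (Fin N) (Fin N) ℂ} (hK : K.IsHermitian) {t : ℝ} (ht : 0 < t) :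
    (Kt K t).PosDef := st_posDef hK fun i => Real.sqrt_pos.2 (by positivity)

/-- `tr A B = tr X + t N` -/
theorem st_trace_AB {K P : Matrix (Fin N) (Fin N) ℂ} (hK : K.IsHermitian) {t : ℝ}
    (ht : 0 ≤ t) :
    ((Kt K t + P) * (Kt K t - P)).trace = (XX K P).trace + (t : ℂ) * (N : ℂ) := by
  have h : (Kt K t + P) * (Kt K t - P) =
      Kt K t * Kt K t - P * P + (P * Kt K t - Kt K t * P) := by
    noncomm_ring
  rw [h, Matrix.trace_add, Matrix.trace_sub (P * Kt K t), Matrix.trace_mul_comm P, sub_self,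
    add_zero, st_Kt_sq hK ht]
  unfold XX
  simp only [Matrix.trace_sub, Matrix.trace_add, Matrix.trace_smul, Matrix.trace_one,
    smul_eq_mul, Fintype.card_fin]
  ring

end LTG
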