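import Vale.Agent.P371G.StarBase
import Vale.Agent.P371G.CfcCont

/-!
# [L1] the static inequality: Gibbs + Golden-Thompson

For `V ≥ 0`, `V_t = V + t > 0`: `gibbs` (with `R = V_t`, `H = L_t = log A + log B`,
`A = K_t + P`, `B = K_t - P`) gives `tr V_t L_t ≤ tr V_t log V_t - tr V_t + tr e^{L_t}`, and
`golden_thompson` gives `tr e^{L_t} ≤ tr A B = tr (K_t^2 - P^2) = tr X + N t`
(the cross terms cancel in the trace).
-/

namespace LTG

set_option linter.unusedSectionVars false

open Matrix MeasureTheory Set
open scoped ComplexOrder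

variable {N : ℕ}

/-- Gibbs inequality for `V + t` -/
theorem gibbs_shift {V H : Matrix (Fin N) (Fin N) ℂ} (hV : V.PosSemidef) (hH : H.IsHermitian)
    {t : ℝ} (ht : 0 ≤ t) :
    ((V * H).trace).re + t * (H.trace).re ≤
      ((cfc (fun v => (v + t) * Real.log (v + t) - (v + t)) V).trace).re +
        ((cfc Real.exp H).trace).re := by
  have h := klein hV.1 hH (Finset.univ : Finset (Fin 4))
    (![fun v => (v + t) * Real.log (v + t) - (v + t), fun x => x, fun _ => 1, fun _ => t])
    (![fun _ => 1, fun x => -x, Real.exp, fun x => -x]) (by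
      intro i j
      simp only [Fin.sum_univ_four, Matrix.cons_val_zero, Matrix.cons_val_one,
        Matrix.cons_val]
      have := mul_le_entropy (a := hV.1.eigenvalues i + t) (b := hH.eigenvalues j)
        (by have := hV.eigenvalues_nonneg i; linarith)
      linarith)
  simp only [Fin.sum_univ_four, Matrix.cons_val_zero, Matrix.cons_val_one,
        Matrix.cons_val] at h
  have c1 : cfc (fun _ : ℝ => (1 : ℝ)) H = 1 := cfc_const_one ℝ H
  have c1' : cfc (fun _ : ℝ => (1 : ℝ)) V = 1 := cfc_const_one ℝ V hV.1
  have c3 : cfc (fun x : ℝ => x) V = V := cfc_id ℝ V hV.1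
  have c4 : cfc (fun x : ℝ => -x) H = -H := by
    rw [cfc_neg, cfc_id' ℝ H]
  have c5 : cfc (fun _ : ℝ => t) V = ((t : ℝ) : ℂ) • (1 : Matrix (Fin N) (Fin N) ℂ) :=
    st_const hV.1 t
  rw [c1, c1', c3, c4, c5] at h
  simp only [mul_one, one_mul, mul_neg, Matrix.trace_neg, Complex.neg_re, Matrix.smul_mul,
    Matrix.trace_smul, smul_eq_mul, Complex.re_ofReal_mul] at h
  linarith

theorem star_static {K P V : Matrix (Fin N) (Fin N) ℂ} (h : Adm K P) (hV : V.PosSemidef)
    {t : ℝ} (ht : 0 < t) :
    ((V * ell K P t).trace).re ≤ trf (phi t) V + psi K P t := by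
  set L : Matrix (Fin N) (Fin N) ℂ := cfc Real.log (Kt K t + P) + cfc Real.log (Kt K t - P)
    with hLdef
  have hA := st_A_posDef h ht
  have hB := st_B_posDef h ht
  have hL : L.IsHermitian := (cfc_isHermitian _ _).add (cfc_isHermitian _ _)
  have h1 := gibbs_shift hV hL ht.le
  have h2 : ((cfc Real.exp L).trace).re ≤ (((XX K P).trace + (t : ℂ) * (N : ℂ))).re := by
    have h3 := golden_thompson hA hB
    rw [st_trace_AB h.pos.1 ht.le] at h3
    exact h3
  have e1 : ((V * ell K P t).trace).re =
      ((V * L).trace).re - Real.log t * (V.trace).re := by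
    unfold ell
    rw [← hLdef, Matrix.mul_sub, Matrix.trace_sub, Matrix.mul_smul, Matrix.mul_one,
      Matrix.trace_smul, smul_eq_mul, Complex.sub_re, Complex.re_ofReal_mul]
  have e2 : ((ell K P t).trace).re =
      ((L).trace).re - Real.log t * (N : ℝ) := by
    unfold ell
    rw [← hLdef, Matrix.trace_sub, Matrix.trace_smul, Matrix.trace_one, smul_eq_mul,
      Complex.sub_re, Complex.re_ofReal_mul, Complex.natCast_re, Fintype.card_fin]
  have e3 : trf (phi t) V =
      ((cfc (fun v => (v + t) * Real.log (v + t) - (v + t)) V).trace).re -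
        Real.log t * (V.trace).re - t * Real.log t * (N : ℝ) +
        t * (N : ℝ) := by
    have c3 : cfc (fun x : ℝ => x) V = V := cfc_id ℝ V hV.1
    have e4 : cfc (phi t) V =
        cfc (fun v => ((v + t) * Real.log (v + t) - (v + t)) -
          (Real.log t * v + (t * Real.log t - t))) V := by
      refine cfc_congr_eig hV.1 fun i => ?_
      have h5 : 0 ≤ hV.1.eigenvalues i := hV.eigenvalues_nonneg i
      have h6 : 1 + hV.1.eigenvalues i / t = (hV.1.eigenvalues i + t) / t := by
        field_simp
        ring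
      unfold phi
      rw [h6, Real.log_div (by positivity) ht.ne']
      ring
    unfold trf
    rw [e4, ← st_sub hV.1 (fun v => (v + t) * Real.log (v + t) - (v + t))
      (fun v => Real.log t * v + (t * Real.log t - t)),
      ← st_add hV.1 (fun v => Real.log t * v) (fun _ => t * Real.log t - t),
      ← cfc_mul_cfc hV.1 (fun _ => Real.log t) (fun v => v), c3,
      st_const hV.1, st_const hV.1]
    simp only [Matrix.trace_sub, Matrix.trace_add, Matrix.smul_mul, Matrix.one_mul,
      Matrix.trace_smul, Matrix.trace_one, smul_eq_mul, Complex.sub_re, Complex.add_re,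
      Complex.re_ofReal_mul, Complex.natCast_re, Fintype.card_fin]
    ring
  have h6 : (((XX K P).trace + (t : ℂ) * (N : ℂ))).re =
      ((XX K P).trace).re + t * (N : ℝ) := by
    rw [Complex.add_re, Complex.re_ofReal_mul, Complex.natCast_re]
  rw [h6] at h2
  unfold psi
  rw [e1, e2, e3]
  linarith

end LTG
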