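import Vale.Agent.P371G.StarBase

/-!
# P371 general gamma: resolvent integrals (prefix `td_`)
-/

namespace LTG

set_option linter.unusedSectionVars false

open Matrix MeasureTheory Set Filter Topology
open scoped ComplexOrder

variable {N : ℕ}

/-- resolvent `(A+s)⁻¹` -/
noncomputable def td_R (A : Matrix (Fin N) (Fin N) ℂ) (s : ℝ) : Matrix (Fin N) (Fin N) ℂ :=
  cfc (fun a : ℝ => 1 / (a + s)) A

theorem td_trace_mul_nonneg {P Q : Matrix (Fin N) (Fin N) ℂ} (hP : P.PosSemidef)
    (hQ : Q.PosSemidef) : 0 ≤ ((P * Q).trace).re := by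
  obtain ⟨S, hS⟩ := exists_conjTranspose_mul_self hQ
  have h1 : (P * Q).trace = (S * P * Sᴴ).trace := by
    rw [hS, ← Matrix.mul_assoc, Matrix.trace_mul_comm, ← Matrix.mul_assoc]
  rw [h1]
  exact (Complex.le_def.mp (hP.mul_mul_conjTranspose_same S).trace_nonneg).1

/-- `tr H⁻¹ R H R ≥ tr R²` -/
theorem td_GRHR {R H G : Matrix (Fin N) (Fin N) ℂ} (hR : R.IsHermitian) (hH : H.IsHermitian)
    (hG : G.PosSemidef) (h1 : H * G = 1) (h2 : G * H = 1) :
    ((R * R).trace).re ≤ ((G * R * H * R).trace).re := by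
  set M : Matrix (Fin N) (Fin N) ℂ := R * H - H * R with hM
  have hMH : Mᴴ = H * R - R * H := by
    rw [hM, Matrix.conjTranspose_sub, Matrix.conjTranspose_mul, Matrix.conjTranspose_mul,
      hR.eq, hH.eq]
  have h3 : 0 ≤ (((Mᴴ * G * M) * G).trace).re :=
    td_trace_mul_nonneg (hG.conjTranspose_mul_mul_same M) hG
  have h4 : (Mᴴ * G * M) * G =
      H * R * G * R - H * (R * R) * G - R * R + R * H * R * G := by
    have h5 : G * M * G = G * R - R * G := by
      calc G * M * G = G * R * (H * G) - (G * H) * R * G := by rw [hM]; noncomm_ring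
        _ = G * R - R * G := by rw [h1, h2]; simp
    calc (Mᴴ * G * M) * G = Mᴴ * (G * M * G) := by noncomm_ring
      _ = (H * R - R * H) * (G * R - R * G) := by rw [h5, hMH]
      _ = H * R * G * R - H * (R * R) * G - R * (H * G) * R + R * H * R * G := by noncomm_ring
      _ = _ := by rw [h1, Matrix.mul_one]
  have t1 : (H * R * G * R).trace = (G * R * H * R).trace := by
    rw [show H * R * G * R = (H * R) * (G * R) by noncomm_ring, Matrix.trace_mul_comm]
    simp only [Matrix.mul_assoc]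
  have t2 : (H * (R * R) * G).trace = (R * R).trace := by
    rw [Matrix.trace_mul_comm, ← Matrix.mul_assoc, h2, Matrix.one_mul]
  have t3 : (R * H * R * G).trace = (G * R * H * R).trace := by
    rw [Matrix.trace_mul_comm]
    simp only [Matrix.mul_assoc]
  rw [h4, Matrix.trace_add, Matrix.trace_sub, Matrix.trace_sub, t1, t2, t3, Complex.add_re,
    Complex.sub_re, Complex.sub_re] at h3
  linarith

section res

variable {A : Matrix (Fin N) (Fin N) ℂ} (hA : A.PosDef) {s : ℝ} (hs : 0 ≤ s)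

include hA hs

theorem td_A_mul_R : A * td_R A s = 1 - (s : ℂ) • td_R A s := by
  have hA' := hA.1
  have h1 : A * td_R A s = cfc (fun x : ℝ => x) A * cfc (fun a : ℝ => 1 / (a + s)) A := by
    rw [st_id hA']; rfl
  have h2 : (1 : Matrix (Fin N) (Fin N) ℂ) - (s : ℂ) • td_R A s =
      cfc (fun _ : ℝ => (1 : ℝ)) A -
        cfc (fun _ : ℝ => s) A * cfc (fun a : ℝ => 1 / (a + s)) A := by
    rw [st_const hA', st_const hA', Matrix.smul_mul, Matrix.one_mul]
    simp [td_R]
  rw [h1, h2, cfc_mul_cfc hA', cfc_mul_cfc hA', st_sub hA']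
  refine cfc_congr_eig hA' fun i => ?_
  have := hA.eigenvalues_pos i
  field_simp
  ring

theorem td_R_mul_A : td_R A s * A = 1 - (s : ℂ) • td_R A s := by
  have hA' := hA.1
  have h1 : td_R A s * A = cfc (fun a : ℝ => 1 / (a + s)) A * cfc (fun x : ℝ => x) A := by
    rw [st_id hA']; rfl
  have h2 : A * td_R A s = cfc (fun x : ℝ => x) A * cfc (fun a : ℝ => 1 / (a + s)) A := by
    rw [st_id hA']; rfl
  have h3 : td_R A s * A = A * td_R A s := by
    rw [h1, h2, cfc_mul_cfc hA', cfc_mul_cfc hA']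
    refine cfc_congr_eig hA' fun i => ?_
    ring
  rw [h3, td_A_mul_R hA hs]

end res

/-- pointwise inequality behind (PW) -/
theorem td_pt {A B H G : Matrix (Fin N) (Fin N) ℂ} (hA : A.PosDef) (hH : H.IsHermitian)
    (hG : G.PosSemidef) (h1 : H * G = 1) (h2 : G * H = 1) (hAB : G = A + B) {s : ℝ}
    (hs : 0 ≤ s) :
    ((((1 / 2 : ℂ) • (A * B + B * A)) * (td_R A s * H * td_R A s)).trace).re ≤
      ((cfc (fun a : ℝ => a / (a + s) ^ 2) A).trace).re -
        ((H * cfc (fun a : ℝ => a ^ 2 / (a + s) ^ 2) A).trace).re := by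
  have hA' := hA.1
  set R : Matrix (Fin N) (Fin N) ℂ := td_R A s with hR
  have hRH : R.IsHermitian := cfc_isHermitian _ _
  have e1 : A * R = 1 - (s : ℂ) • R := td_A_mul_R hA hs
  have e2 : R * A = 1 - (s : ℂ) • R := td_R_mul_A hA hs
  have hB : B = G - A := by rw [hAB]; abel
  have key := td_GRHR hRH hH hG h1 h2
  -- the three traces
  have T1 : (G * A * (R * H * R)).trace = R.trace - (s : ℂ) * (G * R * H * R).trace := by
    calc (G * A * (R * H * R)).trace = (G * (A * R) * H * R).trace := by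
          congr 1; noncomm_ring
      _ = (G * H * R - (s : ℂ) • (G * R * H * R)).trace := by
          rw [e1]
          congr 1
          rw [Matrix.mul_sub, Matrix.mul_one, Matrix.mul_smul, Matrix.sub_mul, Matrix.sub_mul,
            Matrix.smul_mul, Matrix.smul_mul]
      _ = _ := by
          rw [h2, Matrix.one_mul, Matrix.trace_sub, Matrix.trace_smul, smul_eq_mul]
  have T2 : (A * G * (R * H * R)).trace = R.trace - (s : ℂ) * (G * R * H * R).trace := by
    calc (A * G * (R * H * R)).trace = (A * (G * R * H * R)).trace := by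
          congr 1; noncomm_ring
      _ = ((G * R * H * R) * A).trace := Matrix.trace_mul_comm _ _
      _ = ((G * R * H) * (R * A)).trace := by congr 1; noncomm_ring
      _ = (G * R * H - (s : ℂ) • (G * R * H * R)).trace := by
          rw [e2, Matrix.mul_sub, Matrix.mul_one, Matrix.mul_smul]
      _ = _ := by
          rw [Matrix.trace_sub, Matrix.trace_smul, smul_eq_mul]
          congr 1
          rw [Matrix.mul_assoc, Matrix.trace_mul_comm, Matrix.mul_assoc, h1, Matrix.mul_one]
  have T3 : (A * A * (R * H * R)).trace =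
      (H * cfc (fun a : ℝ => a ^ 2 / (a + s) ^ 2) A).trace := by
    have h5 : R * (A * A) * R = cfc (fun a : ℝ => a ^ 2 / (a + s) ^ 2) A := by
      rw [← st_sq hA', hR]
      unfold td_R
      rw [cfc_mul_cfc hA', cfc_mul_cfc hA']
      refine cfc_congr_eig hA' fun i => ?_
      have := hA.eigenvalues_pos i
      field_simp
    calc (A * A * (R * H * R)).trace = ((A * A * R) * (H * R)).trace := by
          congr 1; noncomm_ring
      _ = ((H * R) * (A * A * R)).trace := Matrix.trace_mul_comm _ _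
      _ = (H * (R * (A * A) * R)).trace := by congr 1; noncomm_ring
      _ = _ := by rw [h5]
  have T4 : (cfc (fun a : ℝ => a / (a + s) ^ 2) A) = R - (s : ℂ) • (R * R) := by
    have h6 : (s : ℂ) • (R * R) = cfc (fun _ : ℝ => s) A * (R * R) := by
      rw [st_const hA', Matrix.smul_mul, Matrix.one_mul]
    rw [h6, hR]
    unfold td_R
    rw [cfc_mul_cfc hA', cfc_mul_cfc hA', st_sub hA']
    refine cfc_congr_eig hA' fun i => ?_
    have := hA.eigenvalues_pos i
    field_simp
    ring
  have e3 : ((1 / 2 : ℂ) • (A * B + B * A)) * (R * H * R) =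
      (1 / 2 : ℂ) • (A * G * (R * H * R)) + (1 / 2 : ℂ) • (G * A * (R * H * R)) -
        A * A * (R * H * R) := by
    rw [hB]
    have h7 : (1 / 2 : ℂ) • (A * (G - A) + (G - A) * A) =
        (1 / 2 : ℂ) • (A * G) + (1 / 2 : ℂ) • (G * A) - A * A := by
      have h8 : A * (G - A) + (G - A) * A = A * G + G * A - (2 : ℂ) • (A * A) := by
        rw [two_smul]
        noncomm_ring
      rw [h8, smul_sub, smul_add, smul_smul]
      norm_num
    rw [h7, Matrix.sub_mul, Matrix.add_mul, Matrix.smul_mul, Matrix.smul_mul]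
  rw [e3, Matrix.trace_sub, Matrix.trace_add, Matrix.trace_smul, Matrix.trace_smul, T1, T2, T3,
    T4, Matrix.trace_sub, Matrix.trace_smul, smul_eq_mul, smul_eq_mul]
  have e4 : ∀ z w : ℂ, (1 / 2 : ℂ) * (z - (s : ℂ) * w) + (1 / 2 : ℂ) * (z - (s : ℂ) * w) =
      z - (s : ℂ) * w := by
    intro z w
    ring
  rw [e4, Complex.sub_re, Complex.sub_re, Complex.sub_re, Complex.re_ofReal_mul,
    Complex.re_ofReal_mul]
  have := mul_le_mul_of_nonneg_left key hs
  linarith

/-- the diagonal of `U* Y U` -/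
noncomputable def td_y {A : Matrix (Fin N) (Fin N) ℂ} (hA : A.IsHermitian)
    (Y : Matrix (Fin N) (Fin N) ℂ) (i : Fin N) : ℝ :=
  ((star (hA.eigenvectorUnitary : Matrix (Fin N) (Fin N) ℂ) * Y *
    (hA.eigenvectorUnitary : Matrix (Fin N) (Fin N) ℂ)) i i).re

theorem td_trace_mul_cfc {A : Matrix (Fin N) (Fin N) ℂ} (hA : A.IsHermitian)
    (Y : Matrix (Fin N) (Fin N) ℂ) (g : ℝ → ℝ) :
    ((Y * cfc g A).trace).re = ∑ i, g (hA.eigenvalues i) * td_y hA Y i := by
  set U : Matrix (Fin N) (Fin N) ℂ := (hA.eigenvectorUnitary : Matrix (Fin N) (Fin N) ℂ) with hU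
  rw [cfc_form hA]
  have h1 : (Y * (U * diagonal (fun i => ((g (hA.eigenvalues i) : ℝ) : ℂ)) * star U)).trace =
      ((star U * Y * U) * diagonal (fun i => ((g (hA.eigenvalues i) : ℝ) : ℂ))).trace := by
    rw [show Y * (U * diagonal (fun i => ((g (hA.eigenvalues i) : ℝ) : ℂ)) * star U) =
      (Y * U * diagonal (fun i => ((g (hA.eigenvalues i) : ℝ) : ℂ))) * star U by
        simp only [Matrix.mul_assoc], Matrix.trace_mul_comm]
    simp only [Matrix.mul_assoc]
  rw [h1, Matrix.trace, Complex.re_sum]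
  refine Finset.sum_congr rfl fun i _ => ?_
  rw [Matrix.diag_apply, Matrix.mul_diagonal, mul_comm, Complex.re_ofReal_mul]
  rfl

theorem td_sum_y {A : Matrix (Fin N) (Fin N) ℂ} (hA : A.IsHermitian)
    (Y : Matrix (Fin N) (Fin N) ℂ) : ∑ i, td_y hA Y i = (Y.trace).re := by
  have h := td_trace_mul_cfc hA Y (fun _ => 1)
  rw [st_const hA] at h
  simpa using h.symm

/-! ### scalar integrals -/

theorem td_int_sq {a : ℝ} (ha : 0 < a) :
    IntegrableOn (fun s : ℝ => 1 / (a + s) ^ 2) (Ioi 0) ∧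
      ∫ s in Ioi (0 : ℝ), 1 / (a + s) ^ 2 = 1 / a := by
  have hd : ∀ x ∈ Ici (0 : ℝ), HasDerivAt (fun s : ℝ => -(1 / (a + s))) (1 / (a + x) ^ 2) x := by
    intro x hx
    have hx' : a + x ≠ 0 := by
      have : (0 : ℝ) ≤ x := hx
      positivity
    have h1 : HasDerivAt (fun s : ℝ => a + s) 1 x := (hasDerivAt_id x).const_add a
    have h2 := (h1.inv hx').neg
    have h3 : (fun s : ℝ => -(1 / (a + s))) = -(fun s : ℝ => a + s)⁻¹ := by
      funext s
      simp
    rw [h3]
    have h4 : 1 / (a + x) ^ 2 = -(-1 / (a + x) ^ 2) := by ring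
    rw [h4]
    exact h2
  have hlim : Tendsto (fun s : ℝ => -(1 / (a + s))) atTop (𝓝 0) := by
    have h1 : Tendsto (fun s : ℝ => a + s) atTop atTop := tendsto_atTop_add_const_left _ _ tendsto_id
    have h2 := (tendsto_inv_atTop_zero.comp h1).neg
    simpa [Function.comp_def] using h2
  have hnn : ∀ x ∈ Ioi (0 : ℝ), 0 ≤ 1 / (a + x) ^ 2 := fun x _ => by positivity
  constructor
  · exact integrableOn_Ioi_deriv_of_nonneg' hd hnn hlim
  · rw [integral_Ioi_of_hasDerivAt_of_nonneg' hd hnn hlim]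
    simp

theorem td_int_log {a : ℝ} (ha : 0 < a) :
    IntegrableOn (fun s : ℝ => 1 / (1 + s) - 1 / (a + s)) (Ioi 0) ∧
      ∫ s in Ioi (0 : ℝ), (1 / (1 + s) - 1 / (a + s)) = Real.log a := by
  have hd : ∀ x ∈ Ici (0 : ℝ), HasDerivAt (fun s : ℝ => Real.log (1 + s) - Real.log (a + s))
      (1 / (1 + x) - 1 / (a + x)) x := by
    intro x hx
    have hx0 : (0 : ℝ) ≤ x := hx
    have h1 : HasDerivAt (fun s : ℝ => 1 + s) 1 x := (hasDerivAt_id x).const_add 1
    have h2 : HasDerivAt (fun s : ℝ => a + s) 1 x := (hasDerivAt_id x).const_add a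
    exact (h1.log (by positivity)).sub (h2.log (by positivity))
  have hlim : Tendsto (fun s : ℝ => Real.log (1 + s) - Real.log (a + s)) atTop (𝓝 0) := by
    have h1 : Tendsto (fun s : ℝ => (1 + s) / (a + s)) atTop (𝓝 1) := by
      have h2 : Tendsto (fun s : ℝ => 1 + (1 - a) * (a + s)⁻¹) atTop (𝓝 (1 + (1 - a) * 0)) := by
        refine tendsto_const_nhds.add (tendsto_const_nhds.mul ?_)
        exact tendsto_inv_atTop_zero.comp (tendsto_atTop_add_const_left _ _ tendsto_id)
      rw [mul_zero, add_zero] at h2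
      refine h2.congr' ?_
      filter_upwards [eventually_ge_atTop (0 : ℝ)] with s hs
      have : a + s ≠ 0 := by positivity
      field_simp
      ring
    have h3 : Tendsto (fun s : ℝ => Real.log ((1 + s) / (a + s))) atTop (𝓝 (Real.log 1)) :=
      (Real.continuousAt_log one_ne_zero).tendsto.comp h1
    rw [Real.log_one] at h3
    refine h3.congr' ?_
    filter_upwards [eventually_ge_atTop (0 : ℝ)] with s hs
    rw [Real.log_div (by positivity) (by positivity)]
  have hval : ∫ s in Ioi (0 : ℝ), (1 / (1 + s) - 1 / (a + s)) =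
      0 - (Real.log (1 + 0) - Real.log (a + 0)) → 
      ∫ s in Ioi (0 : ℝ), (1 / (1 + s) - 1 / (a + s)) = Real.log a := by
    intro h
    rw [h]
    simp
  rcases le_total 1 a with h1 | h1
  · have hnn : ∀ x ∈ Ioi (0 : ℝ), 0 ≤ 1 / (1 + x) - 1 / (a + x) := by
      intro x hx
      have hx0 : (0 : ℝ) < x := hx
      have : 1 / (a + x) ≤ 1 / (1 + x) := one_div_le_one_div_of_le (by positivity) (by linarith)
      linarith
    exact ⟨integrableOn_Ioi_deriv_of_nonneg' hd hnn hlim,
      hval (integral_Ioi_of_hasDerivAt_of_nonneg' hd hnn hlim)⟩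
  · have hnp : ∀ x ∈ Ioi (0 : ℝ), 1 / (1 + x) - 1 / (a + x) ≤ 0 := by
      intro x hx
      have hx0 : (0 : ℝ) < x := hx
      have : 1 / (1 + x) ≤ 1 / (a + x) := one_div_le_one_div_of_le (by positivity) (by linarith)
      linarith
    exact ⟨integrableOn_Ioi_deriv_of_nonpos' hd hnp hlim,
      hval (integral_Ioi_of_hasDerivAt_of_nonpos' hd hnp hlim)⟩

end LTG
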