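import Vale.Agent.P371G.TDerivA

/-!
# P371 general gamma: derivative of the matrix logarithm along a curve (prefix `td_`)
-/

namespace LTG

set_option linter.unusedSectionVars false

open Matrix MeasureTheory Set Filter Topology
open scoped ComplexOrder Matrix.Norms.L2Operator

variable {N : ℕ}

theorem td_log_int {A : Matrix (Fin N) (Fin N) ℂ} (hA : A.PosDef)
    (Y : Matrix (Fin N) (Fin N) ℂ) :
    IntegrableOn (fun s : ℝ => (1 / (1 + s)) * (Y.trace).re - ((Y * td_R A s).trace).re)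
        (Ioi 0) ∧
      ∫ s in Ioi (0 : ℝ), ((1 / (1 + s)) * (Y.trace).re - ((Y * td_R A s).trace).re) =
        ((Y * cfc Real.log A).trace).re := by
  have h1 : (fun s : ℝ => (1 / (1 + s)) * (Y.trace).re - ((Y * td_R A s).trace).re) =
      fun s => ∑ i, (1 / (1 + s) - 1 / (hA.1.eigenvalues i + s)) * td_y hA.1 Y i := by
    funext s
    rw [td_R, td_trace_mul_cfc hA.1, ← td_sum_y hA.1, Finset.mul_sum, ← Finset.sum_sub_distrib]
    refine Finset.sum_congr rfl fun i _ => ?_
    ring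
  rw [h1]
  have hi : ∀ i ∈ (Finset.univ : Finset (Fin N)),
      Integrable (fun s : ℝ => (1 / (1 + s) - 1 / (hA.1.eigenvalues i + s)) * td_y hA.1 Y i)
        (volume.restrict (Ioi 0)) :=
    fun i _ => (td_int_log (hA.eigenvalues_pos i)).1.mul_const _
  constructor
  · exact integrable_finsetSum _ hi
  · rw [integral_finsetSum _ hi, td_trace_mul_cfc hA.1]
    refine Finset.sum_congr rfl fun i _ => ?_
    rw [integral_mul_const, (td_int_log (hA.eigenvalues_pos i)).2]

/-- resolvent identity -/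
theorem td_res {A A' : Matrix (Fin N) (Fin N) ℂ} (hA : A.PosDef) (hA' : A'.PosDef) {s : ℝ}
    (hs : 0 ≤ s) : td_R A s - td_R A' s = td_R A' s * (A' - A) * td_R A s := by
  have h1 : td_R A' s * (A' - A) * td_R A s =
      (td_R A' s * A') * td_R A s - td_R A' s * (A * td_R A s) := by
    noncomm_ring
  rw [h1, td_R_mul_A hA' hs, td_A_mul_R hA hs, Matrix.sub_mul, Matrix.mul_sub, Matrix.one_mul,
    Matrix.mul_one, Matrix.smul_mul, Matrix.mul_smul]
  abel

/-- `M ↦ Re tr (Y M)` as a continuous linear map -/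
noncomputable def td_T (Y : Matrix (Fin N) (Fin N) ℂ) : Matrix (Fin N) (Fin N) ℂ →L[ℝ] ℝ :=
  LinearMap.toContinuousLinearMap
    { toFun := fun M => ((Y * M).trace).re
      map_add' := fun a b => by rw [Matrix.mul_add, Matrix.trace_add, Complex.add_re]
      map_smul' := fun c a => by
        rw [Matrix.mul_smul, Matrix.trace_smul]
        simp }

theorem td_T_apply (Y M : Matrix (Fin N) (Fin N) ℂ) : td_T Y M = ((Y * M).trace).re := rfl

theorem td_eig_ge {A : Matrix (Fin N) (Fin N) ℂ} (hA : A.IsHermitian) {a0 : ℝ}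
    (h : (A - (a0 : ℂ) • (1 : Matrix (Fin N) (Fin N) ℂ)).PosSemidef) (i : Fin N) :
    a0 ≤ hA.eigenvalues i := by
  have h1 : A - (a0 : ℂ) • (1 : Matrix (Fin N) (Fin N) ℂ) = cfc (fun x : ℝ => x - a0) A := by
    rw [← st_sub hA (fun x => x) (fun _ => a0), st_id hA, st_const hA]
  rw [h1, cfc_form hA] at h
  have hU : IsUnit (hA.eigenvectorUnitary : Matrix (Fin N) (Fin N) ℂ) :=
    (Unitary.toUnits hA.eigenvectorUnitary).isUnit
  rw [IsUnit.posSemidef_star_right_conjugate_iff hU, posSemidef_diagonal_iff] at h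
  have h2 := h i
  have h3 : (0 : ℝ) ≤ hA.eigenvalues i - a0 := by exact_mod_cast h2
  linarith

theorem td_norm_R {A : Matrix (Fin N) (Fin N) ℂ} (hA : A.IsHermitian) {a0 : ℝ} (ha0 : 0 < a0)
    (h : ∀ i, a0 ≤ hA.eigenvalues i) {s : ℝ} (hs : 0 ≤ s) : ‖td_R A s‖ ≤ 1 / (a0 + s) := by
  refine norm_cfc_le (by positivity) fun x hx => ?_
  rw [hA.spectrum_real_eq_range_eigenvalues] at hx
  obtain ⟨i, rfl⟩ := hx
  have h1 := h i
  have h2 : 0 < hA.eigenvalues i + s := by linarith
  rw [Real.norm_of_nonneg (by positivity)]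
  exact one_div_le_one_div_of_le (by positivity) (by linarith)

theorem td_R_cont {A : Matrix (Fin N) (Fin N) ℂ} (hA : A.PosDef) :
    ContinuousOn (fun s : ℝ => td_R A s) (Ioi 0) := by
  have h1 : (fun s : ℝ => td_R A s) = fun s =>
      (hA.1.eigenvectorUnitary : Matrix (Fin N) (Fin N) ℂ) *
      diagonal (fun i => ((1 / (hA.1.eigenvalues i + s) : ℝ) : ℂ)) *
      star (hA.1.eigenvectorUnitary : Matrix (Fin N) (Fin N) ℂ) := by
    funext s
    rw [td_R, cfc_form hA.1]
  rw [h1]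
  have h2 : ContinuousOn (fun s : ℝ =>
      diagonal (fun i => ((1 / (hA.1.eigenvalues i + s) : ℝ) : ℂ))) (Ioi 0) := by
    refine continuousOn_pi.2 fun i => continuousOn_pi.2 fun j => ?_
    by_cases hij : i = j
    · subst hij
      simp only [diagonal_apply_eq]
      refine Complex.continuous_ofReal.comp_continuousOn ?_
      refine continuousOn_const.div (by fun_prop) fun s hs => ?_
      have hs' : (0 : ℝ) < s := hs
      have := hA.eigenvalues_pos i
      positivity
    · simp only [diagonal_apply_ne _ hij]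
      exact continuousOn_const
  exact (continuousOn_const.mul h2).mul continuousOn_const

theorem td_log_sub {A A' : Matrix (Fin N) (Fin N) ℂ} (hA : A.PosDef) (hA' : A'.PosDef)
    (Y : Matrix (Fin N) (Fin N) ℂ) :
    ((Y * cfc Real.log A').trace).re - ((Y * cfc Real.log A).trace).re =
      ∫ s in Ioi (0 : ℝ), td_T Y (td_R A' s * (A' - A) * td_R A s) := by
  obtain ⟨i1, e1⟩ := td_log_int hA Y
  obtain ⟨i2, e2⟩ := td_log_int hA' Y
  rw [← e1, ← e2, ← integral_sub i2 i1]
  refine setIntegral_congr_fun measurableSet_Ioi fun s hs => ?_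
  have hs' : (0 : ℝ) ≤ s := le_of_lt hs
  rw [← td_res hA hA' hs', td_T_apply, Matrix.mul_sub, Matrix.trace_sub, Complex.sub_re]
  ring

theorem td_log_deriv {A : ℝ → Matrix (Fin N) (Fin N) ℂ} {A' : Matrix (Fin N) (Fin N) ℂ}
    {t a0 : ℝ} (ha0 : 0 < a0)
    (hA : ∀ᶠ τ in 𝓝 t, (A τ).PosDef ∧
      (A τ - (a0 : ℂ) • (1 : Matrix (Fin N) (Fin N) ℂ)).PosSemidef)
    (hd : HasDerivAt A A' t) (Y : Matrix (Fin N) (Fin N) ℂ) :
    IntegrableOn (fun s => td_T Y (td_R (A t) s * A' * td_R (A t) s)) (Ioi 0) ∧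
      HasDerivAt (fun τ => ((Y * cfc Real.log (A τ)).trace).re)
        (∫ s in Ioi (0 : ℝ), td_T Y (td_R (A t) s * A' * td_R (A t) s)) t := by
  have hAt := hA.self_of_nhds
  have hslope : Tendsto (slope A t) (𝓝[≠] t) (𝓝 A') := hasDerivAt_iff_tendsto_slope.1 hd
  have hcont : Tendsto A (𝓝[≠] t) (𝓝 (A t)) :=
    hd.continuousAt.tendsto.mono_left nhdsWithin_le_nhds
  have hA' : ∀ᶠ τ in 𝓝[≠] t, (A τ).PosDef ∧
      (A τ - (a0 : ℂ) • (1 : Matrix (Fin N) (Fin N) ℂ)).PosSemidef :=
    hA.filter_mono nhdsWithin_le_nhds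
  have hbs : ∀ᶠ τ in 𝓝[≠] t, ‖slope A t τ‖ ≤ ‖A'‖ + 1 :=
    (hslope.norm.eventually_le_const (by linarith : ‖A'‖ < ‖A'‖ + 1))
  have hnt : ∀ s : ℝ, 0 ≤ s → ‖td_R (A t) s‖ ≤ 1 / (a0 + s) := fun s hs =>
    td_norm_R hAt.1.1 ha0 (td_eig_ge hAt.1.1 hAt.2) hs
  have hbint : Integrable (fun s : ℝ => ‖td_T Y‖ * (‖A'‖ + 1) * (1 / (a0 + s) ^ 2))
      (volume.restrict (Ioi 0)) := (td_int_sq ha0).1.const_mul _
  have hRc := td_R_cont hAt.1
  have hbd : ∀ (M D : Matrix (Fin N) (Fin N) ℂ) (s : ℝ), 0 ≤ s → ‖M‖ ≤ 1 / (a0 + s) →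
      ‖D‖ ≤ ‖A'‖ + 1 → ‖td_T Y (M * D * td_R (A t) s)‖ ≤
        ‖td_T Y‖ * (‖A'‖ + 1) * (1 / (a0 + s) ^ 2) := by
    intro M D s hs hM hD
    have h1 : 0 < a0 + s := by linarith
    calc ‖td_T Y (M * D * td_R (A t) s)‖ ≤ ‖td_T Y‖ * ‖M * D * td_R (A t) s‖ :=
          (td_T Y).le_opNorm _
      _ ≤ ‖td_T Y‖ * ((1 / (a0 + s)) * (‖A'‖ + 1) * (1 / (a0 + s))) := by
          refine mul_le_mul_of_nonneg_left ?_ (norm_nonneg _)
          refine (norm_mul_le _ _).trans ?_
          refine mul_le_mul ?_ (hnt s hs) (norm_nonneg _) (by positivity)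
          refine (norm_mul_le _ _).trans ?_
          exact mul_le_mul hM hD (norm_nonneg _) (by positivity)
      _ = _ := by
          field_simp
  constructor
  · refine Integrable.mono' hbint ?_ ?_
    · refine ContinuousOn.aestronglyMeasurable ?_ measurableSet_Ioi
      exact (td_T Y).continuous.comp_continuousOn ((hRc.mul continuousOn_const).mul hRc)
    · refine (ae_restrict_iff' measurableSet_Ioi).2 (Eventually.of_forall fun s hs => ?_)
      have hs' : (0 : ℝ) ≤ s := le_of_lt hs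
      exact hbd _ _ s hs' (hnt s hs') (by linarith)
  · rw [hasDerivAt_iff_tendsto_slope]
    have hlim : Tendsto (fun τ => ∫ s in Ioi (0 : ℝ),
        td_T Y (td_R (A τ) s * slope A t τ * td_R (A t) s)) (𝓝[≠] t)
        (𝓝 (∫ s in Ioi (0 : ℝ), td_T Y (td_R (A t) s * A' * td_R (A t) s))) := by
      refine tendsto_integral_filter_of_dominated_convergence
        (fun s : ℝ => ‖td_T Y‖ * (‖A'‖ + 1) * (1 / (a0 + s) ^ 2)) ?_ ?_ hbint ?_
      · filter_upwards [hA'] with τ hτ
        refine ContinuousOn.aestronglyMeasurable ?_ measurableSet_Ioi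
        exact (td_T Y).continuous.comp_continuousOn
          (((td_R_cont hτ.1).mul continuousOn_const).mul hRc)
      · filter_upwards [hA', hbs] with τ hτ hτ2
        refine (ae_restrict_iff' measurableSet_Ioi).2 (Eventually.of_forall fun s hs => ?_)
        have hs' : (0 : ℝ) ≤ s := le_of_lt hs
        exact hbd _ _ s hs' (td_norm_R hτ.1.1 ha0 (td_eig_ge hτ.1.1 hτ.2) hs') hτ2
      · refine (ae_restrict_iff' measurableSet_Ioi).2 (Eventually.of_forall fun s hs => ?_)
        have hs' : (0 : ℝ) ≤ s := le_of_lt hs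
        have hRt : Tendsto (fun τ => td_R (A τ) s) (𝓝[≠] t) (𝓝 (td_R (A t) s)) := by
          rw [tendsto_iff_norm_sub_tendsto_zero]
          have h0 : Tendsto (fun τ => (1 / (a0 + s)) * ‖A t - A τ‖ * (1 / (a0 + s))) (𝓝[≠] t)
              (𝓝 ((1 / (a0 + s)) * ‖A t - A t‖ * (1 / (a0 + s)))) :=
            ((tendsto_const_nhds.mul ((tendsto_const_nhds.sub hcont).norm)).mul
              tendsto_const_nhds)
          rw [sub_self, norm_zero, mul_zero, zero_mul] at h0
          refine squeeze_zero' (Eventually.of_forall fun _ => norm_nonneg _) ?_ h0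
          filter_upwards [hA'] with τ hτ
          rw [td_res hτ.1 hAt.1 hs']
          have h1 : 0 < a0 + s := by linarith
          refine (norm_mul_le _ _).trans ?_
          refine mul_le_mul ?_ (td_norm_R hτ.1.1 ha0 (td_eig_ge hτ.1.1 hτ.2) hs')
            (norm_nonneg _) (by positivity)
          refine (norm_mul_le _ _).trans ?_
          exact mul_le_mul (hnt s hs') le_rfl (norm_nonneg _) (by positivity)
        exact ((td_T Y).continuous.tendsto _).comp
          ((hRt.mul hslope).mul tendsto_const_nhds)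
    refine hlim.congr' ?_
    filter_upwards [hA'] with τ hτ
    rw [slope_def_field, td_log_sub hAt.1 hτ.1 Y, div_eq_inv_mul, ← integral_const_mul]
    refine setIntegral_congr_fun measurableSet_Ioi fun s _ => ?_
    rw [slope_def_module, Matrix.mul_smul, Matrix.smul_mul, map_smul, smul_eq_mul]

end LTG
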