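import Vale.Agent.P371G.CfcCont

/-!
# [L3] bounds of `u`

With `B = K_t + P`, `C = K_t - P`, eigenvalues `b_j`, `c_i` and overlaps `o_ij`,
`u(t) = ∑ o_ij (c_i b_j - t - c_i b_j log (c_i b_j / t)) ≤ 0`.
-/

namespace LTG

open Matrix MeasureTheory Set
open scoped ComplexOrder

variable {N : ℕ}

theorem cfc_id_mat {A : Matrix (Fin N) (Fin N) ℂ} (hA : A.IsHermitian) :
    cfc (fun x : ℝ => x) A = A := cfc_id' ℝ A hA

theorem cfc_one_mat {A : Matrix (Fin N) (Fin N) ℂ} (hA : A.IsHermitian) :
    cfc (fun _ : ℝ => (1 : ℝ)) A = 1 := cfc_const_one ℝ A hA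

theorem two_X_eq {K P : Matrix (Fin N) (Fin N) ℂ} (h : Adm K P) {t : ℝ} (ht : 0 ≤ t) :
    (Kt K t + P) * (Kt K t - P) + (Kt K t - P) * (Kt K t + P) =
      (2 : ℂ) • (XX K P + (t : ℂ) • (1 : Matrix (Fin N) (Fin N) ℂ)) := by
  have h1 := Kt_mul_self h.pos.isHermitian ht
  have h2 : (Kt K t + P) * (Kt K t - P) + (Kt K t - P) * (Kt K t + P) =
      (2 : ℂ) • (Kt K t * Kt K t - P * P) := by
    rw [two_smul]; noncomm_ring
  rw [h2, h1, XX]
  congr 1
  abel

theorem uu_formula {K P : Matrix (Fin N) (Fin N) ℂ} (h : Adm K P) {t : ℝ} (ht : 0 < t) :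
    uu K P t = ∑ i, ∑ j,
      (((Kt_sub_posDef h ht).isHermitian.eigenvalues i *
          (Kt_add_posDef h ht).isHermitian.eigenvalues j - t) -
        ((Kt_sub_posDef h ht).isHermitian.eigenvalues i *
          (Kt_add_posDef h ht).isHermitian.eigenvalues j) *
        (Real.log ((Kt_sub_posDef h ht).isHermitian.eigenvalues i) +
          Real.log ((Kt_add_posDef h ht).isHermitian.eigenvalues j) - Real.log t)) *
      ovl (Kt_sub_posDef h ht).isHermitian (Kt_add_posDef h ht).isHermitian i j := by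
  set B := Kt K t + P with hBdef
  set C := Kt K t - P with hCdef
  have hBp : B.PosDef := Kt_add_posDef h ht
  have hCp : C.PosDef := Kt_sub_posDef h ht
  have hB := hBp.isHermitian
  have hC := hCp.isHermitian
  set X' := XX K P + (t : ℂ) • (1 : Matrix (Fin N) (Fin N) ℂ) with hX'
  have h2 : B * C + C * B = (2 : ℂ) • X' := two_X_eq h ht.le
  -- B log B
  have hBl : B * cfc Real.log B = cfc (fun x => x * Real.log x) B := by
    have := cfc_mul_cfc hB (fun x => x) Real.log
    rwa [cfc_id_mat hB] at this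
  have hBl' : cfc Real.log B * B = cfc (fun x => x * Real.log x) B := by
    have := cfc_mul_cfc hB Real.log (fun x => x)
    rw [cfc_id_mat hB] at this
    rw [this]
    congr 1
    funext x
    ring
  have hCl : C * cfc Real.log C = cfc (fun x => x * Real.log x) C := by
    have := cfc_mul_cfc hC (fun x => x) Real.log
    rwa [cfc_id_mat hC] at this
  have hCl' : cfc Real.log C * C = cfc (fun x => x * Real.log x) C := by
    have := cfc_mul_cfc hC Real.log (fun x => x)
    rw [cfc_id_mat hC] at this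
    rw [this]
    congr 1
    funext x
    ring
  -- traces
  have t1 : (2 : ℂ) * (X' * cfc Real.log B).trace = 2 * (C * cfc (fun x => x * Real.log x) B).trace := by
    have e1 : (B * C * cfc Real.log B).trace = (C * cfc (fun x => x * Real.log x) B).trace := by
      rw [Matrix.mul_assoc, Matrix.trace_mul_comm, Matrix.mul_assoc, hBl']
    have e2 : (C * B * cfc Real.log B).trace = (C * cfc (fun x => x * Real.log x) B).trace := by
      rw [Matrix.mul_assoc, hBl]
    calc (2 : ℂ) * (X' * cfc Real.log B).trace = (((2 : ℂ) • X') * cfc Real.log B).trace := by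
          rw [Matrix.smul_mul, Matrix.trace_smul, smul_eq_mul]
      _ = 2 * (C * cfc (fun x => x * Real.log x) B).trace := by
          rw [← h2, Matrix.add_mul, Matrix.trace_add, e1, e2, two_mul]
  have t2 : (2 : ℂ) * (X' * cfc Real.log C).trace = 2 * (cfc (fun x => x * Real.log x) C * B).trace := by
    have e1 : (B * C * cfc Real.log C).trace = (cfc (fun x => x * Real.log x) C * B).trace := by
      rw [Matrix.mul_assoc, hCl, Matrix.trace_mul_comm]
    have e2 : (C * B * cfc Real.log C).trace = (cfc (fun x => x * Real.log x) C * B).trace := by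
      rw [Matrix.trace_mul_comm, ← Matrix.mul_assoc, hCl']
    calc (2 : ℂ) * (X' * cfc Real.log C).trace = (((2 : ℂ) • X') * cfc Real.log C).trace := by
          rw [Matrix.smul_mul, Matrix.trace_smul, smul_eq_mul]
      _ = 2 * (cfc (fun x => x * Real.log x) C * B).trace := by
          rw [← h2, Matrix.add_mul, Matrix.trace_add, e1, e2, two_mul]
  have t3 : (2 : ℂ) * X'.trace = 2 * (C * B).trace := by
    calc (2 : ℂ) * X'.trace = ((2 : ℂ) • X').trace := by rw [Matrix.trace_smul, smul_eq_mul]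
      _ = 2 * (C * B).trace := by
          rw [← h2, Matrix.trace_add, Matrix.trace_mul_comm B C, two_mul]
  have two_ne : (2 : ℂ) ≠ 0 := two_ne_zero
  have t1' := mul_left_cancel₀ two_ne t1
  have t2' := mul_left_cancel₀ two_ne t2
  have t3' := mul_left_cancel₀ two_ne t3
  -- double sums
  have s1 : (C * cfc (fun x => x * Real.log x) B).trace =
      ((∑ i, ∑ j, hC.eigenvalues i * (hB.eigenvalues j * Real.log (hB.eigenvalues j)) *
        ovl hC hB i j : ℝ) : ℂ) := by
    have := trace_cfc_mul_cfc hC hB (fun x => x) (fun x => x * Real.log x)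
    rwa [cfc_id_mat hC] at this
  have s2 : (cfc (fun x => x * Real.log x) C * B).trace =
      ((∑ i, ∑ j, hC.eigenvalues i * Real.log (hC.eigenvalues i) * hB.eigenvalues j *
        ovl hC hB i j : ℝ) : ℂ) := by
    have := trace_cfc_mul_cfc hC hB (fun x => x * Real.log x) (fun x => x)
    rwa [cfc_id_mat hB] at this
  have s3 : (C * B).trace =
      ((∑ i, ∑ j, hC.eigenvalues i * hB.eigenvalues j * ovl hC hB i j : ℝ) : ℂ) := by
    have := trace_cfc_mul_cfc hC hB (fun x => x) (fun x => x)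
    rwa [cfc_id_mat hB, cfc_id_mat hC] at this
  have s4 : (1 : Matrix (Fin N) (Fin N) ℂ).trace =
      ((∑ i, ∑ j, 1 * 1 * ovl hC hB i j : ℝ) : ℂ) := by
    have := trace_cfc_mul_cfc hC hB (fun _ => (1 : ℝ)) (fun _ => (1 : ℝ))
    rwa [cfc_one_mat hB, cfc_one_mat hC, Matrix.mul_one] at this
  have hXX : (XX K P).trace = X'.trace - (t : ℂ) * (1 : Matrix (Fin N) (Fin N) ℂ).trace := by
    rw [hX', Matrix.trace_add, Matrix.trace_smul, smul_eq_mul]; ring
  have hell : (X' * ell K P t).trace = (X' * cfc Real.log B).trace + (X' * cfc Real.log C).trace -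
      ((Real.log t : ℝ) : ℂ) * X'.trace := by
    rw [ell, Matrix.mul_sub, Matrix.mul_add, Matrix.trace_sub, Matrix.trace_add, Matrix.mul_smul,
      Matrix.mul_one, Matrix.trace_smul, smul_eq_mul]
  have huu : uu K P t = ((XX K P).trace - (X' * ell K P t).trace).re := by
    rw [uu, Complex.sub_re]
  rw [huu, hXX, hell, t1', t2', t3', s1, s2, s3, s4]
  have : ∀ x1 x2 x3 x4 : ℝ, (((x3 : ℂ) - (t : ℂ) * (x4 : ℂ)) -
      ((x1 : ℂ) + (x2 : ℂ) - ((Real.log t : ℝ) : ℂ) * (x3 : ℂ))).re =
      (x3 - t * x4) - (x1 + x2 - Real.log t * x3) := by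
    intro x1 x2 x3 x4
    rw [← Complex.ofReal_mul, ← Complex.ofReal_mul, ← Complex.ofReal_sub, ← Complex.ofReal_add,
      ← Complex.ofReal_sub, ← Complex.ofReal_sub, Complex.ofReal_re]
  rw [this]
  simp only [Finset.mul_sum, ← Finset.sum_sub_distrib, ← Finset.sum_add_distrib]
  apply Finset.sum_congr rfl
  intro i _
  apply Finset.sum_congr rfl
  intro j _
  ring

/-- scalar inequality -/
theorem scal_le {c b t : ℝ} (hc : 0 < c) (hb : 0 < b) (ht : 0 < t) :
    (c * b - t) - (c * b) * (Real.log c + Real.log b - Real.log t) ≤ 0 := by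
  have h1 : Real.log (t / (c * b)) ≤ t / (c * b) - 1 :=
    Real.log_le_sub_one_of_pos (by positivity)
  rw [Real.log_div ht.ne' (by positivity), Real.log_mul hc.ne' hb.ne'] at h1
  have h2 := mul_le_mul_of_nonneg_left h1 (show 0 ≤ c * b by positivity)
  have h3 : c * b * (t / (c * b) - 1) = t - c * b := by
    field_simp
  rw [h3] at h2
  nlinarith

theorem uu_nonpos {K P : Matrix (Fin N) (Fin N) ℂ} (h : Adm K P) {t : ℝ} (ht : 0 < t) :
    uu K P t ≤ 0 := by
  rw [uu_formula h ht]
  apply Finset.sum_nonpos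
  intro i _
  apply Finset.sum_nonpos
  intro j _
  apply mul_nonpos_of_nonpos_of_nonneg _ (ovl_nonneg _ _ i j)
  exact scal_le ((Kt_sub_posDef h ht).eigenvalues_pos i) ((Kt_add_posDef h ht).eigenvalues_pos j) ht

theorem uu_infty' (K : Matrix (Fin N) (Fin N) ℂ) :
    ∃ C : ℝ, ∀ P : Matrix (Fin N) (Fin N) ℂ, Adm K P → ∀ T : ℝ, C ≤ T → uu K P T ≤ C / T := by
  refine ⟨1, fun P h T hT => ?_⟩
  have hT0 : 0 < T := by linarith
  exact (uu_nonpos h hT0).trans (by positivity)

end LTG
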